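import Vale.Agent.P218.H313.K
import Vale.Agent.P218.H552.GB

/-! Package A1: the rescaled flow of an integral Brakke flow is an `RF`. -/

open MeasureTheory Set Filter Topology Metric
open scoped ENNReal NNReal RealInnerProductSpace

namespace Vale.Agent.P218.H313

open Vale.Agent.P214 (IntegralVarifold proj divAlong IsTestField weightOf)
open Vale.Agent.P218.H552 (MC BF NN yy hh rhsI GG JJ Lam tim Th gF)

set_option linter.unusedSectionVars false
set_option linter.unusedVariables false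

variable {E : Type*} [NormedAddCommGroup E] [InnerProductSpace ℝ E] [FiniteDimensional ℝ E]
  [MeasurableSpace E] [BorelSpace E]

variable {m : ℕ}

namespace A1

/-! ### Dilations -/

/-- the dilated measure -/
noncomputable def dil (m : ℕ) (lam : ℝ) (x₀ : E) (μ : Measure E) : Measure E :=
  ENNReal.ofReal (lam ^ m) • μ.map (fun x => lam • (x - x₀))

/-- the inverse of `x ↦ λ (x - x₀)` -/
noncomputable def xx (lam : ℝ) (x₀ y : E) : E := x₀ + lam⁻¹ • y

lemma xx_yy {lam : ℝ} (h : 0 < lam) (x₀ x : E) : xx lam x₀ (yy lam x₀ x) = x := by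
  unfold xx yy
  rw [smul_smul, inv_mul_cancel₀ h.ne', one_smul]; abel

lemma yy_xx {lam : ℝ} (h : 0 < lam) (x₀ y : E) : yy lam x₀ (xx lam x₀ y) = y := by
  unfold xx yy
  rw [add_sub_cancel_left, smul_smul, mul_inv_cancel₀ h.ne', one_smul]

lemma emb_yy {lam : ℝ} (h : 0 < lam) (x₀ : E) :
    MeasurableEmbedding (fun x : E => lam • (x - x₀)) :=
  ((Homeomorph.subRight x₀).trans (Homeomorph.smulOfNeZero lam h.ne')).measurableEmbedding

variable {μ : Measure E} {T : E → Submodule ℝ E} {H : E → E}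

lemma ae_dil {lam : ℝ} (h : 0 < lam) (x₀ : E) {p : E → Prop}
    (hp : ∀ᵐ x ∂μ, p (yy lam x₀ x)) : ∀ᵐ y ∂(dil m lam x₀ μ), p y := by
  unfold dil
  exact Measure.ae_smul_measure ((emb_yy h x₀).ae_map_iff.2 hp) _

lemma integral_dil {lam : ℝ} (h : 0 < lam) (x₀ : E) (g : E → ℝ) :
    ∫ y, g y ∂(dil m lam x₀ μ) = lam ^ m * ∫ x, g (yy lam x₀ x) ∂μ := by
  unfold dil
  rw [integral_smul_measure, ENNReal.toReal_ofReal (by positivity), smul_eq_mul,
    (emb_yy h x₀).integral_map]
  rfl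

lemma aesm_dil {F : Type*} [TopologicalSpace F] {lam : ℝ} (h : 0 < lam) (x₀ : E) {g : E → F}
    (hg : AEStronglyMeasurable (fun x => g (yy lam x₀ x)) μ) :
    AEStronglyMeasurable g (dil m lam x₀ μ) := by
  unfold dil
  exact ((emb_yy h x₀).aestronglyMeasurable_map_iff.2 hg).smul_measure _

lemma isFiniteMeasureOnCompacts_dil [IsFiniteMeasureOnCompacts μ] {lam : ℝ} (h : 0 < lam)
    (x₀ : E) : IsFiniteMeasureOnCompacts (dil m lam x₀ μ) := by
  refine ⟨fun K hK => ?_⟩
  unfold dil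
  rw [Measure.smul_apply, smul_eq_mul, (emb_yy h x₀).map_apply]
  apply ENNReal.mul_lt_top ENNReal.ofReal_lt_top
  have h2 : IsCompact ((fun x : E => lam • (x - x₀)) ⁻¹' K) :=
    ((Homeomorph.subRight x₀).trans (Homeomorph.smulOfNeZero lam h.ne')).isCompact_preimage.2 hK
  exact h2.measure_lt_top

lemma integrableOn_dil {lam : ℝ} (h : 0 < lam) (x₀ : E) {g : E → ℝ} {K : Set E}
    (hg : IntegrableOn (fun x => g (yy lam x₀ x)) ((fun x => yy lam x₀ x) ⁻¹' K) μ) :
    IntegrableOn g K (dil m lam x₀ μ) := by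
  unfold dil
  have h1 : IntegrableOn g K (μ.map (fun x => lam • (x - x₀))) :=
    (emb_yy h x₀).integrableOn_map_iff.2 hg
  unfold IntegrableOn at h1 ⊢
  rw [Measure.restrict_smul]
  exact h1.smul_measure ENNReal.ofReal_ne_top

lemma isCompact_preimage {lam : ℝ} (h : 0 < lam) (x₀ : E) {K : Set E} (hK : IsCompact K) :
    IsCompact ((fun x : E => yy lam x₀ x) ⁻¹' K) :=
  ((Homeomorph.subRight x₀).trans (Homeomorph.smulOfNeZero lam h.ne')).isCompact_preimage.2 hK

lemma divAlong_comp_yy (T : Submodule ℝ E) {X : E → E} (hX : ContDiff ℝ 1 X) (lam : ℝ) (x₀ x : E) :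
    divAlong T (fun x => X (yy lam x₀ x)) x = lam * divAlong T X (yy lam x₀ x) := by
  have h1 : HasFDerivAt (fun x : E => yy lam x₀ x) (lam • ContinuousLinearMap.id ℝ E) x := by
    unfold yy
    exact ((hasFDerivAt_id x).sub_const x₀).const_smul lam
  have h2 : HasFDerivAt X (fderiv ℝ X (yy lam x₀ x)) (yy lam x₀ x) :=
    (hX.differentiable (by norm_num) _).hasFDerivAt
  have h3 := h2.comp x h1
  have h4 : fderiv ℝ (fun x => X (yy lam x₀ x)) x = lam • fderiv ℝ X (yy lam x₀ x) := by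
    have h5 : fderiv ℝ (fun x => X (yy lam x₀ x)) x
      = (fderiv ℝ X (yy lam x₀ x)).comp (lam • ContinuousLinearMap.id ℝ E) := h3.fderiv
    rw [h5]
    ext v
    simp
  rw [divAlong_eq, divAlong_eq, h4, ContinuousLinearMap.comp_smul, tr_smul]

/-- transport of the mean curvature under dilations -/
lemma mc_dil (h : MC m μ T H) {lam : ℝ} (hl : 0 < lam) (x₀ : E) :
    MC m (dil m lam x₀ μ) (fun y => T (xx lam x₀ y)) (fun y => lam⁻¹ • H (xx lam x₀ y)) where
  fin := by
    have := h.fin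
    exact isFiniteMeasureOnCompacts_dil hl x₀
  Tmeas := by
    refine aesm_dil hl x₀ ?_
    simpa only [xx_yy hl] using h.Tmeas
  dim := by
    refine ae_dil hl x₀ ?_
    filter_upwards [h.dim] with x hx
    rw [xx_yy hl]; exact hx
  meas := by
    refine aesm_dil hl x₀ ?_
    simp only [xx_yy hl]
    exact h.meas.const_smul _
  locL2 := by
    intro K hK
    refine integrableOn_dil hl x₀ ?_
    simp only [xx_yy hl, norm_smul, mul_pow]
    exact (h.locL2 _ (isCompact_preimage hl x₀ hK)).const_mul _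
  normal := by
    refine ae_dil hl x₀ ?_
    filter_upwards [h.normal] with x hx
    rw [xx_yy hl]; exact Submodule.smul_mem _ _ hx
  fv := by
    intro X hX hXc
    rw [integral_dil hl, integral_dil hl]
    simp only [xx_yy hl]
    have hX' : ContDiff ℝ 1 (fun x => X (yy lam x₀ x)) := by
      refine hX.comp ?_
      unfold yy
      fun_prop
    have hXc' : HasCompactSupport (fun x => X (yy lam x₀ x)) :=
      H552.hasCompactSupport_comp_yy hXc hl.ne' x₀
    have h1 := h.fv _ hX' hXc'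
    have h2 : ∀ x, divAlong (T x) (fun x => X (yy lam x₀ x)) x
        = lam * divAlong (T x) X (yy lam x₀ x) := fun x => divAlong_comp_yy _ hX _ _ _
    simp only [h2] at h1
    rw [integral_const_mul] at h1
    have h3 : ∫ x, ⟪X (yy lam x₀ x), lam⁻¹ • H x⟫ ∂μ = lam⁻¹ * ∫ x, ⟪X (yy lam x₀ x), H x⟫ ∂μ := by
      rw [← integral_const_mul]
      congr 1
      ext x
      rw [real_inner_smul_right]
    rw [h3]
    have h4 : ∫ x, divAlong (T x) X (yy lam x₀ x) ∂μ = - (lam⁻¹ * ∫ x, ⟪X (yy lam x₀ x), H x⟫ ∂μ) := by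
      field_simp
      linarith
    rw [h4]; ring

/-- transport of slices under dilations -/
theorem slice_dil (h : Slice m μ T H) {lam : ℝ} (hl : 0 < lam) (x₀ : E) :
    Slice m (dil m lam x₀ μ) (fun y => T (xx lam x₀ y)) (fun y => lam⁻¹ • H (xx lam x₀ y)) where
  mc := mc_dil h.mc hl x₀
  dens := by
    refine ae_dil hl x₀ ?_
    filter_upwards [h.dens] with x hx c hc
    have h1 := hx c hc
    have h2 : Tendsto (fun r : ℝ => r / lam) (𝓝[>] 0) (𝓝[>] 0) := by
      apply tendsto_nhdsWithin_of_tendsto_nhds_of_eventually_within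
      · have : Tendsto (fun r : ℝ => r / lam) (𝓝 0) (𝓝 (0 / lam)) :=
          (continuous_id.div_const lam).tendsto 0
        rw [zero_div] at this
        exact this.mono_left nhdsWithin_le_nhds
      · filter_upwards [self_mem_nhdsWithin] with r hr
        have : 0 < r := hr
        exact div_pos this hl
    filter_upwards [h2.eventually h1, self_mem_nhdsWithin] with r hr hr0
    have hr0' : 0 < r := hr0
    refine hr.trans (le_of_eq ?_)
    rw [integral_dil hl, div_pow]
    have e : ∀ x' : E, ker ((r / lam)⁻¹ • (x' - x)) = ker (r⁻¹ • (yy lam x₀ x' - yy lam x₀ x)) := by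
      intro x'
      congr 1
      unfold yy
      rw [← smul_sub, sub_sub_sub_cancel_right, smul_smul]
      congr 1
      field_simp
    simp only [e]
    field_simp

/-! ### Slices of integral varifolds -/

lemma om_nonneg (m : ℕ) : 0 ≤ om m := integral_nonneg fun p => ker_nonneg _

lemma integral_ker_plane {T : Submodule ℝ E} (hT : Module.finrank ℝ T = m) :
    ∫ z in (T : Set E), ker z ∂(μH[m] : Measure E) = om m := by
  have h1 := lintegral_ker_plane (E := E) hT one_pos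
  simp only [inv_one, one_smul, one_pow, one_mul] at h1
  rw [integral_eq_lintegral_of_nonneg_ae (Eventually.of_forall fun z => ker_nonneg z)
    continuous_ker.aestronglyMeasurable, h1, ENNReal.toReal_ofReal (om_nonneg m)]

theorem slice_of_isMeanCurvature {V : IntegralVarifold m (univ : Set E)} {H : E → E}
    (h : IsMeanCurvature V H) : Slice m V.weight V.tangent H where
  mc := H552.mc_of_isMeanCurvature h
  dens := by
    have h1 : ∀ᵐ x ∂V.weight, x ∈ V.carrier := by
      have h2 : V.weight ≪ (μH[m] : Measure E).restrict V.carrier :=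
        withDensity_absolutelyContinuous _ _
      exact h2.ae_le (ae_restrict_mem₀ V.carrier_meas)
    filter_upwards [h1, V.tangent_spec] with x hx1 hx2 c hc
    have hq : 1 ≤ V.mult x := V.mult_pos x hx1
    have h3 := hx2.2 ker continuous_ker ker_compact
    rw [integral_ker_plane hx2.1] at h3
    have h4 : c < V.mult x * om m := by
      have : (1 : ℝ) ≤ V.mult x := by exact_mod_cast hq
      have := om_nonneg m
      nlinarith
    exact (h3.eventually (lt_mem_nhds h4)).mono fun r hr => le_of_lt hr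

lemma exists_BF_slice {μ : ℝ → Measure E} (h : IsIntegralBrakkeFlow m μ) :
    ∃ T H, BF m μ T H ∧ ∀ᵐ t : ℝ, 0 ≤ t → Slice m (μ t) (T t) (H t) := by
  obtain ⟨h1, V, H, h2, -, h3⟩ := h
  refine ⟨fun t => (V t).tangent, H, ⟨fun t ht => ?_, ?_, ?_⟩, ?_⟩
  · have := h1 t ht
    infer_instance
  · rw [ae_restrict_iff' measurableSet_Ici]
    filter_upwards [h2] with t ht ht0
    obtain ⟨e1, e2⟩ := ht ht0
    rw [← e1]
    exact H552.mc_of_isMeanCurvature e2
  · intro φ hφ hφc hφ0 a b ha hab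
    have h4 := h3 (fun p => φ p.1 p.2) hφ hφc (fun p => hφ0 _ _) a b ha hab
    have e : ∀ t, ∫ x, brakkeIntegrand (H t) (fun p : ℝ × E => φ p.1 p.2) t x ∂(μ t)
        = H552.brakkeRHS (μ t) (H t) φ t := by
      intro t
      unfold H552.brakkeRHS brakkeIntegrand
      congr 1
      ext x
      ring
    simp_rw [e] at h4
    exact h4
  · filter_upwards [h2] with t ht ht0
    obtain ⟨e1, e2⟩ := ht ht0
    rw [← e1]
    exact slice_of_isMeanCurvature e2

/-! ### The time change `t = t₀ - e^{-s}` -/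

/-- the time corresponding to the logarithmic scale `s / 2` -/
noncomputable def ti (t₀ s : ℝ) : ℝ := t₀ - Real.exp (-s)

lemma tim_half (t₀ s : ℝ) : tim t₀ (Real.exp (s / 2)) = ti t₀ s := by
  unfold tim ti
  rw [← Real.exp_nat_mul]
  have : ((2 : ℕ) : ℝ) * (s / 2) = s := by push_cast; ring
  rw [this, Real.exp_neg, neg_div, one_div]; ring

lemma ti_lt (t₀ s : ℝ) : ti t₀ s < t₀ := by
  unfold ti; have := Real.exp_pos (-s); linarith

lemma ti_strictMono (t₀ : ℝ) : StrictMono (ti t₀) := by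
  intro a b hab
  unfold ti
  have : Real.exp (-b) < Real.exp (-a) := Real.exp_lt_exp.2 (by linarith)
  linarith

lemma continuous_ti (t₀ : ℝ) : Continuous (ti t₀) := by unfold ti; fun_prop

lemma hasDerivAt_ti (t₀ s : ℝ) : HasDerivAt (ti t₀) (Real.exp (-s)) s := by
  unfold ti
  have h1 : HasDerivAt (fun s : ℝ => -s) (-1) s := (hasDerivAt_id s).neg
  have h2 := h1.exp.const_sub t₀
  refine h2.congr_deriv ?_
  ring

lemma image_ti (t₀ a b : ℝ) (hab : a ≤ b) : ti t₀ '' Ioc a b = Ioc (ti t₀ a) (ti t₀ b) := by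
  apply Subset.antisymm
  · rintro _ ⟨s, hs, rfl⟩
    exact ⟨ti_strictMono t₀ hs.1, (ti_strictMono t₀).monotone hs.2⟩
  · intro t ht
    obtain ⟨s, hs, rfl⟩ := intermediate_value_Icc hab (continuous_ti t₀).continuousOn
      (show t ∈ Icc (ti t₀ a) (ti t₀ b) from ⟨ht.1.le, ht.2⟩)
    refine ⟨s, ⟨?_, hs.2⟩, rfl⟩
    rcases hs.1.lt_or_eq with h | h
    · exact h
    · subst h; exact absurd ht.1 (lt_irrefl _)

lemma ae_time (t₀ : ℝ) {p : ℝ → Prop} (hp : ∀ᵐ t : ℝ, p t) : ∀ᵐ s : ℝ, p (ti t₀ s) := by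
  rw [ae_iff] at hp ⊢
  have h1 : {s : ℝ | ¬ p (ti t₀ s)} ⊆ (fun t => -Real.log (t₀ - t)) '' ({t | ¬ p t} ∩ Iio t₀) := by
    intro s hs
    refine ⟨ti t₀ s, ⟨hs, ti_lt _ _⟩, ?_⟩
    simp [ti]
  refine measure_mono_null h1 ?_
  refine addHaar_image_eq_zero_of_differentiableOn_of_addHaar_eq_zero volume ?_
    (measure_mono_null inter_subset_left hp)
  intro t ht
  have h2 : t₀ - t ≠ 0 := by
    have : t < t₀ := ht.2
    linarith
  have h3 : DifferentiableAt ℝ (fun t => -Real.log (t₀ - t)) t := by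
    apply DifferentiableAt.neg
    apply DifferentiableAt.log _ h2
    fun_prop
  exact h3.differentiableWithinAt

lemma integral_time (t₀ : ℝ) {a b : ℝ} (hab : a ≤ b) {G : ℝ → ℝ} :
    ∫ t in (ti t₀ a)..(ti t₀ b), G t = ∫ s in a..b, Real.exp (-s) * G (ti t₀ s) := by
  rw [intervalIntegral.integral_of_le ((ti_strictMono t₀).monotone hab),
    intervalIntegral.integral_of_le hab, ← image_ti t₀ a b hab,
    integral_image_eq_integral_abs_deriv_smul measurableSet_Ioc
      (fun s _ => (hasDerivAt_ti t₀ s).hasDerivWithinAt) (ti_strictMono t₀).injective.injOn]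
  congr 1
  ext s
  rw [abs_of_pos (Real.exp_pos _), smul_eq_mul]

lemma intervalIntegrable_time (t₀ : ℝ) {a b : ℝ} (hab : a ≤ b) {G : ℝ → ℝ}
    (hG : IntervalIntegrable G volume (ti t₀ a) (ti t₀ b)) :
    IntervalIntegrable (fun s => Real.exp (-s) * G (ti t₀ s)) volume a b := by
  rw [intervalIntegrable_iff_integrableOn_Ioc_of_le ((ti_strictMono t₀).monotone hab),
    ← image_ti t₀ a b hab,
    integrableOn_image_iff_integrableOn_abs_deriv_smul measurableSet_Ioc
      (fun s _ => (hasDerivAt_ti t₀ s).hasDerivWithinAt) (ti_strictMono t₀).injective.injOn] at hG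
  rw [intervalIntegrable_iff_integrableOn_Ioc_of_le hab]
  refine hG.congr_fun (fun s _ => ?_) measurableSet_Ioc
  simp only [abs_of_pos (Real.exp_pos _), smul_eq_mul]

/-! ### The bridge -/

lemma NN_half (m : ℕ) (μ : ℝ → Measure E) (x₀ : E) (t₀ s : ℝ) :
    NN m μ x₀ t₀ (s / 2) = dil m (Real.exp (s / 2)) x₀ (μ (ti t₀ s)) := by
  unfold NN rescaled dil
  rw [← tim_half]
  rfl

lemma vel_dil (T : E → Submodule ℝ E) (H : E → E) {lam : ℝ} (hl : 0 < lam) (x₀ x : E) :
    vel (fun y => T (xx lam x₀ y)) (fun y => lam⁻¹ • H (xx lam x₀ y)) (yy lam x₀ x)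
      = hh T H lam x₀ x := by
  unfold vel hh
  simp only [xx_yy hl]

lemma LL_dil {μ : ℝ → Measure E} {T : ℝ → E → Submodule ℝ E} {H : ℝ → E → E} (x₀ : E) (t₀ s : ℝ)
    (f : E → ℝ) :
    LL (NN m μ x₀ t₀ (s / 2)) (fun y => T (ti t₀ s) (xx (Real.exp (s / 2)) x₀ y))
      (fun y => (Real.exp (s / 2))⁻¹ • H (ti t₀ s) (xx (Real.exp (s / 2)) x₀ y)) f
      = Real.exp (-s) * GG m μ T H x₀ t₀ f (ti t₀ s) := by
  have hl : 0 < Real.exp (s / 2) := Real.exp_pos _
  have hL : Lam t₀ (ti t₀ s) = Real.exp (s / 2) := by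
    rw [← tim_half]; exact H552.Lam_tim hl
  unfold LL GG
  rw [NN_half, integral_dil hl, hL]
  have e1 : Real.exp (-s) * (Real.exp (s / 2) ^ (m + 2)
      * ∫ x, rhsI (T (ti t₀ s)) (H (ti t₀ s)) f (Real.exp (s / 2)) x₀ x ∂(μ (ti t₀ s)))
      = Real.exp (s / 2) ^ m
      * ∫ x, rhsI (T (ti t₀ s)) (H (ti t₀ s)) f (Real.exp (s / 2)) x₀ x ∂(μ (ti t₀ s)) := by
    have e2 : Real.exp (-s) * Real.exp (s / 2) ^ 2 = 1 := by
      rw [← Real.exp_nat_mul, ← Real.exp_add]
      have : -s + ((2 : ℕ) : ℝ) * (s / 2) = 0 := by push_cast; ring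
      rw [this, Real.exp_zero]
    calc _ = (Real.exp (-s) * Real.exp (s / 2) ^ 2) * (Real.exp (s / 2) ^ m
      * ∫ x, rhsI (T (ti t₀ s)) (H (ti t₀ s)) f (Real.exp (s / 2)) x₀ x ∂(μ (ti t₀ s))) := by
            rw [pow_add]; ring
      _ = _ := by rw [e2, one_mul]
  rw [e1]
  congr 2
  ext x
  rw [vel_dil _ _ hl]
  unfold rhsI rho
  ring

lemma ratio_bound {μ : ℝ → Measure E} {T : ℝ → E → Submodule ℝ E} {H : ℝ → E → E}
    (hB : BF m μ T H) (h0 : μ 0 univ < ⊤) (x₀ : E) {t₀ : ℝ} (ht : 0 < t₀) {s : ℝ}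
    (hs : t₀ / 2 ≤ ti t₀ s) (x : E) {r : ℝ} (hr : 0 < r) :
    (NN m μ x₀ t₀ (s / 2)).real (closedBall x r)
      ≤ (Real.exp (1 / 4) * ((√(t₀ / 2))⁻¹ ^ m * (μ 0).real univ)) * r ^ m := by
  set lam := Real.exp (s / 2) with hlam
  have hl : 0 < lam := Real.exp_pos _
  set t := ti t₀ s with htt
  have ht2 : 0 < t₀ / 2 := by linarith
  have ht0 : 0 ≤ t := by linarith
  set x₁ := xx lam x₀ x with hx₁
  set t₁ := t + (r / lam) ^ 2 with ht₁
  have hrl : 0 < r / lam := div_pos hr hl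
  have hlt : t < t₁ := by
    have : 0 < (r / lam) ^ 2 := by positivity
    linarith
  have h1 := hB.Th_anti h0 x₁ le_rfl ht0 hlt
  have hLam : Lam t₁ t = lam / r := by
    unfold Lam
    have : t₁ - t = (r / lam) ^ 2 := by rw [ht₁]; ring
    rw [this, Real.sqrt_sq hrl.le, inv_div]
  have hfin := hB.finite h0 ht0
  have hfin0 : IsFiniteMeasure (μ 0) := ⟨h0⟩
  -- the lower bound at time `t`
  have h2 : (NN m μ x₀ t₀ (s / 2)).real (closedBall x r)
      = lam ^ m * (μ t).real (closedBall x₁ (r / lam)) := by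
    rw [NN_half]
    unfold dil
    rw [measureReal_def, Measure.smul_apply, smul_eq_mul, ENNReal.toReal_mul,
      ENNReal.toReal_ofReal (by positivity), (emb_yy hl x₀).map_apply, measureReal_def]
    congr 3
    ext z
    simp only [mem_preimage, mem_closedBall, dist_eq_norm, hx₁]
    have e : lam • (z - x₀) - x = lam • (z - xx lam x₀ x) := by
      unfold xx
      rw [← sub_sub, smul_sub _ (z - x₀), smul_smul, mul_inv_cancel₀ hl.ne', one_smul]
    rw [e, norm_smul, Real.norm_eq_abs, abs_of_pos hl, le_div_iff₀ hl, mul_comm]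
  have h3 : (lam / r) ^ m * (Real.exp (-(1 / 4)) * (μ t).real (closedBall x₁ (r / lam)))
      ≤ Th m μ x₁ t₁ t := by
    unfold Th JJ H552.phi0
    rw [integral_const_mul, hLam]
    apply mul_le_mul_of_nonneg_left _ (by positivity)
    unfold gF
    simp only [one_mul]
    have hint : Integrable (fun z : E => Real.exp (-‖yy (lam / r) x₁ z‖ ^ 2 / 4)) (μ t) := by
      refine Integrable.of_bound (H552.aesm_exp _ _) 1 (Eventually.of_forall fun z => ?_)
      rw [Real.norm_eq_abs, abs_of_pos (Real.exp_pos _), Real.exp_le_one_iff]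
      have := sq_nonneg ‖yy (lam / r) x₁ z‖
      linarith
    calc Real.exp (-(1 / 4)) * (μ t).real (closedBall x₁ (r / lam))
        = ∫ z in closedBall x₁ (r / lam), Real.exp (-(1 / 4)) ∂(μ t) := by
          rw [setIntegral_const, smul_eq_mul, mul_comm]
      _ ≤ ∫ z in closedBall x₁ (r / lam), Real.exp (-‖yy (lam / r) x₁ z‖ ^ 2 / 4) ∂(μ t) := by
          apply setIntegral_mono_on (integrable_const _).integrableOn hint.integrableOn
            measurableSet_closedBall
          intro z hz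
          apply Real.exp_le_exp.2
          rw [mem_closedBall, dist_eq_norm] at hz
          have h5 : ‖yy (lam / r) x₁ z‖ ≤ 1 := by
            unfold yy
            rw [norm_smul, Real.norm_eq_abs, abs_of_pos (by positivity)]
            calc lam / r * ‖z - x₁‖ ≤ lam / r * (r / lam) := by gcongr
              _ = 1 := by field_simp
          have h6 : ‖yy (lam / r) x₁ z‖ ^ 2 ≤ 1 := pow_le_one₀ (norm_nonneg _) h5
          linarith
      _ ≤ _ := setIntegral_le_integral hint (Eventually.of_forall fun z => (Real.exp_pos _).le)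
  have h4 : Th m μ x₁ t₁ 0 ≤ (√(t₀ / 2))⁻¹ ^ m * (μ 0).real univ := by
    unfold Th JJ
    have h5 : ∀ z : E, H552.phi0 m (fun _ => 1) x₁ t₁ 0 z ≤ (√(t₀ / 2))⁻¹ ^ m := by
      intro z
      unfold H552.phi0 gF Lam
      have e1 : Real.exp (-‖yy (√(t₁ - 0))⁻¹ x₁ z‖ ^ 2 / 4) ≤ 1 := by
        rw [Real.exp_le_one_iff]
        have := sq_nonneg ‖yy (√(t₁ - 0))⁻¹ x₁ z‖
        linarith
      have e2 : (√(t₁ - 0))⁻¹ ≤ (√(t₀ / 2))⁻¹ := by
        apply inv_anti₀ (Real.sqrt_pos.2 ht2)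
        exact Real.sqrt_le_sqrt (by linarith)
      have e3 : 0 ≤ (√(t₁ - 0))⁻¹ := by positivity
      calc (√(t₁ - 0))⁻¹ ^ m * (1 * Real.exp (-‖yy (√(t₁ - 0))⁻¹ x₁ z‖ ^ 2 / 4))
          ≤ (√(t₀ / 2))⁻¹ ^ m * (1 * 1) := by gcongr
        _ = (√(t₀ / 2))⁻¹ ^ m := by ring
    calc ∫ z, H552.phi0 m (fun _ => 1) x₁ t₁ 0 z ∂(μ 0) ≤ ∫ z, (√(t₀ / 2))⁻¹ ^ m ∂(μ 0) :=
          integral_mono (H552.integrable_phi0 x₁ t₁ 0 continuous_const (A := 1)
            (fun y => by simp)) (integrable_const _) h5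
      _ = (√(t₀ / 2))⁻¹ ^ m * (μ 0).real univ := by rw [integral_const, smul_eq_mul]; ring
  have h7 : (lam / r) ^ m * (Real.exp (-(1 / 4)) * (μ t).real (closedBall x₁ (r / lam)))
      ≤ (√(t₀ / 2))⁻¹ ^ m * (μ 0).real univ := h3.trans (h1.trans h4)
  rw [h2]
  have h8 : Real.exp (1 / 4) * Real.exp (-(1 / 4)) = 1 := by
    rw [← Real.exp_add]; norm_num
  calc lam ^ m * (μ t).real (closedBall x₁ (r / lam))
      = (Real.exp (1 / 4) * Real.exp (-(1 / 4))) * r ^ m * ((lam / r) ^ m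
          * (μ t).real (closedBall x₁ (r / lam))) := by
        rw [h8, div_pow]; field_simp
    _ = Real.exp (1 / 4) * r ^ m * ((lam / r) ^ m
          * (Real.exp (-(1 / 4)) * (μ t).real (closedBall x₁ (r / lam)))) := by ring
    _ ≤ Real.exp (1 / 4) * r ^ m * ((√(t₀ / 2))⁻¹ ^ m * (μ 0).real univ) :=
        mul_le_mul_of_nonneg_left h7 (by positivity)
    _ = _ := by ring

end A1

open A1

/-- **The rescaled flow of an integral Brakke flow is an `RF`.** -/
theorem exists_RF {μ : ℝ → Measure E} (hμ : IsIntegralBrakkeFlow m μ) (h0 : μ 0 univ < ⊤)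
    (x₀ : E) {t₀ : ℝ} (ht : 0 < t₀) :
    ∃ (T : ℝ → E → Submodule ℝ E) (H : ℝ → E → E) (s₀ : ℝ),
      RF m (fun s => NN m μ x₀ t₀ (s / 2)) T H s₀ := by
  obtain ⟨T, H, hB, hS⟩ := exists_BF_slice hμ
  set s₀ : ℝ := Real.log (2 / t₀) with hs₀
  have hti : ∀ s, s₀ ≤ s → t₀ / 2 ≤ ti t₀ s := by
    intro s hs
    unfold ti
    have h1 : Real.exp (-s) ≤ t₀ / 2 := by
      have h2 : Real.exp (-s) ≤ Real.exp (-s₀) := Real.exp_le_exp.2 (by linarith)
      rw [hs₀, Real.exp_neg (Real.log (2 / t₀)), Real.exp_log (by positivity), inv_div] at h2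
      exact h2
    linarith
  have htau : ∀ s, s₀ ≤ s → H552.tau0 t₀ ≤ s / 2 := by
    intro s hs
    unfold H552.tau0
    have h1 : -Real.log t₀ ≤ s₀ := by
      rw [hs₀, Real.log_div (by norm_num) ht.ne']
      have := Real.log_nonneg (show (1 : ℝ) ≤ 2 by norm_num)
      linarith
    linarith
  refine ⟨fun s y => T (ti t₀ s) (xx (Real.exp (s / 2)) x₀ y),
    fun s y => (Real.exp (s / 2))⁻¹ • H (ti t₀ s) (xx (Real.exp (s / 2)) x₀ y), s₀, ?_⟩
  constructor
  · intro s hs
    exact H552.NN_finite hB h0 x₀ ht (htau s hs)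
  · refine ⟨√2 ^ m * ((√t₀)⁻¹ ^ m * (μ 0).real univ), fun s hs => ?_⟩
    have h1 := H552.gauss_bound hB h0 x₀ ht (k := 2) (by norm_num) (htau s hs)
    have e : ∀ y : E, Real.exp (-‖y‖ ^ 2 / (4 * 2)) = Real.exp (-‖y‖ ^ 2 / 8) := by
      intro y; norm_num
    simp only [e] at h1
    exact h1
  · refine ⟨_, fun s hs x r hr _ => ratio_bound hB h0 x₀ ht (hti s hs) x hr⟩
  · filter_upwards [ae_time t₀ hS] with s hs hs0
    have h1 := hs (by linarith [hti s hs0])
    have h2 := slice_dil h1 (Real.exp_pos (s / 2)) x₀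
    rw [NN_half]
    exact h2
  · intro f hf hfc hf0 a b ha hab
    have hmono := (ti_strictMono t₀).monotone hab
    obtain ⟨h1, h2⟩ := hB.weighted x₀ hf hfc hf0 (a := ti t₀ a) (b := ti t₀ b)
      (by linarith [hti a ha]) hmono (ti_lt _ _)
    have e1 : (fun s => LL (NN m μ x₀ t₀ (s / 2))
        (fun y => T (ti t₀ s) (xx (Real.exp (s / 2)) x₀ y))
        (fun y => (Real.exp (s / 2))⁻¹ • H (ti t₀ s) (xx (Real.exp (s / 2)) x₀ y)) f)
        = fun s => Real.exp (-s) * GG m μ T H x₀ t₀ f (ti t₀ s) := by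
      ext s; exact LL_dil x₀ t₀ s f
    have e2 : ∀ s, ∫ x, f x * rho x ∂(NN m μ x₀ t₀ (s / 2)) = JJ m μ x₀ t₀ f (ti t₀ s) := by
      intro s
      rw [← tim_half, H552.JJ_tim _ _ _ _ (Real.exp_pos _)]
      rfl
    refine ⟨?_, ?_⟩
    · rw [e1]; exact intervalIntegrable_time t₀ hab h1
    · rw [e2, e2, e1]
      rw [integral_time t₀ hab] at h2
      exact h2

end Vale.Agent.P218.H313
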