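import Vale.Agent.P218.H313.CayAlg

/-! Nondegenerate shrinkers: the family of rotated tube functions. -/

open MeasureTheory Set Filter Topology Metric
open scoped ENNReal NNReal RealInnerProductSpace

namespace Vale.Agent.P218.H313

open Vale.Agent.P214 (IntegralVarifold proj divAlong IsTestField)

set_option linter.unusedSectionVars false
set_option linter.unusedVariables false

section tubecalc

variable {E : Type*} [NormedAddCommGroup E] [InnerProductSpace ℝ E] [FiniteDimensional ℝ E]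
variable {m : ℕ} {W : E → ℝ} {c K : ℝ}

lemma TubeD.mono (hW : TubeD W c K) {K' : ℝ} (h : K ≤ K') : TubeD W c K' where
  cpos := hW.cpos
  smooth := hW.smooth
  b0 := fun x => (hW.b0 x).trans h
  b1 := fun x => (hW.b1 x).trans h
  b2 := fun x => (hW.b2 x).trans h
  bx := fun x => (hW.bx x).trans h
  eik := hW.eik
  ric := fun x hx => (hW.ric x hx).trans (mul_le_mul_of_nonneg_right h (sq_nonneg _))

lemma TubeD.lip0 (hW : TubeD W c K) (x y : E) : |W x - W y| ≤ K * ‖x - y‖ := by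
  have h := convex_univ.norm_image_sub_le_of_norm_fderiv_le (𝕜 := ℝ) (f := W) (C := K)
    (fun z _ => hW.diff z) (fun z _ => by rw [← norm_grad]; exact hW.b1 z)
    (mem_univ y) (mem_univ x)
  rwa [Real.norm_eq_abs] at h

lemma TubeD.lip1 (hW : TubeD W c K) (x y : E) : ‖grad W x - grad W y‖ ≤ K * ‖x - y‖ :=
  convex_univ.norm_image_sub_le_of_norm_fderiv_le (𝕜 := ℝ) (f := grad W) (C := K)
    (fun z _ => hW.grad_cd.differentiable (by norm_num) z) (fun z _ => hW.b2 z)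
    (mem_univ y) (mem_univ x)

lemma TubeD.taylor (hW : TubeD W c K) (x y : E) :
    |W y - W x - ⟪grad W x, y - x⟫| ≤ K * ‖y - x‖ ^ 2 := by
  have hK := hW.K_nonneg
  have h := (convex_closedBall x ‖y - x‖).norm_image_sub_le_of_norm_fderiv_le' (𝕜 := ℝ) (f := W)
    (C := K * ‖y - x‖) (φ := fderiv ℝ W x) (x := x) (y := y)
    (fun z _ => hW.diff z) (fun z hz => by
      have e1 : ‖fderiv ℝ W z - fderiv ℝ W x‖ ≤ ‖grad W z - grad W x‖ := by
        refine ContinuousLinearMap.opNorm_le_bound _ (norm_nonneg _) fun v => ?_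
        rw [sub_apply, ← inner_grad, ← inner_grad, ← inner_sub_left]
        exact norm_inner_le_norm _ _
      refine e1.trans ((hW.lip1 z x).trans ?_)
      refine mul_le_mul_of_nonneg_left ?_ hK
      rw [mem_closedBall, dist_eq_norm] at hz
      exact hz) (mem_closedBall_self (norm_nonneg _)) (by
      rw [mem_closedBall, dist_eq_norm])
  rw [Real.norm_eq_abs, ← inner_grad] at h
  rw [pow_two, ← mul_assoc]
  exact h

/-- the field `⟪∇W(Q x), B x⟫` is `C¹` -/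
lemma contDiff_inner_grad (hW : TubeD W c K) (Q B : E →L[ℝ] E) :
    ContDiff ℝ 1 (fun x => ⟪grad W (Q x), B x⟫) :=
  (hW.grad_cd.comp Q.contDiff).inner ℝ B.contDiff

lemma fderiv_inner_grad (hW : TubeD W c K) (Q B : E →L[ℝ] E) (x v : E) :
    fderiv ℝ (fun x => ⟪grad W (Q x), B x⟫) x v
      = ⟪grad W (Q x), B v⟫ + ⟪fderiv ℝ (grad W) (Q x) (Q v), B x⟫ := by
  have h1 : HasFDerivAt (fun x => grad W (Q x)) ((fderiv ℝ (grad W) (Q x)).comp Q) x :=
    ((hW.grad_cd.differentiable (by norm_num) (Q x)).hasFDerivAt).comp x Q.hasFDerivAt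
  have h2 : HasFDerivAt (fun x => B x) B x := B.hasFDerivAt
  have h3 := (h1.inner ℝ h2).fderiv
  rw [h3]
  simp [fderivInnerCLM_apply]

lemma norm_grad_inner_grad_le (hW : TubeD W c K) {Q B : E →L[ℝ] E} {β : ℝ}
    (hQ : ∀ x, ‖Q x‖ = ‖x‖) (hβ : 0 ≤ β) (hB : ∀ x, ‖B x‖ ≤ β * ‖x‖) (x : E) :
    ‖grad (fun x => ⟪grad W (Q x), B x⟫) x‖ ≤ K * β * (1 + ‖x‖) := by
  have hK := hW.K_nonneg
  rw [norm_grad]
  refine ContinuousLinearMap.opNorm_le_bound _ (by positivity) fun v => ?_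
  rw [fderiv_inner_grad hW]
  refine (norm_add_le _ _).trans ?_
  have e1 : ‖⟪grad W (Q x), B v⟫‖ ≤ K * (β * ‖v‖) := by
    refine (norm_inner_le_norm _ _).trans ?_
    exact mul_le_mul (hW.b1 _) (hB v) (norm_nonneg _) hK
  have e2 : ‖⟪fderiv ℝ (grad W) (Q x) (Q v), B x⟫‖ ≤ (K * ‖v‖) * (β * ‖x‖) := by
    refine (norm_inner_le_norm _ _).trans ?_
    refine mul_le_mul ?_ (hB x) (norm_nonneg _) (by positivity)
    refine (ContinuousLinearMap.le_opNorm _ _).trans ?_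
    rw [hQ]
    exact mul_le_mul_of_nonneg_right (hW.b2 _) (norm_nonneg _)
  nlinarith

end tubecalc

section drift

variable {E : Type*} [NormedAddCommGroup E] [InnerProductSpace ℝ E] [FiniteDimensional ℝ E]
  [MeasurableSpace E] [BorelSpace E]
variable {m : ℕ} {c K : ℝ} {μ : Measure E} {T : E → Submodule ℝ E} {H : E → E}

lemma PG.clm' (A : E →L[ℝ] E) : PG (fun x : E => A x) := PG.id'.clm A

/-- **the torque identity** -/
lemma GSlice.torque (hS : GSlice m μ T H) {A : E →L[ℝ] E} (hA : A ∈ skew E) :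
    ∫ x, ⟪A x, vel T H x⟫ * rho x ∂μ = 0 := by
  have hp := PG.clm' A
  have h := hS.wfv hp.cd hp.b0 hp.b1
  have e : ∀ x, (divAlong (T x) (fun x => A x) x - 1 / 2 * ⟪x, A x⟫) * rho x = 0 := by
    intro x
    rw [divAlong_clm, tr_proj_skew (T x) hA, real_inner_comm, hA x]
    ring
  simp_rw [e] at h
  simp only [integral_zero] at h
  linarith

/-- pointwise estimate for the drift -/
lemma drift_pt {V : E → ℝ} (hE : Module.finrank ℝ E = m + 1) (hV : TubeD V c K)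
    {A : E →L[ℝ] E} {β : ℝ} (hβ : 0 ≤ β) (hAb : ∀ x, ‖A x‖ ≤ β * ‖x‖) (x : E)
    (T : Submodule ℝ E) (hT : Module.finrank ℝ T = m) {φ : E} (hφ : φ ∈ Tᗮ) :
    |⟪grad (fun y => V y * ⟪grad V y, A y⟫) x, φ⟫ - ⟪A x, φ⟫|
      ≤ (1 + (K ^ 2 + 1) * (1 + 1 / c ^ 2) + K) * β
        * (V x ^ 2 * wt 1 x + wt 1 x * ‖proj T (grad V x)‖ ^ 2 + ‖φ‖ ^ 2) := by
  have hK := hV.K_nonneg
  have hc := hV.cpos
  set Z : E → ℝ := fun y => ⟪grad V y, A y⟫ with hZ
  have hZd : DifferentiableAt ℝ Z x :=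
    (contDiff_inner_grad hV (ContinuousLinearMap.id ℝ E) A).differentiable (by norm_num) x
  have hg : grad (fun y => V y * Z y) x = V x • grad Z x + Z x • grad V x :=
    grad_mul (hV.diff x) hZd
  have hgZ : ‖grad Z x‖ ≤ K * β * (1 + ‖x‖) :=
    norm_grad_inner_grad_le hV (Q := ContinuousLinearMap.id ℝ E) (B := A) (fun x => rfl) hβ hAb x
  have e1 : ⟪grad (fun y => V y * Z y) x, φ⟫ - ⟪A x, φ⟫
      = V x * ⟪grad Z x, φ⟫ - (⟪A x, φ⟫ - ⟪A x, grad V x⟫ * ⟪grad V x, φ⟫) := by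
    rw [hg, inner_add_left, real_inner_smul_left, real_inner_smul_left, real_inner_comm (grad V x)]
    ring
  rw [e1]
  refine (abs_sub _ _).trans ?_
  have hwt : wt 1 x = 1 + ‖x‖ ^ 2 := by unfold wt; ring
  have hw0 := wt_pos 1 x
  set p := ‖proj T (grad V x)‖ with hp
  have hp0 : 0 ≤ p := norm_nonneg _
  have hx0 := norm_nonneg x
  have hφ0 := norm_nonneg φ
  set S : ℝ := V x ^ 2 * wt 1 x + wt 1 x * p ^ 2 + ‖φ‖ ^ 2 with hS
  have s1 : 0 ≤ V x ^ 2 * wt 1 x := by positivity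
  have s2 : 0 ≤ wt 1 x * p ^ 2 := by positivity
  have s3 : 0 ≤ ‖φ‖ ^ 2 := by positivity
  have hS0 : 0 ≤ S := by rw [hS]; linarith
  -- first term
  have f1 : |V x * ⟪grad Z x, φ⟫| ≤ K * β * S := by
    rw [abs_mul]
    have g1 : |⟪grad Z x, φ⟫| ≤ K * β * (1 + ‖x‖) * ‖φ‖ :=
      (abs_real_inner_le_norm _ _).trans (mul_le_mul_of_nonneg_right hgZ hφ0)
    have g2 : |V x| * (1 + ‖x‖) * ‖φ‖ ≤ V x ^ 2 * wt 1 x + ‖φ‖ ^ 2 := by
      have h1 := sq_nonneg (|V x| * (1 + ‖x‖) - ‖φ‖)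
      have h2 := sq_abs (V x)
      have h3 : (1 + ‖x‖) ^ 2 ≤ 2 * wt 1 x := by
        rw [hwt]; nlinarith [sq_nonneg (‖x‖ - 1)]
      have h4 : |V x| ^ 2 * (1 + ‖x‖) ^ 2 ≤ |V x| ^ 2 * (2 * wt 1 x) :=
        mul_le_mul_of_nonneg_left h3 (sq_nonneg _)
      rw [h2] at h4
      nlinarith
    calc |V x| * |⟪grad Z x, φ⟫| ≤ |V x| * (K * β * (1 + ‖x‖) * ‖φ‖) := by gcongr
      _ = K * β * (|V x| * (1 + ‖x‖) * ‖φ‖) := by ring
      _ ≤ K * β * (V x ^ 2 * wt 1 x + ‖φ‖ ^ 2) := by gcongr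
      _ ≤ K * β * S := by
          refine mul_le_mul_of_nonneg_left ?_ (by positivity)
          rw [hS]; linarith
  -- second term
  have f2 : |⟪A x, φ⟫ - ⟪A x, grad V x⟫ * ⟪grad V x, φ⟫|
      ≤ (1 + (K ^ 2 + 1) * (1 + 1 / c ^ 2)) * (β * S) := by
    have hxw : ‖x‖ ^ 2 ≤ wt 1 x := by rw [hwt]; linarith
    have hβS : 0 ≤ β * S := by positivity
    have h6 : 0 ≤ (K ^ 2 + 1) * (1 + 1 / c ^ 2) := by positivity
    by_cases hx : |V x| < c
    · have g1 := hV.normal_est hE x T hT hx hφ (A x)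
      have g2 : ‖A x‖ * p * ‖φ‖ ≤ β * (wt 1 x * p ^ 2 + ‖φ‖ ^ 2) := by
        have h1 : ‖A x‖ * p * ‖φ‖ ≤ β * ‖x‖ * p * ‖φ‖ := by
          have := hAb x
          gcongr
        have h2 : ‖x‖ * p * ‖φ‖ ≤ wt 1 x * p ^ 2 + ‖φ‖ ^ 2 := by
          have h3 := sq_nonneg (‖x‖ * p - ‖φ‖)
          have h4 : ‖x‖ ^ 2 * p ^ 2 ≤ wt 1 x * p ^ 2 := by gcongr
          nlinarith [sq_nonneg (‖x‖ * p), sq_nonneg ‖φ‖]
        have h3 := mul_le_mul_of_nonneg_left h2 hβ
        linarith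
      refine g1.trans (g2.trans ?_)
      have h8 : β * (wt 1 x * p ^ 2 + ‖φ‖ ^ 2) ≤ β * S := by
        refine mul_le_mul_of_nonneg_left ?_ hβ
        rw [hS]; linarith
      refine h8.trans ?_
      exact le_mul_of_one_le_left hβS (by linarith)
    · push Not at hx
      have g1 : |⟪A x, φ⟫ - ⟪A x, grad V x⟫ * ⟪grad V x, φ⟫| ≤ (K ^ 2 + 1) * (β * ‖x‖ * ‖φ‖) := by
        refine (abs_sub _ _).trans ?_
        rw [abs_mul]
        have h1 : |⟪A x, φ⟫| ≤ β * ‖x‖ * ‖φ‖ :=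
          (abs_real_inner_le_norm _ _).trans (mul_le_mul_of_nonneg_right (hAb x) hφ0)
        have h2 : |⟪A x, grad V x⟫| ≤ β * ‖x‖ * K :=
          (abs_real_inner_le_norm _ _).trans
            (mul_le_mul (hAb x) (hV.b1 x) (norm_nonneg _) (by positivity))
        have h3 : |⟪grad V x, φ⟫| ≤ K * ‖φ‖ :=
          (abs_real_inner_le_norm _ _).trans (mul_le_mul_of_nonneg_right (hV.b1 x) hφ0)
        have h4 : |⟪A x, grad V x⟫| * |⟪grad V x, φ⟫| ≤ (β * ‖x‖ * K) * (K * ‖φ‖) :=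
          mul_le_mul h2 h3 (abs_nonneg _) (by positivity)
        have h5 : (K ^ 2 + 1) * (β * ‖x‖ * ‖φ‖) = (β * ‖x‖ * K) * (K * ‖φ‖) + β * ‖x‖ * ‖φ‖ := by
          ring
        linarith
      have g2 : ‖x‖ * ‖φ‖ ≤ (1 + 1 / c ^ 2) * S := by
        have h1 : ‖x‖ * ‖φ‖ ≤ ‖x‖ ^ 2 + ‖φ‖ ^ 2 := by
          nlinarith [sq_nonneg (‖x‖ - ‖φ‖), sq_nonneg ‖x‖, sq_nonneg ‖φ‖]
        have h2 : ‖x‖ ^ 2 ≤ 1 / c ^ 2 * (V x ^ 2 * wt 1 x) := by
          have h3 : c ^ 2 ≤ V x ^ 2 := by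
            rw [← sq_abs (V x)]
            gcongr
          have h4 : 1 ≤ 1 / c ^ 2 * V x ^ 2 := by
            rw [div_mul_eq_mul_div, one_mul, one_le_div (by positivity)]
            exact h3
          calc ‖x‖ ^ 2 ≤ wt 1 x := hxw
            _ ≤ (1 / c ^ 2 * V x ^ 2) * wt 1 x := le_mul_of_one_le_left hw0.le h4
            _ = _ := by ring
        have h8 : 0 ≤ 1 / c ^ 2 := by positivity
        have h9 : 1 / c ^ 2 * (V x ^ 2 * wt 1 x) ≤ 1 / c ^ 2 * S := by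
          refine mul_le_mul_of_nonneg_left ?_ h8
          rw [hS]; linarith
        have h10 : ‖φ‖ ^ 2 ≤ S := by rw [hS]; linarith
        have h11 : (1 + 1 / c ^ 2) * S = S + 1 / c ^ 2 * S := by ring
        linarith
      refine g1.trans ?_
      calc (K ^ 2 + 1) * (β * ‖x‖ * ‖φ‖) = (K ^ 2 + 1) * (β * (‖x‖ * ‖φ‖)) := by ring
        _ ≤ (K ^ 2 + 1) * (β * ((1 + 1 / c ^ 2) * S)) := by gcongr
        _ = ((K ^ 2 + 1) * (1 + 1 / c ^ 2)) * (β * S) := by ring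
        _ ≤ (1 + (K ^ 2 + 1) * (1 + 1 / c ^ 2)) * (β * S) := by
            refine mul_le_mul_of_nonneg_right ?_ hβS
            linarith
  calc |V x * ⟪grad Z x, φ⟫| + |⟪A x, φ⟫ - ⟪A x, grad V x⟫ * ⟪grad V x, φ⟫|
      ≤ K * β * S + (1 + (K ^ 2 + 1) * (1 + 1 / c ^ 2)) * (β * S) := add_le_add f1 f2
    _ = _ := by ring

/-- **the drift estimate** -/
lemma drift_est {V : E → ℝ} (hE : Module.finrank ℝ E = m + 1) (hV : TubeD V c K)
    {A : E →L[ℝ] E} (hA : A ∈ skew E) {β : ℝ} (hβ : 0 ≤ β) (hAb : ∀ x, ‖A x‖ ≤ β * ‖x‖)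
    (hS : GSlice m μ T H) :
    |∫ x, ⟪grad (fun y => V y * ⟪grad V y, A y⟫) x, vel T H x⟫ * rho x ∂μ|
      ≤ (1 + (K ^ 2 + 1) * (1 + 1 / c ^ 2) + K) * β
        * (DD μ V 1 + TG μ T V 1 + dis μ T H) := by
  have hK := hV.K_nonneg
  have hpg : PG (fun y => V y * ⟪grad V y, A y⟫) :=
    hV.pg.mul (hV.pg_grad.inner' (PG.clm' A))
  have hgc : Continuous (grad (fun y => V y * ⟪grad V y, A y⟫)) := continuous_grad hpg.cd
  have hgb : PB (grad (fun y => V y * ⟪grad V y, A y⟫)) :=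
    PB.mono hpg.b1 fun x => by rw [norm_grad]
  have i1 : Integrable (fun x => ⟪grad (fun y => V y * ⟪grad V y, A y⟫) x, vel T H x⟫ * rho x) μ :=
    hS.integrable_inner_vel hgc.aestronglyMeasurable hgb
  have i2 : Integrable (fun x => ⟪A x, vel T H x⟫ * rho x) μ :=
    hS.integrable_inner_vel A.continuous.aestronglyMeasurable (PG.clm' A).b0
  have j1 := hS.int_DD hV 1
  have j2 := hS.int_TG hV 1
  have j3 := hS.int_vel_sq
  have e1 : ∫ x, ⟪grad (fun y => V y * ⟪grad V y, A y⟫) x, vel T H x⟫ * rho x ∂μ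
      = ∫ x, (⟪grad (fun y => V y * ⟪grad V y, A y⟫) x, vel T H x⟫ - ⟪A x, vel T H x⟫)
        * rho x ∂μ := by
    simp_rw [sub_mul]
    rw [integral_sub i1 i2, hS.torque hA, sub_zero]
  rw [e1, DD_eq]
  set D : ℝ := (1 + (K ^ 2 + 1) * (1 + 1 / c ^ 2) + K) * β with hD
  have j4 : Integrable (fun x => D * (V x ^ 2 * wt 1 x * rho x
      + wt 1 x * ‖proj (T x) (grad V x)‖ ^ 2 * rho x + ‖vel T H x‖ ^ 2 * rho x)) μ :=
    ((j1.add j2).add j3).const_mul D
  have e2 : D * (∫ x, V x ^ 2 * wt 1 x * rho x ∂μ + TG μ T V 1 + dis μ T H)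
      = ∫ x, D * (V x ^ 2 * wt 1 x * rho x
      + wt 1 x * ‖proj (T x) (grad V x)‖ ^ 2 * rho x + ‖vel T H x‖ ^ 2 * rho x) ∂μ := by
    have j12 : Integrable (fun x => V x ^ 2 * wt 1 x * rho x
      + wt 1 x * ‖proj (T x) (grad V x)‖ ^ 2 * rho x) μ := j1.add j2
    rw [integral_const_mul, integral_add j12 j3, integral_add j1 j2]
    rfl
  rw [e2, ← Real.norm_eq_abs]
  refine norm_integral_le_of_norm_le j4 ?_
  filter_upwards [hS.mc.dim, hS.toSlice.vel_normal] with x hx1 hx2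
  rw [norm_mul, Real.norm_of_nonneg (rho_pos x).le, Real.norm_eq_abs]
  have h := drift_pt hE hV hβ hAb x (T x) hx1 hx2
  have h2 := mul_le_mul_of_nonneg_right h (rho_pos x).le
  refine h2.trans (le_of_eq ?_)
  rw [hD]
  ring

end drift

section family

variable {E : Type*} [NormedAddCommGroup E] [InnerProductSpace ℝ E] [FiniteDimensional ℝ E]
variable {m : ℕ} {W : E → ℝ} {c K : ℝ}

lemma norm_grad_cay_sub_le (hW : TubeD W c K) {a a' : E →L[ℝ] E} (ha : a ∈ skew E)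
    (ha' : a' ∈ skew E) (x : E) :
    ‖grad (fun y => W (cay a y)) x - grad (fun y => W (cay a' y)) x‖
      ≤ 2 * K * (1 + ‖x‖) * ‖a - a'‖ := by
  obtain ⟨Q, hQ⟩ := exists_cayE ha
  obtain ⟨Q', hQ'⟩ := exists_cayE ha'
  have hW1 : ContDiff ℝ 1 W := hW.smooth.of_le (by norm_num)
  have e1 : (fun y => W (cay a y)) = fun y => W (Q y) := by ext y; rw [hQ]
  have e2 : (fun y => W (cay a' y)) = fun y => W (Q' y) := by ext y; rw [hQ']
  rw [e1, e2, grad_comp_isometry hW1, grad_comp_isometry hW1]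
  set u := grad W (Q x) with hu
  set u' := grad W (Q' x) with hu'
  have f1 : ‖Q.symm u - Q.symm u'‖ ≤ K * (2 * ‖a - a'‖ * ‖x‖) := by
    rw [← map_sub, LinearIsometryEquiv.norm_map]
    refine (hW.lip1 _ _).trans ?_
    rw [hQ, hQ']
    exact mul_le_mul_of_nonneg_left (norm_cay_sub_le ha ha' x) hW.K_nonneg
  have f2 : ‖Q.symm u' - Q'.symm u'‖ ≤ 2 * ‖a - a'‖ * K := by
    have g1 : ‖Q.symm u' - Q'.symm u'‖ = ‖Q' (Q'.symm u') - Q (Q'.symm u')‖ := by
      rw [← LinearIsometryEquiv.norm_map Q (Q.symm u' - Q'.symm u'), map_sub,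
        Q.apply_symm_apply, Q'.apply_symm_apply]
    rw [g1, norm_sub_rev, hQ, hQ']
    refine (norm_cay_sub_le ha ha' _).trans ?_
    rw [LinearIsometryEquiv.norm_map]
    exact mul_le_mul_of_nonneg_left (hW.b1 _) (by positivity)
  have f3 : Q.symm u - Q'.symm u' = (Q.symm u - Q.symm u') + (Q.symm u' - Q'.symm u') := by abel
  rw [f3]
  refine (norm_add_le _ _).trans ?_
  linarith

lemma tr_sq_comp_isometry (hW : ContDiff ℝ 2 W) (Q : E ≃ₗᵢ[ℝ] E) (x : E) :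
    tr ((fderiv ℝ (grad (fun y => W (Q y))) x).comp (fderiv ℝ (grad (fun y => W (Q y))) x))
      = tr ((fderiv ℝ (grad W) (Q x)).comp (fderiv ℝ (grad W) (Q x))) := by
  have h6 : ((Q.symm.toContinuousLinearEquiv : E →L[ℝ] E).comp
      ((fderiv ℝ (grad W) (Q x)).comp (Q.toContinuousLinearEquiv : E →L[ℝ] E))).comp
      ((Q.symm.toContinuousLinearEquiv : E →L[ℝ] E).comp
      ((fderiv ℝ (grad W) (Q x)).comp (Q.toContinuousLinearEquiv : E →L[ℝ] E)))
      = (Q.symm.toContinuousLinearEquiv : E →L[ℝ] E).comp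
        (((fderiv ℝ (grad W) (Q x)).comp (fderiv ℝ (grad W) (Q x))).comp
          (Q.toContinuousLinearEquiv : E →L[ℝ] E)) := by
    ext v; simp
  rw [fderiv_grad_comp_isometry hW, h6, tr_conj]

lemma continuous_tr_sq (hW : TubeD W c K) :
    Continuous fun x => tr ((fderiv ℝ (grad W) x).comp (fderiv ℝ (grad W) x)) := by
  have h1 : Continuous (fderiv ℝ (grad W)) := hW.grad_cd.continuous_fderiv (by norm_num)
  have h2 : Continuous fun x => (fderiv ℝ (grad W) x).comp (fderiv ℝ (grad W) x) :=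
    h1.clm_comp h1
  have h3 : (fun x => tr ((fderiv ℝ (grad W) x).comp (fderiv ℝ (grad W) x)))
      = fun x => trL E ((fderiv ℝ (grad W) x).comp (fderiv ℝ (grad W) x)) := rfl
  rw [h3]
  exact (trL E).continuous.comp h2

/-- the operator of the Jacobi field in the rotated frame -/
lemma exists_frame (hW : TubeD W c K) {a b : E →L[ℝ] E} (ha : a ∈ skew E) (hb : b ∈ skew E) :
    ∃ A ∈ skew E, (∀ x, ‖A x‖ ≤ 2 * ‖b‖ * ‖x‖) ∧
      ∀ x, ⟪grad W (cay a x), dcay a b x⟫ = ⟪grad (fun y => W (cay a y)) x, A x⟫ := by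
  obtain ⟨Q, hQ⟩ := exists_cayE ha
  have hW1 : ContDiff ℝ 1 W := hW.smooth.of_le (by norm_num)
  refine ⟨(Q.symm.toContinuousLinearEquiv : E →L[ℝ] E).comp (dcay a b), fun x => ?_, fun x => ?_,
    fun x => ?_⟩
  · change ⟪Q.symm (dcay a b x), x⟫ = 0
    rw [← Q.inner_map_map, Q.apply_symm_apply, hQ]
    exact inner_dcay_cay ha hb x
  · change ‖Q.symm (dcay a b x)‖ ≤ _
    rw [LinearIsometryEquiv.norm_map]
    exact norm_dcay_le ha b x
  · have e1 : (fun y => W (cay a y)) = fun y => W (Q y) := by ext y; rw [hQ]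
    rw [e1, grad_comp_isometry hW1]
    change _ = ⟪Q.symm (grad W (Q x)), Q.symm (dcay a b x)⟫
    rw [LinearIsometryEquiv.inner_map_map, hQ]

lemma TubeD.cay (hW : TubeD W c K) {a : E →L[ℝ] E} (ha : a ∈ skew E) :
    TubeD (fun x => W (cay a x)) c K := by
  obtain ⟨Q, hQ⟩ := exists_cayE ha
  have e1 : (fun y => W (H313.cay a y)) = fun y => W (Q y) := by ext y; rw [hQ]
  rw [e1]
  exact hW.comp Q

/-- continuity of the Jacobi operator along the family -/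
lemma jac_cont (hW : TubeD W c K) {ζ : E → ℝ} (hζ : ContDiff ℝ (⊤ : ℕ∞) ζ)
    (hζc : HasCompactSupport ζ) {ε : ℝ} (hε : 0 < ε) :
    ∃ η > 0, ∀ a ∈ skew E, ‖a‖ ≤ η → ∀ x,
      |jac (fun y => W (cay a y)) ζ x - jac W ζ x| ≤ ε := by
  have hprop : ProperSpace E := FiniteDimensional.proper_real E
  have hK := hW.K_nonneg
  obtain ⟨R', hR'⟩ := hζc.isCompact.isBounded.subset_closedBall (0 : E)
  set R : ℝ := max R' 0 with hRdef
  have hR0 : 0 ≤ R := le_max_right _ _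
  have hR : tsupport ζ ⊆ closedBall (0 : E) R :=
    hR'.trans (closedBall_subset_closedBall (le_max_left _ _))
  have hζ2 : ContDiff ℝ 2 ζ := by exact_mod_cast contDiff_infty.1 hζ 2
  have hg1 : ContDiff ℝ 1 (grad ζ) := contDiff_grad_one hζ2
  have hH : Continuous (fderiv ℝ (grad ζ)) := hg1.continuous_fderiv (by norm_num)
  -- vanishing outside
  have hout : ∀ x, x ∉ closedBall (0 : E) R → ζ x = 0 ∧ fderiv ℝ (grad ζ) x = 0 := by
    intro x hx
    have h1 : x ∉ tsupport ζ := fun h => hx (hR h)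
    have h2 : ζ =ᶠ[𝓝 x] 0 := notMem_tsupport_iff_eventuallyEq.1 h1
    have h3 : grad ζ =ᶠ[𝓝 x] 0 := by
      have h4 := h2.eventuallyEq_nhds
      filter_upwards [h4] with y hy
      have h5 : fderiv ℝ ζ y = 0 := by rw [hy.fderiv_eq]; simp
      refine grad_unique fun v => ?_
      rw [h5]; simp
    refine ⟨h2.eq_of_nhds, ?_⟩
    rw [h3.fderiv_eq]; simp
  obtain ⟨B₁, hB₁⟩ := (isCompact_closedBall (0 : E) R).exists_bound_of_continuousOn hH.continuousOn
  obtain ⟨B₂, hB₂⟩ := (isCompact_closedBall (0 : E) R).exists_bound_of_continuousOn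
    hζ.continuous.continuousOn
  set B : ℝ := |B₁| + |B₂| + 1 with hB
  have hBp : 0 < B := by positivity
  -- uniform continuity of the shape term
  have huc := (isCompact_closedBall (0 : E) R).uniformContinuousOn_of_continuous
    (continuous_tr_sq hW).continuousOn
  rw [Metric.uniformContinuousOn_iff] at huc
  obtain ⟨η₁, hη₁, huc⟩ := huc (ε / (2 * B)) (by positivity)
  set D : ℝ := 2 * K * B * (2 * K * (1 + R)) + 1 with hD
  have hDp : 0 < D := by positivity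
  refine ⟨min (η₁ / (2 * R + 1) / 2) (ε / (2 * D)), lt_min (by positivity) (by positivity),
    fun a ha han x => ?_⟩
  have ha1 : ‖a‖ ≤ η₁ / (2 * R + 1) / 2 := han.trans (min_le_left _ _)
  have ha2 : ‖a‖ ≤ ε / (2 * D) := han.trans (min_le_right _ _)
  by_cases hx : x ∈ closedBall (0 : E) R
  · have hxn : ‖x‖ ≤ R := mem_closedBall_zero_iff.1 hx
    obtain ⟨Q, hQ⟩ := exists_cayE ha
    have hQx : ‖Q x‖ ≤ R := by rw [LinearIsometryEquiv.norm_map]; exact hxn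
    have e1 : (fun y => W (cay a y)) = fun y => W (Q y) := by ext y; rw [hQ]
    have hg : ‖grad (fun y => W (Q y)) x - grad W x‖ ≤ 2 * K * (1 + R) * ‖a‖ := by
      have h0 : (0 : E →L[ℝ] E) ∈ skew E := (skew E).zero_mem
      have h := norm_grad_cay_sub_le hW ha h0 x
      have e2 : (fun y => W (cay (0 : E →L[ℝ] E) y)) = W := by
        ext y; rw [cay_zero]; rfl
      rw [e2, e1, sub_zero] at h
      refine h.trans ?_
      gcongr
    have hdist : ‖Q x - x‖ ≤ 2 * ‖a‖ * R := by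
      have h0 : (0 : E →L[ℝ] E) ∈ skew E := (skew E).zero_mem
      have h := norm_cay_sub_le ha h0 x
      rw [cay_zero, sub_zero, ← hQ] at h
      change ‖Q x - x‖ ≤ _ at h
      refine h.trans ?_
      gcongr
    have hlt : dist (Q x) x < η₁ := by
      rw [dist_eq_norm]
      refine lt_of_le_of_lt hdist ?_
      have h1 : 2 * ‖a‖ * R ≤ 2 * (η₁ / (2 * R + 1) / 2) * R := by gcongr
      refine lt_of_le_of_lt h1 ?_
      have h2 : 2 * (η₁ / (2 * R + 1) / 2) * R = η₁ * (R / (2 * R + 1)) := by field_simp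
      rw [h2]
      have h3 : R / (2 * R + 1) < 1 := by rw [div_lt_one (by positivity)]; linarith
      nlinarith
    have htr := huc (Q x) (mem_closedBall_zero_iff.2 hQx) x hx hlt
    rw [Real.dist_eq] at htr
    rw [e1]
    unfold jac
    rw [tr_sq_comp_isometry hW.smooth]
    set g := grad (fun y => W (Q y)) x with hgdef
    set g₀ := grad W x with hg₀
    set Hz := fderiv ℝ (grad ζ) x with hHz
    set q := tr ((fderiv ℝ (grad W) (Q x)).comp (fderiv ℝ (grad W) (Q x))) with hq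
    set q₀ := tr ((fderiv ℝ (grad W) x).comp (fderiv ℝ (grad W) x)) with hq₀
    have hgK : ‖g‖ ≤ K := (hW.comp Q).b1 x
    have hg0K : ‖g₀‖ ≤ K := hW.b1 x
    have hHzB : ‖Hz‖ ≤ B := by
      have h1 := hB₁ x hx
      have h2 := le_abs_self B₁
      have h3 := abs_nonneg B₂
      rw [hB]; linarith
    have hzB : |ζ x| ≤ B := by
      have h1 := hB₂ x hx
      rw [Real.norm_eq_abs] at h1
      have h2 := le_abs_self B₂
      have h3 := abs_nonneg B₁
      rw [hB]; linarith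
    have e3 : tr Hz - ⟪Hz g, g⟫ - 1 / 2 * ⟪x, grad ζ x⟫ + (q + 1 / 2) * ζ x
        - (tr Hz - ⟪Hz g₀, g₀⟫ - 1 / 2 * ⟪x, grad ζ x⟫ + (q₀ + 1 / 2) * ζ x)
        = -(⟪Hz (g - g₀), g⟫ + ⟪Hz g₀, g - g₀⟫) + (q - q₀) * ζ x := by
      rw [map_sub, inner_sub_left, inner_sub_right]
      ring
    rw [e3]
    have k1 : |⟪Hz (g - g₀), g⟫| ≤ B * (2 * K * (1 + R) * ‖a‖) * K := by
      refine (abs_real_inner_le_norm _ _).trans ?_
      have h1 : ‖Hz (g - g₀)‖ ≤ B * (2 * K * (1 + R) * ‖a‖) :=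
        (Hz.le_opNorm _).trans (mul_le_mul hHzB hg (norm_nonneg _) hBp.le)
      exact mul_le_mul h1 hgK (norm_nonneg _) (by positivity)
    have k2 : |⟪Hz g₀, g - g₀⟫| ≤ B * K * (2 * K * (1 + R) * ‖a‖) := by
      refine (abs_real_inner_le_norm _ _).trans ?_
      have h1 : ‖Hz g₀‖ ≤ B * K :=
        (Hz.le_opNorm _).trans (mul_le_mul hHzB hg0K (norm_nonneg _) hBp.le)
      exact mul_le_mul h1 hg (norm_nonneg _) (by positivity)
    have k3 : |(q - q₀) * ζ x| ≤ ε / 2 := by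
      rw [abs_mul]
      calc |q - q₀| * |ζ x| ≤ ε / (2 * B) * B := mul_le_mul htr.le hzB (abs_nonneg _) (by positivity)
        _ = ε / 2 := by field_simp
    have k4 : D * ‖a‖ ≤ ε / 2 := by
      calc D * ‖a‖ ≤ D * (ε / (2 * D)) := by gcongr
        _ = ε / 2 := by field_simp
    have k5 : |⟪Hz (g - g₀), g⟫ + ⟪Hz g₀, g - g₀⟫| ≤ D * ‖a‖ := by
      refine (abs_add_le _ _).trans ?_
      have h1 : D * ‖a‖ = B * (2 * K * (1 + R) * ‖a‖) * K + B * K * (2 * K * (1 + R) * ‖a‖)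
          + ‖a‖ := by rw [hD]; ring
      have h2 := norm_nonneg a
      linarith
    refine (abs_add_le _ _).trans ?_
    rw [abs_neg]
    linarith
  · obtain ⟨h1, h2⟩ := hout x hx
    unfold jac
    rw [h1, h2]
    simp [hε.le]

end family

section final

variable {E : Type*} [NormedAddCommGroup E] [InnerProductSpace ℝ E] [FiniteDimensional ℝ E]
  [MeasurableSpace E] [BorelSpace E]
variable {m : ℕ} {W : E → ℝ} {c K : ℝ}

/-- the derivative of the family -/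
noncomputable def cayV (W : E → ℝ) (M' : Submodule ℝ (E →L[ℝ] E)) (a : M') :
    M' →ₗ[ℝ] (E → ℝ) where
  toFun b := fun x => ⟪grad W (cay (a : E →L[ℝ] E) x), dcay (a : E →L[ℝ] E) b x⟫
  map_add' := by
    intro b b'
    ext x
    simp only [Submodule.coe_add, dcay_add, add_apply, inner_add_right, Pi.add_apply]
  map_smul' := by
    intro k b
    ext x
    simp only [Submodule.coe_smul, dcay_smul, smul_apply, real_inner_smul_right, Pi.smul_apply,
      RingHom.id_apply, smul_eq_mul]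

lemma cayV_apply (W : E → ℝ) (M' : Submodule ℝ (E →L[ℝ] E)) (a b : M') (x : E) :
    cayV W M' a b x = ⟪grad W (cay (a : E →L[ℝ] E) x), dcay (a : E →L[ℝ] E) b x⟫ := rfl

/-- **the Cayley family** -/
theorem cayFam (hE : Module.finrank ℝ E = m + 1) (hW : TubeD W c K)
    (M' : Submodule ℝ (E →L[ℝ] E)) (hM' : M' ≤ skew E) :
    ∃ (r K' : ℝ) (q : ℕ) (V' : M' → M' →ₗ[ℝ] (E → ℝ)),
      Fam m (fun (a : M') x => W (cay (a : E →L[ℝ] E) x)) V' r c K' q ∧
        ∀ (b : M') (x : E), V' 0 b x = -2 * ⟪grad W x, (b : E →L[ℝ] E) x⟫ := by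
  have hK := hW.K_nonneg
  have hc := hW.cpos
  set D : ℝ := 1 + (K ^ 2 + 1) * (1 + 1 / c ^ 2) + K with hD
  have hDp : 0 ≤ D := by positivity
  have hone : ∀ x : E, 1 ≤ 1 + ‖x‖ := fun x => by have := norm_nonneg x; linarith
  have hsq : ∀ x : E, 1 + ‖x‖ ≤ (1 + ‖x‖) ^ 2 := fun x => by nlinarith [hone x]
  refine ⟨1, 4 * K + 2 * D, 2, cayV W M', ?_, ?_⟩
  · refine
      { rpos := one_pos
        Knn := by positivity
        tube := fun a ha => (hW.cay (hM' a.2)).mono (by linarith)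
        lip := fun a a' ha ha' x => ?_
        lipg := fun a a' ha ha' x => ?_
        taylor := fun a a' ha ha' x => ?_
        dlip := fun a a' ha ha' b x => ?_
        dsm := fun a ha b => contDiff_inner_grad hW (cay (a : E →L[ℝ] E)) (dcay (a : E →L[ℝ] E) b)
        db0 := fun a ha b x => ?_
        db1 := fun a ha b x => ?_
        jacc := fun ζ hζ hζc ε hε => ?_
        drift := fun a ha b μ T H hS => ?_ }
    · refine (hW.lip0 _ _).trans ?_
      have h1 := norm_cay_sub_le (hM' a.2) (hM' a'.2) x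
      have h2 : ‖a - a'‖ = ‖(a : E →L[ℝ] E) - (a' : E →L[ℝ] E)‖ := rfl
      rw [h2]
      have h3 : ‖x‖ ≤ (1 + ‖x‖) ^ 2 := by linarith [hsq x]
      have h4 : 0 ≤ ‖(a : E →L[ℝ] E) - (a' : E →L[ℝ] E)‖ := norm_nonneg _
      calc K * ‖cay (a : E →L[ℝ] E) x - cay (a' : E →L[ℝ] E) x‖
          ≤ K * (2 * ‖(a : E →L[ℝ] E) - (a' : E →L[ℝ] E)‖ * ‖x‖) := by gcongr
        _ = (2 * K) * ‖x‖ * ‖(a : E →L[ℝ] E) - (a' : E →L[ℝ] E)‖ := by ring
        _ ≤ (4 * K + 2 * D) * (1 + ‖x‖) ^ 2 * ‖(a : E →L[ℝ] E) - (a' : E →L[ℝ] E)‖ := by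
            gcongr
            linarith
    · refine (norm_grad_cay_sub_le hW (hM' a.2) (hM' a'.2) x).trans ?_
      have h2 : ‖a - a'‖ = ‖(a : E →L[ℝ] E) - (a' : E →L[ℝ] E)‖ := rfl
      rw [h2]
      have h3 := hsq x
      gcongr
      linarith
    · have h2 : ‖a' - a‖ = ‖(a' : E →L[ℝ] E) - (a : E →L[ℝ] E)‖ := rfl
      rw [h2]
      set n := ‖(a' : E →L[ℝ] E) - (a : E →L[ℝ] E)‖ with hn
      have hn0 : 0 ≤ n := norm_nonneg _
      set y := cay (a : E →L[ℝ] E) x with hy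
      set y' := cay (a' : E →L[ℝ] E) x with hy'
      have h3 := hW.taylor y y'
      have h4 : ‖y' - y‖ ≤ 2 * n * ‖x‖ := norm_cay_sub_le (hM' a'.2) (hM' a.2) x
      have h5 := norm_cay_taylor_le (hM' a.2) (hM' a'.2) x
      rw [← hy, ← hy', ← hn] at h5
      have h6 : cayV W M' a (a' - a) x
          = ⟪grad W y, dcay (a : E →L[ℝ] E) ((a' : E →L[ℝ] E) - (a : E →L[ℝ] E)) x⟫ := rfl
      rw [h6]
      have h7 : W y' - W y - ⟪grad W y, dcay (a : E →L[ℝ] E)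
          ((a' : E →L[ℝ] E) - (a : E →L[ℝ] E)) x⟫
          = (W y' - W y - ⟪grad W y, y' - y⟫) + ⟪grad W y, y' - y - dcay (a : E →L[ℝ] E)
          ((a' : E →L[ℝ] E) - (a : E →L[ℝ] E)) x⟫ := by
        rw [inner_sub_right (grad W y) (y' - y)]
        ring
      rw [h7]
      refine (abs_add_le _ _).trans ?_
      have h8 : |⟪grad W y, y' - y - dcay (a : E →L[ℝ] E)
          ((a' : E →L[ℝ] E) - (a : E →L[ℝ] E)) x⟫| ≤ K * (2 * n ^ 2 * ‖x‖) :=
        (abs_real_inner_le_norm _ _).trans (mul_le_mul (hW.b1 _) h5 (norm_nonneg _) hK)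
      have h9 : K * ‖y' - y‖ ^ 2 ≤ K * (2 * n * ‖x‖) ^ 2 := by gcongr
      have h10 : K * (2 * n * ‖x‖) ^ 2 + K * (2 * n ^ 2 * ‖x‖)
          ≤ 4 * K * (1 + ‖x‖) ^ 2 * n ^ 2 := by
        have e : 4 * K * (1 + ‖x‖) ^ 2 * n ^ 2 - (K * (2 * n * ‖x‖) ^ 2 + K * (2 * n ^ 2 * ‖x‖))
            = K * n ^ 2 * (4 + 6 * ‖x‖) := by ring
        have : 0 ≤ K * n ^ 2 * (4 + 6 * ‖x‖) := by positivity
        linarith
      have h11 : 4 * K * (1 + ‖x‖) ^ 2 * n ^ 2 ≤ (4 * K + 2 * D) * (1 + ‖x‖) ^ 2 * n ^ 2 := by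
        gcongr
        linarith
      linarith
    · have h2 : ‖a - a'‖ = ‖(a : E →L[ℝ] E) - (a' : E →L[ℝ] E)‖ := rfl
      have hb : ‖b‖ = ‖(b : E →L[ℝ] E)‖ := rfl
      rw [h2, hb]
      set n := ‖(a : E →L[ℝ] E) - (a' : E →L[ℝ] E)‖ with hn
      have hn0 : 0 ≤ n := norm_nonneg _
      rw [cayV_apply, cayV_apply]
      set y := cay (a : E →L[ℝ] E) x with hy
      set y' := cay (a' : E →L[ℝ] E) x with hy'
      set β := ‖(b : E →L[ℝ] E)‖ with hβ
      have hβ0 : 0 ≤ β := norm_nonneg _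
      have h3 : ‖y - y'‖ ≤ 2 * n * ‖x‖ := norm_cay_sub_le (hM' a.2) (hM' a'.2) x
      have h4 : ‖dcay (a : E →L[ℝ] E) b x‖ ≤ 2 * β * ‖x‖ := norm_dcay_le (hM' a.2) _ x
      have h5 : ‖dcay (a : E →L[ℝ] E) b x - dcay (a' : E →L[ℝ] E) b x‖ ≤ 4 * n * β * ‖x‖ :=
        norm_dcay_sub_le (hM' a.2) (hM' a'.2) _ x
      have h6 : ⟪grad W y, dcay (a : E →L[ℝ] E) b x⟫ - ⟪grad W y', dcay (a' : E →L[ℝ] E) b x⟫
          = ⟪grad W y - grad W y', dcay (a : E →L[ℝ] E) b x⟫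
            + ⟪grad W y', dcay (a : E →L[ℝ] E) b x - dcay (a' : E →L[ℝ] E) b x⟫ := by
        rw [inner_sub_left, inner_sub_right]
        ring
      rw [h6]
      refine (abs_add_le _ _).trans ?_
      have h7 : |⟪grad W y - grad W y', dcay (a : E →L[ℝ] E) b x⟫|
          ≤ (K * (2 * n * ‖x‖)) * (2 * β * ‖x‖) := by
        refine (abs_real_inner_le_norm _ _).trans ?_
        refine mul_le_mul ((hW.lip1 _ _).trans ?_) h4 (norm_nonneg _) (by positivity)
        gcongr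
      have h8 : |⟪grad W y', dcay (a : E →L[ℝ] E) b x - dcay (a' : E →L[ℝ] E) b x⟫|
          ≤ K * (4 * n * β * ‖x‖) :=
        (abs_real_inner_le_norm _ _).trans (mul_le_mul (hW.b1 _) h5 (norm_nonneg _) hK)
      have h10 : (K * (2 * n * ‖x‖)) * (2 * β * ‖x‖) + K * (4 * n * β * ‖x‖)
          ≤ 4 * K * (1 + ‖x‖) ^ 2 * n * β := by
        have e : 4 * K * (1 + ‖x‖) ^ 2 * n * β - ((K * (2 * n * ‖x‖)) * (2 * β * ‖x‖)
            + K * (4 * n * β * ‖x‖)) = 4 * (K * n * β) * (1 + ‖x‖) := by ring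
        have : 0 ≤ 4 * (K * n * β) * (1 + ‖x‖) := by positivity
        linarith
      have h11 : 4 * K * (1 + ‖x‖) ^ 2 * n * β ≤ (4 * K + 2 * D) * (1 + ‖x‖) ^ 2 * n * β := by
        gcongr
        linarith
      linarith
    · have hb : ‖b‖ = ‖(b : E →L[ℝ] E)‖ := rfl
      rw [cayV_apply, hb]
      have h1 : |⟪grad W (cay (a : E →L[ℝ] E) x), dcay (a : E →L[ℝ] E) b x⟫|
          ≤ K * (2 * ‖(b : E →L[ℝ] E)‖ * ‖x‖) :=
        (abs_real_inner_le_norm _ _).trans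
          (mul_le_mul (hW.b1 _) (norm_dcay_le (hM' a.2) _ x) (norm_nonneg _) hK)
      refine h1.trans ?_
      have h3 : ‖x‖ ≤ 1 + ‖x‖ := by linarith
      calc K * (2 * ‖(b : E →L[ℝ] E)‖ * ‖x‖) = (2 * K) * ‖x‖ * ‖(b : E →L[ℝ] E)‖ := by ring
        _ ≤ (4 * K + 2 * D) * (1 + ‖x‖) * ‖(b : E →L[ℝ] E)‖ := by
            gcongr
            linarith
    · have hb : ‖b‖ = ‖(b : E →L[ℝ] E)‖ := rfl
      rw [hb]
      have h1 := norm_grad_inner_grad_le hW (Q := cay (a : E →L[ℝ] E))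
        (B := dcay (a : E →L[ℝ] E) b) (β := 2 * ‖(b : E →L[ℝ] E)‖) (norm_cay (hM' a.2))
        (by positivity) (norm_dcay_le (hM' a.2) _) x
      refine h1.trans ?_
      calc K * (2 * ‖(b : E →L[ℝ] E)‖) * (1 + ‖x‖)
          = (2 * K) * (1 + ‖x‖) * ‖(b : E →L[ℝ] E)‖ := by ring
        _ ≤ (4 * K + 2 * D) * (1 + ‖x‖) * ‖(b : E →L[ℝ] E)‖ := by
            gcongr
            linarith
    · obtain ⟨η, hη, h⟩ := jac_cont hW hζ hζc hε
      refine ⟨η, hη, fun a _ han x => ?_⟩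
      have e : (fun x => W (cay ((0 : M') : E →L[ℝ] E) x)) = W := by
        ext y
        rw [Submodule.coe_zero, cay_zero]
        rfl
      rw [e]
      exact h a (hM' a.2) han x
    · have hb : ‖b‖ = ‖(b : E →L[ℝ] E)‖ := rfl
      rw [hb]
      obtain ⟨A, hA, hAb, hAe⟩ := exists_frame hW (hM' a.2) (hM' b.2)
      have e : (fun y => W (cay (a : E →L[ℝ] E) y) * cayV W M' a b y)
          = fun y => W (cay (a : E →L[ℝ] E) y)
            * ⟪grad (fun y => W (cay (a : E →L[ℝ] E) y)) y, A y⟫ := by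
        ext y
        rw [cayV_apply, hAe]
      rw [e]
      have h := drift_est hE (hW.cay (hM' a.2)) hA (β := 2 * ‖(b : E →L[ℝ] E)‖) (by positivity)
        hAb hS
      refine h.trans ?_
      have h0 : 0 ≤ DD μ (fun y => W (cay (a : E →L[ℝ] E) y)) 1
          + TG μ T (fun y => W (cay (a : E →L[ℝ] E) y)) 1 + dis μ T H := by
        have := DD_nonneg (μ := μ) (W := fun y => W (cay (a : E →L[ℝ] E) y)) 1
        have := TG_nonneg (μ := μ) (T := T) (W := fun y => W (cay (a : E →L[ℝ] E) y)) 1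
        have := dis_nonneg (μ := μ) (T := T) (H := H)
        linarith
      refine mul_le_mul_of_nonneg_right ?_ h0
      rw [← hD]
      calc D * (2 * ‖(b : E →L[ℝ] E)‖) = (2 * D) * ‖(b : E →L[ℝ] E)‖ := by ring
        _ ≤ (4 * K + 2 * D) * ‖(b : E →L[ℝ] E)‖ := by
            gcongr
            linarith
  · intro b x
    rw [cayV_apply, Submodule.coe_zero, cay_zero, dcay_zero]
    change ⟪grad W x, (-2 : ℝ) • ((b : E →L[ℝ] E) x)⟫ = _
    rw [real_inner_smul_right]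

end final

end Vale.Agent.P218.H313
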