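import Vale.Agent.P218.H313.Main
import Vale.Agent.P218.H313.A1
import Vale.Agent.P218.H313.CayFam
import Vale.Agent.P218.Assembly

/-! Nondegenerate shrinkers: uniqueness of tangent flows. -/

open MeasureTheory Set Filter Topology Metric
open scoped ENNReal NNReal RealInnerProductSpace CompactlySupported

namespace Vale.Agent.P218.H313

open Vale.Agent.P214 (IntegralVarifold proj divAlong IsTestField)
open Vale.Agent.P218.H552 (BF NN)

set_option linter.unusedSectionVars false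
set_option linter.unusedVariables false

variable {E : Type*} [NormedAddCommGroup E] [InnerProductSpace ℝ E] [FiniteDimensional ℝ E]
  [MeasurableSpace E] [BorelSpace E]
variable {m : ℕ}
variable {P : Type*} [NormedAddCommGroup P] [NormedSpace ℝ P]
  {V : P → E → ℝ} {V' : P → P →ₗ[ℝ] (E → ℝ)} {r c K : ℝ} {q : ℕ}

lemma RF.later {N : ℝ → Measure E} {T : ℝ → E → Submodule ℝ E} {H : ℝ → E → E} {s₀ s₁ : ℝ}
    (h : RF m N T H s₀) (hs : s₀ ≤ s₁) : RF m N T H s₁ where
  fin s h' := h.fin s (hs.trans h')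
  gauss := by
    obtain ⟨C, hC⟩ := h.gauss
    exact ⟨C, fun s h' => hC s (hs.trans h')⟩
  ratio := by
    obtain ⟨C, hC⟩ := h.ratio
    exact ⟨C, fun s h' => hC s (hs.trans h')⟩
  slice := by
    filter_upwards [h.slice] with s h1 h2
    exact h1 (hs.trans h2)
  ineq f h1 h2 h3 a b h4 h5 := h.ineq f h1 h2 h3 a b (hs.trans h4) h5

/-- limits of a slowly varying family agree if the integrals of `C²` functions converge -/
lemma limitSet_subsingleton {N : ℝ → Measure E} {τ₀ : ℝ} (hN : Slow N τ₀)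
    (h : ∀ φ : E → ℝ, ContDiff ℝ 2 φ → HasCompactSupport φ →
      ∃ l, Tendsto (fun τ => ∫ x, φ x ∂(N τ)) atTop (𝓝 l)) :
    (limitSet N).Subsingleton := by
  intro κ ⟨hκ, τ, hτ, hτκ⟩ κ' ⟨hκ', τ', hτ', hτκ'⟩
  obtain ⟨n₀, hn₀⟩ := eventually_atTop.1 (hτ.eventually_ge_atTop τ₀)
  have hsh : Tendsto (fun n : ℕ => n + n₀) atTop atTop := tendsto_add_atTop_nat n₀
  have h1 : WeakTendsto (fun i => N (τ (i + n₀))) κ := fun φ hφ hφc =>
    (hτκ φ hφ hφc).comp hsh
  have h2 : WeakTendsto (fun i => N (τ (i + n₀))) κ' := by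
    refine weakTendsto_of_contDiff hN (fun i => hn₀ _ (by omega)) fun φ hφ hφc => ?_
    obtain ⟨l, hl⟩ := h φ hφ hφc
    have h3 := tendsto_nhds_unique (hτκ' φ hφ.continuous hφc) (hl.comp hτ')
    rw [h3]
    exact hl.comp (hτ.comp hsh)
  exact weakTendsto_unique h1 h2

/-- **Uniqueness of the tangent flow**, for a family of shrinkers containing all the Jacobi
fields. -/
theorem Fam.unique [FiniteDimensional ℝ P] (hm : 0 < m) (hE : Module.finrank ℝ E = m + 1)
    (hF : Fam m V V' r c K q) {μ : ℝ → Measure E} (hμ : IsIntegralBrakkeFlow m μ)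
    (h0 : μ 0 univ < ⊤) (x₀ : E) {t₀ : ℝ} (ht : 0 < t₀)
    (hκ : (μH[m] : Measure E).restrict {x | V 0 x = 0} ∈ tangentSlices m μ x₀ t₀)
    (hinj : ∀ b : P, (∀ᵐ x ∂(μH[m] : Measure E).restrict {x | V 0 x = 0}, V' 0 b x = 0) → b = 0)
    (hnd : ∀ u : E → ℝ, AEStronglyMeasurable u ((μH[m] : Measure E).restrict {x | V 0 x = 0}) →
      Integrable (fun x => u x ^ 2 * rho x) ((μH[m] : Measure E).restrict {x | V 0 x = 0}) →
      (∀ ζ : E → ℝ, ContDiff ℝ (⊤ : ℕ∞) ζ → HasCompactSupport ζ →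
        ∫ x, u x * jac (V 0) ζ x * rho x ∂(μH[m] : Measure E).restrict {x | V 0 x = 0} = 0) →
      ∃ b, u =ᵐ[(μH[m] : Measure E).restrict {x | V 0 x = 0}] V' 0 b) :
    TangentFlowUnique m μ x₀ t₀ := by
  obtain ⟨T, H, s₀, hRF⟩ := exists_RF hμ h0 x₀ ht
  obtain ⟨T', H', hB, -⟩ := A1.exists_BF_slice hμ
  have hslow := H552.slow_NN hB h0 x₀ ht
  set κ := (μH[m] : Measure E).restrict {x | V 0 x = 0} with hκd
  rw [H552.tangentSlices_eq hB h0 x₀ ht] at hκ
  rw [unique_iff hB h0 x₀ ht, H552.tangentSlices_eq hB h0 x₀ ht]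
  obtain ⟨hlf, τ, hτ, hτκ⟩ := hκ
  have hWt := hF.tube 0 (by simpa using hF.rpos.le)
  set s₁ := max s₀ (2 * H552.tau0 t₀) with hs₁
  have hslow' : Slow (fun s => NN m μ x₀ t₀ (s / 2)) s₁ := by
    constructor
    · intro K hK
      obtain ⟨C, hC⟩ := hslow.bdd K hK
      refine ⟨C, fun τ hτ => hC _ ?_⟩
      have := (le_max_right s₀ (2 * H552.tau0 t₀)).trans hτ
      linarith
    · intro φ hφ hφc h hh ε hε
      obtain ⟨S, hS0, hS⟩ := hslow.slow φ hφ hφc (h / 2) (half_pos hh) ε hε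
      refine ⟨max s₁ (2 * S), le_max_left _ _, fun τ τ' h1 h2 h3 => hS _ _ ?_ ?_ ?_⟩
      · have := (le_max_right s₁ (2 * S)).trans h1
        linarith
      · linarith
      · linarith
  have hseq : ∃ τ : ℕ → ℝ, Tendsto τ atTop atTop ∧
      WeakTendsto (fun i => NN m μ x₀ t₀ (τ i / 2)) κ := by
    refine ⟨fun i => 2 * τ i, hτ.const_mul_atTop two_pos, ?_⟩
    have e : ∀ i, 2 * τ i / 2 = τ i := fun i => by ring
    simp_rw [e]
    exact hτκ
  have hV0 : ∀ᵐ x ∂κ, V 0 x = 0 := by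
    rw [hκd]
    exact ae_restrict_mem (isClosed_eq hWt.cont continuous_const).measurableSet
  refine limitSet_subsingleton hslow fun φ hφ hφc => ?_
  obtain ⟨L, hL⟩ := (hRF.later (le_max_left s₀ (2 * H552.tau0 t₀))).converge hm hE hslow' hF hV0
    (fun x c hc => density_le hE hWt x hc) hseq hinj hnd hφ hφc
  refine ⟨L, ?_⟩
  have h2 := hL.comp (tendsto_id.const_mul_atTop (two_pos : (0 : ℝ) < 2))
  refine h2.congr fun τ => ?_
  simp only [Function.comp, id]
  have e : 2 * τ / 2 = τ := by ring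
  rw [e]

/-- **Uniqueness of the tangent flow** at a point where one tangent flow is a shrinker with
multiplicity one, a uniform tubular neighbourhood, and no Jacobi fields but rotations. -/
theorem unique_of_tubeD {W : E → ℝ} (hm : 0 < m) (hE : Module.finrank ℝ E = m + 1)
    (hW : TubeD W c K) {μ : ℝ → Measure E} (hμ : IsIntegralBrakkeFlow m μ)
    (h0 : μ 0 univ < ⊤) (x₀ : E) {t₀ : ℝ} (ht : 0 < t₀)
    (hκ : (μH[m] : Measure E).restrict {x | W x = 0} ∈ tangentSlices m μ x₀ t₀)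
    (hnd : ∀ u : E → ℝ, AEStronglyMeasurable u ((μH[m] : Measure E).restrict {x | W x = 0}) →
      Integrable (fun x => u x ^ 2 * rho x) ((μH[m] : Measure E).restrict {x | W x = 0}) →
      (∀ ζ : E → ℝ, ContDiff ℝ (⊤ : ℕ∞) ζ → HasCompactSupport ζ →
        ∫ x, u x * jac W ζ x * rho x ∂(μH[m] : Measure E).restrict {x | W x = 0} = 0) →
      ∃ A ∈ skew E, u =ᵐ[(μH[m] : Measure E).restrict {x | W x = 0}]
        fun x => ⟪A x, grad W x⟫) :
    TangentFlowUnique m μ x₀ t₀ := by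
  set κ := (μH[m] : Measure E).restrict {x | W x = 0} with hκd
  -- the stabiliser algebra and a complement
  let st : Submodule ℝ (E →L[ℝ] E) :=
    { carrier := {A | A ∈ skew E ∧ ∀ᵐ x ∂κ, ⟪A x, grad W x⟫ = 0}
      add_mem' := by
        rintro A B ⟨hA, hA'⟩ ⟨hB, hB'⟩
        refine ⟨(skew E).add_mem hA hB, ?_⟩
        filter_upwards [hA', hB'] with x h1 h2
        rw [add_apply, inner_add_left, h1, h2, add_zero]
      zero_mem' := ⟨(skew E).zero_mem, Eventually.of_forall fun x => by simp⟩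
      smul_mem' := by
        rintro k A ⟨hA, hA'⟩
        refine ⟨(skew E).smul_mem k hA, ?_⟩
        filter_upwards [hA'] with x h1
        rw [smul_apply, real_inner_smul_left, h1, mul_zero] }
  have hst : st ≤ skew E := fun A hA => hA.1
  obtain ⟨Q, hQ⟩ := exists_isCompl st
  set M' : Submodule ℝ (E →L[ℝ] E) := Q ⊓ skew E with hM'
  have hM'sk : M' ≤ skew E := inf_le_right
  have hsum : st ⊔ M' = skew E := by
    rw [hM', ← sup_inf_assoc_of_le Q hst, hQ.sup_eq_top, top_inf_eq]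
  have hdis : ∀ A ∈ M', A ∈ st → A = 0 := by
    intro A h1 h2
    have : A ∈ st ⊓ Q := ⟨h2, h1.1⟩
    rwa [hQ.inf_eq_bot, Submodule.mem_bot] at this
  obtain ⟨r, K', q, V', hF, hV'⟩ := cayFam hE hW M' hM'sk
  have hV0 : ∀ x, W (cay ((0 : M') : E →L[ℝ] E) x) = W x := by
    intro x
    simp [cay_zero]
  refine hF.unique hm hE hμ h0 x₀ ht ?_ ?_ ?_
  · simp_rw [hV0]; exact hκ
  · intro b hb
    simp_rw [hV0] at hb
    have h1 : (b : E →L[ℝ] E) ∈ st := by
      refine ⟨hM'sk b.2, ?_⟩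
      filter_upwards [hb] with x hx
      rw [hV'] at hx
      rw [real_inner_comm]
      linarith
    exact Subtype.ext (hdis _ b.2 h1)
  · simp_rw [hV0]
    intro u h1 h2 h3
    obtain ⟨A, hA, hu⟩ := hnd u h1 h2 h3
    rw [← hsum] at hA
    obtain ⟨s, hs, b, hb, rfl⟩ := Submodule.mem_sup.1 hA
    refine ⟨⟨(-(1 / 2) : ℝ) • b, M'.smul_mem _ hb⟩, ?_⟩
    filter_upwards [hu, hs.2] with x h4 h5
    rw [h4, hV']
    simp only [add_apply, inner_add_left, h5, zero_add, smul_apply, real_inner_smul_right]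
    rw [real_inner_comm]
    ring

end Vale.Agent.P218.H313
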