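import Vale.Agent.P218.H313.W1

/-! The natural hypotheses on a self-shrinker with a uniform tubular neighbourhood give `TubeD`. -/

open MeasureTheory Set Filter Topology Metric
open scoped ENNReal NNReal RealInnerProductSpace

namespace Vale.Agent.P218.H313

open Vale.Agent.P218.H63 (IsTubeShrinker TruncBasic lap hessSq)

set_option linter.unusedSectionVars false

variable {E : Type*} [NormedAddCommGroup E] [InnerProductSpace ℝ E] [FiniteDimensional ℝ E]
variable {S : Set E} {w : E → ℝ} {δ C : ℝ}

/-- **Truncation.** A self-shrinker with a uniform tubular neighbourhood is the zero set of a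
function with `TubeD`, which agrees with the signed distance near it. -/
theorem exists_tubeD (h : IsTubeShrinker S w δ C) :
    ∃ (W : E → ℝ) (c K : ℝ), TubeD W c K ∧ (∀ x, W x = 0 ↔ x ∈ S) ∧ c < δ ∧
      (∀ x, |w x| < c → W =ᶠ[𝓝 x] w) ∧ (∀ x, |W x| < c → |w x| < c) ∧
      (∀ x, |w x| < c → grad W x = gradient w x) ∧
      (∀ x, |w x| < c → fderiv ℝ (grad W) x = fderiv ℝ (gradient w) x) := by
  obtain ⟨W, K, a, K₁, K₂, b⟩ := h.exists_basic
  have ha := b.a0
  have hsmall : ∀ x, |W x| < a → |w x| < a := by
    intro x hx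
    by_contra hcon
    push Not at hcon
    have := b.big x hcon
    linarith
  set N : ℝ := (Module.finrank ℝ E : ℝ) with hN
  have hN0 : 0 ≤ N := Nat.cast_nonneg _
  have hK0 := b.K0
  have q1 := b.K₁0
  have q2 := b.K₂0
  set K' := 2 * a + 1 + K₁ + K₂ + 2 * N * K ^ 3 with hK'
  have q3 : 0 ≤ 2 * N * K ^ 3 := by positivity
  refine ⟨W, a, K', ⟨ha, b.smooth, fun x => (b.Wle x).trans (by linarith),
    fun x => (b.gle x).trans (by linarith), fun x => (b.Hle x).trans (by linarith),
    fun x => (b.inn x).trans (by linarith), fun x hx => ?_, fun x hx => ?_⟩, fun x => ?_,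
    by linarith [b.aδ], b.near, hsmall, b.eqG, b.eqH⟩
  · have hx' := hsmall x hx
    rw [grad_eq_gradient, b.eqG x hx']
    exact b.tube.norm_grad x (by linarith [b.aδ])
  · have hx' := hsmall x hx
    have h1 := b.tube.expand b.K0 (show |w x| < δ by linarith [b.aδ])
    rw [grad_eq_gradient, b.eqG x hx', b.eqH x hx', b.eqW x hx']
    have e : tr (fderiv ℝ (gradient w) x) - 1 / 2 * ⟪x, gradient w x⟫
        + (tr ((fderiv ℝ (gradient w) x).comp (fderiv ℝ (gradient w) x)) + 1 / 2) * w x
        = lap w x - ⟪x, gradient w x⟫ / 2 + w x * (hessSq w x + 1 / 2) := by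
      unfold lap hessSq tr
      ring
    rw [e]
    refine h1.trans (mul_le_mul_of_nonneg_right (by linarith) (sq_nonneg _))
  · rw [b.tube.mem_iff]
    constructor
    · intro hx
      by_contra hne
      rcases lt_or_ge (|w x|) a with h1 | h1
      · rw [b.eqW x h1] at hx; exact hne hx
      · have := b.big x h1
        rw [hx, abs_zero] at this
        linarith
    · intro hx
      rw [b.eqW x (by rw [hx, abs_zero]; exact ha), hx]

end Vale.Agent.P218.H313
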