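import Vale.Agent.P218.H313.PG

/-! Package A2: analysis of the rescaled flow: moments, Gaussian slices, the weighted Brakke
inequality for test functions of polynomial growth. -/

open MeasureTheory Set Filter Topology Metric
open scoped ENNReal NNReal RealInnerProductSpace

namespace Vale.Agent.P218.H313

open Vale.Agent.P214 (IntegralVarifold proj divAlong IsTestField)
open Vale.Agent.P218.H552 (MC BF NN chi bump yy hh)

set_option linter.unusedSectionVars false
set_option linter.unusedVariables false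

variable {E : Type*} [NormedAddCommGroup E] [InnerProductSpace ℝ E] [FiniteDimensional ℝ E]
  [MeasurableSpace E] [BorelSpace E]
variable {m : ℕ}

namespace A2

section static

variable {μ : Measure E} {T : E → Submodule ℝ E} {H : E → E}

lemma vel_eq_hh (T : E → Submodule ℝ E) (H : E → E) (x : E) : vel T H x = hh T H 1 0 x := by
  unfold vel hh yy
  simp

lemma norm_vel_sq_le (T : E → Submodule ℝ E) (H : E → E) (x : E) :
    ‖vel T H x‖ ^ 2 ≤ 2 * ‖H x‖ ^ 2 + 2 * ‖x‖ ^ 2 := by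
  rw [vel_eq_hh]
  refine (H552.norm_hh_sq_le 1 0 x).trans (le_of_eq ?_)
  unfold yy
  simp

lemma integrable_cpt (h : Slice m μ T H) {u : E → ℝ} (hu : AEStronglyMeasurable u μ) {K : Set E}
    (hK : IsCompact K) (hz : ∀ x, x ∉ K → u x = 0) {C : ℝ} (hC : 0 ≤ C)
    (hb : ∀ x, |u x| ≤ C * (1 + ‖vel T H x‖ ^ 2)) : Integrable u μ := by
  have := h.mc.fin
  obtain ⟨R, hR⟩ := hK.isBounded.subset_closedBall (0 : E)
  refine H552.integrable_of_bound h.mc.locL2 hu hK hz (C := C * (2 + 2 * R ^ 2))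
    (Eventually.of_forall fun x => ?_)
  by_cases hx : x ∈ K
  · have h1 := hR hx
    rw [mem_closedBall, dist_zero_right] at h1
    have h2 : ‖x‖ ^ 2 ≤ R ^ 2 := pow_le_pow_left₀ (norm_nonneg _) h1 2
    have h3 := norm_vel_sq_le T H x
    refine (hb x).trans ?_
    rw [mul_assoc]
    apply mul_le_mul_of_nonneg_left _ hC
    nlinarith [sq_nonneg ‖H x‖, sq_nonneg R, mul_nonneg (sq_nonneg R) (sq_nonneg ‖H x‖)]
  · rw [hz x hx, abs_zero]
    have : 0 ≤ R ^ 2 := sq_nonneg R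
    positivity

/-- the integrand of the rate functional -/
noncomputable def li (T : E → Submodule ℝ E) (H : E → E) (f : E → ℝ) (x : E) : ℝ :=
  (fderiv ℝ f x (vel T H x) - f x * ‖vel T H x‖ ^ 2) * rho x

lemma LL_eq_li (f : E → ℝ) : LL μ T H f = ∫ x, li T H f x ∂μ := rfl

lemma norm_le_one_add_sq (v : E) : ‖v‖ ≤ 1 + ‖v‖ ^ 2 := by
  nlinarith [sq_nonneg (‖v‖ - 1), norm_nonneg v]

lemma abs_li_le (f : E → ℝ) (x : E) {A B : ℝ} (h1 : ‖grad f x‖ ≤ A) (h2 : |f x| ≤ B) :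
    |li T H f x| ≤ (A * ‖vel T H x‖ + B * ‖vel T H x‖ ^ 2) * rho x := by
  unfold li
  rw [abs_mul, abs_of_pos (rho_pos x)]
  refine mul_le_mul_of_nonneg_right ?_ (rho_pos x).le
  refine (abs_sub _ _).trans (add_le_add ?_ ?_)
  · rw [← inner_grad]
    exact (abs_real_inner_le_norm _ _).trans (mul_le_mul_of_nonneg_right h1 (norm_nonneg _))
  · rw [abs_mul, abs_of_nonneg (sq_nonneg ‖vel T H x‖)]
    exact mul_le_mul_of_nonneg_right h2 (sq_nonneg _)

lemma li_meas (h : Slice m μ T H) {f : E → ℝ} (hf : ContDiff ℝ 1 f) :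
    AEStronglyMeasurable (li T H f) μ := by
  unfold li
  exact (((aesm_clm_apply (hf.continuous_fderiv (by norm_num)).aestronglyMeasurable
    h.vel_meas).sub (hf.continuous.aestronglyMeasurable.mul (h.vel_meas.norm.pow 2)))).mul
    continuous_rho.aestronglyMeasurable

lemma integrable_li (h : Slice m μ T H) {f : E → ℝ} (hf : ContDiff ℝ 1 f)
    (hfc : HasCompactSupport f) : Integrable (li T H f) μ := by
  obtain ⟨A, hA⟩ := hfc.exists_bound_of_continuous hf.continuous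
  obtain ⟨B, hB⟩ := (hfc.fderiv (𝕜 := ℝ)).exists_bound_of_continuous
    (hf.continuous_fderiv (by norm_num))
  have hA0 : 0 ≤ A := (norm_nonneg _).trans (hA 0)
  have hB0 : 0 ≤ B := (norm_nonneg _).trans (hB 0)
  refine integrable_cpt h (li_meas h hf) hfc.isCompact (C := A + B) ?_ (by positivity) ?_
  · intro x hx
    have h2 : x ∉ tsupport (fderiv ℝ f) := fun h => hx (tsupport_fderiv_subset ℝ h)
    unfold li
    rw [image_eq_zero_of_notMem_tsupport hx, image_eq_zero_of_notMem_tsupport h2]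
    simp
  · intro x
    have h1 := abs_li_le (T := T) (H := H) f x (A := B) (B := A) (by rw [norm_grad]; exact hB x)
      (hA x)
    refine h1.trans ?_
    have h3 := norm_le_one_add_sq (vel T H x)
    have h4 := rho_le_one x
    have h5 := (rho_pos x).le
    have h6 : 0 ≤ B * ‖vel T H x‖ + A * ‖vel T H x‖ ^ 2 := by positivity
    have h7 : B * ‖vel T H x‖ ≤ B * (1 + ‖vel T H x‖ ^ 2) := mul_le_mul_of_nonneg_left h3 hB0
    calc (B * ‖vel T H x‖ + A * ‖vel T H x‖ ^ 2) * rho x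
        ≤ (B * ‖vel T H x‖ + A * ‖vel T H x‖ ^ 2) * 1 := mul_le_mul_of_nonneg_left h4 h6
      _ ≤ (A + B) * (1 + ‖vel T H x‖ ^ 2) := by nlinarith

/-- cut off functions -/
noncomputable def ctf (f : E → ℝ) (n : ℕ) (x : E) : ℝ := cut n x ^ 2 * f x

lemma ctf_cd {f : E → ℝ} (hf : ContDiff ℝ 1 f) (n : ℕ) : ContDiff ℝ 1 (ctf f n) :=
  ((contDiff_cut n).pow 2).mul hf

lemma ctf_cpt (f : E → ℝ) (n : ℕ) : HasCompactSupport (ctf f n) := by
  have : HasCompactSupport (fun x : E => cut n x ^ 2) := by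
    have h := cut_compact (E := E) n
    have e : (fun x : E => cut n x ^ 2) = fun x => cut n x * cut n x := by ext x; ring
    rw [e]
    exact h.mul_right
  exact this.mul_right

lemma ctf_nonneg {f : E → ℝ} (hf : ∀ x, 0 ≤ f x) (n : ℕ) (x : E) : 0 ≤ ctf f n x :=
  mul_nonneg (sq_nonneg _) (hf x)

lemma cut_sq_le_one (n : ℕ) (x : E) : cut n x ^ 2 ≤ 1 :=
  pow_le_one₀ (cut_nonneg n x) (cut_le_one n x)

lemma abs_ctf_le (f : E → ℝ) (n : ℕ) (x : E) : |ctf f n x| ≤ |f x| := by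
  unfold ctf
  rw [abs_mul, abs_of_nonneg (sq_nonneg (cut n x))]
  have := cut_sq_le_one n x
  have h2 := abs_nonneg (f x)
  nlinarith

lemma grad_ctf {f : E → ℝ} (hf : ContDiff ℝ 1 f) (n : ℕ) (x : E) :
    grad (ctf f n) x = (cut n x ^ 2) • grad f x + (2 * f x * cut n x) • grad (cut n) x := by
  have h1 : DifferentiableAt ℝ (cut n : E → ℝ) x :=
    (contDiff_cut n).differentiable (by norm_num) x
  have h2 : DifferentiableAt ℝ f x := hf.differentiable (by norm_num) x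
  have h3 : DifferentiableAt ℝ (fun x : E => cut n x ^ 2) x := h1.pow 2
  unfold ctf
  rw [grad_mul h3 h2, grad_sq h1, smul_smul]
  congr 2
  ring

lemma norm_grad_ctf_le {C : ℝ} (hC : ∀ (n : ℕ) (x : E), ‖grad (cut n : E → ℝ) x‖ ≤ C / ((n : ℝ) + 1))
    (hC0 : 0 ≤ C) {f : E → ℝ} (hf : ContDiff ℝ 1 f) (n : ℕ) (x : E) :
    ‖grad (ctf f n) x‖ ≤ ‖grad f x‖ + 2 * C * |f x| := by
  rw [grad_ctf hf]
  refine (norm_add_le _ _).trans (add_le_add ?_ ?_)
  · rw [norm_smul, Real.norm_of_nonneg (sq_nonneg _)]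
    have := cut_sq_le_one n x
    have h2 := norm_nonneg (grad f x)
    nlinarith
  · rw [norm_smul, Real.norm_eq_abs, abs_mul, abs_mul, abs_of_pos (two_pos : (0:ℝ) < 2),
      abs_of_nonneg (cut_nonneg n x)]
    have h1 : ‖grad (cut n : E → ℝ) x‖ ≤ C :=
      (hC n x).trans (div_le_self hC0 (by have : (0 : ℝ) ≤ n := n.cast_nonneg
                                          linarith))
    have h2 := cut_le_one n x
    have h3 := cut_nonneg n x
    have h4 := abs_nonneg (f x)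
    have h5 := norm_nonneg (grad (cut n : E → ℝ) x)
    calc 2 * |f x| * cut n x * ‖grad (cut n) x‖ ≤ 2 * |f x| * 1 * C := by gcongr
      _ = 2 * C * |f x| := by ring

lemma tendsto_ctf (f : E → ℝ) (x : E) : Tendsto (fun n => ctf f n x) atTop (𝓝 (f x)) := by
  have h := ((tendsto_cut x).pow 2).mul_const (f x)
  simpa [ctf] using h

lemma tendsto_grad_cut (x : E) : Tendsto (fun n : ℕ => grad (cut n : E → ℝ) x) atTop (𝓝 0) := by
  obtain ⟨C, hC0, hC⟩ := exists_grad_cut (E := E)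
  refine squeeze_zero_norm (fun n => hC n x) ?_
  exact tendsto_const_nhds.div_atTop
    (tendsto_atTop_add_const_right _ _ tendsto_natCast_atTop_atTop)

lemma tendsto_grad_ctf {f : E → ℝ} (hf : ContDiff ℝ 1 f) (x : E) :
    Tendsto (fun n => grad (ctf f n) x) atTop (𝓝 (grad f x)) := by
  have h1 : Tendsto (fun n : ℕ => (cut n x ^ 2) • grad f x + (2 * f x * cut n x) • grad (cut n) x)
      atTop (𝓝 ((1 : ℝ) ^ 2 • grad f x + (2 * f x * 1) • (0 : E))) :=
    (((tendsto_cut x).pow 2).smul_const _).add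
      (((tendsto_cut x).const_mul _).smul (tendsto_grad_cut x))
  simp only [one_pow, one_smul, smul_zero, add_zero] at h1
  refine h1.congr fun n => ?_
  rw [grad_ctf hf]

lemma tendsto_li {f : E → ℝ} (hf : ContDiff ℝ 1 f) (x : E) :
    Tendsto (fun n => li T H (ctf f n) x) atTop (𝓝 (li T H f x)) := by
  unfold li
  refine Tendsto.mul_const _ (Tendsto.sub ?_ ((tendsto_ctf f x).mul_const _))
  simp_rw [← inner_grad]
  exact (tendsto_grad_ctf hf x).inner tendsto_const_nhds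

/-- pointwise bound for the weights -/
lemma li_wt_le {C : ℝ} (hC : ∀ (n : ℕ) (x : E), ‖grad (cut n : E → ℝ) x‖ ≤ C / ((n : ℝ) + 1))
    (hC0 : 0 ≤ C) (j n : ℕ) (x : E) :
    li T H (ctf (wt j) n) x ≤ (-(1 / 2) * (cut n x ^ 2 * wt j x * ‖vel T H x‖ ^ 2)
      + (j ^ 2 + 4 * C ^ 2) * wt j x) * rho x := by
  unfold li
  refine mul_le_mul_of_nonneg_right ?_ (rho_pos x).le
  rw [← inner_grad, grad_ctf (PG.wt j).cd]
  set v := vel T H x with hv
  set w := wt j x with hw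
  set k := cut n x with hk
  have hk0 : 0 ≤ k := cut_nonneg n x
  have hk1 : k ≤ 1 := cut_le_one n x
  have hk2 : k ^ 2 ≤ 1 := cut_sq_le_one n x
  have hw0 : 0 < w := wt_pos j x
  have hg1 : ‖grad (cut n : E → ℝ) x‖ ≤ C :=
    (hC n x).trans (div_le_self hC0 (by have : (0 : ℝ) ≤ n := n.cast_nonneg
                                        linarith))
  have hg2 : ‖grad (wt j : E → ℝ) x‖ ≤ j * w := norm_grad_wt_le j x
  have i1 : ⟪grad (wt j : E → ℝ) x, v⟫ ≤ j * w * ‖v‖ :=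
    (real_inner_le_norm _ _).trans (mul_le_mul_of_nonneg_right hg2 (norm_nonneg _))
  have i2 : ⟪grad (cut n : E → ℝ) x, v⟫ ≤ C * ‖v‖ :=
    (real_inner_le_norm _ _).trans (mul_le_mul_of_nonneg_right hg1 (norm_nonneg _))
  rw [inner_add_left, real_inner_smul_left, real_inner_smul_left]
  unfold ctf
  have j1 : k ^ 2 * ⟪grad (wt j : E → ℝ) x, v⟫ ≤ k ^ 2 * w * ‖v‖ ^ 2 / 4 + j ^ 2 * w := by
    have h1 : k ^ 2 * ⟪grad (wt j : E → ℝ) x, v⟫ ≤ k ^ 2 * (j * w * ‖v‖) :=
      mul_le_mul_of_nonneg_left i1 (sq_nonneg _)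
    have h2 : (j : ℝ) * ‖v‖ ≤ ‖v‖ ^ 2 / 4 + j ^ 2 := by nlinarith [sq_nonneg (‖v‖ / 2 - j)]
    have h3 : k ^ 2 * w * (j * ‖v‖) ≤ k ^ 2 * w * (‖v‖ ^ 2 / 4 + j ^ 2) :=
      mul_le_mul_of_nonneg_left h2 (by positivity)
    have h4 : k ^ 2 * (w * (j : ℝ) ^ 2) ≤ 1 * (w * (j : ℝ) ^ 2) :=
      mul_le_mul_of_nonneg_right hk2 (by positivity)
    nlinarith
  have j2 : 2 * w * k * ⟪grad (cut n : E → ℝ) x, v⟫ ≤ k ^ 2 * w * ‖v‖ ^ 2 / 4 + 4 * C ^ 2 * w := by
    have h1 : 2 * w * k * ⟪grad (cut n : E → ℝ) x, v⟫ ≤ 2 * w * k * (C * ‖v‖) :=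
      mul_le_mul_of_nonneg_left i2 (by positivity)
    have h2 : 2 * (k * ‖v‖) * C ≤ (k * ‖v‖) ^ 2 / 4 + 4 * C ^ 2 := by
      nlinarith [sq_nonneg (k * ‖v‖ / 2 - 2 * C)]
    have h3 : w * (2 * (k * ‖v‖) * C) ≤ w * ((k * ‖v‖) ^ 2 / 4 + 4 * C ^ 2) :=
      mul_le_mul_of_nonneg_left h2 hw0.le
    nlinarith
  have e : k ^ 2 * wt j x * ‖v‖ ^ 2 = k ^ 2 * w * ‖v‖ ^ 2 := rfl
  nlinarith

/-- pointwise bound for the weights, without cutoff -/
lemma li_wt_le' (j : ℕ) (x : E) :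
    li T H (wt j) x ≤ (-(1 / 2) * (wt j x * ‖vel T H x‖ ^ 2) + (j ^ 2) * wt j x) * rho x := by
  unfold li
  refine mul_le_mul_of_nonneg_right ?_ (rho_pos x).le
  rw [← inner_grad]
  set v := vel T H x with hv
  set w := wt j x with hw
  have hw0 : 0 < w := wt_pos j x
  have hg2 : ‖grad (wt j : E → ℝ) x‖ ≤ j * w := norm_grad_wt_le j x
  have i1 : ⟪grad (wt j : E → ℝ) x, v⟫ ≤ j * w * ‖v‖ :=
    (real_inner_le_norm _ _).trans (mul_le_mul_of_nonneg_right hg2 (norm_nonneg _))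
  have h2 : (j : ℝ) * ‖v‖ ≤ ‖v‖ ^ 2 / 4 + j ^ 2 := by nlinarith [sq_nonneg (‖v‖ / 2 - j)]
  have h3 : w * (j * ‖v‖) ≤ w * (‖v‖ ^ 2 / 4 + j ^ 2) := mul_le_mul_of_nonneg_left h2 hw0.le
  have h4 : 0 ≤ w * ‖v‖ ^ 2 := by positivity
  nlinarith

lemma wt_le_pow (j : ℕ) (x : E) : wt j x ≤ (1 + ‖x‖) ^ (2 * j) := by
  unfold wt
  rw [pow_mul]
  apply pow_le_pow_left₀ (by positivity)
  nlinarith [norm_nonneg x]

lemma pow_le_wt (p : ℕ) (x : E) : (1 + ‖x‖) ^ p ≤ 2 ^ p * wt p x := by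
  unfold wt
  rw [← mul_pow]
  have h1 : 1 + ‖x‖ ≤ (1 + ‖x‖) ^ 2 := by nlinarith [norm_nonneg x]
  have h2 : (1 + ‖x‖) ^ 2 ≤ 2 * (1 + ‖x‖ ^ 2) := by nlinarith [sq_nonneg (1 - ‖x‖)]
  exact pow_le_pow_left₀ (by positivity) (h1.trans h2) p

/-- bound of the rate functional of cut off weights -/
lemma LL_ctf_wt_le (h : Slice m μ T H) {C : ℝ}
    (hC : ∀ (n : ℕ) (x : E), ‖grad (cut n : E → ℝ) x‖ ≤ C / ((n : ℝ) + 1))
    (hC0 : 0 ≤ C) (j n : ℕ) (hmom : Integrable (fun x => wt j x * rho x) μ) {M : ℝ}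
    (hM : (j ^ 2 + 4 * C ^ 2) * ∫ x, wt j x * rho x ∂μ ≤ M) :
    Integrable (fun x => cut n x ^ 2 * wt j x * ‖vel T H x‖ ^ 2 * rho x) μ ∧
    1 / 2 * ∫ x, cut n x ^ 2 * wt j x * ‖vel T H x‖ ^ 2 * rho x ∂μ
      ≤ M - LL μ T H (ctf (wt j) n) := by
  have hwc : Continuous (wt j : E → ℝ) := (PG.wt j).cd.continuous
  have hcc : Continuous (cut n : E → ℝ) := (contDiff_cut n).continuous
  have hcs : HasCompactSupport (ctf (wt j) n : E → ℝ) := ctf_cpt _ n
  obtain ⟨A, hA⟩ := hcs.exists_bound_of_continuous (ctf_cd (PG.wt j).cd n).continuous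
  have hA0 : 0 ≤ A := (norm_nonneg _).trans (hA 0)
  have i1 : Integrable (fun x => cut n x ^ 2 * wt j x * ‖vel T H x‖ ^ 2 * rho x) μ := by
    refine integrable_cpt h ?_ hcs.isCompact (C := A) ?_ hA0 ?_
    · exact ((((hcc.pow 2).mul hwc).aestronglyMeasurable).mul (h.vel_meas.norm.pow 2)).mul
        continuous_rho.aestronglyMeasurable
    · intro x hx
      have h1 : ctf (wt j) n x = 0 := image_eq_zero_of_notMem_tsupport hx
      have h2 : cut n x ^ 2 * wt j x = 0 := h1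
      rw [h2]; ring
    · intro x
      have h1 : |cut n x ^ 2 * wt j x| ≤ A := hA x
      rw [abs_mul, abs_mul, abs_of_nonneg (sq_nonneg ‖vel T H x‖), abs_of_pos (rho_pos x)]
      have h2 := rho_le_one x
      have h3 := (rho_pos x).le
      have h4 := sq_nonneg ‖vel T H x‖
      calc |cut n x ^ 2 * wt j x| * ‖vel T H x‖ ^ 2 * rho x ≤ A * ‖vel T H x‖ ^ 2 * 1 := by
            gcongr
        _ ≤ A * (1 + ‖vel T H x‖ ^ 2) := by nlinarith
  refine ⟨i1, ?_⟩
  have i2 := integrable_li h (ctf_cd (PG.wt j).cd n) (ctf_cpt (wt j) n)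
  have h1 : LL μ T H (ctf (wt j) n)
      ≤ ∫ x, (-(1 / 2) * (cut n x ^ 2 * wt j x * ‖vel T H x‖ ^ 2 * rho x)
        + (j ^ 2 + 4 * C ^ 2) * (wt j x * rho x)) ∂μ := by
    rw [LL_eq_li]
    refine integral_mono i2 ((i1.const_mul _).add (hmom.const_mul _)) fun x => ?_
    refine (li_wt_le hC hC0 j n x).trans (le_of_eq ?_)
    ring
  rw [integral_add (i1.const_mul _) (hmom.const_mul _), integral_const_mul,
    integral_const_mul] at h1
  linarith

end static

section moments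

/-- the Gaussian beats polynomials -/
lemma pow_mul_rho_le (p : ℕ) (x : E) :
    (1 + ‖x‖) ^ p * rho x ≤ Real.exp (2 * p ^ 2) * Real.exp (-‖x‖ ^ 2 / 8) := by
  have h1 : 1 + ‖x‖ ≤ Real.exp ‖x‖ := by
    have := Real.add_one_le_exp ‖x‖
    linarith
  have h2 : (1 + ‖x‖) ^ p ≤ Real.exp (p * ‖x‖) := by
    rw [Real.exp_nat_mul]
    exact pow_le_pow_left₀ (by positivity) h1 p
  unfold rho
  calc (1 + ‖x‖) ^ p * Real.exp (-‖x‖ ^ 2 / 4)
      ≤ Real.exp (p * ‖x‖) * Real.exp (-‖x‖ ^ 2 / 4) :=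
        mul_le_mul_of_nonneg_right h2 (Real.exp_pos _).le
    _ = Real.exp (p * ‖x‖ + -‖x‖ ^ 2 / 4) := by rw [Real.exp_add]
    _ ≤ Real.exp (2 * p ^ 2 + -‖x‖ ^ 2 / 8) := by
        apply Real.exp_le_exp.2
        nlinarith [sq_nonneg (‖x‖ - 4 * p)]
    _ = _ := by rw [Real.exp_add]

end moments

end A2

open A2

section RF

variable {N : ℝ → Measure E} {T : ℝ → E → Submodule ℝ E} {H : ℝ → E → E} {s₀ : ℝ}

theorem RF.moment (h : RF m N T H s₀) (p : ℕ) : ∃ C : ℝ, ∀ s, s₀ ≤ s →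
    Integrable (fun x => (1 + ‖x‖) ^ p * rho x) (N s) ∧
      ∫ x, (1 + ‖x‖) ^ p * rho x ∂(N s) ≤ C := by
  obtain ⟨C, hC⟩ := h.gauss
  refine ⟨Real.exp (2 * p ^ 2) * C, fun s hs => ?_⟩
  have := h.fin s hs
  have hc : Continuous fun x : E => (1 + ‖x‖) ^ p * rho x :=
    ((continuous_const.add continuous_norm).pow p).mul continuous_rho
  have hc8 : Continuous fun x : E => Real.exp (-‖x‖ ^ 2 / 8) := by fun_prop
  have i8 : Integrable (fun x : E => Real.exp (-‖x‖ ^ 2 / 8)) (N s) := by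
    refine Integrable.of_bound hc8.aestronglyMeasurable 1 (Eventually.of_forall fun x => ?_)
    rw [Real.norm_eq_abs, abs_of_pos (Real.exp_pos _), Real.exp_le_one_iff]
    have := sq_nonneg ‖x‖
    linarith
  have i1 : Integrable (fun x => (1 + ‖x‖) ^ p * rho x) (N s) := by
    refine (i8.const_mul (Real.exp (2 * p ^ 2))).mono' hc.aestronglyMeasurable
      (Eventually.of_forall fun x => ?_)
    rw [Real.norm_of_nonneg (mul_nonneg (by positivity) (rho_pos x).le)]
    exact pow_mul_rho_le p x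
  refine ⟨i1, ?_⟩
  calc ∫ x, (1 + ‖x‖) ^ p * rho x ∂(N s)
      ≤ ∫ x, Real.exp (2 * p ^ 2) * Real.exp (-‖x‖ ^ 2 / 8) ∂(N s) :=
        integral_mono i1 (i8.const_mul _) fun x => pow_mul_rho_le p x
    _ = Real.exp (2 * p ^ 2) * ∫ x, Real.exp (-‖x‖ ^ 2 / 8) ∂(N s) := integral_const_mul _ _
    _ ≤ _ := mul_le_mul_of_nonneg_left (hC s hs) (Real.exp_pos _).le

namespace A2

lemma moment_wt (h : RF m N T H s₀) (j : ℕ) : ∃ B : ℝ, 0 ≤ B ∧ ∀ s, s₀ ≤ s →
    Integrable (fun x => wt j x * rho x) (N s) ∧ ∫ x, wt j x * rho x ∂(N s) ≤ B := by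
  obtain ⟨C, hC⟩ := h.moment (2 * j)
  refine ⟨|C|, abs_nonneg _, fun s hs => ?_⟩
  obtain ⟨h1, h2⟩ := hC s hs
  have hc : Continuous fun x : E => wt j x * rho x := (PG.wt j).cd.continuous.mul continuous_rho
  have hle : ∀ x : E, wt j x * rho x ≤ (1 + ‖x‖) ^ (2 * j) * rho x := fun x =>
    mul_le_mul_of_nonneg_right (wt_le_pow j x) (rho_pos x).le
  have i1 : Integrable (fun x => wt j x * rho x) (N s) := by
    refine h1.mono' hc.aestronglyMeasurable (Eventually.of_forall fun x => ?_)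
    rw [Real.norm_of_nonneg (mul_nonneg (wt_pos j x).le (rho_pos x).le)]
    exact hle x
  exact ⟨i1, (integral_mono i1 h1 hle).trans (h2.trans (le_abs_self C))⟩

lemma aemeasurable_liminf {F : ℕ → ℝ → ℝ≥0∞} {ν : Measure ℝ} (hF : ∀ n, AEMeasurable (F n) ν) :
    AEMeasurable (fun s => liminf (fun n => F n s) atTop) ν := by
  refine ⟨fun s => liminf (fun n => (hF n).mk (F n) s) atTop,
    Measurable.liminf fun n => (hF n).measurable_mk, ?_⟩
  have h1 : ∀ᵐ s ∂ν, ∀ n, F n s = (hF n).mk (F n) s := ae_all_iff.2 fun n => (hF n).ae_eq_mk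
  filter_upwards [h1] with s hs
  simp only [hs]

/-- the lower limit of the rates of the cut off weights -/
lemma liminf_bound (h : RF m N T H s₀) {C : ℝ}
    (hC : ∀ (n : ℕ) (x : E), ‖grad (cut n : E → ℝ) x‖ ≤ C / ((n : ℝ) + 1))
    (hC0 : 0 ≤ C) (j : ℕ) {B : ℝ}
    (hB : ∀ s, s₀ ≤ s → Integrable (fun x => wt j x * rho x) (N s) ∧
      ∫ x, wt j x * rho x ∂(N s) ≤ B) {M : ℝ} (hM : (j ^ 2 + 4 * C ^ 2) * B ≤ M)
    {a b : ℝ} (ha : s₀ ≤ a) (hab : a ≤ b) :
    (∀ n, AEMeasurable (fun s => ENNReal.ofReal (M - LL (N s) (T s) (H s) (ctf (wt j) n)))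
      (volume.restrict (Ioc a b))) ∧
    ∫⁻ s in Ioc a b, liminf (fun n => ENNReal.ofReal
      (M - LL (N s) (T s) (H s) (ctf (wt j) n))) atTop
      ≤ ENNReal.ofReal (M * (b - a) + B) := by
  have hsl : ∀ᵐ s ∂(volume.restrict (Ioc a b)), Slice m (N s) (T s) (H s) := by
    rw [ae_restrict_iff' measurableSet_Ioc]
    filter_upwards [h.slice] with s hs hs1
    exact hs (ha.trans hs1.1.le)
  have hI : ∀ n, IntegrableOn (fun s => LL (N s) (T s) (H s) (ctf (wt j) n)) (Ioc a b) := by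
    intro n
    have := (h.ineq (ctf (wt j) n) (ctf_cd (PG.wt j).cd n) (ctf_cpt _ n)
      (ctf_nonneg (fun x => (wt_pos j x).le) n) a b ha hab).1
    rwa [intervalIntegrable_iff_integrableOn_Ioc_of_le hab] at this
  have hMi : IntegrableOn (fun _ : ℝ => M) (Ioc a b) := by
    have : IsFiniteMeasure (volume.restrict (Ioc a b)) := ⟨by simp⟩
    exact integrable_const _
  have hI' : ∀ n, IntegrableOn (fun s => M - LL (N s) (T s) (H s) (ctf (wt j) n)) (Ioc a b) :=
    fun n => hMi.sub (hI n)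
  have hmeas : ∀ n, AEMeasurable (fun s => ENNReal.ofReal
      (M - LL (N s) (T s) (H s) (ctf (wt j) n))) (volume.restrict (Ioc a b)) := fun n =>
    (hI' n).aestronglyMeasurable.aemeasurable.ennreal_ofReal
  refine ⟨hmeas, ?_⟩
  have hn0 : ∀ n, ∀ᵐ s ∂(volume.restrict (Ioc a b)),
      0 ≤ M - LL (N s) (T s) (H s) (ctf (wt j) n) := by
    intro n
    have hin : ∀ᵐ s ∂(volume.restrict (Ioc a b)), s ∈ Ioc a b := ae_restrict_mem measurableSet_Ioc
    filter_upwards [hsl, hin] with s hs hs1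
    obtain ⟨h1, h2⟩ := hB s (ha.trans hs1.1.le)
    have h3 : (j ^ 2 + 4 * C ^ 2) * ∫ x, wt j x * rho x ∂(N s) ≤ M :=
      (mul_le_mul_of_nonneg_left h2 (by positivity)).trans hM
    have h4 := (LL_ctf_wt_le hs hC hC0 j n h1 h3).2
    refine le_trans ?_ h4
    have : 0 ≤ ∫ x, cut n x ^ 2 * wt j x * ‖vel (T s) (H s) x‖ ^ 2 * rho x ∂(N s) :=
      integral_nonneg fun x => mul_nonneg (mul_nonneg (mul_nonneg (sq_nonneg _) (wt_pos j x).le)
        (sq_nonneg _)) (rho_pos x).le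
    linarith
  refine (lintegral_liminf_le' hmeas).trans ?_
  refine liminf_le_of_frequently_le' (Frequently.of_forall fun n => ?_)
  rw [← ofReal_integral_eq_lintegral_ofReal (hI' n) (hn0 n)]
  apply ENNReal.ofReal_le_ofReal
  have e1 : ∫ s in Ioc a b, (M - LL (N s) (T s) (H s) (ctf (wt j) n))
      = M * (b - a) - ∫ s in a..b, LL (N s) (T s) (H s) (ctf (wt j) n) := by
    rw [intervalIntegral.integral_of_le hab, integral_sub hMi (hI n)]
    congr 1
    rw [setIntegral_const, smul_eq_mul, measureReal_def, Real.volume_Ioc,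
      ENNReal.toReal_ofReal (by linarith)]
    ring
  rw [e1]
  have h5 := (h.ineq (ctf (wt j) n) (ctf_cd (PG.wt j).cd n) (ctf_cpt _ n)
      (ctf_nonneg (fun x => (wt_pos j x).le) n) a b ha hab).2
  have h6 : 0 ≤ ∫ x, ctf (wt j) n x * rho x ∂(N b) :=
    integral_nonneg fun x => mul_nonneg (ctf_nonneg (fun x => (wt_pos j x).le) n x) (rho_pos x).le
  have h7 : ∫ x, ctf (wt j) n x * rho x ∂(N a) ≤ B := by
    obtain ⟨h1, h2⟩ := hB a ha
    refine le_trans ?_ h2
    refine integral_mono_of_nonneg (Eventually.of_forall fun x => mul_nonneg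
      (ctf_nonneg (fun x => (wt_pos j x).le) n x) (rho_pos x).le) h1
      (Eventually.of_forall fun x => ?_)
    refine mul_le_mul_of_nonneg_right ?_ (rho_pos x).le
    have h8 := abs_ctf_le (wt j) n x
    rw [abs_of_pos (wt_pos j x)] at h8
    exact (le_abs_self _).trans h8
  linarith

end A2

theorem RF.gslice (h : RF m N T H s₀) :
    ∀ᵐ s : ℝ, s₀ ≤ s → GSlice m (N s) (T s) (H s) := by
  obtain ⟨C, hC0, hC⟩ := exists_grad_cut (E := E)
  -- finiteness of the weighted dissipations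
  have key : ∀ j k : ℕ, ∀ᵐ s ∂(volume.restrict (Ioc (s₀ - 1 + 1) (s₀ + k))),
      ∫⁻ x, ENNReal.ofReal (wt j x * ‖vel (T s) (H s) x‖ ^ 2 * rho x) ∂(N s) < ⊤ := by
    intro j k
    have ha : s₀ ≤ s₀ - 1 + 1 := by linarith
    have hab : s₀ - 1 + 1 ≤ s₀ + k := by have : (0 : ℝ) ≤ k := k.cast_nonneg
                                         linarith
    obtain ⟨B, hB0, hB⟩ := moment_wt h j
    obtain ⟨hm, hl⟩ := liminf_bound h hC hC0 j hB le_rfl ha hab
    have h1 := ae_lt_top' (aemeasurable_liminf hm) (ne_top_of_le_ne_top ENNReal.ofReal_ne_top hl)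
    have hin : ∀ᵐ s ∂(volume.restrict (Ioc (s₀ - 1 + 1) (s₀ + k))), s ∈ Ioc (s₀ - 1 + 1) (s₀ + k) :=
      ae_restrict_mem measurableSet_Ioc
    have hsl : ∀ᵐ s ∂(volume.restrict (Ioc (s₀ - 1 + 1) (s₀ + k))),
        s₀ ≤ s → Slice m (N s) (T s) (H s) := ae_restrict_of_ae h.slice
    filter_upwards [h1, hin, hsl] with s hs1 hs2 hs3
    have hs4 : s₀ ≤ s := ha.trans hs2.1.le
    have hS := hs3 hs4
    obtain ⟨b1, b2⟩ := hB s hs4
    have b3 : (j ^ 2 + 4 * C ^ 2) * ∫ x, wt j x * rho x ∂(N s) ≤ (j ^ 2 + 4 * C ^ 2) * B :=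
      mul_le_mul_of_nonneg_left b2 (by positivity)
    have hvm := hS.vel_meas
    have hwc : Continuous (wt j : E → ℝ) := (PG.wt j).cd.continuous
    calc ∫⁻ x, ENNReal.ofReal (wt j x * ‖vel (T s) (H s) x‖ ^ 2 * rho x) ∂(N s)
        = ∫⁻ x, liminf (fun n => ENNReal.ofReal
            (cut n x ^ 2 * wt j x * ‖vel (T s) (H s) x‖ ^ 2 * rho x)) atTop ∂(N s) := by
          refine lintegral_congr fun x => ?_
          have h2 : Tendsto (fun n => ENNReal.ofReal
              (cut n x ^ 2 * wt j x * ‖vel (T s) (H s) x‖ ^ 2 * rho x)) atTop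
              (𝓝 (ENNReal.ofReal (wt j x * ‖vel (T s) (H s) x‖ ^ 2 * rho x))) := by
            apply ENNReal.tendsto_ofReal
            have h3 := ((((tendsto_cut x).pow 2).mul_const (wt j x)).mul_const
              (‖vel (T s) (H s) x‖ ^ 2)).mul_const (rho x)
            simpa using h3
          exact h2.liminf_eq.symm
      _ ≤ liminf (fun n => ∫⁻ x, ENNReal.ofReal
            (cut n x ^ 2 * wt j x * ‖vel (T s) (H s) x‖ ^ 2 * rho x) ∂(N s)) atTop := by
          refine lintegral_liminf_le' fun n => ?_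
          have h2 : AEStronglyMeasurable (fun x => cut n x ^ 2 * wt j x
              * ‖vel (T s) (H s) x‖ ^ 2 * rho x) (N s) :=
            ((((((contDiff_cut n).continuous.pow 2).mul hwc).aestronglyMeasurable).mul
              (hvm.norm.pow 2))).mul continuous_rho.aestronglyMeasurable
          exact h2.aemeasurable.ennreal_ofReal
      _ ≤ liminf (fun n => 2 * ENNReal.ofReal ((j ^ 2 + 4 * C ^ 2) * B
            - LL (N s) (T s) (H s) (ctf (wt j) n))) atTop := by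
          refine liminf_le_liminf (Eventually.of_forall fun n => ?_)
          obtain ⟨h3, h4⟩ := LL_ctf_wt_le hS hC hC0 j n b1 b3
          rw [← ofReal_integral_eq_lintegral_ofReal h3 (Eventually.of_forall fun x =>
            mul_nonneg (mul_nonneg (mul_nonneg (sq_nonneg _) (wt_pos j x).le)
            (sq_nonneg _)) (rho_pos x).le)]
          have h5 : (2 : ℝ≥0∞) = ENNReal.ofReal 2 := by simp
          rw [h5, ← ENNReal.ofReal_mul (by norm_num)]
          apply ENNReal.ofReal_le_ofReal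
          linarith
      _ = 2 * liminf (fun n => ENNReal.ofReal ((j ^ 2 + 4 * C ^ 2) * B
            - LL (N s) (T s) (H s) (ctf (wt j) n))) atTop :=
          ENNReal.liminf_const_mul_of_ne_top (by simp)
      _ < ⊤ := ENNReal.mul_lt_top (by simp) hs1
  have key2 : ∀ᵐ s : ℝ, ∀ j k : ℕ, s ∈ Ioc (s₀ - 1 + 1) (s₀ + k) →
      ∫⁻ x, ENNReal.ofReal (wt j x * ‖vel (T s) (H s) x‖ ^ 2 * rho x) ∂(N s) < ⊤ := by
    rw [ae_all_iff]; intro j
    rw [ae_all_iff]; intro k
    exact (ae_restrict_iff' measurableSet_Ioc).1 (key j k)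
  have hne : ∀ᵐ s : ℝ, s ≠ s₀ := by
    rw [ae_iff]; simp
  filter_upwards [key2, h.slice, hne] with s hs1 hs2 hs3 hs4
  have hS := hs2 hs4
  refine ⟨hS, fun p => ?_, fun p => ?_⟩
  · obtain ⟨C', hC'⟩ := h.moment p
    exact (hC' s hs4).1
  · obtain ⟨k, hk⟩ := exists_nat_ge (s - s₀)
    have h1 := hs1 p k ⟨by
      have := lt_of_le_of_ne hs4 (Ne.symm hs3)
      linarith, by linarith⟩
    have hwc : Continuous (wt p : E → ℝ) := (PG.wt p).cd.continuous
    have h2 : AEStronglyMeasurable (fun x => wt p x * ‖vel (T s) (H s) x‖ ^ 2 * rho x) (N s) :=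
      (hwc.aestronglyMeasurable.mul (hS.vel_meas.norm.pow 2)).mul
        continuous_rho.aestronglyMeasurable
    have h3 : Integrable (fun x => wt p x * ‖vel (T s) (H s) x‖ ^ 2 * rho x) (N s) := by
      refine ⟨h2, ?_⟩
      rw [hasFiniteIntegral_iff_ofReal (Eventually.of_forall fun x =>
        mul_nonneg (mul_nonneg (wt_pos p x).le (sq_nonneg _)) (rho_pos x).le)]
      exact h1
    have hc : Continuous fun x : E => (1 + ‖x‖) ^ p :=
      (continuous_const.add continuous_norm).pow p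
    refine (h3.const_mul (2 ^ p)).mono' ((hc.aestronglyMeasurable.mul
      (hS.vel_meas.norm.pow 2)).mul continuous_rho.aestronglyMeasurable)
      (Eventually.of_forall fun x => ?_)
    have h5 : 0 ≤ ‖vel (T s) (H s) x‖ ^ 2 * rho x := mul_nonneg (sq_nonneg _) (rho_pos x).le
    rw [Real.norm_of_nonneg (mul_nonneg (mul_nonneg (by positivity) (sq_nonneg _)) (rho_pos x).le)]
    calc (1 + ‖x‖) ^ p * ‖vel (T s) (H s) x‖ ^ 2 * rho x
        = (1 + ‖x‖) ^ p * (‖vel (T s) (H s) x‖ ^ 2 * rho x) := by ring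
      _ ≤ (2 ^ p * wt p x) * (‖vel (T s) (H s) x‖ ^ 2 * rho x) :=
          mul_le_mul_of_nonneg_right (pow_le_wt p x) h5
      _ = _ := by ring

namespace A2

section gs

variable {μ : Measure E} {T' : E → Submodule ℝ E} {H' : E → E}

lemma integrable_wt_rho (h : GSlice m μ T' H') (j : ℕ) :
    Integrable (fun x => wt j x * rho x) μ := by
  have hc : Continuous fun x : E => wt j x * rho x := (PG.wt j).cd.continuous.mul continuous_rho
  refine (h.mom (2 * j)).mono' hc.aestronglyMeasurable (Eventually.of_forall fun x => ?_)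
  rw [Real.norm_of_nonneg (mul_nonneg (wt_pos j x).le (rho_pos x).le)]
  exact mul_le_mul_of_nonneg_right (wt_le_pow j x) (rho_pos x).le

lemma integrable_wt_vsq (h : GSlice m μ T' H') (j : ℕ) :
    Integrable (fun x => wt j x * ‖vel T' H' x‖ ^ 2 * rho x) μ := by
  have hwc : Continuous (wt j : E → ℝ) := (PG.wt j).cd.continuous
  refine (h.vsq (2 * j)).mono' ((hwc.aestronglyMeasurable.mul (h.vel_meas.norm.pow 2)).mul
        continuous_rho.aestronglyMeasurable) (Eventually.of_forall fun x => ?_)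
  rw [Real.norm_of_nonneg (mul_nonneg (mul_nonneg (wt_pos j x).le (sq_nonneg _)) (rho_pos x).le)]
  exact mul_le_mul_of_nonneg_right (mul_le_mul_of_nonneg_right (wt_le_pow j x) (sq_nonneg _))
    (rho_pos x).le

/-- domination of the rate integrand -/
lemma abs_li_le_dom {f : E → ℝ} {K : ℝ} {j : ℕ} {x : E} (h1 : ‖grad f x‖ ≤ K * wt j x)
    (h2 : |f x| ≤ K * wt j x) (hK : 0 ≤ K) :
    |li T' H' f x| ≤ K * (wt j x * rho x) + 2 * K * (wt j x * ‖vel T' H' x‖ ^ 2 * rho x) := by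
  refine (abs_li_le f x h1 h2).trans ?_
  have h3 := norm_le_one_add_sq (vel T' H' x)
  have h4 : 0 ≤ K * wt j x := mul_nonneg hK (wt_pos j x).le
  have h5 := mul_le_mul_of_nonneg_left h3 h4
  have h6 : (K * wt j x * ‖vel T' H' x‖ + K * wt j x * ‖vel T' H' x‖ ^ 2) * rho x
      ≤ (K * wt j x * (1 + ‖vel T' H' x‖ ^ 2) + K * wt j x * ‖vel T' H' x‖ ^ 2) * rho x :=
    mul_le_mul_of_nonneg_right (by linarith) (rho_pos x).le
  refine h6.trans (le_of_eq (by ring))

lemma integrable_dom (h : GSlice m μ T' H') (j : ℕ) (K : ℝ) :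
    Integrable (fun x => K * (wt j x * rho x) + 2 * K * (wt j x * ‖vel T' H' x‖ ^ 2 * rho x)) μ :=
  ((integrable_wt_rho h j).const_mul _).add ((integrable_wt_vsq h j).const_mul _)

/-- a bound of the rate functional -/
lemma abs_LL_le (h : GSlice m μ T' H') {f : E → ℝ} {K : ℝ} {j : ℕ}
    (h1 : ∀ x, ‖grad f x‖ ≤ K * wt j x) (h2 : ∀ x, |f x| ≤ K * wt j x) (hK : 0 ≤ K) :
    |LL μ T' H' f| ≤ K * ∫ x, wt j x * rho x ∂μ
      + 2 * K * ∫ x, wt j x * ‖vel T' H' x‖ ^ 2 * rho x ∂μ := by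
  rw [LL_eq_li, ← integral_const_mul, ← integral_const_mul,
    ← integral_add ((integrable_wt_rho h j).const_mul _) ((integrable_wt_vsq h j).const_mul _)]
  rw [← Real.norm_eq_abs]
  exact norm_integral_le_of_norm_le (integrable_dom h j K)
    (Eventually.of_forall fun x => abs_li_le_dom (h1 x) (h2 x) hK)

/-- the rates of the cut off functions converge -/
lemma tendsto_LL (h : GSlice m μ T' H') {C : ℝ}
    (hC : ∀ (n : ℕ) (x : E), ‖grad (cut n : E → ℝ) x‖ ≤ C / ((n : ℝ) + 1)) (hC0 : 0 ≤ C)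
    {f : E → ℝ} (hf : ContDiff ℝ 1 f) {K : ℝ} {j : ℕ}
    (h1 : ∀ x, ‖grad f x‖ + 2 * C * |f x| ≤ K * wt j x) (h2 : ∀ x, |f x| ≤ K * wt j x)
    (hK : 0 ≤ K) :
    Tendsto (fun n => LL μ T' H' (ctf f n)) atTop (𝓝 (LL μ T' H' f)) := by
  simp_rw [LL_eq_li]
  refine tendsto_integral_of_dominated_convergence _ (fun n => li_meas h.toSlice (ctf_cd hf n))
    (integrable_dom h j K) (fun n => Eventually.of_forall fun x => ?_)
    (Eventually.of_forall fun x => tendsto_li hf x)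
  rw [Real.norm_eq_abs]
  exact abs_li_le_dom ((norm_grad_ctf_le hC hC0 hf n x).trans (h1 x))
    ((abs_ctf_le f n x).trans (h2 x)) hK

/-- the rate of a weight controls the weighted dissipation -/
lemma LL_wt_le (h : GSlice m μ T' H') (j : ℕ) :
    LL μ T' H' (wt j) ≤ -(1 / 2) * ∫ x, wt j x * ‖vel T' H' x‖ ^ 2 * rho x ∂μ
      + j ^ 2 * ∫ x, wt j x * rho x ∂μ := by
  have i1 := integrable_wt_rho h j
  have i2 := integrable_wt_vsq h j
  have i3 : Integrable (li T' H' (wt j)) μ := by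
    have hK : (0 : ℝ) ≤ max (j : ℝ) 1 := le_max_of_le_right zero_le_one
    refine (integrable_dom h j (max (j : ℝ) 1)).mono' (li_meas h.toSlice (PG.wt j).cd)
      (Eventually.of_forall fun x => ?_)
    rw [Real.norm_eq_abs]
    refine abs_li_le_dom ((norm_grad_wt_le j x).trans
      (mul_le_mul_of_nonneg_right (le_max_left _ _) (wt_pos j x).le)) ?_ hK
    rw [abs_of_pos (wt_pos j x)]
    have := mul_le_mul_of_nonneg_right (le_max_right (j : ℝ) 1) (wt_pos j x).le
    linarith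
  rw [LL_eq_li, ← integral_const_mul, ← integral_const_mul,
    ← integral_add (i2.const_mul _) (i1.const_mul _)]
  refine integral_mono i3 ((i2.const_mul _).add (i1.const_mul _)) fun x => ?_
  refine (li_wt_le' j x).trans (le_of_eq ?_)
  ring

end gs

/-- the rates of the weights are integrable in time and control the weighted dissipations -/
lemma integrableOn_wt (h : RF m N T H s₀) (j : ℕ) {a b : ℝ} (ha : s₀ ≤ a) (hab : a ≤ b) :
    ∃ g : ℝ → ℝ, IntegrableOn g (Ioc a b) ∧ (∀ᵐ s ∂(volume.restrict (Ioc a b)),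
      ∫ x, wt j x * rho x ∂(N s) ≤ g s ∧
      ∫ x, wt j x * ‖vel (T s) (H s) x‖ ^ 2 * rho x ∂(N s) ≤ g s) := by
  obtain ⟨C, hC0, hC⟩ := exists_grad_cut (E := E)
  obtain ⟨B, hB0, hB⟩ := moment_wt h j
  obtain ⟨hm, hl⟩ := liminf_bound h hC hC0 j hB (le_refl ((j ^ 2 + 4 * C ^ 2) * B)) ha hab
  set M := ((j : ℝ) ^ 2 + 4 * C ^ 2) * B with hM
  have hin : ∀ᵐ s ∂(volume.restrict (Ioc a b)), s ∈ Ioc a b := ae_restrict_mem measurableSet_Ioc
  have hgs : ∀ᵐ s ∂(volume.restrict (Ioc a b)), s₀ ≤ s → GSlice m (N s) (T s) (H s) :=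
    ae_restrict_of_ae h.gslice
  have hI : ∀ n, IntegrableOn (fun s => LL (N s) (T s) (H s) (ctf (wt j) n)) (Ioc a b) := by
    intro n
    have := (h.ineq (ctf (wt j) n) (ctf_cd (PG.wt j).cd n) (ctf_cpt _ n)
      (ctf_nonneg (fun x => (wt_pos j x).le) n) a b ha hab).1
    rwa [intervalIntegrable_iff_integrableOn_Ioc_of_le hab] at this
  -- convergence
  have hK : (0 : ℝ) ≤ max ((j : ℝ) + 2 * C) 1 := le_max_of_le_right zero_le_one
  have hlim : ∀ᵐ s ∂(volume.restrict (Ioc a b)),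
      Tendsto (fun n => LL (N s) (T s) (H s) (ctf (wt j) n)) atTop
        (𝓝 (LL (N s) (T s) (H s) (wt j))) := by
    filter_upwards [hin, hgs] with s hs1 hs2
    have hs3 := hs2 (ha.trans hs1.1.le)
    refine tendsto_LL hs3 hC hC0 (PG.wt j).cd (K := max ((j : ℝ) + 2 * C) 1) (j := j)
      (fun x => ?_) (fun x => ?_) hK
    · have h1 := norm_grad_wt_le j x
      have h2 := wt_pos j x
      rw [abs_of_pos h2]
      have h3 := mul_le_mul_of_nonneg_right (le_max_left ((j : ℝ) + 2 * C) 1) h2.le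
      linarith
    · have h2 := wt_pos j x
      rw [abs_of_pos h2]
      have h3 := mul_le_mul_of_nonneg_right (le_max_right ((j : ℝ) + 2 * C) 1) h2.le
      linarith
  have hmeas : AEStronglyMeasurable (fun s => LL (N s) (T s) (H s) (wt j))
      (volume.restrict (Ioc a b)) :=
    aestronglyMeasurable_of_tendsto_ae atTop (fun n => (hI n).aestronglyMeasurable) hlim
  -- the dissipation is controlled
  have hdis : ∀ᵐ s ∂(volume.restrict (Ioc a b)),
      ∫ x, wt j x * ‖vel (T s) (H s) x‖ ^ 2 * rho x ∂(N s)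
        ≤ 2 * (M - LL (N s) (T s) (H s) (wt j)) := by
    filter_upwards [hin, hgs] with s hs1 hs2
    have hs3 := hs2 (ha.trans hs1.1.le)
    have h1 := LL_wt_le hs3 j
    have h2 : (j : ℝ) ^ 2 * ∫ x, wt j x * rho x ∂(N s) ≤ M := by
      have h3 := (hB s (ha.trans hs1.1.le)).2
      have h4 : (j : ℝ) ^ 2 * ∫ x, wt j x * rho x ∂(N s) ≤ (j : ℝ) ^ 2 * B :=
        mul_le_mul_of_nonneg_left h3 (by positivity)
      have h5 : 0 ≤ 4 * C ^ 2 * B := by positivity
      rw [hM]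
      nlinarith
    linarith
  have hnn : ∀ᵐ s ∂(volume.restrict (Ioc a b)), 0 ≤ M - LL (N s) (T s) (H s) (wt j) := by
    filter_upwards [hdis] with s hs
    have h1 : 0 ≤ ∫ x, wt j x * ‖vel (T s) (H s) x‖ ^ 2 * rho x ∂(N s) :=
      integral_nonneg fun x => mul_nonneg (mul_nonneg (wt_pos j x).le
        (sq_nonneg _)) (rho_pos x).le
    linarith
  have hMi : IntegrableOn (fun _ : ℝ => M) (Ioc a b) := by
    have : IsFiniteMeasure (volume.restrict (Ioc a b)) := ⟨by simp⟩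
    exact integrable_const _
  have hBi : IntegrableOn (fun _ : ℝ => B) (Ioc a b) := by
    have : IsFiniteMeasure (volume.restrict (Ioc a b)) := ⟨by simp⟩
    exact integrable_const _
  have hG : IntegrableOn (fun s => M - LL (N s) (T s) (H s) (wt j)) (Ioc a b) := by
    refine ⟨hMi.aestronglyMeasurable.sub hmeas, ?_⟩
    rw [hasFiniteIntegral_iff_ofReal hnn]
    refine lt_of_eq_of_lt ?_ (lt_of_le_of_lt hl ENNReal.ofReal_lt_top)
    refine lintegral_congr_ae ?_
    filter_upwards [hlim] with s hs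
    have h1 : Tendsto (fun n => ENNReal.ofReal (M - LL (N s) (T s) (H s) (ctf (wt j) n))) atTop
        (𝓝 (ENNReal.ofReal (M - LL (N s) (T s) (H s) (wt j)))) :=
      ENNReal.tendsto_ofReal (tendsto_const_nhds.sub hs)
    exact h1.liminf_eq.symm
  refine ⟨fun s => B + 2 * (M - LL (N s) (T s) (H s) (wt j)), hBi.add (hG.const_mul 2), ?_⟩
  filter_upwards [hin, hdis, hnn] with s hs1 hs2 hs3
  have h1 := (hB s (ha.trans hs1.1.le)).2
  constructor <;> linarith

/-- a common bound by a weight -/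
lemma exists_wt_bound {C : ℝ} (hC0 : 0 ≤ C) {f : E → ℝ} (h0 : PB f) (h1 : PB (fderiv ℝ f)) :
    ∃ (K : ℝ) (j : ℕ), 0 ≤ K ∧ (∀ x, ‖grad f x‖ + 2 * C * |f x| ≤ K * wt j x) ∧
      ∀ x, |f x| ≤ K * wt j x := by
  have h2 : PB (fun x => (‖fderiv ℝ f x‖ + 2 * C * ‖f x‖) + ‖f x‖) :=
    (h1.norm.add (h0.norm.const_mul (2 * C))).add h0.norm
  obtain ⟨K, p, hK, hb⟩ := h2
  have hb' : ∀ x, (‖fderiv ℝ f x‖ + 2 * C * ‖f x‖) + ‖f x‖ ≤ K * 2 ^ p * wt p x := by
    intro x
    have h3 := (le_abs_self _).trans (hb x)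
    have h4 := mul_le_mul_of_nonneg_left (pow_le_wt p x) hK
    linarith
  refine ⟨K * 2 ^ p, p, by positivity, fun x => ?_, fun x => ?_⟩
  · have h3 := hb' x
    rw [norm_grad]
    have h4 : 0 ≤ ‖f x‖ := norm_nonneg _
    rw [Real.norm_eq_abs] at h3 h4
    linarith
  · have h3 := hb' x
    have h4 : 0 ≤ ‖f x‖ := norm_nonneg _
    have h5 : 0 ≤ ‖fderiv ℝ f x‖ := norm_nonneg _
    have h6 : 0 ≤ 2 * C * ‖f x‖ := by positivity
    rw [← Real.norm_eq_abs]
    linarith

/-- convergence of the weighted integrals of the cut off functions -/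
lemma tendsto_int_ctf {μ : Measure E} {f : E → ℝ} (hf : Continuous f) {K : ℝ} {j : ℕ}
    (h2 : ∀ x, |f x| ≤ K * wt j x) (hi : Integrable (fun x => wt j x * rho x) μ) :
    Tendsto (fun n => ∫ x, ctf f n x * rho x ∂μ) atTop (𝓝 (∫ x, f x * rho x ∂μ)) := by
  refine tendsto_integral_of_dominated_convergence (fun x => K * (wt j x * rho x)) (fun n => ?_)
    (hi.const_mul K) (fun n => Eventually.of_forall fun x => ?_)
    (Eventually.of_forall fun x => (tendsto_ctf f x).mul_const _)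
  · exact ((((contDiff_cut n).continuous.pow 2).mul hf).mul continuous_rho).aestronglyMeasurable
  · rw [norm_mul, Real.norm_eq_abs, Real.norm_of_nonneg (rho_pos x).le, ← mul_assoc]
    exact mul_le_mul_of_nonneg_right ((abs_ctf_le f n x).trans (h2 x)) (rho_pos x).le

end A2

theorem RF.ineq_poly (h : RF m N T H s₀) {f : E → ℝ} (hf : ContDiff ℝ 1 f) (h0 : PB f)
    (h1 : PB (fderiv ℝ f)) (hnn : ∀ x, 0 ≤ f x) {a b : ℝ} (ha : s₀ ≤ a) (hab : a ≤ b) :
    IntervalIntegrable (fun s => LL (N s) (T s) (H s) f) volume a b ∧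
      ∫ x, f x * rho x ∂(N b) - ∫ x, f x * rho x ∂(N a) ≤ ∫ s in a..b, LL (N s) (T s) (H s) f := by
  obtain ⟨C, hC0, hC⟩ := exists_grad_cut (E := E)
  obtain ⟨K, j, hK, hb1, hb2⟩ := exists_wt_bound hC0 h0 h1
  obtain ⟨g, hg, hgb⟩ := integrableOn_wt h j ha hab
  obtain ⟨B, hB0, hB⟩ := moment_wt h j
  have hin : ∀ᵐ s ∂(volume.restrict (Ioc a b)), s ∈ Ioc a b := ae_restrict_mem measurableSet_Ioc
  have hgs : ∀ᵐ s ∂(volume.restrict (Ioc a b)), s₀ ≤ s → GSlice m (N s) (T s) (H s) :=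
    ae_restrict_of_ae h.gslice
  have hq := fun n => h.ineq (ctf f n) (ctf_cd hf n) (ctf_cpt _ n) (ctf_nonneg hnn n) a b ha hab
  have hI : ∀ n, IntegrableOn (fun s => LL (N s) (T s) (H s) (ctf f n)) (Ioc a b) := by
    intro n
    have := (hq n).1
    rwa [intervalIntegrable_iff_integrableOn_Ioc_of_le hab] at this
  have hlim : ∀ᵐ s ∂(volume.restrict (Ioc a b)),
      Tendsto (fun n => LL (N s) (T s) (H s) (ctf f n)) atTop
        (𝓝 (LL (N s) (T s) (H s) f)) := by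
    filter_upwards [hin, hgs] with s hs1 hs2
    exact tendsto_LL (hs2 (ha.trans hs1.1.le)) hC hC0 hf hb1 hb2 hK
  have hbd : ∀ n, ∀ᵐ s ∂(volume.restrict (Ioc a b)),
      ‖LL (N s) (T s) (H s) (ctf f n)‖ ≤ 3 * K * g s := by
    intro n
    filter_upwards [hin, hgs, hgb] with s hs1 hs2 hs3
    have h2 := abs_LL_le (hs2 (ha.trans hs1.1.le)) (f := ctf f n)
      (fun x => (norm_grad_ctf_le hC hC0 hf n x).trans (hb1 x))
      (fun x => (abs_ctf_le f n x).trans (hb2 x)) hK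
    rw [Real.norm_eq_abs]
    refine h2.trans ?_
    have h3 := mul_le_mul_of_nonneg_left hs3.1 hK
    have h4 := mul_le_mul_of_nonneg_left hs3.2 hK
    linarith
  have hgi : IntegrableOn (fun s => 3 * K * g s) (Ioc a b) := hg.const_mul _
  have hmeas : AEStronglyMeasurable (fun s => LL (N s) (T s) (H s) f)
      (volume.restrict (Ioc a b)) :=
    aestronglyMeasurable_of_tendsto_ae atTop (fun n => (hI n).aestronglyMeasurable) hlim
  have hfi : IntegrableOn (fun s => LL (N s) (T s) (H s) f) (Ioc a b) := by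
    refine hgi.mono' hmeas ?_
    filter_upwards [hlim, ae_all_iff.2 hbd] with s hs1 hs2
    exact le_of_tendsto hs1.norm (Eventually.of_forall hs2)
  refine ⟨(intervalIntegrable_iff_integrableOn_Ioc_of_le hab).2 hfi, ?_⟩
  have l1 := tendsto_int_ctf hf.continuous hb2 (hB a ha).1
  have l2 := tendsto_int_ctf hf.continuous hb2 (hB b (ha.trans hab)).1
  have l3 : Tendsto (fun n => ∫ s in a..b, LL (N s) (T s) (H s) (ctf f n)) atTop
      (𝓝 (∫ s in a..b, LL (N s) (T s) (H s) f)) := by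
    simp_rw [intervalIntegral.integral_of_le hab]
    exact tendsto_integral_of_dominated_convergence _ (fun n => (hI n).aestronglyMeasurable)
      hgi hbd hlim
  exact le_of_tendsto_of_tendsto' (l2.sub l1) l3 fun n => (hq n).2

theorem RF.intervalIntegrable_int (h : RF m N T H s₀) {f : E → ℝ} (hf : ContDiff ℝ 1 f)
    (h0 : PB f) (h1 : PB (fderiv ℝ f)) (hnn : ∀ x, 0 ≤ f x) {a b : ℝ} (ha : s₀ ≤ a)
    (hab : a ≤ b) :
    IntervalIntegrable (fun s => ∫ x, f x * rho x ∂(N s)) volume a b := by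
  have hi := (h.ineq_poly hf h0 h1 hnn ha hab).1
  have hcont : ContinuousOn (fun s => ∫ t in a..s, LL (N t) (T t) (H t) f) (uIcc a b) := by
    have := intervalIntegral.continuousOn_primitive_interval' hi left_mem_uIcc
    exact this
  have hanti : AntitoneOn (fun s => (∫ x, f x * rho x ∂(N s))
      - ∫ t in a..s, LL (N t) (T t) (H t) f) (uIcc a b) := by
    rw [uIcc_of_le hab]
    intro s hs t ht hst
    have h2 := (h.ineq_poly hf h0 h1 hnn (ha.trans hs.1) hst).2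
    have i1 : IntervalIntegrable (fun s => LL (N s) (T s) (H s) f) volume a s :=
      (h.ineq_poly hf h0 h1 hnn ha hs.1).1
    have i2 : IntervalIntegrable (fun s => LL (N s) (T s) (H s) f) volume s t :=
      (h.ineq_poly hf h0 h1 hnn (ha.trans hs.1) hst).1
    have h3 := intervalIntegral.integral_add_adjacent_intervals i1 i2
    simp only
    linarith
  have h5 : IntervalIntegrable (fun s => ∫ t in a..s, LL (N t) (T t) (H t) f) volume a b :=
    hcont.intervalIntegrable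
  have h6 : IntervalIntegrable (fun s => (∫ x, f x * rho x ∂(N s))
      - ∫ t in a..s, LL (N t) (T t) (H t) f) volume a b := hanti.intervalIntegrable
  have h4 := h6.add h5
  have e : (fun s => ∫ x, f x * rho x ∂(N s)) = (fun s => (∫ x, f x * rho x ∂(N s))
      - ∫ t in a..s, LL (N t) (T t) (H t) f) + fun s => ∫ t in a..s, LL (N t) (T t) (H t) f := by
    ext s
    simp
  rw [e]
  exact h4

end RF

end Vale.Agent.P218.H313
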