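import Vale.Agent.P218.H313.Defs

/-! Nondegenerate shrinkers: gradients, traces, divergences along planes, polynomial growth. -/

open MeasureTheory Set Filter Topology Metric
open scoped ENNReal NNReal RealInnerProductSpace

namespace Vale.Agent.P218.H313

open Vale.Agent.P214 (IntegralVarifold proj divAlong IsTestField)
open Vale.Agent.P218.H552 (MC BF NN)

set_option linter.unusedSectionVars false
set_option linter.unusedVariables false

section grad

variable {E : Type*} [NormedAddCommGroup E] [InnerProductSpace ℝ E] [FiniteDimensional ℝ E]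

lemma inner_grad (f : E → ℝ) (x v : E) : ⟪grad f x, v⟫ = fderiv ℝ f x v := by
  unfold grad
  simp

lemma inner_grad' (f : E → ℝ) (x v : E) : ⟪v, grad f x⟫ = fderiv ℝ f x v := by
  rw [real_inner_comm, inner_grad]

lemma norm_grad (f : E → ℝ) (x : E) : ‖grad f x‖ = ‖fderiv ℝ f x‖ := by
  unfold grad
  simp

/-- uniqueness of the gradient -/
lemma grad_unique {f : E → ℝ} {x g : E} (h : ∀ v, fderiv ℝ f x v = ⟪g, v⟫) : grad f x = g := by
  refine ext_inner_right ℝ fun v => ?_
  rw [inner_grad, h]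

/-- the Riesz isomorphism as a continuous linear map on the dual -/
noncomputable def riesz (E : Type*) [NormedAddCommGroup E] [InnerProductSpace ℝ E]
    [FiniteDimensional ℝ E] : (E →L[ℝ] ℝ) →L[ℝ] E :=
  haveI := FiniteDimensional.complete ℝ E
  LinearMap.toContinuousLinearMap
    { toFun := fun l => (InnerProductSpace.toDual ℝ E).symm l
      map_add' := fun a b => map_add _ a b
      map_smul' := fun c l => by simp }

lemma grad_eq (f : E → ℝ) : grad f = fun x => riesz E (fderiv ℝ f x) := rfl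

lemma inner_riesz (l : E →L[ℝ] ℝ) (v : E) : ⟪riesz E l, v⟫ = l v := by
  unfold riesz
  simp

lemma contDiff_grad {f : E → ℝ} {n : ℕ} (hf : ContDiff ℝ (n + 1) f) : ContDiff ℝ n (grad f) := by
  rw [grad_eq]
  exact (riesz E).contDiff.comp (hf.fderiv_right (m := n) (by norm_cast))

lemma contDiff_grad_one {f : E → ℝ} (hf : ContDiff ℝ 2 f) : ContDiff ℝ 1 (grad f) := by
  have : ContDiff ℝ ((1 : ℕ) + 1) f := by
    have e : ((1 : ℕ) + 1 : WithTop ℕ∞) = 2 := by norm_num
    rw [e]; exact hf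
  exact_mod_cast contDiff_grad this

lemma continuous_grad {f : E → ℝ} (hf : ContDiff ℝ 1 f) : Continuous (grad f) := by
  rw [grad_eq]
  exact (riesz E).continuous.comp (hf.continuous_fderiv (by norm_num))

/-- the Hessian -/
lemma inner_fderiv_grad {f : E → ℝ} (hf : ContDiff ℝ 2 f) (x v w : E) :
    ⟪fderiv ℝ (grad f) x v, w⟫ = fderiv ℝ (fderiv ℝ f) x v w := by
  have h1 : DifferentiableAt ℝ (fderiv ℝ f) x :=
    (hf.fderiv_right (m := 1) (by norm_num)).differentiable (by norm_num) x
  have h2 : HasFDerivAt (grad f) ((riesz E).comp (fderiv ℝ (fderiv ℝ f) x)) x := by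
    rw [grad_eq]
    exact (riesz E).hasFDerivAt.comp x h1.hasFDerivAt
  rw [h2.fderiv]
  exact inner_riesz _ _

lemma hess_symm {f : E → ℝ} (hf : ContDiff ℝ 2 f) (x v w : E) :
    ⟪fderiv ℝ (grad f) x v, w⟫ = ⟪v, fderiv ℝ (grad f) x w⟫ := by
  rw [inner_fderiv_grad hf, real_inner_comm, inner_fderiv_grad hf]
  have h := hf.contDiffAt (x := x)
  exact (h.isSymmSndFDerivAt (by simp)).eq v w

lemma grad_add {f g : E → ℝ} {x : E} (hf : DifferentiableAt ℝ f x) (hg : DifferentiableAt ℝ g x) :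
    grad (fun y => f y + g y) x = grad f x + grad g x := by
  refine grad_unique fun v => ?_
  rw [inner_add_left, inner_grad, inner_grad]
  have := hf.hasFDerivAt.add hg.hasFDerivAt
  rw [show (fun y => f y + g y) = f + g from rfl, this.fderiv]
  rfl

lemma grad_mul {f g : E → ℝ} {x : E} (hf : DifferentiableAt ℝ f x) (hg : DifferentiableAt ℝ g x) :
    grad (fun y => f y * g y) x = f x • grad g x + g x • grad f x := by
  refine grad_unique fun v => ?_
  rw [inner_add_left, real_inner_smul_left, real_inner_smul_left, inner_grad, inner_grad]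
  have := hf.hasFDerivAt.mul hg.hasFDerivAt
  rw [show (fun y => f y * g y) = f * g from rfl, this.fderiv]
  rfl

lemma grad_const_mul {f : E → ℝ} {x : E} (c : ℝ) (hf : DifferentiableAt ℝ f x) :
    grad (fun y => c * f y) x = c • grad f x := by
  refine grad_unique fun v => ?_
  rw [real_inner_smul_left, inner_grad, (hf.hasFDerivAt.const_mul c).fderiv]
  rfl

lemma grad_sq {f : E → ℝ} {x : E} (hf : DifferentiableAt ℝ f x) :
    grad (fun y => f y ^ 2) x = (2 * f x) • grad f x := by
  have e : (fun y => f y ^ 2) = fun y => f y * f y := by ext; ring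
  rw [e, grad_mul hf hf, ← add_smul]; congr 1; ring

lemma grad_normSq (x : E) : grad (fun y : E => ‖y‖ ^ 2) x = (2 : ℝ) • x := by
  refine grad_unique fun v => ?_
  rw [(hasStrictFDerivAt_norm_sq x).hasFDerivAt.fderiv, real_inner_smul_left]
  simp

end grad

section trace

variable {E : Type*} [NormedAddCommGroup E] [InnerProductSpace ℝ E] [FiniteDimensional ℝ E]

/-- the trace as a continuous linear map -/
noncomputable def trL (E : Type*) [NormedAddCommGroup E] [InnerProductSpace ℝ E]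
    [FiniteDimensional ℝ E] : (E →L[ℝ] E) →L[ℝ] ℝ :=
  LinearMap.toContinuousLinearMap
    { toFun := fun A => LinearMap.trace ℝ E A.toLinearMap
      map_add' := fun A B => by
        have : (A + B).toLinearMap = A.toLinearMap + B.toLinearMap := rfl
        rw [this, map_add]
      map_smul' := fun c A => by
        have : (c • A).toLinearMap = c • A.toLinearMap := rfl
        rw [this, map_smul]; rfl }

lemma trL_apply (A : E →L[ℝ] E) : trL E A = tr A := rfl

lemma tr_eq_sum (A : E →L[ℝ] E) :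
    tr A = ∑ i, ⟪stdOrthonormalBasis ℝ E i, A (stdOrthonormalBasis ℝ E i)⟫ := by
  unfold tr
  rw [LinearMap.trace_eq_sum_inner _ (stdOrthonormalBasis ℝ E)]
  rfl

lemma abs_tr_le (A : E →L[ℝ] E) : |tr A| ≤ Module.finrank ℝ E * ‖A‖ := by
  rw [tr_eq_sum]
  refine (Finset.abs_sum_le_sum_abs _ _).trans ?_
  have : ∀ i ∈ Finset.univ, |⟪stdOrthonormalBasis ℝ E i, A (stdOrthonormalBasis ℝ E i)⟫| ≤ ‖A‖ := by
    intro i _
    refine (abs_real_inner_le_norm _ _).trans ?_
    have h1 := A.le_opNorm (stdOrthonormalBasis ℝ E i)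
    rw [OrthonormalBasis.norm_eq_one, mul_one] at h1
    rw [OrthonormalBasis.norm_eq_one, one_mul]
    exact h1
  refine (Finset.sum_le_sum this).trans ?_
  simp

lemma tr_add (A B : E →L[ℝ] E) : tr (A + B) = tr A + tr B := (trL E).map_add A B
lemma tr_sub (A B : E →L[ℝ] E) : tr (A - B) = tr A - tr B := (trL E).map_sub A B
lemma tr_smul (c : ℝ) (A : E →L[ℝ] E) : tr (c • A) = c * tr A := (trL E).map_smul c A

lemma tr_proj (T : Submodule ℝ E) : tr (proj T) = Module.finrank ℝ T := H552.trace_proj T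

lemma tr_comp_smulRight (P : E →L[ℝ] E) (l : E →L[ℝ] ℝ) (w : E) :
    tr (P.comp (l.smulRight w)) = l (P w) := H552.trace_comp_smulRight P l w

lemma tr_comm (A B : E →L[ℝ] E) : tr (A.comp B) = tr (B.comp A) :=
  LinearMap.trace_comp_comm' _ _

lemma divAlong_eq (T : Submodule ℝ E) (X : E → E) (x : E) :
    divAlong T X x = tr ((proj T).comp (fderiv ℝ X x)) := rfl

lemma abs_divAlong_le (T : Submodule ℝ E) (X : E → E) (x : E) :
    |divAlong T X x| ≤ Module.finrank ℝ E * ‖fderiv ℝ X x‖ := by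
  rw [divAlong_eq]
  refine (abs_tr_le _).trans ?_
  gcongr
  refine (ContinuousLinearMap.opNorm_comp_le _ _).trans ?_
  have := H552.norm_proj_le T
  have h0 := norm_nonneg (fderiv ℝ X x)
  nlinarith

lemma divAlong_smul (T : Submodule ℝ E) {F : E → ℝ} {X : E → E} {x : E}
    (hF : DifferentiableAt ℝ F x) (hX : DifferentiableAt ℝ X x) :
    divAlong T (fun z => F z • X z) x
      = F x * divAlong T X x + ⟪proj T (grad F x), X x⟫ := by
  rw [divAlong_eq, divAlong_eq]
  have h1 : HasFDerivAt (fun z => F z • X z)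
      (F x • fderiv ℝ X x + (fderiv ℝ F x).smulRight (X x)) x :=
    hF.hasFDerivAt.smul hX.hasFDerivAt
  rw [h1.fderiv, ContinuousLinearMap.comp_add, ContinuousLinearMap.comp_smul, tr_add, tr_smul,
    tr_comp_smulRight, H552.inner_proj_left, inner_grad]

lemma divAlong_add (T : Submodule ℝ E) {X Y : E → E} {x : E}
    (hX : DifferentiableAt ℝ X x) (hY : DifferentiableAt ℝ Y x) :
    divAlong T (fun z => X z + Y z) x = divAlong T X x + divAlong T Y x := by
  rw [divAlong_eq, divAlong_eq, divAlong_eq]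
  have h1 : HasFDerivAt (fun z => X z + Y z) (fderiv ℝ X x + fderiv ℝ Y x) x :=
    hX.hasFDerivAt.add hY.hasFDerivAt
  rw [h1.fderiv, ContinuousLinearMap.comp_add, tr_add]

lemma divAlong_id (T : Submodule ℝ E) (x : E) :
    divAlong T (fun z => z) x = Module.finrank ℝ T := by
  rw [divAlong_eq, show (fun z : E => z) = id from rfl, fderiv_id]
  rw [ContinuousLinearMap.comp_id, tr_proj]

lemma divAlong_clm (T : Submodule ℝ E) (A : E →L[ℝ] E) (x : E) :
    divAlong T (fun z => A z) x = tr ((proj T).comp A) := by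
  rw [divAlong_eq, show (fun z : E => A z) = A from rfl, A.fderiv]

lemma norm_proj_apply_le (T : Submodule ℝ E) (x : E) : ‖proj T x‖ ≤ ‖x‖ := by
  refine ((proj T).le_opNorm x).trans ?_
  have := H552.norm_proj_le T
  have h0 := norm_nonneg x
  nlinarith

lemma proj_proj (T : Submodule ℝ E) (x : E) : proj T (proj T x) = proj T x := by
  unfold proj
  rw [Submodule.starProjection_eq_self_iff]
  exact Submodule.starProjection_apply_mem _ _

lemma inner_proj_proj (T : Submodule ℝ E) (x y : E) : ⟪proj T x, proj T y⟫ = ⟪proj T x, y⟫ := by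
  rw [← H552.inner_proj_left, proj_proj]

lemma norm_proj_sq (T : Submodule ℝ E) (x : E) : ‖proj T x‖ ^ 2 = ⟪proj T x, x⟫ := by
  rw [← inner_proj_proj, real_inner_self_eq_norm_sq]

lemma norm_sub_proj_le (T : Submodule ℝ E) (x : E) : ‖x - proj T x‖ ≤ ‖x‖ := by
  have h1 : ‖x - proj T x‖ ^ 2 ≤ ‖x‖ ^ 2 := by
    have e : ‖x - proj T x‖ ^ 2 = ‖x‖ ^ 2 - ‖proj T x‖ ^ 2 := by
      rw [norm_sub_sq_real, norm_proj_sq, real_inner_comm]; ring
    rw [e]; nlinarith [sq_nonneg ‖proj T x‖]
  exact le_of_sq_le_sq h1 (norm_nonneg _) 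

/-- the trace of a skew operator along a plane vanishes -/
lemma tr_proj_skew (T : Submodule ℝ E) {A : E →L[ℝ] E} (hA : ∀ x, ⟪A x, x⟫ = 0) :
    tr ((proj T).comp A) = 0 := by
  have hskew : ∀ x y, ⟪A x, y⟫ = - ⟪x, A y⟫ := by
    intro x y
    have h := hA (x + y)
    rw [map_add, inner_add_left, inner_add_right, inner_add_right, hA x, hA y,
      real_inner_comm x (A y)] at h
    linarith
  have h1 : tr ((proj T).comp A) = - tr ((proj T).comp A) := by
    conv_lhs => rw [tr_comm]
    rw [tr_eq_sum, tr_eq_sum, ← Finset.sum_neg_distrib]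
    refine Finset.sum_congr rfl fun i _ => ?_
    simp only [ContinuousLinearMap.comp_apply]
    rw [← H552.inner_proj_left, real_inner_comm, hskew, real_inner_comm]
  linarith

end trace

section PB

variable {E : Type*} [NormedAddCommGroup E] [InnerProductSpace ℝ E]
  {F : Type*} [NormedAddCommGroup F]

lemma one_le_one_add_norm (x : E) : (1 : ℝ) ≤ 1 + ‖x‖ := by
  have := norm_nonneg x; linarith

lemma PB.of_le {f : E → F} {C : ℝ} {p : ℕ} (h : ∀ x, ‖f x‖ ≤ C * (1 + ‖x‖) ^ p) : PB f := by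
  refine ⟨|C|, p, abs_nonneg _, fun x => (h x).trans ?_⟩
  have := le_abs_self C
  have h2 : 0 ≤ (1 + ‖x‖) ^ p := by positivity
  nlinarith

lemma PB.of_bound {f : E → F} {C : ℝ} (h : ∀ x, ‖f x‖ ≤ C) : PB f :=
  PB.of_le (C := C) (p := 0) fun x => by simpa using h x

lemma PB.const (c : F) : PB (fun _ : E => c) := PB.of_bound fun _ => le_rfl

lemma PB.id' : PB (fun x : E => x) :=
  PB.of_le (C := 1) (p := 1) fun x => by simp

lemma PB.mono {G : Type*} [NormedAddCommGroup G] {f : E → F} {g : E → G} (hg : PB g)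
    (h : ∀ x, ‖f x‖ ≤ ‖g x‖) : PB f := by
  obtain ⟨C, p, hC, hb⟩ := hg
  exact ⟨C, p, hC, fun x => (h x).trans (hb x)⟩

lemma PB.norm {f : E → F} (hf : PB f) : PB (fun x => ‖f x‖) :=
  hf.mono fun x => by simp

lemma PB.neg {f : E → F} (hf : PB f) : PB (fun x => -f x) :=
  hf.mono fun x => by simp

lemma PB.add {f g : E → F} (hf : PB f) (hg : PB g) : PB (fun x => f x + g x) := by
  obtain ⟨C, p, hC, hb⟩ := hf
  obtain ⟨C', p', hC', hb'⟩ := hg
  refine ⟨C + C', max p p', by positivity, fun x => (norm_add_le _ _).trans ?_⟩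
  have h1 : (1 + ‖x‖) ^ p ≤ (1 + ‖x‖) ^ (max p p') :=
    pow_le_pow_right₀ (one_le_one_add_norm x) (le_max_left _ _)
  have h2 : (1 + ‖x‖) ^ p' ≤ (1 + ‖x‖) ^ (max p p') :=
    pow_le_pow_right₀ (one_le_one_add_norm x) (le_max_right _ _)
  have h3 := hb x
  have h4 := hb' x
  have h5 := mul_le_mul_of_nonneg_left h1 hC
  have h6 := mul_le_mul_of_nonneg_left h2 hC'
  linarith

lemma PB.sub {f g : E → F} (hf : PB f) (hg : PB g) : PB (fun x => f x - g x) := by
  simpa [sub_eq_add_neg] using hf.add hg.neg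

/-- products of norms -/
lemma PB.of_norm_mul {G H : Type*} [NormedAddCommGroup G] [NormedAddCommGroup H] {f : E → F}
    {g : E → G} {h : E → H} (hf : PB f) (hg : PB g) (hh : ∀ x, ‖h x‖ ≤ ‖f x‖ * ‖g x‖) : PB h := by
  obtain ⟨C, p, hC, hb⟩ := hf
  obtain ⟨C', p', hC', hb'⟩ := hg
  refine ⟨C * C', p + p', by positivity, fun x => (hh x).trans ?_⟩
  calc ‖f x‖ * ‖g x‖ ≤ (C * (1 + ‖x‖) ^ p) * (C' * (1 + ‖x‖) ^ p') :=
        mul_le_mul (hb x) (hb' x) (norm_nonneg _) (by positivity)
    _ = C * C' * (1 + ‖x‖) ^ (p + p') := by rw [pow_add]; ring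

lemma PB.mul {f g : E → ℝ} (hf : PB f) (hg : PB g) : PB (fun x => f x * g x) :=
  PB.of_norm_mul hf hg fun x => by rw [norm_mul]

lemma PB.smul [NormedSpace ℝ F] {f : E → ℝ} {g : E → F} (hf : PB f) (hg : PB g) :
    PB (fun x => f x • g x) :=
  PB.of_norm_mul hf hg fun x => by rw [norm_smul]

lemma PB.const_mul {f : E → ℝ} (c : ℝ) (hf : PB f) : PB (fun x => c * f x) := (PB.const c).mul hf

lemma PB.pow {f : E → ℝ} (hf : PB f) (n : ℕ) : PB (fun x => f x ^ n) := by
  induction n with
  | zero => simpa using PB.const (E := E) (1 : ℝ)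
  | succ n ih => simpa [pow_succ] using ih.mul hf

lemma PB.inner' {f g : E → E} (hf : PB f) (hg : PB g) : PB (fun x => ⟪f x, g x⟫) :=
  PB.of_norm_mul hf hg fun x => norm_inner_le_norm _ _

lemma PB.clm_apply {G : Type*} [NormedAddCommGroup G] [NormedSpace ℝ G] [NormedSpace ℝ F]
    {f : E → F →L[ℝ] G} {g : E → F} (hf : PB f) (hg : PB g) : PB (fun x => f x (g x)) :=
  PB.of_norm_mul hf hg fun x => (f x).le_opNorm _

lemma PB.normSq : PB (fun x : E => ‖x‖ ^ 2) := PB.id'.norm.pow 2

lemma PB.of_compact {f : E → F} (hf : Continuous f) (hc : HasCompactSupport f) : PB f := by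
  obtain ⟨C, hC⟩ := hc.exists_bound_of_continuous hf
  exact PB.of_bound hC

end PB

end Vale.Agent.P218.H313
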