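import Vale.Agent.P218.H313.C3

/-! Nondegenerate shrinkers, package C: strong compactness. -/

open MeasureTheory Set Filter Topology Metric
open scoped ENNReal NNReal RealInnerProductSpace

namespace Vale.Agent.P218.H313

open Vale.Agent.P214 (IntegralVarifold proj divAlong IsTestField)
open Vale.Agent.P218.H552 (MC BF NN)

set_option linter.unusedSectionVars false
set_option linter.unusedVariables false

section seq

variable {E : Type*} [NormedAddCommGroup E] [InnerProductSpace ℝ E] [FiniteDimensional ℝ E]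
  [MeasurableSpace E] [BorelSpace E]
variable {m : ℕ} {ι : Type*}

lemma exists_mass (U : Ultrafilter ι) {N : ι → Measure E} {κ : Measure E}
    (hfin : ∀ᶠ i in (U : Filter ι), IsFiniteMeasureOnCompacts (N i))
    (hlim : ∀ φ : E → ℝ, Continuous φ → HasCompactSupport φ →
      Tendsto (fun i => ∫ x, φ x ∂(N i)) U (𝓝 (∫ x, φ x ∂κ))) (R : ℝ) :
    ∃ M : ℝ, 0 < M ∧ ∀ᶠ i in (U : Filter ι), (N i).real (closedBall (0 : E) R) ≤ M := by
  have hprop : ProperSpace E := FiniteDimensional.proper_real E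
  have hR : 0 < |R| + 1 := by positivity
  have hc := H552.contDiff_chi (E := E) (|R| + 1)
  have hk := H552.chi_compact (E := E) hR
  have h1 := hlim _ hc.continuous hk
  have h2 := h1.eventually (gt_mem_nhds (lt_add_one (∫ x, H552.chi (|R| + 1) x ∂κ)))
  have h3 : 0 ≤ ∫ x, H552.chi (|R| + 1) x ∂κ := integral_nonneg fun x => H552.chi_nonneg _ _
  refine ⟨∫ x, H552.chi (|R| + 1) x ∂κ + 1, by linarith, ?_⟩
  filter_upwards [h2, hfin] with i hi hf
  refine le_trans ?_ hi.le
  have h4 : (N i).real (closedBall (0 : E) R)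
      = ∫ x, (closedBall (0 : E) R).indicator (fun _ => (1 : ℝ)) x ∂(N i) := by
    rw [integral_indicator measurableSet_closedBall, setIntegral_const, smul_eq_mul, mul_one]
  rw [h4]
  refine integral_mono ((integrable_indicator_iff measurableSet_closedBall).2
      ((locallyIntegrable_const (1 : ℝ)).integrableOn_isCompact (isCompact_closedBall _ _)))
    (hc.continuous.integrable_of_hasCompactSupport hk) fun y => ?_
  by_cases hy : y ∈ closedBall (0 : E) R
  · rw [indicator_of_mem hy, H552.chi_eq_one hR]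
    rw [mem_closedBall_zero_iff] at hy
    have := le_abs_self R
    linarith
  · rw [indicator_of_notMem hy]
    exact H552.chi_nonneg _ _

/-- **convergence in measure, one-sided** -/
lemma conv_meas (U : Ultrafilter ι) {N : ι → Measure E}
    {T : ι → E → Submodule ℝ E} {H : ι → E → E} {κ : Measure E} [IsLocallyFiniteMeasure κ]
    (hsl : ∀ᶠ i in (U : Filter ι), Slice m (N i) (T i) (H i))
    (hlim : ∀ φ : E → ℝ, Continuous φ → HasCompactSupport φ →
      Tendsto (fun i => ∫ x, φ x ∂(N i)) U (𝓝 (∫ x, φ x ∂κ)))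
    (hratio : ∃ C : ℝ, ∀ᶠ i in (U : Filter ι), ∀ (x : E) (r : ℝ), 0 < r → r ≤ 1 →
      (N i).real (closedBall x r) ≤ C * r ^ m)
    (hκ : ∀ x : E, ∀ c > om m, ∀ᶠ r in 𝓝[>] (0 : ℝ), (∫ y, ker (r⁻¹ • (y - x)) ∂κ) / r ^ m ≤ c)
    {w : ι → E → ℝ} (hw : ∀ᶠ i in (U : Filter ι), ContDiff ℝ 1 (w i))
    (hbd : ∀ R : ℝ, ∃ C : ℝ, ∀ᶠ i in (U : Filter ι), ∫ x in closedBall (0 : E) R,
      (w i x ^ 2 + ‖proj (T i x) (grad (w i) x)‖ ^ 2 + ‖H i x‖ ^ 2
        + w i x ^ 2 * ‖H i x‖) ∂(N i) ≤ C)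
    (h0 : ∀ ζ : E → ℝ, Continuous ζ → HasCompactSupport ζ →
      Tendsto (fun i => ∫ x, ζ x * w i x ∂(N i)) U (𝓝 0))
    {s : ℝ} (hs : 0 < s) (R : ℝ) {δ : ℝ} (hδ : 0 < δ) :
    ∀ᶠ i in (U : Filter ι),
      N i {x | x ∈ closedBall (0 : E) R ∧ 2 * s ≤ w i x} ≤ ENNReal.ofReal δ := by
  have hprop : ProperSpace E := FiniteDimensional.proper_real E
  have hom := om_pos m
  have hfin : ∀ᶠ i in (U : Filter ι), IsFiniteMeasureOnCompacts (N i) := by
    filter_upwards [hsl] with i hi using hi.mc.fin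
  obtain ⟨M, hM0, hM⟩ := exists_mass U hfin hlim (R + 1)
  obtain ⟨C', hC'⟩ := hratio
  set C : ℝ := max C' 1 with hCdef
  have hC : 0 < C := lt_of_lt_of_le one_pos (le_max_right _ _)
  have hratio' : ∀ᶠ i in (U : Filter ι), ∀ (x : E) (r : ℝ), 0 < r → r ≤ 1 →
      (N i).real (closedBall x r) ≤ C * r ^ m := by
    filter_upwards [hC'] with i hi x r hr hr1
    refine (hi x r hr hr1).trans ?_
    exact mul_le_mul_of_nonneg_right (le_max_left _ _) (by positivity)
  obtain ⟨C₁, hC₁⟩ := hbd (R + 1)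
  set G : ℝ := (1 + 4 / s) * (M + |C₁|) with hGdef
  have hG0 : 0 < G := by positivity
  have hnB : 0 < (Vale.Agent.P214.BES.nB E : ℝ) := by
    unfold Vale.Agent.P214.BES.nB; positivity
  set lam : ℝ := Vale.Agent.P214.BES.nB E * C * G / δ with hlamdef
  have hlam : 0 < lam := by positivity
  have hval : Vale.Agent.P214.BES.nB E * C * (G / lam) = δ := by
    rw [hlamdef]; field_simp
  by_contra hcon
  rw [← Ultrafilter.eventually_not] at hcon
  simp only [not_le] at hcon
  -- the bound of the dominating function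
  have hdom : ∀ᶠ i in (U : Filter ι),
      ∫ y in closedBall 0 (R + 1), dom (T i) (H i) (w i) s y ∂(N i) ≤ G := by
    filter_upwards [hsl, hw, hM, hC₁] with i hi hwi hMi hCi
    have := hi.mc.fin
    have hK : IsCompact (closedBall (0 : E) (R + 1)) := isCompact_closedBall _ _
    have i1 : IntegrableOn (fun y => w i y ^ 2) (closedBall (0 : E) (R + 1)) (N i) :=
      (hwi.continuous.pow 2).continuousOn.integrableOn_compact hK
    have i2 := hi.sq_proj_grad_integrableOn hwi hK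
    have i3 := hi.mc.locL2 _ hK
    have i4 := hi.sq_mul_H_integrableOn hwi.continuous hK
    have i5 : IntegrableOn (fun x => w i x ^ 2 + ‖proj (T i x) (grad (w i) x)‖ ^ 2 + ‖H i x‖ ^ 2
        + w i x ^ 2 * ‖H i x‖) (closedBall (0 : E) (R + 1)) (N i) := ((i1.add i2).add i3).add i4
    have i6 : IntegrableOn (fun _ : E => (1 : ℝ)) (closedBall (0 : E) (R + 1)) (N i) :=
      (locallyIntegrable_const (1 : ℝ)).integrableOn_isCompact hK
    calc ∫ y in closedBall 0 (R + 1), dom (T i) (H i) (w i) s y ∂(N i)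
        ≤ ∫ y in closedBall 0 (R + 1), (1 + 4 / s) * (1 + (w i y ^ 2
            + ‖proj (T i y) (grad (w i) y)‖ ^ 2 + ‖H i y‖ ^ 2 + w i y ^ 2 * ‖H i y‖)) ∂(N i) := by
          refine integral_mono (hi.dom_integrableOn hwi s hK) ((i6.add i5).const_mul _) fun y => ?_
          simp only [dom]
          have p1 := sq_nonneg (w i y)
          have p2 := sq_nonneg ‖proj (T i y) (grad (w i) y)‖
          have p3 := sq_nonneg ‖H i y‖
          have p4 : 0 ≤ w i y ^ 2 * ‖H i y‖ := by positivity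
          have p5 : 0 ≤ 4 / s := by positivity
          nlinarith [mul_nonneg p5 p1, mul_nonneg p5 p3, mul_nonneg p5 p4]
      _ = (1 + 4 / s) * ((N i).real (closedBall 0 (R + 1)) + ∫ y in closedBall 0 (R + 1),
            (w i y ^ 2 + ‖proj (T i y) (grad (w i) y)‖ ^ 2 + ‖H i y‖ ^ 2
            + w i y ^ 2 * ‖H i y‖) ∂(N i)) := by
          rw [integral_const_mul, integral_add i6 i5, setIntegral_const, smul_eq_mul, mul_one]
      _ ≤ G := by
          rw [hGdef]
          have := le_abs_self C₁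
          have p5 : 0 ≤ 4 / s := by positivity
          gcongr
          linarith
  -- good points
  have hgood : ∀ᶠ i in (U : Filter ι), ∃ x, x ∈ closedBall (0 : E) R ∧
      (∀ t, 0 < t → t ≤ 1 → om m ≤ JJ m (N i) (fun y => gam s (w i y)) x t + lam * t) ∧
      (∀ t, 0 < t → t ≤ 1 → ∫ y in closedBall x t, w i y ^ 2 ∂(N i) ≤ lam * t ^ m) := by
    filter_upwards [hsl, hw, hratio', hdom, hcon] with i h1 h2 h3 h4 h5
    rw [← hval] at h5
    obtain ⟨x, hx, hx1, hx2⟩ := exists_good h1 h2 hC hs hlam h3 h4 h5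
    exact ⟨x, hx, hx1, hx2⟩
  obtain ⟨x, hx⟩ := hgood.choice
  obtain ⟨x₀, hx₀, hxlim⟩ := (isCompact_closedBall (0 : E) R).ultrafilter_le_nhds (U.map x) (by
    rw [Ultrafilter.coe_map, le_principal_iff, mem_map]
    exact hx.mono fun i hi => hi.1)
  have hxt : Tendsto x U (𝓝 x₀) := hxlim
  -- constants
  set η : ℝ := s * om m / (4 * (lam * 2 ^ m)) with hη
  have hηp : 0 < η := by positivity
  set ε : ℝ := min (om m / 16) (η * (s * om m) / 8) with hε
  have hεp : 0 < ε := lt_min (by positivity) (by positivity)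
  have hε1 : ε ≤ om m / 16 := min_le_left _ _
  have hε2 : ε ≤ η * (s * om m) / 8 := min_le_right _ _
  -- the scale
  obtain ⟨t, ht1, ht2⟩ : ∃ t : ℝ, (∫ y, ker (t⁻¹ • (y - x₀)) ∂κ) / t ^ m ≤ om m + ε ∧
      t ∈ Ioo 0 (min (1 / 2) (ε / lam)) :=
    ((hκ x₀ (om m + ε) (by linarith)).and
      (Ioo_mem_nhdsGT (lt_min (by norm_num) (by positivity)))).exists
  have ht : 0 < t := ht2.1
  have htm : 0 < t ^ m := by positivity
  have ht3 : 2 * t ≤ 1 := by
    have := lt_of_lt_of_le ht2.2 (min_le_left _ _)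
    linarith
  have ht4 : lam * t ≤ ε := by
    have := (lt_of_lt_of_le ht2.2 (min_le_right _ _)).le
    rw [le_div_iff₀ hlam] at this
    linarith
  rw [div_le_iff₀ htm] at ht1
  -- the eventual facts
  have hev1 : ∀ᶠ i in (U : Filter ι), ∫ y, ker (t⁻¹ • (y - x₀)) ∂(N i) ≤ (om m + 2 * ε) * t ^ m := by
    have h1 := hlim _ (continuous_ker_scale t x₀) (hasCompactSupport_ker_scale ht x₀)
    have h2 : ∫ y, ker (t⁻¹ • (y - x₀)) ∂κ < (om m + 2 * ε) * t ^ m := by
      have : 0 < ε * t ^ m := by positivity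
      linarith
    filter_upwards [h1.eventually (gt_mem_nhds h2)] with i hi using hi.le
  have hdist : Tendsto (fun i => dist (x i) x₀) U (𝓝 0) := tendsto_iff_dist_tendsto_zero.1 hxt
  have hev2 : ∀ᶠ i in (U : Filter ι), 4 * (t⁻¹ * dist (x i) x₀) * M ≤ ε * t ^ m := by
    have h1 : Tendsto (fun i => 4 * (t⁻¹ * dist (x i) x₀) * M) U (𝓝 (4 * (t⁻¹ * 0) * M)) :=
      ((hdist.const_mul _).const_mul _).mul_const _
    have h2 : 4 * (t⁻¹ * 0) * M < ε * t ^ m := by
      simp; positivity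
    filter_upwards [h1.eventually (gt_mem_nhds h2)] with i hi using hi.le
  have hev3 : ∀ᶠ i in (U : Filter ι), dist (x i) x₀ ≤ t := by
    filter_upwards [hdist.eventually (gt_mem_nhds ht)] with i hi using hi.le
  have hev4 : ∀ᶠ i in (U : Filter ι), ∫ y, ker (t⁻¹ • (y - x₀)) * w i y ∂(N i)
      < s * om m / 2 * t ^ m :=
    (h0 _ (continuous_ker_scale t x₀) (hasCompactSupport_ker_scale ht x₀)).eventually
      (gt_mem_nhds (by positivity))
  obtain ⟨i, ⟨hi1, hi2, hi3⟩, hi4, hi5, hi6, hi7, hi8, hi9, hi10⟩ :=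
    (hx.and (hfin.and (hw.and (hM.and (hev1.and (hev2.and (hev3.and hev4))))))).exists
  have h1 := int_lower (m := m) (μ := N i) (lam := lam) (η := η) (ε := ε) hi5.continuous hs hi1 hx₀
    ht ht3 hi6 hi8 hi9 hi7 (hi2 t ht (by linarith)) (hi3 (2 * t) (by positivity) ht3) hηp
  -- arithmetic
  have e1 : η * (lam * 2 ^ m) = s * om m / 4 := by
    rw [hη]; field_simp
  have e2 : (3 * ε + lam * t) / (4 * η) ≤ s * om m / 8 := by
    rw [div_le_iff₀ (by positivity)]
    nlinarith
  have e3 : s * om m * (7 / 8) ≤ s * (om m - lam * t - ε) := by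
    have : om m * (7 / 8) ≤ om m - lam * t - ε := by linarith
    have := mul_le_mul_of_nonneg_left this hs.le
    linarith
  have e4 : s * om m / 2 ≤ s * (om m - lam * t - ε) - η * (lam * 2 ^ m)
      - (3 * ε + lam * t) / (4 * η) := by
    rw [e1]; linarith
  have e5 := mul_le_mul_of_nonneg_right e4 htm.le
  linarith

lemma err_sq_le {T : E → Submodule ℝ E} {H : E → E} {w : E → ℝ} (hw : ContDiff ℝ 1 w) (y : E) :
    err T H (fun y => w y ^ 2) y
      ≤ w y ^ 2 + ‖proj (T y) (grad w y)‖ ^ 2 + ‖H y‖ ^ 2 + w y ^ 2 * ‖H y‖ := by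
  unfold err
  rw [grad_sq (hw.differentiable (by norm_num) y), map_smul, norm_smul, Real.norm_eq_abs, abs_mul,
    abs_two]
  have h1 : 2 * |w y| * ‖proj (T y) (grad w y)‖ ≤ w y ^ 2 + ‖proj (T y) (grad w y)‖ ^ 2 := by
    have := sq_nonneg (|w y| - ‖proj (T y) (grad w y)‖)
    have e := sq_abs (w y)
    nlinarith
  have h2 := sq_nonneg ‖H y‖
  linarith

/-- **Strong compactness.** -/
theorem strong_compactness (U : Ultrafilter ι) (hm : 0 < m) {N : ι → Measure E}
    {T : ι → E → Submodule ℝ E} {H : ι → E → E} {κ : Measure E} [IsLocallyFiniteMeasure κ]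
    (hsl : ∀ᶠ i in (U : Filter ι), Slice m (N i) (T i) (H i))
    (hlim : ∀ φ : E → ℝ, Continuous φ → HasCompactSupport φ →
      Tendsto (fun i => ∫ x, φ x ∂(N i)) U (𝓝 (∫ x, φ x ∂κ)))
    (hratio : ∃ C : ℝ, ∀ᶠ i in (U : Filter ι), ∀ (x : E) (r : ℝ), 0 < r → r ≤ 1 →
      (N i).real (closedBall x r) ≤ C * r ^ m)
    (hκ : ∀ x : E, ∀ c > om m, ∀ᶠ r in 𝓝[>] (0 : ℝ), (∫ y, ker (r⁻¹ • (y - x)) ∂κ) / r ^ m ≤ c)
    {w : ι → E → ℝ} (hw : ∀ᶠ i in (U : Filter ι), ContDiff ℝ 1 (w i))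
    (hbd : ∀ R : ℝ, ∃ C : ℝ, ∀ᶠ i in (U : Filter ι), ∫ x in closedBall (0 : E) R,
      (w i x ^ 2 + ‖proj (T i x) (grad (w i) x)‖ ^ 2 + ‖H i x‖ ^ 2
        + w i x ^ 2 * ‖H i x‖) ∂(N i) ≤ C)
    (h0 : ∀ ζ : E → ℝ, Continuous ζ → HasCompactSupport ζ →
      Tendsto (fun i => ∫ x, ζ x * w i x ∂(N i)) U (𝓝 0))
    (χ : E → ℝ) (hχ : Continuous χ) (hχc : HasCompactSupport χ) :
    Tendsto (fun i => ∫ x, χ x * w i x ^ 2 ∂(N i)) U (𝓝 0) := by
  have hprop : ProperSpace E := FiniteDimensional.proper_real E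
  have hom := om_pos m
  have hfin : ∀ᶠ i in (U : Filter ι), IsFiniteMeasureOnCompacts (N i) := by
    filter_upwards [hsl] with i hi using hi.mc.fin
  -- the support
  obtain ⟨R, hR⟩ := hχc.isCompact.isBounded.subset_closedBall (0 : E)
  have hχ0 : ∀ x, x ∉ closedBall (0 : E) R → χ x = 0 := fun x hx =>
    image_eq_zero_of_notMem_tsupport fun h => hx (hR h)
  obtain ⟨B', hB'⟩ := hχ.bounded_above_of_compact_support hχc
  set B : ℝ := |B'| + 1 with hB
  have hBp : 0 < B := by positivity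
  have hBb : ∀ x, |χ x| ≤ B := fun x => by
    have := hB' x
    rw [Real.norm_eq_abs] at this
    have := le_abs_self B'
    linarith
  -- the constants
  obtain ⟨M, hM0, hM⟩ := exists_mass U hfin hlim R
  obtain ⟨C', hC'⟩ := hratio
  set C : ℝ := max C' 1 with hCdef
  have hC : 0 < C := lt_of_lt_of_le one_pos (le_max_right _ _)
  have hratio' : ∀ᶠ i in (U : Filter ι), ∀ (x : E) (r : ℝ), 0 < r → r ≤ 1 →
      (N i).real (closedBall x r) ≤ C * r ^ m := by
    filter_upwards [hC'] with i hi x r hr hr1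
    refine (hi x r hr hr1).trans ?_
    exact mul_le_mul_of_nonneg_right (le_max_left _ _) (by positivity)
  obtain ⟨C₁, hC₁⟩ := hbd (R + 1)
  set G : ℝ := max C₁ 1 with hGdef
  have hG0 : 0 < G := lt_of_lt_of_le one_pos (le_max_right _ _)
  have hnB : 0 < (Vale.Agent.P214.BES.nB E : ℝ) := by
    unfold Vale.Agent.P214.BES.nB; positivity
  rw [Metric.tendsto_nhds]
  intro ε hε
  simp only [dist_zero_right, Real.norm_eq_abs]
  set ε₁ : ℝ := ε / (8 * B) with hε₁
  have hε₁p : 0 < ε₁ := by positivity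
  set Q : ℝ := 2 ^ (m + 3) * G / om m * (Vale.Agent.P214.BES.nB E * C) with hQ
  have hQp : 0 < Q := by positivity
  set r : ℝ := min 1 (ε₁ / Q) with hr
  have hrp : 0 < r := lt_min one_pos (by positivity)
  have hr1 : r ≤ 1 := min_le_left _ _
  have hQr : Q * r ≤ ε₁ := by
    have : r ≤ ε₁ / Q := min_le_right _ _
    rw [le_div_iff₀ hQp] at this
    linarith
  set S : ℝ := 4 * G / (om m * r ^ m) with hS
  have hSp : 0 < S := by positivity
  obtain ⟨s, hs, hsM⟩ : ∃ s : ℝ, 0 < s ∧ 4 * s ^ 2 * M ≤ ε₁ := by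
    have h1 : Tendsto (fun s : ℝ => 4 * s ^ 2 * M) (𝓝[>] 0) (𝓝 0) := by
      have : Continuous fun s : ℝ => 4 * s ^ 2 * M := by fun_prop
      have h := this.tendsto 0
      simp only [ne_eq, OfNat.ofNat_ne_zero, not_false_eq_true, zero_pow, mul_zero, zero_mul] at h
      exact h.mono_left nhdsWithin_le_nhds
    obtain ⟨s, hs1, hs2⟩ := ((h1.eventually (gt_mem_nhds hε₁p)).and self_mem_nhdsWithin).exists
    exact ⟨s, hs2, hs1.le⟩
  set δ : ℝ := ε₁ / S with hδ
  have hδp : 0 < δ := by positivity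
  have hpos := conv_meas U hsl hlim ⟨C, hratio'⟩ hκ hw hbd h0 hs R hδp
  -- the negative part
  have hneg : ∀ᶠ i in (U : Filter ι),
      N i {x | x ∈ closedBall (0 : E) R ∧ 2 * s ≤ -w i x} ≤ ENNReal.ofReal δ := by
    refine conv_meas (w := fun i x => -w i x) U hsl hlim ⟨C, hratio'⟩ hκ ?_ ?_ ?_ hs R hδp
    · filter_upwards [hw] with i hi using hi.neg
    · intro R
      obtain ⟨C₂, hC₂⟩ := hbd R
      refine ⟨C₂, ?_⟩
      filter_upwards [hC₂, hw] with i hi hwi
      refine le_trans (le_of_eq ?_) hi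
      refine integral_congr_ae (Eventually.of_forall fun y => ?_)
      have e : grad (fun x => -w i x) y = -grad (w i) y := by
        have := grad_const_mul (x := y) (-1) (hwi.differentiable (by norm_num) y)
        simpa using this
      simp only
      rw [e, map_neg, norm_neg]
      ring
    · intro ζ hζ hζc
      have := (h0 ζ hζ hζc).neg
      rw [neg_zero] at this
      refine this.congr fun i => ?_
      rw [← integral_neg]
      refine integral_congr_ae (Eventually.of_forall fun y => ?_)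
      simp only
      ring
  filter_upwards [hsl, hw, hM, hratio', hC₁, hpos, hneg] with i h1 h2 h3 h4 h5 h6 h7
  have := h1.mc.fin
  set K : Set E := closedBall (0 : E) R with hKdef
  have hK : IsCompact K := isCompact_closedBall _ _
  have hK' : IsCompact (closedBall (0 : E) (R + 1)) := isCompact_closedBall _ _
  have i1 : IntegrableOn (fun y => w i y ^ 2) (closedBall (0 : E) (R + 1)) (N i) :=
    (h2.continuous.pow 2).continuousOn.integrableOn_compact hK'
  have i2 := h1.sq_proj_grad_integrableOn h2 hK'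
  have i3 := h1.mc.locL2 _ hK'
  have i4 := h1.sq_mul_H_integrableOn h2.continuous hK'
  have i5 : IntegrableOn (fun x => w i x ^ 2 + ‖proj (T i x) (grad (w i) x)‖ ^ 2 + ‖H i x‖ ^ 2
      + w i x ^ 2 * ‖H i x‖) (closedBall (0 : E) (R + 1)) (N i) := ((i1.add i2).add i3).add i4
  have hcd : ContDiff ℝ 1 (fun y => w i y ^ 2) := h2.pow 2
  have g1 : ∫ y in closedBall 0 (R + 1), err (T i) (H i) (fun y => w i y ^ 2) y ∂(N i) ≤ G := by
    refine le_trans ?_ (h5.trans (le_max_left _ _))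
    exact integral_mono (h1.err_integrableOn hcd hK') i5 fun y => err_sq_le h2 y
  have g2 : ∫ y in closedBall 0 (R + 1), w i y ^ 2 ∂(N i) ≤ G := by
    refine le_trans ?_ (h5.trans (le_max_left _ _))
    refine integral_mono i1 i5 fun y => ?_
    simp only
    have p2 := sq_nonneg ‖proj (T i y) (grad (w i) y)‖
    have p3 := sq_nonneg ‖H i y‖
    have p4 : 0 ≤ w i y ^ 2 * ‖H i y‖ := by positivity
    linarith
  have htail := tail_int hm h1 hcd (fun y => sq_nonneg _) (C := C) (R := R) (G := G) (r := r) hC hG0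
    hrp hr1 h4 g1 g2
  -- the total
  have hcover : K ⊆ {x | x ∈ K ∧ S ≤ w i x ^ 2} ∪ (({x | x ∈ K ∧ w i x ^ 2 ≤ S} ∩
      ({x | x ∈ K ∧ 2 * s ≤ w i x} ∪ {x | x ∈ K ∧ 2 * s ≤ -w i x})) ∪
      {x | x ∈ K ∧ w i x ^ 2 ≤ 4 * s ^ 2}) := by
    intro x hx
    by_cases c1 : S ≤ w i x ^ 2
    · exact Or.inl ⟨hx, c1⟩
    · right
      push Not at c1
      by_cases c2 : 2 * s ≤ w i x
      · exact Or.inl ⟨⟨hx, c1.le⟩, Or.inl ⟨hx, c2⟩⟩
      · by_cases c3 : 2 * s ≤ -w i x
        · exact Or.inl ⟨⟨hx, c1.le⟩, Or.inr ⟨hx, c3⟩⟩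
        · right
          push Not at c2 c3
          refine ⟨hx, ?_⟩
          nlinarith
  have hmeasw : Measurable fun x => w i x := h2.continuous.measurable
  have htot : ∫⁻ x in K, ENNReal.ofReal (w i x ^ 2) ∂(N i) ≤ ENNReal.ofReal (4 * ε₁) := by
    have q1 : ∫⁻ x in {x | x ∈ K ∧ S ≤ w i x ^ 2}, ENNReal.ofReal (w i x ^ 2) ∂(N i)
        ≤ ENNReal.ofReal ε₁ := htail.trans (ENNReal.ofReal_le_ofReal hQr)
    have q2 : ∫⁻ x in {x | x ∈ K ∧ w i x ^ 2 ≤ S} ∩
      ({x | x ∈ K ∧ 2 * s ≤ w i x} ∪ {x | x ∈ K ∧ 2 * s ≤ -w i x}),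
        ENNReal.ofReal (w i x ^ 2) ∂(N i) ≤ ENNReal.ofReal (2 * ε₁) := by
      calc ∫⁻ x in {x | x ∈ K ∧ w i x ^ 2 ≤ S} ∩
              ({x | x ∈ K ∧ 2 * s ≤ w i x} ∪ {x | x ∈ K ∧ 2 * s ≤ -w i x}),
              ENNReal.ofReal (w i x ^ 2) ∂(N i)
          ≤ ∫⁻ x in {x | x ∈ K ∧ w i x ^ 2 ≤ S} ∩
              ({x | x ∈ K ∧ 2 * s ≤ w i x} ∪ {x | x ∈ K ∧ 2 * s ≤ -w i x}),
              ENNReal.ofReal S ∂(N i) := by
            refine setLIntegral_mono measurable_const fun x hx => ?_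
            exact ENNReal.ofReal_le_ofReal hx.1.2
        _ = ENNReal.ofReal S * N i ({x | x ∈ K ∧ w i x ^ 2 ≤ S} ∩
              ({x | x ∈ K ∧ 2 * s ≤ w i x} ∪ {x | x ∈ K ∧ 2 * s ≤ -w i x})) := by
            rw [setLIntegral_const]
        _ ≤ ENNReal.ofReal S * (ENNReal.ofReal δ + ENNReal.ofReal δ) := by
            gcongr
            exact (measure_mono inter_subset_right).trans
              ((measure_union_le _ _).trans (add_le_add h6 h7))
        _ = ENNReal.ofReal (2 * ε₁) := by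
            rw [← ENNReal.ofReal_add hδp.le hδp.le, ← ENNReal.ofReal_mul hSp.le]
            congr 1
            rw [hδ]
            field_simp
            ring
    have q3 : ∫⁻ x in {x | x ∈ K ∧ w i x ^ 2 ≤ 4 * s ^ 2}, ENNReal.ofReal (w i x ^ 2) ∂(N i)
        ≤ ENNReal.ofReal ε₁ := by
      calc ∫⁻ x in {x | x ∈ K ∧ w i x ^ 2 ≤ 4 * s ^ 2}, ENNReal.ofReal (w i x ^ 2) ∂(N i)
          ≤ ∫⁻ x in {x | x ∈ K ∧ w i x ^ 2 ≤ 4 * s ^ 2}, ENNReal.ofReal (4 * s ^ 2) ∂(N i) := by
            refine setLIntegral_mono measurable_const fun x hx => ?_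
            exact ENNReal.ofReal_le_ofReal hx.2
        _ = ENNReal.ofReal (4 * s ^ 2) * N i {x | x ∈ K ∧ w i x ^ 2 ≤ 4 * s ^ 2} := by
            rw [setLIntegral_const]
        _ ≤ ENNReal.ofReal (4 * s ^ 2) * N i K := by
            gcongr
            exact fun x hx => hx.1
        _ ≤ ENNReal.ofReal (4 * s ^ 2) * ENNReal.ofReal M := by
            gcongr
            rw [← ENNReal.ofReal_toReal hK.measure_lt_top.ne]
            exact ENNReal.ofReal_le_ofReal h3
        _ ≤ ENNReal.ofReal ε₁ := by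
            rw [← ENNReal.ofReal_mul (by positivity)]
            exact ENNReal.ofReal_le_ofReal hsM
    calc ∫⁻ x in K, ENNReal.ofReal (w i x ^ 2) ∂(N i)
        ≤ _ := lintegral_mono_set hcover
      _ ≤ _ := lintegral_union_le _ _ _
      _ ≤ ENNReal.ofReal ε₁ + (ENNReal.ofReal (2 * ε₁) + ENNReal.ofReal ε₁) :=
          add_le_add q1 ((lintegral_union_le _ _ _).trans (add_le_add q2 q3))
      _ = ENNReal.ofReal (4 * ε₁) := by
          rw [← ENNReal.ofReal_add (by positivity) (by positivity),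
            ← ENNReal.ofReal_add (by positivity) (by positivity)]
          congr 1
          ring
  have hint : ∫ x in K, w i x ^ 2 ∂(N i) ≤ 4 * ε₁ := by
    have i6 : IntegrableOn (fun y => w i y ^ 2) K (N i) :=
      (h2.continuous.pow 2).continuousOn.integrableOn_compact hK
    rw [← ofReal_integral_eq_lintegral_ofReal i6 (Eventually.of_forall fun y => sq_nonneg _)] at htot
    exact (ENNReal.ofReal_le_ofReal_iff (by positivity)).1 htot
  calc |∫ x, χ x * w i x ^ 2 ∂(N i)| ≤ ∫ x in K, B * w i x ^ 2 ∂(N i) := by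
        rw [← integral_indicator hK.measurableSet, ← Real.norm_eq_abs]
        refine norm_integral_le_of_norm_le ?_ (Eventually.of_forall fun y => ?_)
        · exact (integrable_indicator_iff hK.measurableSet).2
            (((continuous_const.mul (h2.continuous.pow 2))).continuousOn.integrableOn_compact hK)
        · by_cases hy : y ∈ K
          · rw [indicator_of_mem hy, norm_mul, Real.norm_eq_abs, Real.norm_of_nonneg (sq_nonneg _)]
            exact mul_le_mul_of_nonneg_right (hBb y) (sq_nonneg _)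
          · rw [indicator_of_notMem hy, hχ0 y hy]
            simp
    _ = B * ∫ x in K, w i x ^ 2 ∂(N i) := integral_const_mul _ _
    _ ≤ B * (4 * ε₁) := by gcongr
    _ = ε / 2 := by rw [hε₁]; field_simp; ring
    _ < ε := by linarith

end seq

end Vale.Agent.P218.H313
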