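import Mathlib

/-! Riesz representation of functionals on `C_c` which are bounded in `L²(ν)`. -/

open MeasureTheory Set Filter Topology Metric
open scoped ENNReal NNReal RealInnerProductSpace CompactlySupported

namespace Vale.Agent.P218.H313

section general

variable {V L : Type*} [AddCommGroup V] [Module ℝ V] [NormedAddCommGroup L] [InnerProductSpace ℝ L]
  [CompleteSpace L]

/-- a linear functional which is bounded through a linear map to a Hilbert space is represented
by a vector of that space -/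
theorem exists_rep_abs (j : V →ₗ[ℝ] L) (Φ : V →ₗ[ℝ] ℝ) {C : ℝ} (hC : ∀ f, |Φ f| ≤ C * ‖j f‖) :
    ∃ u : L, ∀ f, Φ f = ⟪u, j f⟫ := by
  have hker : LinearMap.ker j ≤ LinearMap.ker Φ := by
    intro f hf
    rw [LinearMap.mem_ker] at hf ⊢
    have h := hC f
    rw [hf, norm_zero, mul_zero] at h
    exact abs_eq_zero.1 (le_antisymm h (abs_nonneg _))
  let g : LinearMap.range j →ₗ[ℝ] ℝ :=
    ((LinearMap.ker j).liftQ Φ hker) ∘ₗ (j.quotKerEquivRange.symm : LinearMap.range j →ₗ[ℝ] _)
  have hg : ∀ f, g ⟨j f, LinearMap.mem_range_self j f⟩ = Φ f := by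
    intro f
    simp only [g, LinearMap.comp_apply, LinearEquiv.coe_coe]
    rw [LinearMap.quotKerEquivRange_symm_apply_image]
    simp
  have hb : ∀ x : LinearMap.range j, ‖g x‖ ≤ C * ‖x‖ := by
    rintro ⟨_, f, rfl⟩
    rw [hg, Real.norm_eq_abs]
    exact hC f
  obtain ⟨G, hG, -⟩ := exists_extension_norm_eq (LinearMap.range j) (g.mkContinuous C hb)
  refine ⟨(InnerProductSpace.toDual ℝ L).symm G, fun f => ?_⟩
  rw [InnerProductSpace.toDual_symm_apply]
  have := hG ⟨j f, LinearMap.mem_range_self j f⟩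
  rw [LinearMap.mkContinuous_apply, hg] at this
  exact this.symm

end general

variable {E : Type*} [NormedAddCommGroup E] [InnerProductSpace ℝ E] [FiniteDimensional ℝ E]
  [MeasurableSpace E] [BorelSpace E]

/-- functionals on `C_c` which are bounded in `L²(ν)` -/
theorem exists_rep (ν : Measure E) [IsLocallyFiniteMeasure ν] (Φ : C_c(E, ℝ) →ₗ[ℝ] ℝ) {C : ℝ}
    (hC : ∀ f : C_c(E, ℝ), |Φ f| ≤ C * √(∫ x, f x ^ 2 ∂ν)) :
    ∃ u : E → ℝ, MemLp u 2 ν ∧ ∀ f : C_c(E, ℝ), Φ f = ∫ x, f x * u x ∂ν := by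
  have hmem : ∀ f : C_c(E, ℝ), MemLp (fun x => f x) 2 ν := fun f =>
    f.continuous.memLp_of_hasCompactSupport f.hasCompactSupport
  let j : C_c(E, ℝ) →ₗ[ℝ] Lp ℝ 2 ν :=
    { toFun := fun f => (hmem f).toLp (fun x => f x)
      map_add' := fun f g => by
        rw [← MemLp.toLp_add]; rfl
      map_smul' := fun c f => by
        rw [RingHom.id_apply, ← MemLp.toLp_const_smul]; rfl }
  have hj : ∀ f : C_c(E, ℝ), ‖j f‖ = √(∫ x, f x ^ 2 ∂ν) := by
    intro f
    have h1 : ‖j f‖ ^ 2 = ∫ x, f x ^ 2 ∂ν := by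
      rw [← real_inner_self_eq_norm_sq, L2.inner_def]
      apply integral_congr_ae
      filter_upwards [(hmem f).coeFn_toLp] with x hx
      change ⟪(j f) x, (j f) x⟫ = _
      have : (j f) x = f x := hx
      rw [this]
      simp [sq]
    rw [← h1, Real.sqrt_sq (norm_nonneg _)]
  obtain ⟨u, hu⟩ := exists_rep_abs j Φ (C := C) (fun f => by rw [hj]; exact hC f)
  refine ⟨u, Lp.memLp u, fun f => ?_⟩
  rw [hu, L2.inner_def]
  apply integral_congr_ae
  filter_upwards [(hmem f).coeFn_toLp] with x hx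
  have : (j f) x = f x := hx
  rw [this]
  simp [mul_comm]

end Vale.Agent.P218.H313
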