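import Vale.Agent.P218.H313.PG
import Vale.Agent.P218.H313.Riesz
import Vale.Agent.P218.Weak

/-! Nondegenerate shrinkers: weak limits of Gaussian slices along an ultrafilter, and weak limits
of functions on them. -/

open MeasureTheory Set Filter Topology Metric
open scoped ENNReal NNReal RealInnerProductSpace CompactlySupported

namespace Vale.Agent.P218.H313

open Vale.Agent.P214 (IntegralVarifold proj divAlong IsTestField)

set_option linter.unusedSectionVars false
set_option linter.unusedVariables false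

variable {E : Type*} [NormedAddCommGroup E] [InnerProductSpace ℝ E] [FiniteDimensional ℝ E]
  [MeasurableSpace E] [BorelSpace E]

/-- Cauchy-Schwarz for integrals -/
lemma integral_mul_sq_le {μ : Measure E} {a b r : E → ℝ} (hr : ∀ x, 0 ≤ r x)
    (ha : Integrable (fun x => a x ^ 2 * r x) μ) (hb : Integrable (fun x => b x ^ 2 * r x) μ)
    (hab : Integrable (fun x => a x * b x * r x) μ) :
    (∫ x, a x * b x * r x ∂μ) ^ 2 ≤ (∫ x, a x ^ 2 * r x ∂μ) * ∫ x, b x ^ 2 * r x ∂μ := by
  set A := ∫ x, a x ^ 2 * r x ∂μ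
  set B := ∫ x, b x ^ 2 * r x ∂μ
  set I := ∫ x, a x * b x * r x ∂μ
  have key : ∀ t : ℝ, 0 ≤ A * (t * t) + (2 * I) * t + B := by
    intro t
    have e : ∫ x, (t * a x + b x) ^ 2 * r x ∂μ = A * (t * t) + (2 * I) * t + B := by
      have h1 : Integrable (fun x => t ^ 2 * (a x ^ 2 * r x) + 2 * t * (a x * b x * r x)) μ :=
        (ha.const_mul _).add (hab.const_mul _)
      have e1 : ∀ x, (t * a x + b x) ^ 2 * r x
          = (t ^ 2 * (a x ^ 2 * r x) + 2 * t * (a x * b x * r x)) + b x ^ 2 * r x := by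
        intro x; ring
      simp_rw [e1]
      rw [integral_add h1 hb, integral_add (ha.const_mul _) (hab.const_mul _), integral_const_mul,
        integral_const_mul]
      ring
    rw [← e]
    exact integral_nonneg fun x => mul_nonneg (sq_nonneg _) (hr x)
  have := discrim_le_zero key
  unfold discrim at this
  nlinarith

lemma abs_integral_mul_le {μ : Measure E} {a b r : E → ℝ} (hr : ∀ x, 0 ≤ r x)
    (ha : Integrable (fun x => a x ^ 2 * r x) μ) (hb : Integrable (fun x => b x ^ 2 * r x) μ)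
    (hab : Integrable (fun x => a x * b x * r x) μ) :
    |∫ x, a x * b x * r x ∂μ| ≤ √(∫ x, a x ^ 2 * r x ∂μ) * √(∫ x, b x ^ 2 * r x ∂μ) := by
  rw [← Real.sqrt_mul (integral_nonneg fun x => mul_nonneg (sq_nonneg _) (hr x)),
    ← Real.sqrt_sq_eq_abs]
  exact Real.sqrt_le_sqrt (integral_mul_sq_le hr ha hb hab)

variable {ι : Type*} {m : ℕ}

/-- a family of Gaussian slices converging weakly along an ultrafilter, with uniform moments and
mass ratios -/
structure Conv (U : Ultrafilter ι) (m : ℕ) (N : ι → Measure E) (T : ι → E → Submodule ℝ E)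
    (H : ι → E → E) (κ : Measure E) : Prop where
  lf : IsLocallyFiniteMeasure κ
  sl : ∀ᶠ i in (U : Filter ι), GSlice m (N i) (T i) (H i)
  mom : ∀ p : ℕ, ∃ C : ℝ, ∀ᶠ i in (U : Filter ι), ∫ x, (1 + ‖x‖) ^ p * rho x ∂(N i) ≤ C
  ratio : ∃ C : ℝ, ∀ᶠ i in (U : Filter ι), ∀ (x : E) (r : ℝ), 0 < r → r ≤ 1 →
    (N i).real (closedBall x r) ≤ C * r ^ m
  lim : ∀ φ : E → ℝ, Continuous φ → HasCompactSupport φ →
    Tendsto (fun i => ∫ x, φ x ∂(N i)) U (𝓝 (∫ x, φ x ∂κ))

lemma one_sub_cut_le (n : ℕ) (x : E) : 1 - cut n x ≤ (1 + ‖x‖) / ((n : ℝ) + 1) := by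
  by_cases h : ‖x‖ ≤ (n : ℝ) + 1
  · have : cut n x = 1 := H552.chi_eq_one (cut_pos_arg n) h
    rw [this, sub_self]; positivity
  · push Not at h
    have h1 := cut_nonneg n x
    have h2 : 1 ≤ (1 + ‖x‖) / ((n : ℝ) + 1) := by
      rw [le_div_iff₀ (cut_pos_arg n)]; linarith
    linarith

lemma continuous_cut (n : ℕ) : Continuous (cut n : E → ℝ) := (contDiff_cut n).continuous

namespace Conv

variable {U : Ultrafilter ι} {N : ι → Measure E} {T : ι → E → Submodule ℝ E}
  {H : ι → E → E} {κ : Measure E}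

/-- moments of the limit -/
lemma mom_lim (h : Conv U m N T H κ) (p : ℕ) :
    Integrable (fun x => (1 + ‖x‖) ^ p * rho x) κ := by
  have := h.lf
  obtain ⟨C, hC⟩ := h.mom p
  have hcont : Continuous (fun x : E => (1 + ‖x‖) ^ p * rho x) :=
    ((continuous_const.add continuous_norm).pow p).mul continuous_rho
  have hpos : ∀ x : E, 0 ≤ (1 + ‖x‖) ^ p * rho x := fun x =>
    mul_nonneg (by positivity) (rho_pos x).le
  -- bound for the truncated integrals
  have hn : ∀ n : ℕ, ∫ x, cut n x * ((1 + ‖x‖) ^ p * rho x) ∂κ ≤ C := by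
    intro n
    have h1 := h.lim (fun x => cut n x * ((1 + ‖x‖) ^ p * rho x))
      ((continuous_cut n).mul hcont) (cut_compact n).mul_right
    refine le_of_tendsto h1 ?_
    filter_upwards [hC, h.sl] with i hi hs
    refine (integral_mono_of_nonneg (Eventually.of_forall fun x =>
      mul_nonneg (cut_nonneg n x) (hpos x)) (hs.mom p) (Eventually.of_forall fun x => ?_)).trans hi
    exact mul_le_of_le_one_left (hpos x) (cut_le_one n x)
  have hint : ∀ n : ℕ, Integrable (fun x => cut n x * ((1 + ‖x‖) ^ p * rho x)) κ := fun n =>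
    ((continuous_cut n).mul hcont).integrable_of_hasCompactSupport (cut_compact n).mul_right
  refine ⟨hcont.aestronglyMeasurable, ?_⟩
  have hC0 : 0 ≤ C := (integral_nonneg fun x => mul_nonneg (cut_nonneg 0 x) (hpos x)).trans (hn 0)
  have key : ∫⁻ x, ‖(1 + ‖x‖) ^ p * rho x‖ₑ ∂κ ≤ ENNReal.ofReal C := by
    have hlim : ∀ x : E, Tendsto (fun n : ℕ => ‖cut n x * ((1 + ‖x‖) ^ p * rho x)‖ₑ) atTop
        (𝓝 ‖(1 + ‖x‖) ^ p * rho x‖ₑ) := by
      intro x
      have h1 := (tendsto_cut x).mul_const ((1 + ‖x‖) ^ p * rho x)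
      rw [one_mul] at h1
      exact h1.enorm
    calc ∫⁻ x, ‖(1 + ‖x‖) ^ p * rho x‖ₑ ∂κ
        = ∫⁻ x, liminf (fun n : ℕ => ‖cut n x * ((1 + ‖x‖) ^ p * rho x)‖ₑ) atTop ∂κ := by
          congr 1; ext x; exact (hlim x).liminf_eq.symm
      _ ≤ liminf (fun n : ℕ => ∫⁻ x, ‖cut n x * ((1 + ‖x‖) ^ p * rho x)‖ₑ ∂κ) atTop :=
          lintegral_liminf_le fun n => ((continuous_cut n).mul hcont).measurable.enorm
      _ ≤ ENNReal.ofReal C := by
          refine liminf_le_of_le ⟨0, by simp⟩ fun b hb => ?_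
          obtain ⟨n, hbn⟩ := hb.exists
          refine hbn.trans ?_
          have e : ∫⁻ x, ‖cut n x * ((1 + ‖x‖) ^ p * rho x)‖ₑ ∂κ
              = ENNReal.ofReal (∫ x, cut n x * ((1 + ‖x‖) ^ p * rho x) ∂κ) := by
            rw [ofReal_integral_eq_lintegral_ofReal (hint n) (Eventually.of_forall fun x =>
              mul_nonneg (cut_nonneg n x) (hpos x))]
            congr 1; ext x
            rw [Real.enorm_of_nonneg (mul_nonneg (cut_nonneg n x) (hpos x))]
          rw [e]
          exact ENNReal.ofReal_le_ofReal (hn n)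
  exact key.trans_lt ENNReal.ofReal_lt_top

lemma integrable_lim (h : Conv U m N T H κ) {f : E → ℝ} (hf : AEStronglyMeasurable f κ)
    (hb : PB f) : Integrable (fun x => f x * rho x) κ := by
  obtain ⟨C, p, hC, hfb⟩ := hb
  refine ((h.mom_lim p).const_mul C).mono' (hf.mul continuous_rho.aestronglyMeasurable)
    (Eventually.of_forall fun x => ?_)
  rw [norm_mul, Real.norm_of_nonneg (rho_pos x).le, ← mul_assoc]
  exact mul_le_mul_of_nonneg_right (hfb x) (rho_pos x).le

/-- the cut off integrals approximate, uniformly -/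
lemma cut_approx {μ : Measure E} {f : E → ℝ} (hf : Continuous f) {C : ℝ} {p : ℕ} (hC : 0 ≤ C)
    (hfb : ∀ x, ‖f x‖ ≤ C * (1 + ‖x‖) ^ p) {M : ℝ}
    (hi : Integrable (fun x => (1 + ‖x‖) ^ (p + 1) * rho x) μ)
    (hM : ∫ x, (1 + ‖x‖) ^ (p + 1) * rho x ∂μ ≤ M) (n : ℕ) :
    |∫ x, f x * rho x ∂μ - ∫ x, cut n x * (f x * rho x) ∂μ| ≤ C * M / ((n : ℝ) + 1) := by
  have hpos : ∀ x : E, 0 ≤ C * ((1 + ‖x‖) ^ (p + 1) * rho x) := fun x =>
    mul_nonneg hC (mul_nonneg (by positivity) (rho_pos x).le)
  have hb : ∀ x, ‖f x * rho x‖ ≤ C * ((1 + ‖x‖) ^ (p + 1) * rho x) := by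
    intro x
    rw [norm_mul, Real.norm_of_nonneg (rho_pos x).le, ← mul_assoc]
    refine mul_le_mul_of_nonneg_right ((hfb x).trans ?_) (rho_pos x).le
    exact mul_le_mul_of_nonneg_left (pow_le_pow_right₀ (one_le_one_add_norm x) (Nat.le_succ p)) hC
  have i1 : Integrable (fun x => f x * rho x) μ :=
    (hi.const_mul C).mono' (hf.mul continuous_rho).aestronglyMeasurable (Eventually.of_forall hb)
  have i2 : Integrable (fun x => cut n x * (f x * rho x)) μ := by
    refine i1.norm.mono' ((continuous_cut n).mul (hf.mul continuous_rho)).aestronglyMeasurable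
      (Eventually.of_forall fun x => ?_)
    rw [norm_mul, Real.norm_of_nonneg (cut_nonneg n x)]
    exact mul_le_of_le_one_left (norm_nonneg _) (cut_le_one n x)
  rw [← integral_sub i1 i2, ← Real.norm_eq_abs]
  have h1 : ∫ x, C * ((1 + ‖x‖) ^ (p + 1) * rho x) / ((n : ℝ) + 1) ∂μ ≤ C * M / ((n : ℝ) + 1) := by
    rw [integral_div, integral_const_mul]
    have := cut_pos_arg n
    gcongr
  refine (norm_integral_le_of_norm_le ((hi.const_mul C).div_const _)
    (Eventually.of_forall fun x => ?_)).trans h1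
  have e : f x * rho x - cut n x * (f x * rho x) = (1 - cut n x) * (f x * rho x) := by ring
  have h2 : 0 ≤ 1 - cut n x := by have := cut_le_one n x; linarith
  rw [e, norm_mul, Real.norm_of_nonneg h2, norm_mul, Real.norm_of_nonneg (rho_pos x).le]
  calc (1 - cut n x) * (‖f x‖ * rho x)
      ≤ ((1 + ‖x‖) / ((n : ℝ) + 1)) * (C * (1 + ‖x‖) ^ p * rho x) := by
        have := rho_pos x
        have := one_sub_cut_le n x
        have := hfb x
        gcongr
    _ = C * ((1 + ‖x‖) ^ (p + 1) * rho x) / ((n : ℝ) + 1) := by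
        have := cut_pos_arg n
        field_simp
        ring

/-- convergence for continuous functions of polynomial growth -/
lemma lim_PB (h : Conv U m N T H κ) {f : E → ℝ} (hf : Continuous f) (hb : PB f) :
    Tendsto (fun i => ∫ x, f x * rho x ∂(N i)) U (𝓝 (∫ x, f x * rho x ∂κ)) := by
  obtain ⟨C, p, hC, hfb⟩ := hb
  obtain ⟨M, hM⟩ := h.mom (p + 1)
  set M' := max M (∫ x, (1 + ‖x‖) ^ (p + 1) * rho x ∂κ) with hM'
  have hM0 : 0 ≤ M' := le_max_of_le_right (integral_nonneg fun x =>
    mul_nonneg (by positivity) (rho_pos x).le)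
  refine tendsto_of_approx fun ε hε => ?_
  obtain ⟨n, hn⟩ := exists_nat_gt (C * M' / ε)
  have hn1 : C * M' / ((n : ℝ) + 1) ≤ ε := by
    rw [div_le_iff₀ (cut_pos_arg n)]
    rw [div_lt_iff₀ hε] at hn
    nlinarith
  refine ⟨fun i => ∫ x, cut n x * (f x * rho x) ∂(N i), ∫ x, cut n x * (f x * rho x) ∂κ,
    h.lim _ ((continuous_cut n).mul (hf.mul continuous_rho)) (cut_compact n).mul_right, ?_, ?_⟩
  · filter_upwards [hM, h.sl] with i hi hs
    exact (cut_approx hf hC hfb (hs.mom (p + 1)) (hi.trans (le_max_left _ _)) n).trans hn1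
  · exact (cut_approx hf hC hfb (h.mom_lim (p + 1)) (le_max_right _ _) n).trans hn1

/-- bounded real functions converge along an ultrafilter -/
lemma exists_ulim {x : ι → ℝ} {C : ℝ} (hx : ∀ᶠ i in (U : Filter ι), |x i| ≤ C) :
    ∃ L : ℝ, Tendsto x U (𝓝 L) := by
  have h1 : (U.map x : Filter ℝ) ≤ 𝓟 (Icc (-C) C) := by
    rw [le_principal_iff]
    change ∀ᶠ i in (U : Filter ι), x i ∈ Icc (-C) C
    filter_upwards [hx] with i hi using abs_le.1 hi
  obtain ⟨L, -, hL⟩ := (isCompact_Icc (a := -C) (b := C)).ultrafilter_le_nhds (U.map x) h1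
  exact ⟨L, hL⟩

/-- **weak limits of functions**: if `∫ w_i² ρ dN_i ≤ 1` then along the ultrafilter `w_i N_i`
converges to `u κ`, with `u ∈ L²(κ ρ)`. -/
theorem exists_weak_lim (h : Conv U m N T H κ) {w : ι → E → ℝ}
    (hw : ∀ᶠ i in (U : Filter ι), Continuous (w i) ∧ PB (w i))
    (hw1 : ∀ᶠ i in (U : Filter ι), ∫ x, w i x ^ 2 * rho x ∂(N i) ≤ 1) :
    ∃ u : E → ℝ, AEStronglyMeasurable u κ ∧ Integrable (fun x => u x ^ 2 * rho x) κ ∧
      ∀ f : E → ℝ, Continuous f → PB f → Integrable (fun x => f x * u x * rho x) κ ∧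
        Tendsto (fun i => ∫ x, w i x * f x * rho x ∂(N i)) U
          (𝓝 (∫ x, f x * u x * rho x ∂κ)) := by
  have := h.lf
  -- Cauchy-Schwarz along the family
  have hcs : ∀ f : E → ℝ, Continuous f → PB f → ∀ᶠ i in (U : Filter ι),
      |∫ x, w i x * f x * rho x ∂(N i)| ≤ √(∫ x, f x ^ 2 * rho x ∂(N i)) := by
    intro f hf hfb
    filter_upwards [hw, hw1, h.sl] with i hi hi1 hs
    have i1 := hs.integrable_PB (hi.1.pow 2).aestronglyMeasurable (hi.2.pow 2)
    have i2 := hs.integrable_PB (hf.pow 2).aestronglyMeasurable (hfb.pow 2)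
    have i3 := hs.integrable_PB (hi.1.mul hf).aestronglyMeasurable (hi.2.mul hfb)
    refine (abs_integral_mul_le (fun x => (rho_pos x).le) i1 i2 i3).trans ?_
    refine mul_le_of_le_one_left (Real.sqrt_nonneg _) ?_
    rw [Real.sqrt_le_one]; exact hi1
  have hex : ∀ f : E → ℝ, Continuous f → PB f → ∃ L : ℝ,
      Tendsto (fun i => ∫ x, w i x * f x * rho x ∂(N i)) U (𝓝 L) ∧
        |L| ≤ √(∫ x, f x ^ 2 * rho x ∂κ) := by
    intro f hf hfb
    have h2 : Tendsto (fun i => √(∫ x, f x ^ 2 * rho x ∂(N i))) U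
        (𝓝 (√(∫ x, f x ^ 2 * rho x ∂κ))) :=
      (h.lim_PB (hf.pow 2) (hfb.pow 2)).sqrt
    have h3 : ∀ᶠ i in (U : Filter ι), √(∫ x, f x ^ 2 * rho x ∂(N i))
        ≤ √(∫ x, f x ^ 2 * rho x ∂κ) + 1 :=
      h2.eventually_le_const (by linarith)
    obtain ⟨L, hL⟩ := exists_ulim (U := U) (x := fun i => ∫ x, w i x * f x * rho x ∂(N i))
      (C := √(∫ x, f x ^ 2 * rho x ∂κ) + 1)
      (by filter_upwards [hcs f hf hfb, h3] with i h4 h5 using h4.trans h5)
    exact ⟨L, hL, le_of_tendsto_of_tendsto hL.abs h2 (hcs f hf hfb)⟩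
  choose! Φ hΦ hΦb using hex
  have cpb : ∀ f : C_c(E, ℝ), PB (fun x => f x) := fun f =>
    PB.of_compact f.continuous f.hasCompactSupport
  -- linearity
  have hadd : ∀ f g : E → ℝ, Continuous f → PB f → Continuous g → PB g →
      Φ (fun x => f x + g x) = Φ f + Φ g := by
    intro f g hf hfb hg hgb
    have h1 := hΦ (fun x => f x + g x) (hf.add hg) (hfb.add hgb)
    have h2 := (hΦ f hf hfb).add (hΦ g hg hgb)
    refine tendsto_nhds_unique h1 (h2.congr' ?_)
    filter_upwards [hw, h.sl] with i hi hs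
    have i1 : Integrable (fun x => w i x * f x * rho x) (N i) :=
      hs.integrable_PB (hi.1.mul hf).aestronglyMeasurable (hi.2.mul hfb)
    have i2 : Integrable (fun x => w i x * g x * rho x) (N i) :=
      hs.integrable_PB (hi.1.mul hg).aestronglyMeasurable (hi.2.mul hgb)
    rw [← integral_add i1 i2]
    congr 1; ext x; ring
  have hsmul : ∀ (c : ℝ) (f : E → ℝ), Continuous f → PB f →
      Φ (fun x => c * f x) = c * Φ f := by
    intro c f hf hfb
    have h1 := hΦ (fun x => c * f x) (continuous_const.mul hf) (hfb.const_mul c)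
    have h2 := (hΦ f hf hfb).const_mul c
    refine tendsto_nhds_unique h1 (h2.congr fun i => ?_)
    rw [← integral_const_mul]
    congr 1; ext x; ring
  let Ψ : C_c(E, ℝ) →ₗ[ℝ] ℝ :=
    { toFun := fun f => Φ (fun x => f x)
      map_add' := fun f g => hadd _ _ f.continuous (cpb f) g.continuous (cpb g)
      map_smul' := fun c f => hsmul c _ f.continuous (cpb f) }
  -- the measure `ρ κ`
  set r : E → ℝ≥0 := fun x => (rho x).toNNReal with hr
  have hrm : Measurable r := continuous_rho.measurable.real_toNNReal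
  set ν : Measure E := κ.withDensity fun x => (r x : ℝ≥0∞) with hν
  have hνi : ∀ g : E → ℝ, ∫ x, g x ∂ν = ∫ x, g x * rho x ∂κ := by
    intro g
    rw [hν, integral_withDensity_eq_integral_smul hrm]
    congr 1; ext x
    rw [NNReal.smul_def, smul_eq_mul, hr, Real.coe_toNNReal _ (rho_pos x).le, mul_comm]
  have hνint : ∀ g : E → ℝ, Integrable g ν ↔ Integrable (fun x => g x * rho x) κ := by
    intro g
    rw [hν, integrable_withDensity_iff_integrable_smul hrm]
    apply integrable_congr
    refine Eventually.of_forall fun x => ?_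
    simp only [NNReal.smul_def, smul_eq_mul, hr, Real.coe_toNNReal _ (rho_pos x).le, mul_comm]
  have hνlf : IsLocallyFiniteMeasure ν := by
    have : IsFiniteMeasure ν := by
      have h1 : Integrable (fun _ : E => (1 : ℝ)) ν := by
        rw [hνint]
        simpa using h.mom_lim 0
      exact (integrable_const_iff.1 h1).resolve_left one_ne_zero
    infer_instance
  obtain ⟨u, hu, hrep⟩ := exists_rep ν Ψ (C := 1) (fun f => by
    rw [one_mul, hνi]
    exact hΦb _ f.continuous (cpb f))
  have hu2 : Integrable (fun x => u x ^ 2 * rho x) κ := (hνint _).1 hu.integrable_sq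
  have hum : AEStronglyMeasurable u κ := by
    have h1 := hu.aestronglyMeasurable
    refine h1.mono_ac ?_
    rw [hν]
    refine withDensity_absolutelyContinuous' hrm.coe_nnreal_ennreal.aemeasurable ?_
    refine Eventually.of_forall fun x => ?_
    simp only [hr, ne_eq, ENNReal.coe_eq_zero, Real.toNNReal_eq_zero, not_le]
    exact rho_pos x
  refine ⟨u, hum, hu2, fun f hf hfb => ?_⟩
  -- integrability of `f u ρ`
  have hf2 : Integrable (fun x => f x ^ 2 * rho x) κ :=
    h.integrable_lim (hf.pow 2).aestronglyMeasurable (hfb.pow 2)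
  have hfu : Integrable (fun x => f x * u x * rho x) κ := by
    refine (hf2.add hu2).mono' ((hf.aestronglyMeasurable.mul hum).mul
      continuous_rho.aestronglyMeasurable) (Eventually.of_forall fun x => ?_)
    rw [norm_mul, norm_mul, Real.norm_of_nonneg (rho_pos x).le, Real.norm_eq_abs,
      Real.norm_eq_abs]
    have h1 : |f x| * |u x| ≤ f x ^ 2 + u x ^ 2 := by
      rw [← sq_abs (f x), ← sq_abs (u x)]
      nlinarith [sq_nonneg (|f x| - |u x|), abs_nonneg (f x), abs_nonneg (u x)]
    simp only [Pi.add_apply]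
    nlinarith [rho_pos x]
  refine ⟨hfu, ?_⟩
  -- the value on `f` from the values on the truncations
  have hcutpb : ∀ n : ℕ, PB (fun x => cut n x * f x) := fun n =>
    (PB.of_compact (continuous_cut n) (cut_compact n)).mul hfb
  have e1 : ∀ n : ℕ, Φ (fun x => cut n x * f x) = ∫ x, cut n x * (f x * u x * rho x) ∂κ := by
    intro n
    have := hrep ⟨⟨fun x => cut n x * f x, (continuous_cut n).mul hf⟩, (cut_compact n).mul_right⟩
    change Φ (fun x => cut n x * f x) = ∫ x, (cut n x * f x) * u x ∂ν at this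
    rw [this, hνi]
    congr 1; ext x; ring
  have l1 : Tendsto (fun n : ℕ => Φ (fun x => cut n x * f x)) atTop
      (𝓝 (∫ x, f x * u x * rho x ∂κ)) := by
    simp_rw [e1]
    refine tendsto_integral_of_dominated_convergence (fun x => ‖f x * u x * rho x‖) (fun n => ?_)
      hfu.norm (fun n => ?_) ?_
    · exact (continuous_cut n).aestronglyMeasurable.mul hfu.aestronglyMeasurable
    · refine Eventually.of_forall fun x => ?_
      rw [norm_mul, Real.norm_of_nonneg (cut_nonneg n x)]
      exact mul_le_of_le_one_left (norm_nonneg _) (cut_le_one n x)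
    · refine Eventually.of_forall fun x => ?_
      simpa using (tendsto_cut x).mul_const (f x * u x * rho x)
  have l2 : Tendsto (fun n : ℕ => Φ (fun x => cut n x * f x)) atTop (𝓝 (Φ f)) := by
    rw [tendsto_iff_norm_sub_tendsto_zero]
    have h1 : ∀ n : ℕ, ‖Φ (fun x => cut n x * f x) - Φ f‖
        ≤ √(∫ x, (1 - cut n x) ^ 2 * (f x ^ 2 * rho x) ∂κ) := by
      intro n
      have h2 : Φ f = Φ (fun x => cut n x * f x) + Φ (fun x => (1 - cut n x) * f x) := by
        have h4 := hadd (fun x => cut n x * f x) (fun x => (1 - cut n x) * f x)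
          ((continuous_cut n).mul hf) (hcutpb n)
          ((continuous_const.sub (continuous_cut n)).mul hf)
          (((PB.const 1).sub (PB.of_compact (continuous_cut n) (cut_compact n))).mul hfb)
        rw [← h4]
        congr 1; ext x; ring
      have h3 := hΦb (fun x => (1 - cut n x) * f x)
        ((continuous_const.sub (continuous_cut n)).mul hf)
        (((PB.const 1).sub (PB.of_compact (continuous_cut n) (cut_compact n))).mul hfb)
      rw [h2, Real.norm_eq_abs]
      have e : Φ (fun x => cut n x * f x) - (Φ (fun x => cut n x * f x)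
          + Φ (fun x => (1 - cut n x) * f x)) = -Φ (fun x => (1 - cut n x) * f x) := by ring
      rw [e, abs_neg]
      refine h3.trans (le_of_eq ?_)
      congr 1
      congr 1; ext x; ring
    have h2 : Tendsto (fun n : ℕ => ∫ x, (1 - cut n x) ^ 2 * (f x ^ 2 * rho x) ∂κ) atTop
        (𝓝 (∫ x, (0 : ℝ) ∂κ)) := by
      refine tendsto_integral_of_dominated_convergence (fun x => f x ^ 2 * rho x) (fun n => ?_)
        hf2 (fun n => ?_) ?_
      · exact ((continuous_const.sub (continuous_cut n)).pow 2).aestronglyMeasurable.mul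
          hf2.aestronglyMeasurable
      · refine Eventually.of_forall fun x => ?_
        have h4 : 0 ≤ f x ^ 2 * rho x := mul_nonneg (sq_nonneg _) (rho_pos x).le
        rw [Real.norm_of_nonneg (mul_nonneg (sq_nonneg _) h4)]
        refine mul_le_of_le_one_left h4 ?_
        have h5 := cut_nonneg n x
        have h6 := cut_le_one n x
        nlinarith
      · refine Eventually.of_forall fun x => ?_
        have h4 : Tendsto (fun n : ℕ => (1 - cut n x) ^ 2 * (f x ^ 2 * rho x)) atTop
            (𝓝 ((1 - 1) ^ 2 * (f x ^ 2 * rho x))) :=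
          ((tendsto_const_nhds.sub (tendsto_cut x)).pow 2).mul_const _
        simpa using h4
    have h3 := h2.sqrt
    rw [integral_zero, Real.sqrt_zero] at h3
    exact squeeze_zero (fun n => norm_nonneg _) h1 h3
  rw [tendsto_nhds_unique l1 l2]
  exact hΦ f hf hfb

end Conv

end Vale.Agent.P218.H313
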