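import Vale.Agent.P218.H313.Jac
import Vale.Agent.P218.H313.Conv
import Vale.Agent.P218.H313.C4

/-! Nondegenerate shrinkers: the blow-up argument. -/

open MeasureTheory Set Filter Topology Metric
open scoped ENNReal NNReal RealInnerProductSpace

namespace Vale.Agent.P218.H313

open Vale.Agent.P214 (IntegralVarifold proj divAlong IsTestField)

set_option linter.unusedSectionVars false
set_option linter.unusedVariables false

variable {E : Type*} [NormedAddCommGroup E] [InnerProductSpace ℝ E] [FiniteDimensional ℝ E]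
  [MeasurableSpace E] [BorelSpace E]
variable {ι : Type*} {m : ℕ} {U : Ultrafilter ι} {N : ι → Measure E}
  {T : ι → E → Submodule ℝ E} {H : ι → E → E} {κ : Measure E}

lemma DD_zero_eq (μ : Measure E) (W : E → ℝ) : DD μ W 0 = ∫ x, W x ^ 2 * rho x ∂μ := by
  unfold DD; simp

lemma int_vel_le {μ : Measure E} {T : E → Submodule ℝ E} {H : E → E} (hS : GSlice m μ T H) :
    ∫ x, ‖vel T H x‖ * rho x ∂μ ≤ √(∫ x, rho x ∂μ) * √(dis μ T H) := by
  have i1 : Integrable (fun x => (1 : ℝ) ^ 2 * rho x) μ := by simpa using hS.mom 0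
  have i2 := hS.int_vel_sq
  have i3 : Integrable (fun x => (1 : ℝ) * ‖vel T H x‖ * rho x) μ := by
    refine hS.integrable (aestronglyMeasurable_const.mul hS.vel_meas.norm) (C := 1) (p := 0)
      (Eventually.of_forall fun x => ?_)
    rw [abs_of_nonneg (by positivity)]
    nlinarith [sq_nonneg (‖vel T H x‖ - 1), norm_nonneg (vel T H x)]
  have h := abs_integral_mul_le (fun x => (rho_pos x).le) i1 i2 i3
  simp only [one_pow, one_mul] at h
  exact (le_abs_self _).trans h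

lemma norm_H_le {T : E → Submodule ℝ E} {H : E → E} (x : E) :
    ‖H x‖ ≤ ‖vel T H x‖ + 1 / 2 * ‖x‖ := by
  have e : H x = vel T H x - (1 / 2 : ℝ) • (x - proj (T x) x) := by unfold vel; abel
  rw [e]
  refine (norm_sub_le _ _).trans ?_
  rw [norm_smul, Real.norm_of_nonneg (by norm_num : (0 : ℝ) ≤ 1 / 2)]
  have := norm_sub_proj_le (T x) x
  linarith

section static

variable {μ : Measure E} {T : E → Submodule ℝ E} {H : E → E} {W : E → ℝ} {c K : ℝ}

/-- the normalised height -/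
noncomputable def nh (μ : Measure E) (W : E → ℝ) (x : E) : ℝ := (√(DD μ W 0))⁻¹ * W x

lemma nh_int (hp : 0 < DD μ W 0) (f : E → ℝ) :
    ∫ x, nh μ W x ^ 2 * f x * rho x ∂μ = (∫ x, W x ^ 2 * f x * rho x ∂μ) / DD μ W 0 := by
  rw [← integral_div]
  congr 1; ext x
  have : (√(DD μ W 0))⁻¹ ^ 2 = (DD μ W 0)⁻¹ := by rw [inv_pow, Real.sq_sqrt hp.le]
  simp only [nh, mul_pow, this]
  field_simp

lemma nh_norm (hp : 0 < DD μ W 0) : ∫ x, nh μ W x ^ 2 * rho x ∂μ = 1 := by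
  have h1 := nh_int hp (fun _ => 1)
  simp only [mul_one] at h1
  rw [h1, ← DD_zero_eq]
  exact div_self hp.ne'

lemma nh_cont (hW : TubeD W c K) : Continuous (nh μ W) := continuous_const.mul hW.cont

lemma nh_pb (hW : TubeD W c K) : PB (nh μ W) := hW.pg.b0.const_mul _

/-- the integrand of the local bounds -/
lemma nh_pointwise {R : ℝ} {x : E} (hx : ‖x‖ ≤ R) (w p : ℝ) :
    w ^ 2 + p ^ 2 + ‖H x‖ ^ 2 + w ^ 2 * ‖H x‖ ≤ Real.exp (R ^ 2 / 4) *
      ((w ^ 2 + p ^ 2 + 2 * ‖vel T H x‖ ^ 2 + (1 + ‖x‖) ^ 2 + w ^ 2 * ‖vel T H x‖ ^ 2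
        + w ^ 2 * wt 1 x) * rho x) := by
  set G := w ^ 2 + p ^ 2 + 2 * ‖vel T H x‖ ^ 2 + (1 + ‖x‖) ^ 2 + w ^ 2 * ‖vel T H x‖ ^ 2
        + w ^ 2 * wt 1 x with hG
  have hwt := wt_pos 1 x
  have hG0 : 0 ≤ G := by positivity
  have e1 : 1 ≤ Real.exp (R ^ 2 / 4) * rho x := by
    unfold rho
    rw [← Real.exp_add, ← Real.exp_zero]
    apply Real.exp_le_exp.2
    have : ‖x‖ ^ 2 ≤ R ^ 2 := by gcongr
    linarith
  have e2 : w ^ 2 + p ^ 2 + ‖H x‖ ^ 2 + w ^ 2 * ‖H x‖ ≤ G := by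
    have e3 := norm_H_le (T := T) (H := H) x
    set a := ‖vel T H x‖
    set b := ‖x‖
    have ha : 0 ≤ a := norm_nonneg _
    have hb : 0 ≤ b := norm_nonneg _
    have e4 : ‖H x‖ ^ 2 ≤ 2 * a ^ 2 + (1 + b) ^ 2 := by
      have : ‖H x‖ ^ 2 ≤ (a + 1 / 2 * b) ^ 2 := by gcongr
      nlinarith [sq_nonneg (a - 1 / 2 * b)]
    have e5 : w ^ 2 * ‖H x‖ ≤ w ^ 2 * a ^ 2 + w ^ 2 * wt 1 x := by
      have e6 : ‖H x‖ ≤ a ^ 2 + wt 1 x := by
        have : wt 1 x = 1 + b ^ 2 := by simp [wt, b]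
        rw [this]
        nlinarith [sq_nonneg (a - 1 / 2), sq_nonneg (b - 1 / 4)]
      have e7 := mul_le_mul_of_nonneg_left e6 (sq_nonneg w)
      linarith
    linarith
  calc _ ≤ G := e2
    _ = 1 * G := (one_mul _).symm
    _ ≤ (Real.exp (R ^ 2 / 4) * rho x) * G := mul_le_mul_of_nonneg_right e1 hG0
    _ = _ := by ring

lemma nh_local (hS : GSlice m μ T H) (hW : TubeD W c K) (hp : 0 < DD μ W 0)
    {C₁ C₂ M₂ : ℝ} (h1 : DD μ W 1 / DD μ W 0 ≤ C₂) (h2 : TG μ T W 0 / DD μ W 0 ≤ C₁)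
    (h3 : VW μ T H W 0 / DD μ W 0 ≤ K ^ 2) (h4 : ∫ x, (1 + ‖x‖) ^ 2 * rho x ∂μ ≤ M₂)
    (h5 : dis μ T H ≤ 1) (R : ℝ) :
    ∫ x in closedBall (0 : E) R, (nh μ W x ^ 2 + ‖proj (T x) (grad (nh μ W) x)‖ ^ 2
      + ‖H x‖ ^ 2 + nh μ W x ^ 2 * ‖H x‖) ∂μ
      ≤ Real.exp (R ^ 2 / 4) * (1 + C₁ + 2 + M₂ + K ^ 2 + C₂) := by
  have hsp : 0 < √(DD μ W 0) := Real.sqrt_pos.2 hp
  have hgrad : ∀ x, grad (nh μ W) x = (√(DD μ W 0))⁻¹ • grad W x := fun x =>
    grad_const_mul _ (hW.diff x)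
  have hsq : (√(DD μ W 0))⁻¹ ^ 2 = (DD μ W 0)⁻¹ := by rw [inv_pow, Real.sq_sqrt hp.le]
  have j1 : Integrable (fun x => nh μ W x ^ 2 * rho x) μ :=
    hS.integrable_PB ((nh_cont hW).pow 2).aestronglyMeasurable ((nh_pb hW).pow 2)
  have eP : (fun x => ‖proj (T x) (grad (nh μ W) x)‖ ^ 2 * rho x)
      = fun x => (DD μ W 0)⁻¹ * (wt 0 x * ‖proj (T x) (grad W x)‖ ^ 2 * rho x) := by
    ext x
    rw [hgrad, map_smul, norm_smul, mul_pow, norm_inv, Real.norm_of_nonneg hsp.le, hsq]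
    simp only [wt, pow_zero]; ring
  have j2 : Integrable (fun x => ‖proj (T x) (grad (nh μ W) x)‖ ^ 2 * rho x) μ := by
    rw [eP]; exact (hS.int_TG hW 0).const_mul _
  have j3 := hS.int_vel_sq
  have j4 := hS.mom 2
  have eV : (fun x => nh μ W x ^ 2 * ‖vel T H x‖ ^ 2 * rho x)
      = fun x => (DD μ W 0)⁻¹ * (W x ^ 2 * wt 0 x * ‖vel T H x‖ ^ 2 * rho x) := by
    ext x
    simp only [nh, mul_pow, hsq, wt, pow_zero]; ring
  have j5 : Integrable (fun x => nh μ W x ^ 2 * ‖vel T H x‖ ^ 2 * rho x) μ := by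
    rw [eV]; exact (hS.int_VW hW 0).const_mul _
  have j6 : Integrable (fun x => nh μ W x ^ 2 * wt 1 x * rho x) μ :=
    hS.integrable_PB (((nh_cont hW).pow 2).mul (PG.wt 1).cont).aestronglyMeasurable
      (((nh_pb hW).pow 2).mul (PG.wt 1).b0)
  have f2 : ∫ x, ‖proj (T x) (grad (nh μ W) x)‖ ^ 2 * rho x ∂μ = TG μ T W 0 / DD μ W 0 := by
    rw [eP, integral_const_mul, div_eq_inv_mul]; rfl
  have f5 : ∫ x, nh μ W x ^ 2 * ‖vel T H x‖ ^ 2 * rho x ∂μ = VW μ T H W 0 / DD μ W 0 := by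
    rw [eV, integral_const_mul, div_eq_inv_mul]; rfl
  have f6 : ∫ x, nh μ W x ^ 2 * wt 1 x * rho x ∂μ = DD μ W 1 / DD μ W 0 := nh_int hp (wt 1)
  have f1 := nh_norm hp
  have k1 : Integrable (fun x => 1 * (nh μ W x ^ 2 * rho x)
      + 1 * (‖proj (T x) (grad (nh μ W) x)‖ ^ 2 * rho x)
      + 2 * (‖vel T H x‖ ^ 2 * rho x)) μ :=
    ((j1.const_mul 1).add (j2.const_mul 1)).add (j3.const_mul 2)
  have k2 : Integrable (fun x => 1 * ((1 + ‖x‖) ^ 2 * rho x)
      + 1 * (nh μ W x ^ 2 * ‖vel T H x‖ ^ 2 * rho x)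
      + 1 * (nh μ W x ^ 2 * wt 1 x * rho x)) μ :=
    ((j4.const_mul 1).add (j5.const_mul 1)).add (j6.const_mul 1)
  have e1 := integral_comb j1 j2 j3 1 1 2
  have e2 := integral_comb j4 j5 j6 1 1 1
  have hGint : ∫ x, ((1 * (nh μ W x ^ 2 * rho x)
      + 1 * (‖proj (T x) (grad (nh μ W) x)‖ ^ 2 * rho x)
      + 2 * (‖vel T H x‖ ^ 2 * rho x)) + (1 * ((1 + ‖x‖) ^ 2 * rho x)
      + 1 * (nh μ W x ^ 2 * ‖vel T H x‖ ^ 2 * rho x)
      + 1 * (nh μ W x ^ 2 * wt 1 x * rho x))) ∂μ ≤ 1 + C₁ + 2 + M₂ + K ^ 2 + C₂ := by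
    rw [integral_add k1 k2, e1, e2, f1, f2, f5, f6]
    unfold dis at h5
    linarith
  have hcomp : ∫ x in closedBall (0 : E) R, (nh μ W x ^ 2
      + ‖proj (T x) (grad (nh μ W) x)‖ ^ 2 + ‖H x‖ ^ 2 + nh μ W x ^ 2 * ‖H x‖) ∂μ
      ≤ ∫ x in closedBall (0 : E) R, Real.exp (R ^ 2 / 4) * ((1 * (nh μ W x ^ 2 * rho x)
      + 1 * (‖proj (T x) (grad (nh μ W) x)‖ ^ 2 * rho x)
      + 2 * (‖vel T H x‖ ^ 2 * rho x)) + (1 * ((1 + ‖x‖) ^ 2 * rho x)
      + 1 * (nh μ W x ^ 2 * ‖vel T H x‖ ^ 2 * rho x)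
      + 1 * (nh μ W x ^ 2 * wt 1 x * rho x))) ∂μ := by
    refine integral_mono_of_nonneg (Eventually.of_forall fun x => by
      simp only [Pi.zero_apply]; positivity) ((k1.add k2).const_mul _).integrableOn ?_
    refine (ae_restrict_iff' measurableSet_closedBall).2 (Eventually.of_forall fun x hx => ?_)
    have hxR : ‖x‖ ≤ R := by simpa using hx
    refine (nh_pointwise (T := T) hxR _ _).trans (le_of_eq ?_)
    ring
  refine hcomp.trans ?_
  refine (setIntegral_le_integral ((k1.add k2).const_mul _) (Eventually.of_forall fun x => ?_)).trans ?_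
  · have h1 := wt_pos 1 x
    have h2 := rho_pos x
    simp only [Pi.zero_apply, Pi.add_apply]
    positivity
  · rw [integral_const_mul]
    exact mul_le_mul_of_nonneg_left hGint (Real.exp_pos _).le

/-- most of the normalised squared distance lies in a compact set -/
lemma nh_low (hS : GSlice m μ T H) (hW : TubeD W c K) (hp : 0 < DD μ W 0)
    {C₂ : ℝ} (h1 : DD μ W 1 / DD μ W 0 ≤ C₂) (n : ℕ) (hn : C₂ / ((n : ℝ) + 1) ^ 2 ≤ 1 / 2) :
    1 / 2 ≤ ∫ x, cut n x * rho x * nh μ W x ^ 2 ∂μ := by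
  have j1 : Integrable (fun x => nh μ W x ^ 2 * rho x) μ :=
    hS.integrable_PB ((nh_cont hW).pow 2).aestronglyMeasurable ((nh_pb hW).pow 2)
  have j6 : Integrable (fun x => nh μ W x ^ 2 * wt 1 x * rho x) μ :=
    hS.integrable_PB (((nh_cont hW).pow 2).mul (PG.wt 1).cont).aestronglyMeasurable
      (((nh_pb hW).pow 2).mul (PG.wt 1).b0)
  have j7 : Integrable (fun x => cut n x * rho x * nh μ W x ^ 2) μ := by
    refine j1.mono' (((continuous_cut n).mul continuous_rho).mul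
      ((nh_cont hW).pow 2)).aestronglyMeasurable (Eventually.of_forall fun x => ?_)
    have h1 := cut_nonneg n x
    have h2 := cut_le_one n x
    have h3 := rho_pos x
    rw [Real.norm_of_nonneg (by positivity)]
    have h4 : 0 ≤ nh μ W x ^ 2 * rho x := by positivity
    calc cut n x * rho x * nh μ W x ^ 2 = cut n x * (nh μ W x ^ 2 * rho x) := by ring
      _ ≤ nh μ W x ^ 2 * rho x := mul_le_of_le_one_left h4 h2
  have e1 : ∫ x, nh μ W x ^ 2 * rho x ∂μ - ∫ x, cut n x * rho x * nh μ W x ^ 2 ∂μ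
      ≤ 1 / ((n : ℝ) + 1) ^ 2 * ∫ x, nh μ W x ^ 2 * wt 1 x * rho x ∂μ := by
    rw [← integral_sub j1 j7, ← integral_const_mul]
    refine integral_mono (j1.sub j7) (j6.const_mul _) fun x => ?_
    have h1 : 1 - cut n x ≤ wt 1 x / ((n : ℝ) + 1) ^ 2 := by
      by_cases hx : ‖x‖ ≤ (n : ℝ) + 1
      · have : cut n x = 1 := H552.chi_eq_one (cut_pos_arg n) hx
        rw [this, sub_self]
        have := wt_pos 1 x
        positivity
      · push Not at hx
        have h2 : 1 ≤ wt 1 x / ((n : ℝ) + 1) ^ 2 := by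
          rw [le_div_iff₀ (by positivity)]
          simp only [wt, pow_one, one_mul]
          have h3 := cut_pos_arg n
          nlinarith
        have h3 := cut_nonneg n x
        linarith
    have h2 : 0 ≤ nh μ W x ^ 2 * rho x := by have := rho_pos x; positivity
    calc nh μ W x ^ 2 * rho x - cut n x * rho x * nh μ W x ^ 2
        = (1 - cut n x) * (nh μ W x ^ 2 * rho x) := by ring
      _ ≤ (wt 1 x / ((n : ℝ) + 1) ^ 2) * (nh μ W x ^ 2 * rho x) :=
          mul_le_mul_of_nonneg_right h1 h2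
      _ = 1 / ((n : ℝ) + 1) ^ 2 * (nh μ W x ^ 2 * wt 1 x * rho x) := by ring
  have f6 : ∫ x, nh μ W x ^ 2 * wt 1 x * rho x ∂μ = DD μ W 1 / DD μ W 0 := nh_int hp (wt 1)
  rw [nh_norm hp, f6] at e1
  have e2 : 1 / ((n : ℝ) + 1) ^ 2 * (DD μ W 1 / DD μ W 0) ≤ C₂ / ((n : ℝ) + 1) ^ 2 := by
    rw [one_div, inv_mul_eq_div]
    gcongr
  linarith

/-- the almost Jacobi equation for the normalised height -/
lemma nh_jac (hS : GSlice m μ T H) (hp : 0 < DD μ W 0) {C M : ℝ} (hC : 0 ≤ C) {ζ : E → ℝ}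
    (hest : |∫ x, W x * jac W ζ x * rho x ∂μ|
      ≤ C * (DD μ W 0 + dis μ T H + ∫ x, ‖vel T H x‖ * rho x ∂μ))
    (hM : ∫ x, rho x ∂μ ≤ M) :
    |∫ x, nh μ W x * jac W ζ x * rho x ∂μ|
      ≤ C * (√(DD μ W 0) + dis μ T H / DD μ W 0 * √(DD μ W 0)
        + √M * √(dis μ T H / DD μ W 0)) := by
  have e2 : ∫ x, nh μ W x * jac W ζ x * rho x ∂μ
      = (√(DD μ W 0))⁻¹ * ∫ x, W x * jac W ζ x * rho x ∂μ := by
    rw [← integral_const_mul]
    congr 1; ext x
    simp only [nh]; ring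
  have hsp : 0 < √(DD μ W 0) := Real.sqrt_pos.2 hp
  rw [e2, abs_mul, abs_of_pos (inv_pos.2 hsp)]
  have e3 := int_vel_le hS
  have e4 : √(∫ x, rho x ∂μ) ≤ √M := Real.sqrt_le_sqrt hM
  have e5 : 0 ≤ √(dis μ T H) := Real.sqrt_nonneg _
  have e6 : |∫ x, W x * jac W ζ x * rho x ∂μ|
      ≤ C * (DD μ W 0 + dis μ T H + √M * √(dis μ T H)) := by
    refine hest.trans (mul_le_mul_of_nonneg_left ?_ hC)
    have : √(∫ x, rho x ∂μ) * √(dis μ T H) ≤ √M * √(dis μ T H) := by gcongr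
    linarith
  have e7 : (√(DD μ W 0))⁻¹ * |∫ x, W x * jac W ζ x * rho x ∂μ|
      ≤ (√(DD μ W 0))⁻¹ * (C * (DD μ W 0 + dis μ T H + √M * √(dis μ T H))) := by gcongr
  refine e7.trans (le_of_eq ?_)
  rw [Real.sqrt_div dis_nonneg]
  set s := √(DD μ W 0) with hs
  have e8 : DD μ W 0 = s ^ 2 := (Real.sq_sqrt hp.le).symm
  rw [e8]
  field_simp

/-- change of the test function -/
lemma nh_diff (hS : GSlice m μ T H) (hW : TubeD W c K) (hp : 0 < DD μ W 0) {M δ : ℝ}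
    (hM : ∫ x, rho x ∂μ ≤ M) {f g : E → ℝ} (hf : Continuous f) (hfb : PB f)
    (hg : Continuous g) (hgb : PB g) (hd : ∀ x, |g x - f x| ≤ δ) (hδ : 0 ≤ δ) :
    |∫ x, nh μ W x * f x * rho x ∂μ - ∫ x, nh μ W x * g x * rho x ∂μ| ≤ δ * √M := by
  have i1 : Integrable (fun x => nh μ W x * f x * rho x) μ :=
    hS.integrable_PB ((nh_cont hW).mul hf).aestronglyMeasurable ((nh_pb hW).mul hfb)
  have i2 : Integrable (fun x => nh μ W x * g x * rho x) μ :=
    hS.integrable_PB ((nh_cont hW).mul hg).aestronglyMeasurable ((nh_pb hW).mul hgb)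
  have i3 : Integrable (fun x => |nh μ W x| * 1 * rho x) μ := by
    have := hS.integrable_PB (nh_cont (μ := μ) hW).norm.aestronglyMeasurable (nh_pb hW).norm
    simpa using this
  have i4 : Integrable (fun x => |nh μ W x| ^ 2 * rho x) μ := by
    have := hS.integrable_PB ((nh_cont (μ := μ) hW).pow 2).aestronglyMeasurable ((nh_pb hW).pow 2)
    simpa using this
  have i5 : Integrable (fun x => (1 : ℝ) ^ 2 * rho x) μ := by simpa using hS.mom 0
  have cs := abs_integral_mul_le (fun x => (rho_pos x).le) i4 i5 i3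
  have e1 : ∫ x, |nh μ W x| ^ 2 * rho x ∂μ = 1 := by
    have := nh_norm hp
    simpa using this
  rw [e1, Real.sqrt_one, one_mul] at cs
  simp only [one_pow, one_mul, mul_one] at cs
  have i6 : Integrable (fun x => |nh μ W x| * rho x) μ := by simpa using i3
  rw [← integral_sub i1 i2, ← Real.norm_eq_abs]
  have e2 : ‖∫ x, (nh μ W x * f x * rho x - nh μ W x * g x * rho x) ∂μ‖
      ≤ ∫ x, δ * (|nh μ W x| * rho x) ∂μ := by
    refine norm_integral_le_of_norm_le (i6.const_mul _) (Eventually.of_forall fun x => ?_)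
    have e3 : nh μ W x * f x * rho x - nh μ W x * g x * rho x
        = (f x - g x) * (nh μ W x * rho x) := by ring
    rw [e3, norm_mul, norm_mul, Real.norm_of_nonneg (rho_pos x).le, Real.norm_eq_abs,
      Real.norm_eq_abs, abs_sub_comm]
    exact mul_le_mul_of_nonneg_right (hd x) (mul_nonneg (abs_nonneg _) (rho_pos x).le)
  rw [integral_const_mul] at e2
  refine e2.trans (mul_le_mul_of_nonneg_left ?_ hδ)
  exact (le_abs_self _).trans (cs.trans (Real.sqrt_le_sqrt hM))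

end static

/-- **Blow-up.** Slices `N_i` converge to the multiplicity-one shrinker `κ`, the squared distances
`D_i` to the moving shrinkers `{W_i = 0}` are large compared with the dissipation, and the heights
are asymptotically orthogonal to the kernel: impossible. -/
theorem blow (hm : 0 < m) (hE : Module.finrank ℝ E = m + 1) (h : Conv U m N T H κ)
    (hκ : ∀ x : E, ∀ c > om m, ∀ᶠ r in 𝓝[>] (0 : ℝ), (∫ y, ker (r⁻¹ • (y - x)) ∂κ) / r ^ m ≤ c)
    {W : E → ℝ} {Wi : ι → E → ℝ} {c K : ℝ} (hW : TubeD W c K)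
    (hWi : ∀ᶠ i in (U : Filter ι), TubeD (Wi i) c K)
    (hjac : ∀ ζ : E → ℝ, ContDiff ℝ (⊤ : ℕ∞) ζ → HasCompactSupport ζ → ∀ ε > 0,
      ∀ᶠ i in (U : Filter ι), ∀ x, |jac (Wi i) ζ x - jac W ζ x| ≤ ε)
    {V : Set (E → ℝ)} (hVc : ∀ v ∈ V, Continuous v ∧ PB v)
    (hV : ∀ v ∈ V, Tendsto (fun i => (∫ x, Wi i x * v x * rho x ∂(N i)) / √(DD (N i) (Wi i) 0))
      U (𝓝 0))
    (hnd : ∀ u : E → ℝ, AEStronglyMeasurable u κ → Integrable (fun x => u x ^ 2 * rho x) κ →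
      (∀ ζ : E → ℝ, ContDiff ℝ (⊤ : ℕ∞) ζ → HasCompactSupport ζ →
        ∫ x, u x * jac W ζ x * rho x ∂κ = 0) → ∃ v ∈ V, u =ᵐ[κ] v)
    (hpos : ∀ᶠ i in (U : Filter ι), 0 < DD (N i) (Wi i) 0)
    (hD : Tendsto (fun i => DD (N i) (Wi i) 0) U (𝓝 0))
    (hdis : Tendsto (fun i => dis (N i) (T i) (H i) / DD (N i) (Wi i) 0) U (𝓝 0)) : False := by
  have := h.lf
  have hc := hW.cpos
  have hK := hW.K_nonneg
  have hwc : ∀ᶠ i in (U : Filter ι), Continuous (nh (N i) (Wi i)) ∧ PB (nh (N i) (Wi i)) := by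
    filter_upwards [hWi] with i hi using ⟨nh_cont hi, nh_pb hi⟩
  obtain ⟨u, hum, hu2, hu⟩ := h.exists_weak_lim (w := fun i => nh (N i) (Wi i)) hwc
    (hpos.mono fun i hi => (nh_norm hi).le)
  obtain ⟨M, hM⟩ := h.mom 0
  have hM' : ∀ᶠ i in (U : Filter ι), ∫ x, rho x ∂(N i) ≤ M := by
    filter_upwards [hM] with i hi; simpa using hi
  -- sqrt limits
  have hsD : Tendsto (fun i => √(DD (N i) (Wi i) 0)) U (𝓝 0) := by
    have := hD.sqrt; rwa [Real.sqrt_zero] at this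
  have hsdis : Tendsto (fun i => √(dis (N i) (T i) (H i) / DD (N i) (Wi i) 0)) U (𝓝 0) := by
    have := hdis.sqrt; rwa [Real.sqrt_zero] at this
  -- Claim A: the limit is a weak Jacobi field
  have claimA : ∀ ζ : E → ℝ, ContDiff ℝ (⊤ : ℕ∞) ζ → HasCompactSupport ζ →
      ∫ x, u x * jac W ζ x * rho x ∂κ = 0 := by
    intro ζ hζ hζc
    have hζ2 : ContDiff ℝ 2 ζ := hζ.of_le (by norm_cast)
    have hjc := continuous_jac hW hζ2
    have hjs : HasCompactSupport (jac W ζ) := hasCompactSupport_jac hζc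
    have hjpb : PB (jac W ζ) := PB.of_compact hjc hjs
    obtain ⟨-, hlim⟩ := hu (jac W ζ) hjc hjpb
    obtain ⟨C, hC, hest⟩ := exists_jac_est (E := E) hE hc hK hζ2 hζc
    have a2 : Tendsto (fun i => C * (√(DD (N i) (Wi i) 0)
        + dis (N i) (T i) (H i) / DD (N i) (Wi i) 0 * √(DD (N i) (Wi i) 0)
          + √M * √(dis (N i) (T i) (H i) / DD (N i) (Wi i) 0))) U (𝓝 0) := by
      have := ((hsD.add (hdis.mul hsD)).add (hsdis.const_mul √M)).const_mul C
      simpa using this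
    have a3 : Tendsto (fun i => ∫ x, nh (N i) (Wi i) x * jac (Wi i) ζ x * rho x ∂(N i)) U
        (𝓝 0) := by
      refine squeeze_zero_norm' ?_ a2
      filter_upwards [hWi, h.sl, hpos, hM'] with i hi hs hp hm'
      exact nh_jac hs hp hC (hest (Wi i) hi (N i) (T i) (H i) hs) hm'
    have a4 : Tendsto (fun i => ∫ x, nh (N i) (Wi i) x * jac W ζ x * rho x ∂(N i)
        - ∫ x, nh (N i) (Wi i) x * jac (Wi i) ζ x * rho x ∂(N i)) U (𝓝 0) := by
      rw [Metric.tendsto_nhds]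
      intro ε hε
      have hε' : 0 < ε / (2 * (√M + 1)) := by positivity
      filter_upwards [hjac ζ hζ hζc _ hε', hWi, h.sl, hpos, hM'] with i h1 hi hs hp h3
      rw [dist_zero_right, Real.norm_eq_abs]
      refine (nh_diff hs hi hp h3 hjc hjpb (continuous_jac hi hζ2)
        (PB.of_compact (continuous_jac hi hζ2) (hasCompactSupport_jac hζc)) h1 hε'.le).trans_lt ?_
      have e5 : 0 ≤ √M := Real.sqrt_nonneg _
      rw [div_mul_eq_mul_div, div_lt_iff₀ (by positivity)]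
      nlinarith
    have a5 := a4.add a3
    have h1 : Tendsto (fun i => ∫ x, nh (N i) (Wi i) x * jac W ζ x * rho x ∂(N i)) U (𝓝 0) := by
      simpa using a5
    have h2 := tendsto_nhds_unique h1 hlim
    rw [h2]
    congr 1; ext x; ring
  -- Claim C: `u = 0`
  obtain ⟨v, hvV, huv⟩ := hnd u hum hu2 claimA
  obtain ⟨hvc, hvpb⟩ := hVc v hvV
  have claimB : ∫ x, v x * u x * rho x ∂κ = 0 := by
    obtain ⟨-, h1⟩ := hu v hvc hvpb
    refine tendsto_nhds_unique h1 ((hV v hvV).congr fun i => ?_)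
    rw [← integral_div]
    congr 1; ext x
    simp only [nh]
    rw [div_eq_inv_mul]
    ring
  have hu0 : ∀ᵐ x ∂κ, u x = 0 := by
    have e : ∫ x, u x ^ 2 * rho x ∂κ = 0 := by
      rw [← claimB]
      apply integral_congr_ae
      filter_upwards [huv] with x hx
      rw [← hx]; ring
    have h1 := (integral_eq_zero_iff_of_nonneg (fun x => mul_nonneg (sq_nonneg _)
      (rho_pos x).le) hu2).1 e
    filter_upwards [h1] with x hx
    have h2 : u x ^ 2 * rho x = 0 := hx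
    rcases mul_eq_zero.1 h2 with h3 | h3
    · exact pow_eq_zero_iff (two_ne_zero) |>.1 h3
    · exact absurd h3 (rho_pos x).ne'
  have hwlim : ∀ f : E → ℝ, Continuous f → PB f →
      Tendsto (fun i => ∫ x, nh (N i) (Wi i) x * f x * rho x ∂(N i)) U (𝓝 0) := by
    intro f hf hfb
    obtain ⟨-, h1⟩ := hu f hf hfb
    have e : ∫ x, f x * u x * rho x ∂κ = 0 := by
      apply integral_eq_zero_of_ae
      filter_upwards [hu0] with x hx
      simp [hx]
    rwa [e] at h1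
  -- bounds for the strong compactness theorem
  obtain ⟨C₁, hC₁, hTG⟩ := exists_TG_le (E := E) hE hc hK
  obtain ⟨C₂, hC₂, hD1⟩ := exists_DD_one_le (E := E) hE hc hK
  have hdis1 : ∀ᶠ i in (U : Filter ι), dis (N i) (T i) (H i) / DD (N i) (Wi i) 0 ≤ 1 :=
    hdis.eventually_le_const (by norm_num)
  have hD1' : ∀ᶠ i in (U : Filter ι), DD (N i) (Wi i) 0 ≤ 1 := hD.eventually_le_const (by norm_num)
  have b1 : ∀ᶠ i in (U : Filter ι), DD (N i) (Wi i) 1 / DD (N i) (Wi i) 0 ≤ 2 * C₂ := by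
    filter_upwards [hWi, h.sl, hpos, hdis1] with i hi hs hp hd
    have e := hD1 (Wi i) hi (N i) (T i) (H i) hs
    rw [div_le_iff₀ hp] at hd ⊢
    nlinarith
  have b2 : ∀ᶠ i in (U : Filter ι), TG (N i) (T i) (Wi i) 0 / DD (N i) (Wi i) 0 ≤ 2 * C₁ := by
    filter_upwards [hWi, h.sl, hpos, hdis1] with i hi hs hp hd
    have e := hTG (Wi i) hi (N i) (T i) (H i) hs
    rw [div_le_iff₀ hp] at hd ⊢
    nlinarith
  have b3 : ∀ᶠ i in (U : Filter ι), VW (N i) (T i) (H i) (Wi i) 0 / DD (N i) (Wi i) 0 ≤ K ^ 2 := by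
    filter_upwards [hWi, h.sl, hpos, hdis1] with i hi hs hp hd
    have e := hs.VW_zero_le hi
    rw [div_le_iff₀ hp] at hd ⊢
    nlinarith [sq_nonneg K]
  obtain ⟨M₂, hM₂⟩ := h.mom 2
  have hbd : ∀ R : ℝ, ∃ C : ℝ, ∀ᶠ i in (U : Filter ι), ∫ x in closedBall (0 : E) R,
      (nh (N i) (Wi i) x ^ 2 + ‖proj (T i x) (grad (nh (N i) (Wi i)) x)‖ ^ 2 + ‖H i x‖ ^ 2
        + nh (N i) (Wi i) x ^ 2 * ‖H i x‖) ∂(N i) ≤ C := by
    intro R
    refine ⟨Real.exp (R ^ 2 / 4) * (1 + 2 * C₁ + 2 + M₂ + K ^ 2 + 2 * C₂), ?_⟩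
    filter_upwards [hWi, h.sl, hpos, hdis1, hD1', b1, b2, b3, hM₂] with
      i hi hs hp hd hd1 c1 c2 c3 c4
    refine nh_local hs hi hp c1 c2 c3 c4 ?_ R
    rw [div_le_iff₀ hp] at hd
    linarith
  -- strong compactness
  have hstrong := strong_compactness U hm (h.sl.mono fun i hi => hi.toSlice) h.lim h.ratio hκ
    (w := fun i => nh (N i) (Wi i)) (hWi.mono fun i hi => contDiff_const.mul hi.pg.cd) hbd
    (fun ζ hζ hζc => by
      have h1 := hwlim (fun x => ζ x * (rho x)⁻¹)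
        (hζ.mul (continuous_rho.inv₀ fun x => (rho_pos x).ne'))
        (PB.of_compact (hζ.mul (continuous_rho.inv₀ fun x => (rho_pos x).ne')) hζc.mul_right)
      refine h1.congr fun i => ?_
      congr 1; ext x
      have := (rho_pos x).ne'
      field_simp)
  -- conclusion
  obtain ⟨n, hn⟩ := exists_nat_gt (4 * C₂)
  have hn1 : 2 * C₂ / ((n : ℝ) + 1) ^ 2 ≤ 1 / 2 := by
    rw [div_le_iff₀ (by positivity)]
    nlinarith [sq_nonneg (n : ℝ), (Nat.cast_nonneg n : (0 : ℝ) ≤ n)]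
  have hfin := hstrong (fun x => cut n x * rho x) ((continuous_cut n).mul continuous_rho)
    (cut_compact n).mul_right
  have hlow : ∀ᶠ i in (U : Filter ι),
      1 / 2 ≤ ∫ x, cut n x * rho x * nh (N i) (Wi i) x ^ 2 ∂(N i) := by
    filter_upwards [h.sl, hWi, hpos, b1] with i hs hi hp c1
    exact nh_low hs hi hp c1 n hn1
  have hcontra := ge_of_tendsto hfin hlow
  norm_num at hcontra

end Vale.Agent.P218.H313
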