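import Vale.Agent.P218.H313.WFV

/-! Nondegenerate shrinkers, package C: the kernel `(1 - |z|²)₊²` and the weighted monotonicity
formula. -/

open MeasureTheory Set Filter Topology Metric
open scoped ENNReal NNReal RealInnerProductSpace

namespace Vale.Agent.P218.H313

open Vale.Agent.P214 (IntegralVarifold proj divAlong IsTestField)
open Vale.Agent.P218.H552 (MC BF NN)

set_option linter.unusedSectionVars false
set_option linter.unusedVariables false

/-! ## the profile -/

/-- the profile `(1 - s)₊²` -/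
noncomputable def psi (s : ℝ) : ℝ := (max (1 - s) 0) ^ 2

/-- its derivative -/
noncomputable def psi' (s : ℝ) : ℝ := -(2 * max (1 - s) 0)

lemma psi_nonneg (s : ℝ) : 0 ≤ psi s := sq_nonneg _

lemma psi'_nonpos (s : ℝ) : psi' s ≤ 0 := by
  unfold psi'
  have := le_max_right (1 - s) 0
  linarith

lemma psi_le_one {s : ℝ} (hs : 0 ≤ s) : psi s ≤ 1 := by
  unfold psi
  have h1 : max (1 - s) 0 ≤ 1 := max_le (by linarith) zero_le_one
  have h2 := le_max_right (1 - s) 0
  nlinarith

lemma psi_zero {s : ℝ} (hs : 1 ≤ s) : psi s = 0 := by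
  unfold psi
  rw [max_eq_right (by linarith)]
  ring

lemma psi'_zero {s : ℝ} (hs : 1 ≤ s) : psi' s = 0 := by
  unfold psi'
  rw [max_eq_right (by linarith)]
  ring

lemma psi'_bound {s : ℝ} (hs : 0 ≤ s) : |psi' s| ≤ 2 := by
  unfold psi'
  have h1 : max (1 - s) 0 ≤ 1 := max_le (by linarith) zero_le_one
  have h2 := le_max_right (1 - s) 0
  rw [abs_neg, abs_of_nonneg (by linarith)]
  linarith

lemma continuous_psi : Continuous psi := by
  unfold psi; fun_prop

lemma continuous_psi' : Continuous psi' := by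
  unfold psi'; fun_prop

lemma hasDerivAt_maxsq (u : ℝ) : HasDerivAt (fun u : ℝ => (max u 0) ^ 2) (2 * max u 0) u := by
  rcases lt_trichotomy u 0 with hu | hu | hu
  · have h1 : (fun u : ℝ => (max u 0) ^ 2) =ᶠ[𝓝 u] fun _ => 0 := by
      filter_upwards [Iio_mem_nhds hu] with v hv
      rw [max_eq_right (le_of_lt hv)]
      ring
    rw [max_eq_right hu.le, mul_zero]
    exact (hasDerivAt_const u 0).congr_of_eventuallyEq h1
  · subst hu
    rw [max_self, mul_zero]
    rw [hasDerivAt_iff_isLittleO]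
    simp only [max_self, sub_zero, smul_eq_mul, mul_zero, ne_eq, OfNat.ofNat_ne_zero,
      not_false_eq_true, zero_pow]
    have h2 : (fun x : ℝ => (max x 0) ^ 2) =O[𝓝 0] fun x : ℝ => x ^ 2 := by
      refine Asymptotics.IsBigO.of_bound 1 (Eventually.of_forall fun x => ?_)
      rw [one_mul, Real.norm_of_nonneg (sq_nonneg _), Real.norm_of_nonneg (sq_nonneg _)]
      rcases le_total x 0 with hx | hx
      · rw [max_eq_right hx]
        nlinarith [sq_nonneg x]
      · rw [max_eq_left hx]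
    refine h2.trans_isLittleO ?_
    have h3 : (fun x : ℝ => x ^ 2) =o[𝓝 0] fun x : ℝ => x ^ 1 :=
      Asymptotics.isLittleO_pow_pow (by norm_num)
    simpa using h3
  · have h1 : (fun u : ℝ => (max u 0) ^ 2) =ᶠ[𝓝 u] fun u => u ^ 2 := by
      filter_upwards [Ioi_mem_nhds hu] with v hv
      rw [max_eq_left (le_of_lt hv)]
    rw [max_eq_left hu.le]
    have := hasDerivAt_pow 2 u
    simp only [Nat.cast_ofNat, Nat.add_one_sub_one, pow_one] at this
    exact this.congr_of_eventuallyEq h1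

lemma hasDerivAt_psi (s : ℝ) : HasDerivAt psi (psi' s) s := by
  have h1 : HasDerivAt (fun s : ℝ => 1 - s) (-1) s := by
    simpa using (hasDerivAt_id s).const_sub 1
  have h2 := (hasDerivAt_maxsq (1 - s)).comp s h1
  refine h2.congr_deriv ?_
  unfold psi'
  ring

lemma contDiff_psi : ContDiff ℝ 1 psi := by
  rw [contDiff_one_iff_deriv]
  refine ⟨fun s => (hasDerivAt_psi s).differentiableAt, ?_⟩
  have : deriv psi = psi' := funext fun s => (hasDerivAt_psi s).deriv
  rw [this]; exact continuous_psi'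

section ker

variable {E : Type*} [NormedAddCommGroup E] [InnerProductSpace ℝ E] [FiniteDimensional ℝ E]

lemma ker_eq (z : E) : ker z = psi (‖z‖ ^ 2) := rfl

lemma kern_nonneg (z : E) : 0 ≤ ker z := sq_nonneg _

lemma kern_le_one (z : E) : ker z ≤ 1 := psi_le_one (sq_nonneg _)

lemma continuous_kern : Continuous (ker : E → ℝ) := by
  unfold ker; fun_prop

lemma ker_zero {z : E} (hz : 1 ≤ ‖z‖) : ker z = 0 := by
  rw [ker_eq]
  refine psi_zero ?_
  nlinarith

lemma ker_scale {r : ℝ} (hr : r ≠ 0) (x y : E) :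
    ker (r⁻¹ • (y - x)) = psi (‖y - x‖ ^ 2 / r ^ 2) := by
  rw [ker_eq, norm_smul, mul_pow, norm_inv, inv_pow, Real.norm_eq_abs, sq_abs]
  congr 1
  field_simp

lemma ker_scale_zero {r : ℝ} (hr : 0 < r) {x y : E} (hy : r ≤ dist y x) :
    ker (r⁻¹ • (y - x)) = 0 := by
  refine ker_zero ?_
  rw [norm_smul, norm_inv, Real.norm_of_nonneg hr.le, ← dist_eq_norm, ← div_eq_inv_mul,
    one_le_div hr]
  exact hy

lemma ker_scale_zero' {r : ℝ} (hr : 0 < r) {x y : E} (hy : y ∉ closedBall x r) :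
    ker (r⁻¹ • (y - x)) = 0 :=
  ker_scale_zero hr (by rw [mem_closedBall, not_le] at hy; exact hy.le)

lemma continuous_ker_scale (r : ℝ) (x : E) : Continuous fun y : E => ker (r⁻¹ • (y - x)) :=
  continuous_kern.comp (by fun_prop)

lemma hasCompactSupport_ker_scale {r : ℝ} (hr : 0 < r) (x : E) :
    HasCompactSupport fun y : E => ker (r⁻¹ • (y - x)) := by
  have : ProperSpace E := FiniteDimensional.proper_real E
  exact HasCompactSupport.intro (isCompact_closedBall x r) fun y hy => ker_scale_zero' hr hy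

/-- the kernel is Lipschitz -/
lemma abs_ker_sub_le (z z' : E) : |ker z - ker z'| ≤ 4 * ‖z - z'‖ := by
  -- reduce to `‖z‖ ≤ 1`, `‖z'‖ ≤ 1` by clipping
  have key : ∀ a b : ℝ, 0 ≤ a → 0 ≤ b → |psi (a ^ 2) - psi (b ^ 2)| ≤ 4 * |a - b| := by
    intro a b ha hb
    unfold psi
    set p := max (1 - a ^ 2) 0 with hp
    set q := max (1 - b ^ 2) 0 with hq
    have hp1 : p ≤ 1 := max_le (by nlinarith) zero_le_one
    have hq1 : q ≤ 1 := max_le (by nlinarith) zero_le_one
    have hp0 : 0 ≤ p := le_max_right _ _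
    have hq0 : 0 ≤ q := le_max_right _ _
    have h1 : |p ^ 2 - q ^ 2| ≤ 2 * |p - q| := by
      have : p ^ 2 - q ^ 2 = (p + q) * (p - q) := by ring
      rw [this, abs_mul, abs_of_nonneg (by linarith : 0 ≤ p + q)]
      exact mul_le_mul_of_nonneg_right (by linarith) (abs_nonneg _)
    have h2 : |p - q| ≤ 2 * |a - b| := by
      -- p = 1 - (min a 1)^2
      have e : ∀ c : ℝ, 0 ≤ c → max (1 - c ^ 2) 0 = 1 - (min c 1) ^ 2 := by
        intro c hc
        rcases le_total c 1 with h | h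
        · rw [min_eq_left h, max_eq_left (by nlinarith)]
        · rw [min_eq_right h, max_eq_right (by nlinarith)]; ring
      rw [hp, hq, e a ha, e b hb]
      have e2 : 1 - (min a 1) ^ 2 - (1 - (min b 1) ^ 2)
          = (min b 1 + min a 1) * (min b 1 - min a 1) := by ring
      have h3 : 0 ≤ min a 1 := le_min ha zero_le_one
      have h4 : 0 ≤ min b 1 := le_min hb zero_le_one
      rw [e2, abs_mul, abs_of_nonneg (by linarith : 0 ≤ min b 1 + min a 1)]
      have h5 : min b 1 + min a 1 ≤ 2 := by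
        have := min_le_right a 1
        have := min_le_right b 1
        linarith
      have h6 : |min b 1 - min a 1| ≤ |a - b| := by
        rw [abs_sub_comm a b]
        exact abs_min_sub_min_le_max b 1 a 1 |>.trans (by simp)
      exact mul_le_mul h5 h6 (abs_nonneg _) (by norm_num)
    linarith
  rw [ker_eq, ker_eq]
  refine (key _ _ (norm_nonneg _) (norm_nonneg _)).trans ?_
  have := abs_norm_sub_norm_le z z'
  linarith

end ker

/-! ## the weighted monotonicity formula -/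

section mono

variable {E : Type*} [NormedAddCommGroup E] [InnerProductSpace ℝ E] [FiniteDimensional ℝ E]
  [MeasurableSpace E] [BorelSpace E]
variable {m : ℕ} {μ : Measure E} {T : E → Submodule ℝ E} {H : E → E}

/-- the kernel ratio with a density -/
noncomputable def JJ (m : ℕ) (μ : Measure E) (h : E → ℝ) (x : E) (r : ℝ) : ℝ :=
  (∫ y, ker (r⁻¹ • (y - x)) * h y ∂μ) / r ^ m

/-- the integrand of the error term -/
noncomputable def err (T : E → Submodule ℝ E) (H : E → E) (h : E → ℝ) (y : E) : ℝ :=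
  ‖proj (T y) (grad h y)‖ + h y * ‖H y‖

lemma err_nonneg {h : E → ℝ} (h0 : ∀ y, 0 ≤ h y) (y : E) : 0 ≤ err T H h y := by
  unfold err
  have := h0 y
  positivity

/-- the weight of the test field -/
noncomputable def Fw (h : E → ℝ) (x : E) (t : ℝ) (y : E) : ℝ := psi (‖y - x‖ ^ 2 / t ^ 2) * h y

lemma contDiff_Fw {h : E → ℝ} (hh : ContDiff ℝ 1 h) (x : E) (t : ℝ) :
    ContDiff ℝ 1 (Fw h x t) := by
  have h1 : ContDiff ℝ 1 (fun y : E => ‖y - x‖ ^ 2 / t ^ 2) :=
    ((contDiff_norm_sq ℝ).comp (contDiff_id.sub contDiff_const)).div_const _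
  exact (contDiff_psi.comp h1).mul hh

lemma Fw_zero {h : E → ℝ} {x y : E} {t : ℝ} (ht : 0 < t) (hy : y ∉ closedBall x t) :
    Fw h x t y = 0 := by
  unfold Fw
  rw [mem_closedBall, not_le, dist_eq_norm] at hy
  rw [psi_zero, zero_mul]
  rw [one_le_div (by positivity)]
  gcongr

lemma fderiv_Fw {h : E → ℝ} (hh : ContDiff ℝ 1 h) (x : E) (t : ℝ) (y v : E) :
    fderiv ℝ (Fw h x t) y v = psi (‖y - x‖ ^ 2 / t ^ 2) * fderiv ℝ h y v
      + h y * (psi' (‖y - x‖ ^ 2 / t ^ 2) * (2 * ⟪y - x, v⟫ / t ^ 2)) := by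
  have h0 : HasFDerivAt (fun y : E => y - x) (ContinuousLinearMap.id ℝ E) y :=
    (hasFDerivAt_id y).sub_const x
  have h1 : HasFDerivAt (fun y : E => ‖y - x‖ ^ 2) (2 • (innerSL ℝ (y - x)).comp
      (ContinuousLinearMap.id ℝ E)) y := h0.norm_sq
  have h2 : HasFDerivAt (fun y : E => ‖y - x‖ ^ 2 / t ^ 2)
      ((t ^ 2)⁻¹ • (2 • (innerSL ℝ (y - x)).comp (ContinuousLinearMap.id ℝ E))) y := by
    have e : (fun y : E => ‖y - x‖ ^ 2 / t ^ 2) = fun y => (t ^ 2)⁻¹ * ‖y - x‖ ^ 2 := by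
      ext z; rw [div_eq_inv_mul]
    rw [e]
    exact h1.const_mul _
  have h3 := (hasDerivAt_psi (‖y - x‖ ^ 2 / t ^ 2)).comp_hasFDerivAt y h2
  have h4 : HasFDerivAt h (fderiv ℝ h y) y := (hh.differentiable (by norm_num) y).hasFDerivAt
  have h5 := h3.mul h4
  have h6 : fderiv ℝ (Fw h x t) y = _ := h5.fderiv
  rw [h6]
  change psi (‖y - x‖ ^ 2 / t ^ 2) * fderiv ℝ h y v
    + h y * (psi' (‖y - x‖ ^ 2 / t ^ 2) * ((t ^ 2)⁻¹ * (2 • ⟪y - x, v⟫))) = _
  rw [nsmul_eq_mul]
  push_cast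
  ring

/-- integrability of functions supported in a ball -/
lemma Slice.integrable_ball (hS : Slice m μ T H) {u : E → ℝ} (hu : AEStronglyMeasurable u μ)
    {x : E} {t : ℝ} (hz : ∀ y, y ∉ closedBall x t → u y = 0) {C : ℝ}
    (hb : ∀ᵐ y ∂μ, |u y| ≤ C * (1 + ‖H y‖ ^ 2)) : Integrable u μ := by
  have : ProperSpace E := FiniteDimensional.proper_real E
  have := hS.mc.fin
  exact H552.integrable_of_bound hS.mc.locL2 hu (isCompact_closedBall x t) hz hb

lemma Slice.err_meas (hS : Slice m μ T H) {h : E → ℝ} (hh : ContDiff ℝ 1 h) :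
    AEStronglyMeasurable (err T H h) μ :=
  (hS.proj_apply_meas (continuous_grad hh).aestronglyMeasurable).norm.add
    (hh.continuous.aestronglyMeasurable.mul hS.mc.meas.norm)

/-- `err` is locally integrable -/
lemma Slice.err_integrableOn (hS : Slice m μ T H) {h : E → ℝ} (hh : ContDiff ℝ 1 h)
    {K : Set E} (hK : IsCompact K) : IntegrableOn (err T H h) K μ := by
  have : ProperSpace E := FiniteDimensional.proper_real E
  have := hS.mc.fin
  obtain ⟨C₁, hC₁⟩ := hK.exists_bound_of_continuousOn (continuous_grad hh).continuousOn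
  obtain ⟨C₂, hC₂⟩ := hK.exists_bound_of_continuousOn hh.continuous.continuousOn
  have h2 : IntegrableOn (fun y => |C₁| + |C₂| * (1 + ‖H y‖ ^ 2)) K μ := by
    have h3 : IntegrableOn (fun _ : E => (1 : ℝ)) K μ :=
      (locallyIntegrable_const (1 : ℝ)).integrableOn_isCompact hK
    have h4 : IntegrableOn (fun _ : E => |C₁|) K μ :=
      (locallyIntegrable_const (|C₁|)).integrableOn_isCompact hK
    exact h4.add ((h3.add (hS.mc.locL2 K hK)).const_mul _)
  refine Integrable.mono' h2 (hS.err_meas hh).restrict ?_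
  refine (ae_restrict_iff' hK.measurableSet).2 (Eventually.of_forall fun y hy => ?_)
  have e1 := hC₁ y hy
  have e2 := hC₂ y hy
  have e3 := norm_proj_apply_le (T y) (grad h y)
  have e4 : ‖H y‖ ≤ 1 + ‖H y‖ ^ 2 := by
    nlinarith [sq_nonneg (‖H y‖ - 1), norm_nonneg (H y)]
  unfold err
  calc ‖‖proj (T y) (grad h y)‖ + h y * ‖H y‖‖
      ≤ ‖‖proj (T y) (grad h y)‖‖ + ‖h y * ‖H y‖‖ := norm_add_le _ _
    _ = ‖proj (T y) (grad h y)‖ + ‖h y‖ * ‖H y‖ := by rw [norm_norm, norm_mul, norm_norm]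
    _ ≤ |C₁| + |C₂| * (1 + ‖H y‖ ^ 2) := by
        have e5 := le_abs_self C₁
        have e6 := le_abs_self C₂
        have e7 := norm_nonneg (H y)
        have e8 := norm_nonneg (h y)
        have e9 : ‖h y‖ * ‖H y‖ ≤ |C₂| * (1 + ‖H y‖ ^ 2) :=
          mul_le_mul (e2.trans e6) e4 e7 (abs_nonneg _)
        linarith

/-- the first variation tested with `psi(|y - x|²/t²) h(y) (y - x)` -/
lemma key_ineq (hS : Slice m μ T H) {h : E → ℝ} (hh : ContDiff ℝ 1 h) (h0 : ∀ y, 0 ≤ h y)
    (x : E) {t : ℝ} (ht : 0 < t) :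
    - (t * ∫ y in closedBall x t, err T H h y ∂μ)
      ≤ ∫ y, (-(m * psi (‖y - x‖ ^ 2 / t ^ 2))
        - 2 * (‖y - x‖ ^ 2 / t ^ 2) * psi' (‖y - x‖ ^ 2 / t ^ 2)) * h y ∂μ := by
  have hprop : ProperSpace E := FiniteDimensional.proper_real E
  have hfin := hS.mc.fin
  set X : E → E := fun y => Fw h x t y • (y - x) with hX
  have hFc := contDiff_Fw hh x t
  have hXC : ContDiff ℝ 1 X := hFc.smul (contDiff_id.sub contDiff_const)
  have hXc : HasCompactSupport X := by
    refine HasCompactSupport.intro (isCompact_closedBall x t) fun y hy => ?_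
    rw [hX]
    simp only
    rw [Fw_zero ht hy, zero_smul]
  have hfv := hS.mc.fv X hXC hXc
  have hdiv : ∀ y, divAlong (T y) X y = Fw h x t y * Module.finrank ℝ (T y)
      + (psi (‖y - x‖ ^ 2 / t ^ 2) * ⟪grad h y, proj (T y) (y - x)⟫
        + h y * (psi' (‖y - x‖ ^ 2 / t ^ 2) * (2 * ⟪y - x, proj (T y) (y - x)⟫ / t ^ 2))) := by
    intro y
    rw [hX, H552.divAlong_smul_sub (T y) (Fw h x t) x y (hFc.differentiable (by norm_num) y),
      fderiv_Fw hh, inner_grad]
  -- the scale-free integrand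
  set a : E → ℝ := fun y => (-(m * psi (‖y - x‖ ^ 2 / t ^ 2))
        - 2 * (‖y - x‖ ^ 2 / t ^ 2) * psi' (‖y - x‖ ^ 2 / t ^ 2)) * h y with ha
  have hout : ∀ y, y ∉ closedBall x t → 1 ≤ ‖y - x‖ ^ 2 / t ^ 2 := by
    intro y hy
    rw [mem_closedBall, not_le, dist_eq_norm] at hy
    rw [one_le_div (by positivity)]
    gcongr
  have haz : ∀ y, y ∉ closedBall x t → a y = 0 := by
    intro y hy
    rw [ha]
    simp only
    rw [psi_zero (hout y hy), psi'_zero (hout y hy)]
    ring
  have hacont : Continuous a := by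
    have h1 : Continuous fun y : E => ‖y - x‖ ^ 2 / t ^ 2 := by fun_prop
    have h2 := continuous_psi.comp h1
    have h3 := continuous_psi'.comp h1
    exact ((((continuous_const.mul h2)).neg).sub ((continuous_const.mul h1).mul h3)).mul
      hh.continuous
  have hai : Integrable a μ :=
    hacont.integrable_of_hasCompactSupport
      (HasCompactSupport.intro (isCompact_closedBall x t) haz)
  have hXz : ∀ y, y ∉ closedBall x t → X y = 0 := by
    intro y hy
    rw [hX]
    simp only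
    rw [Fw_zero ht hy, zero_smul]
  have hdz : ∀ y, y ∉ closedBall x t → divAlong (T y) X y = 0 := by
    intro y hy
    rw [hdiv, Fw_zero ht hy, psi_zero (hout y hy), psi'_zero (hout y hy)]
    ring
  obtain ⟨C₁, hC₁⟩ := hXc.exists_bound_of_continuous hXC.continuous
  have hdi : Integrable (fun y => divAlong (T y) X y) μ := by
    have hc2 : HasCompactSupport (fderiv ℝ X) := hXc.fderiv (𝕜 := ℝ)
    obtain ⟨C₂, hC₂⟩ := hc2.exists_bound_of_continuous (hXC.continuous_fderiv (by norm_num))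
    refine hS.integrable_ball (hS.div_meas hXC) hdz (C := Module.finrank ℝ E * |C₂|)
      (Eventually.of_forall fun y => ?_)
    refine (abs_divAlong_le _ _ _).trans ?_
    have h1 := (hC₂ y).trans (le_abs_self _)
    have h2 : (Module.finrank ℝ E : ℝ) * ‖fderiv ℝ X y‖ ≤ Module.finrank ℝ E * |C₂| := by gcongr
    have h3 : 0 ≤ (Module.finrank ℝ E : ℝ) * |C₂| := by positivity
    nlinarith [sq_nonneg ‖H y‖]
  have hHi : Integrable (fun y => ⟪X y, H y⟫) μ := by
    refine hS.integrable_ball (hXC.continuous.aestronglyMeasurable.inner hS.mc.meas)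
      (fun y hy => by rw [hXz y hy, inner_zero_left]) (C := |C₁|)
      (Eventually.of_forall fun y => ?_)
    refine (abs_real_inner_le_norm _ _).trans ?_
    have h1 := (hC₁ y).trans (le_abs_self _)
    have e4 : ‖H y‖ ≤ 1 + ‖H y‖ ^ 2 := by
      nlinarith [sq_nonneg (‖H y‖ - 1), norm_nonneg (H y)]
    exact mul_le_mul h1 e4 (norm_nonneg _) (abs_nonneg _)
  have hsum : ∫ y, a y ∂μ = ∫ y, (a y + divAlong (T y) X y + ⟪X y, H y⟫) ∂μ := by
    have h1 : Integrable (fun y => a y + divAlong (T y) X y) μ := hai.add hdi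
    rw [integral_add h1 hHi, integral_add hai hdi, hfv]
    ring
  change _ ≤ ∫ y, a y ∂μ
  rw [hsum]
  have hei : IntegrableOn (err T H h) (closedBall x t) μ :=
    hS.err_integrableOn hh (isCompact_closedBall x t)
  have hlhs : -(t * ∫ y in closedBall x t, err T H h y ∂μ)
      = ∫ y, (closedBall x t).indicator (fun y => -(t * err T H h y)) y ∂μ := by
    rw [integral_indicator measurableSet_closedBall, integral_neg, integral_const_mul]
  rw [hlhs]
  refine integral_mono_ae ?_ ((hai.add hdi).add hHi) ?_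
  · exact (integrable_indicator_iff measurableSet_closedBall).2 ((hei.const_mul t).neg)
  · filter_upwards [hS.mc.dim] with y hdim
    by_cases hy : y ∈ closedBall x t
    · rw [indicator_of_mem hy]
      rw [mem_closedBall, dist_eq_norm] at hy
      rw [hdiv y, hdim]
      set s := ‖y - x‖ ^ 2 / t ^ 2 with hs
      set P := proj (T y) (y - x) with hP
      have hs0 : 0 ≤ s := by positivity
      have e1 : ⟪y - x, P⟫ = ‖P‖ ^ 2 := by
        rw [hP, norm_proj_sq, real_inner_comm]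
      have e2 : ‖P‖ ^ 2 ≤ ‖y - x‖ ^ 2 := by
        have := norm_proj_apply_le (T y) (y - x)
        rw [← hP] at this
        gcongr
      have e3 : ⟪grad h y, P⟫ = ⟪proj (T y) (grad h y), y - x⟫ := by
        rw [hP, H552.inner_proj_left]
      have e4 : |⟪proj (T y) (grad h y), y - x⟫| ≤ t * ‖proj (T y) (grad h y)‖ := by
        refine (abs_real_inner_le_norm _ _).trans ?_
        rw [mul_comm]
        exact mul_le_mul_of_nonneg_right hy (norm_nonneg _)
      have e5 : |⟪y - x, H y⟫| ≤ t * ‖H y‖ := by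
        refine (abs_real_inner_le_norm _ _).trans ?_
        exact mul_le_mul_of_nonneg_right hy (norm_nonneg _)
      have e6 : ⟪X y, H y⟫ = psi s * h y * ⟪y - x, H y⟫ := by
        rw [hX]
        simp only
        rw [real_inner_smul_left]
        rfl
      have hp0 := psi_nonneg s
      have hp1 := psi_le_one hs0
      have hp2 := psi'_nonpos s
      have hh0 := h0 y
      rw [e6, e3, e1]
      have e7 : a y = (-(m * psi s) - 2 * s * psi' s) * h y := rfl
      have e8 : Fw h x t y = psi s * h y := rfl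
      rw [e7, e8]
      unfold err
      set A := ‖proj (T y) (grad h y)‖ with hA
      have hA0 : 0 ≤ A := norm_nonneg _
      have e9 : 2 * ‖P‖ ^ 2 / t ^ 2 = 2 * (‖P‖ ^ 2 / t ^ 2) := by ring
      have e10 : ‖P‖ ^ 2 / t ^ 2 ≤ s := by
        rw [hs]; gcongr
      rw [e9]
      have k1 : 0 ≤ -(psi' s) * h y * (s - ‖P‖ ^ 2 / t ^ 2) := by
        refine mul_nonneg (mul_nonneg (by linarith) hh0) (by linarith)
      have k2 : -(t * A) ≤ psi s * ⟪proj (T y) (grad h y), y - x⟫ := by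
        have h1 := neg_le_of_abs_le e4
        have h2 : 0 ≤ t * A := by positivity
        nlinarith
      have k3 : -(t * (h y * ‖H y‖)) ≤ psi s * h y * ⟪y - x, H y⟫ := by
        have h1 := neg_le_of_abs_le e5
        have h2 : 0 ≤ t * ‖H y‖ := by positivity
        have h3 : -(t * ‖H y‖) ≤ psi s * ⟪y - x, H y⟫ := by nlinarith
        have h4 := mul_le_mul_of_nonneg_left h3 hh0
        linarith
      nlinarith [k1, k2, k3]
    · rw [indicator_of_notMem hy, haz y hy, hdz y hy, hXz y hy, inner_zero_left]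
      simp

/-- derivative of the kernel integral -/
lemma hasDerivAt_psi_int [IsFiniteMeasureOnCompacts μ] {h : E → ℝ} (hh : Continuous h) (x : E)
    {t : ℝ} (ht : 0 < t) :
    HasDerivAt (fun t => ∫ y, psi (‖y - x‖ ^ 2 / t ^ 2) * h y ∂μ)
      (∫ y, psi' (‖y - x‖ ^ 2 / t ^ 2) * (-(2 * ‖y - x‖ ^ 2 / t ^ 3)) * h y ∂μ) t := by
  have hprop : ProperSpace E := FiniteDimensional.proper_real E
  obtain ⟨C, hC⟩ := (isCompact_closedBall x (t + 1)).exists_bound_of_continuousOn
    hh.continuousOn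
  have hs : Ioo (t / 2) (t + 1) ∈ 𝓝 t := Ioo_mem_nhds (by linarith) (by linarith)
  have hout : ∀ y, y ∉ closedBall x (t + 1) → ∀ s ∈ Ioo (t / 2) (t + 1),
      1 ≤ ‖y - x‖ ^ 2 / s ^ 2 := by
    intro y hy s hs
    have hs0 : 0 < s := by linarith [hs.1]
    rw [mem_closedBall, not_le, dist_eq_norm] at hy
    rw [one_le_div (by positivity)]
    have : s ≤ ‖y - x‖ := by linarith [hs.2]
    gcongr
  have hcs : ∀ s : ℝ, Continuous fun y : E => ‖y - x‖ ^ 2 / s ^ 2 := fun s => by fun_prop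
  have hmeas : ∀ s : ℝ, Continuous fun y => psi (‖y - x‖ ^ 2 / s ^ 2) * h y := fun s =>
    (continuous_psi.comp (hcs s)).mul hh
  have key := hasDerivAt_integral_of_dominated_loc_of_deriv_le (μ := μ) (𝕜 := ℝ)
    (F := fun s y => psi (‖y - x‖ ^ 2 / s ^ 2) * h y)
    (F' := fun s y => psi' (‖y - x‖ ^ 2 / s ^ 2) * (-(2 * ‖y - x‖ ^ 2 / s ^ 3)) * h y) (x₀ := t)
    (s := Ioo (t / 2) (t + 1))
    (bound := (closedBall x (t + 1)).indicator fun _ => 2 * (2 / (t / 2)) * |C|)
    hs ?_ ?_ ?_ ?_ ?_ ?_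
  · exact key.2
  · exact Eventually.of_forall fun s => (hmeas s).aestronglyMeasurable
  · refine (hmeas t).integrable_of_hasCompactSupport
      (HasCompactSupport.intro (isCompact_closedBall x (t + 1)) fun y hy => ?_)
    rw [psi_zero (hout y hy t ⟨by linarith, by linarith⟩), zero_mul]
  · refine Continuous.aestronglyMeasurable ?_
    exact ((continuous_psi'.comp (hcs t)).mul (by fun_prop)).mul hh
  · refine Eventually.of_forall fun y s hs => ?_
    have hs0 : 0 < s := by linarith [hs.1]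
    by_cases hy : y ∈ closedBall x (t + 1)
    · rw [indicator_of_mem hy]
      by_cases h1 : 1 ≤ ‖y - x‖ ^ 2 / s ^ 2
      · rw [psi'_zero h1, zero_mul, zero_mul, norm_zero]
        positivity
      · rw [not_le, div_lt_one (by positivity)] at h1
        have h2 := hC y hy
        rw [norm_mul, norm_mul, norm_neg]
        have h3 : ‖psi' (‖y - x‖ ^ 2 / s ^ 2)‖ ≤ 2 := psi'_bound (by positivity)
        have h4 : ‖h y‖ ≤ |C| := h2.trans (le_abs_self _)
        have h5 : ‖2 * ‖y - x‖ ^ 2 / s ^ 3‖ ≤ 2 / (t / 2) := by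
          rw [Real.norm_of_nonneg (by positivity)]
          calc 2 * ‖y - x‖ ^ 2 / s ^ 3 ≤ 2 * s ^ 2 / s ^ 3 := by gcongr
            _ = 2 / s := by field_simp
            _ ≤ 2 / (t / 2) := by
              have := hs.1.le
              gcongr
        calc ‖psi' (‖y - x‖ ^ 2 / s ^ 2)‖ * ‖2 * ‖y - x‖ ^ 2 / s ^ 3‖ * ‖h y‖
            ≤ 2 * (2 / (t / 2)) * |C| := by gcongr
          _ = _ := rfl
    · rw [indicator_of_notMem hy, psi'_zero (hout y hy s hs), zero_mul, zero_mul, norm_zero]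
  · exact (integrable_indicator_iff measurableSet_closedBall).2
      ((locallyIntegrable_const _).integrableOn_isCompact (isCompact_closedBall x (t + 1)))
  · refine Eventually.of_forall fun y s hs => ?_
    have hs0 : 0 < s := by linarith [hs.1]
    have h1 : HasDerivAt (fun s : ℝ => ‖y - x‖ ^ 2 / s ^ 2) (-(2 * ‖y - x‖ ^ 2 / s ^ 3)) s := by
      have h := (hasDerivAt_pow 2 s).inv (by positivity)
      have h' := h.const_mul (‖y - x‖ ^ 2)
      refine (h'.congr_of_eventuallyEq ?_).congr_deriv ?_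
      · exact Eventually.of_forall fun z => by simp [div_eq_mul_inv]
      · simp; field_simp
    have h2 := (hasDerivAt_psi (‖y - x‖ ^ 2 / s ^ 2)).comp s h1
    exact h2.mul_const (h y)

lemma JJ_eq {h : E → ℝ} {x : E} {t : ℝ} (ht : 0 < t) :
    JJ m μ h x t = (∫ y, psi (‖y - x‖ ^ 2 / t ^ 2) * h y ∂μ) / t ^ m := by
  unfold JJ
  congr 1
  refine integral_congr_ae (Eventually.of_forall fun y => ?_)
  simp only
  rw [ker_scale ht.ne']

/-- derivative of the ratio -/
lemma hasDerivAt_JJ [IsFiniteMeasureOnCompacts μ] {h : E → ℝ} (hh : Continuous h) (x : E)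
    {t : ℝ} (ht : 0 < t) :
    HasDerivAt (JJ m μ h x)
      (t⁻¹ * (∫ y, (-(m * psi (‖y - x‖ ^ 2 / t ^ 2))
        - 2 * (‖y - x‖ ^ 2 / t ^ 2) * psi' (‖y - x‖ ^ 2 / t ^ 2)) * h y ∂μ) / t ^ m) t := by
  have hprop : ProperSpace E := FiniteDimensional.proper_real E
  have h1 := hasDerivAt_psi_int (μ := μ) hh x ht
  have h2 : HasDerivAt (fun t : ℝ => t ^ m) (m * t ^ (m - 1)) t := hasDerivAt_pow m t
  have h3 := h1.div h2 (by positivity)
  have h4 : JJ m μ h x =ᶠ[𝓝 t] (fun t => (∫ y, psi (‖y - x‖ ^ 2 / t ^ 2) * h y ∂μ) / t ^ m) := by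
    filter_upwards [Ioi_mem_nhds ht] with s hs
    exact JJ_eq hs
  refine (h3.congr_of_eventuallyEq h4).congr_deriv ?_
  -- integrability
  have hout : ∀ y, y ∉ closedBall x t → 1 ≤ ‖y - x‖ ^ 2 / t ^ 2 := by
    intro y hy
    rw [mem_closedBall, not_le, dist_eq_norm] at hy
    rw [one_le_div (by positivity)]
    gcongr
  have hcs : Continuous fun y : E => ‖y - x‖ ^ 2 / t ^ 2 := by fun_prop
  have i1 : Integrable (fun y => psi (‖y - x‖ ^ 2 / t ^ 2) * h y) μ :=
    ((continuous_psi.comp hcs).mul hh).integrable_of_hasCompactSupport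
      (HasCompactSupport.intro (isCompact_closedBall x t) fun y hy => by
        simp [psi_zero (hout y hy)])
  have i2 : Integrable (fun y => psi' (‖y - x‖ ^ 2 / t ^ 2) * (‖y - x‖ ^ 2 / t ^ 2) * h y) μ :=
    (((continuous_psi'.comp hcs).mul hcs).mul hh).integrable_of_hasCompactSupport
      (HasCompactSupport.intro (isCompact_closedBall x t) fun y hy => by
        simp [psi'_zero (hout y hy)])
  have e1 : ∫ y, (-(m * psi (‖y - x‖ ^ 2 / t ^ 2))
        - 2 * (‖y - x‖ ^ 2 / t ^ 2) * psi' (‖y - x‖ ^ 2 / t ^ 2)) * h y ∂μ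
      = -(m * ∫ y, psi (‖y - x‖ ^ 2 / t ^ 2) * h y ∂μ)
        - 2 * ∫ y, psi' (‖y - x‖ ^ 2 / t ^ 2) * (‖y - x‖ ^ 2 / t ^ 2) * h y ∂μ := by
    have j1 : Integrable (fun y => -((m : ℝ) * (psi (‖y - x‖ ^ 2 / t ^ 2) * h y))) μ :=
      (i1.const_mul _).neg
    have j2 : Integrable (fun y => 2 * (psi' (‖y - x‖ ^ 2 / t ^ 2) * (‖y - x‖ ^ 2 / t ^ 2) * h y)) μ :=
      i2.const_mul 2
    have j3 : ∫ y, (-((m : ℝ) * (psi (‖y - x‖ ^ 2 / t ^ 2) * h y))
        - 2 * (psi' (‖y - x‖ ^ 2 / t ^ 2) * (‖y - x‖ ^ 2 / t ^ 2) * h y)) ∂μ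
        = -(m * ∫ y, psi (‖y - x‖ ^ 2 / t ^ 2) * h y ∂μ)
        - 2 * ∫ y, psi' (‖y - x‖ ^ 2 / t ^ 2) * (‖y - x‖ ^ 2 / t ^ 2) * h y ∂μ := by
      rw [integral_sub j1 j2, integral_neg, integral_const_mul, integral_const_mul]
    rw [← j3]
    exact integral_congr_ae (Eventually.of_forall fun y => by simp only; ring)
  have e2 : ∫ y, psi' (‖y - x‖ ^ 2 / t ^ 2) * (-(2 * ‖y - x‖ ^ 2 / t ^ 3)) * h y ∂μ
      = -(2 / t) * ∫ y, psi' (‖y - x‖ ^ 2 / t ^ 2) * (‖y - x‖ ^ 2 / t ^ 2) * h y ∂μ := by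
    rw [← integral_const_mul]
    refine integral_congr_ae (Eventually.of_forall fun y => ?_)
    simp only
    field_simp
  rw [e1, e2]
  rcases Nat.eq_zero_or_pos m with hm | hm
  · subst hm
    simp
    ring
  · have e3 : t ^ m = t * t ^ (m - 1) := by
      rw [← pow_succ']; congr 1; omega
    rw [e3]
    have hp : 0 < t ^ (m - 1) := by positivity
    field_simp
    ring

/-- **Weighted monotonicity**: if the error is controlled by `lam t^m` at all scales `≤ r`, the
ratio does not drop by more than `lam (r - r₀)`. -/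
theorem JJ_mono (hS : Slice m μ T H) {h : E → ℝ} (hh : ContDiff ℝ 1 h) (h0 : ∀ y, 0 ≤ h y)
    {x : E} {lam r₀ r : ℝ} (hr₀ : 0 < r₀) (hr : r₀ ≤ r)
    (hA : ∀ t, 0 < t → t ≤ r → ∫ y in closedBall x t, err T H h y ∂μ ≤ lam * t ^ m) :
    JJ m μ h x r₀ ≤ JJ m μ h x r + lam * (r - r₀) := by
  have hfin := hS.mc.fin
  set G : ℝ → ℝ := fun t => JJ m μ h x t + lam * t with hG
  have hder : ∀ t, 0 < t → HasDerivAt G (t⁻¹ * (∫ y, (-(m * psi (‖y - x‖ ^ 2 / t ^ 2))
        - 2 * (‖y - x‖ ^ 2 / t ^ 2) * psi' (‖y - x‖ ^ 2 / t ^ 2)) * h y ∂μ) / t ^ m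
        + lam * 1) t := by
    intro t ht
    exact (hasDerivAt_JJ hh.continuous x ht).add ((hasDerivAt_id t).const_mul lam)
  have hmono : MonotoneOn G (Icc r₀ r) := by
    refine monotoneOn_of_deriv_nonneg (convex_Icc r₀ r) ?_ ?_ ?_
    · intro t ht
      exact (hder t (lt_of_lt_of_le hr₀ ht.1)).continuousAt.continuousWithinAt
    · intro t ht
      rw [interior_Icc] at ht
      exact (hder t (lt_trans hr₀ ht.1)).differentiableAt.differentiableWithinAt
    · intro t ht
      rw [interior_Icc] at ht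
      have ht0 : 0 < t := lt_trans hr₀ ht.1
      rw [(hder t ht0).deriv]
      have k1 := key_ineq hS hh h0 x ht0
      have k2 := hA t ht0 ht.2.le
      have hp : 0 < t ^ m := by positivity
      have k3 : -(t * (lam * t ^ m)) ≤ ∫ y, (-(m * psi (‖y - x‖ ^ 2 / t ^ 2))
        - 2 * (‖y - x‖ ^ 2 / t ^ 2) * psi' (‖y - x‖ ^ 2 / t ^ 2)) * h y ∂μ := by
        refine le_trans ?_ k1
        have := mul_le_mul_of_nonneg_left k2 ht0.le
        linarith
      have k4 : -lam ≤ t⁻¹ * (∫ y, (-(m * psi (‖y - x‖ ^ 2 / t ^ 2))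
        - 2 * (‖y - x‖ ^ 2 / t ^ 2) * psi' (‖y - x‖ ^ 2 / t ^ 2)) * h y ∂μ) / t ^ m := by
        rw [le_div_iff₀ hp, ← div_eq_inv_mul, le_div_iff₀ ht0]
        linarith
      linarith
  have := hmono (left_mem_Icc.2 hr) (right_mem_Icc.2 hr) hr
  simp only [hG] at this
  linarith

end mono

end Vale.Agent.P218.H313
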