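import Vale.Agent.P218.H313.C1
import Vale.Agent.P214.BES.Basic

/-! Nondegenerate shrinkers, package C: maximal function estimate, weak Michael-Simon
inequality and equi-integrability. -/

open MeasureTheory Set Filter Topology Metric
open scoped ENNReal NNReal RealInnerProductSpace

namespace Vale.Agent.P218.H313

open Vale.Agent.P214 (IntegralVarifold proj divAlong IsTestField)
open Vale.Agent.P218.H552 (MC BF NN)

set_option linter.unusedSectionVars false
set_option linter.unusedVariables false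

/-! ## the constant `om m` -/

lemma om_pos (m : ℕ) : 0 < om m := by
  have h0 : (MeasureTheory.Measure.hausdorffMeasure (m : ℝ) :
      Measure (EuclideanSpace ℝ (Fin m))).IsAddHaarMeasure := by
    have h := MeasureTheory.isAddHaarMeasure_hausdorffMeasure (E := EuclideanSpace ℝ (Fin m))
    simpa using h
  unfold om
  refine continuous_kern.integral_pos_of_hasCompactSupport_nonneg_nonzero (x := 0) ?_ ?_ ?_
  · exact HasCompactSupport.intro (isCompact_closedBall 0 1) fun y hy => by
      rw [mem_closedBall_zero_iff, not_le] at hy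
      exact ker_zero hy.le
  · exact fun y => kern_nonneg y
  · unfold ker
    simp

section tools

variable {E : Type*} [NormedAddCommGroup E] [InnerProductSpace ℝ E] [FiniteDimensional ℝ E]
  [MeasurableSpace E] [BorelSpace E]
variable {m : ℕ} {μ : Measure E} {T : E → Submodule ℝ E} {H : E → E}

lemma integrable_ker_mul [IsFiniteMeasureOnCompacts μ] {h : E → ℝ} (hh : Continuous h) (x : E)
    {r : ℝ} (hr : 0 < r) : Integrable (fun y => ker (r⁻¹ • (y - x)) * h y) μ := by
  have hprop : ProperSpace E := FiniteDimensional.proper_real E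
  exact ((continuous_ker_scale r x).mul hh).integrable_of_hasCompactSupport
      (HasCompactSupport.intro (isCompact_closedBall x r) fun y hy => by
        simp [ker_scale_zero' hr hy])

lemma integrable_ker_scale [IsFiniteMeasureOnCompacts μ] (x : E)
    {r : ℝ} (hr : 0 < r) : Integrable (fun y => ker (r⁻¹ • (y - x))) μ := by
  have := integrable_ker_mul (μ := μ) (h := fun _ => 1) continuous_const x hr
  simpa using this

lemma ker_integral_nonneg (x : E) (r : ℝ) : 0 ≤ ∫ y, ker (r⁻¹ • (y - x)) ∂μ :=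
  integral_nonneg fun y => kern_nonneg _

/-- **lower bound at density points** -/
lemma om_mul_le (hS : Slice m μ T H) {h : E → ℝ} (hh : ContDiff ℝ 1 h) (h0 : ∀ y, 0 ≤ h y)
    {x : E} (hx : ∀ c < om m, ∀ᶠ r in 𝓝[>] (0 : ℝ), c ≤ (∫ y, ker (r⁻¹ • (y - x)) ∂μ) / r ^ m)
    {lam r : ℝ} (hr : 0 < r)
    (hA : ∀ t, 0 < t → t ≤ r → ∫ y in closedBall x t, err T H h y ∂μ ≤ lam * t ^ m) :
    om m * h x ≤ JJ m μ h x r + lam * r := by
  have hfin := hS.mc.fin
  have hprop : ProperSpace E := FiniteDimensional.proper_real E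
  have hlam : 0 ≤ lam := by
    have h1 := hA r hr le_rfl
    have h2 : 0 ≤ ∫ y in closedBall x r, err T H h y ∂μ := integral_nonneg fun y => err_nonneg h0 y
    have h3 : 0 ≤ lam * r ^ m := h2.trans h1
    exact nonneg_of_mul_nonneg_left h3 (by positivity)
  have hJ : 0 ≤ JJ m μ h x r :=
    div_nonneg (integral_nonneg fun y => mul_nonneg (kern_nonneg _) (h0 y)) (by positivity)
  have hom := om_pos m
  rcases (h0 x).eq_or_lt with hx0 | hx0
  · rw [← hx0, mul_zero]
    positivity
  -- for every small `δ`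
  have key : ∀ᶠ δ in 𝓝[>] (0 : ℝ), (om m - δ) * (h x - δ) ≤ JJ m μ h x r + lam * r := by
    have hmin : 0 < min (om m) (h x) := lt_min hom hx0
    filter_upwards [Ioo_mem_nhdsGT hmin] with δ hδ
    have hδ1 : δ < om m := lt_of_lt_of_le hδ.2 (min_le_left _ _)
    have hδ2 : δ < h x := lt_of_lt_of_le hδ.2 (min_le_right _ _)
    have e1 := hx (om m - δ) (by linarith [hδ.1])
    have e2 : ∀ᶠ s in 𝓝[>] (0 : ℝ), ∀ y ∈ closedBall x s, h x - δ ≤ h y := by
      have hc := hh.continuous.tendsto x
      have h3 : {y | h x - δ < h y} ∈ 𝓝 x :=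
        hc (Ioi_mem_nhds (by linarith [hδ.1]))
      obtain ⟨ε, hε, hεs⟩ := Metric.mem_nhds_iff.1 h3
      filter_upwards [Ioo_mem_nhdsGT hε] with s hs y hy
      have : y ∈ ball x ε := by
        rw [mem_ball]
        exact lt_of_le_of_lt (mem_closedBall.1 hy) hs.2
      exact le_of_lt (hεs this)
    have e3 : ∀ᶠ s in 𝓝[>] (0 : ℝ), s ∈ Ioc 0 r := Ioc_mem_nhdsGT hr
    obtain ⟨s, hs1, hs2, hs3⟩ := (e1.and (e2.and e3)).exists
    have hs0 : 0 < s := hs3.1
    have hm := JJ_mono hS hh h0 hs0 hs3.2 hA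
    have h4 : (h x - δ) * ((∫ y, ker (s⁻¹ • (y - x)) ∂μ) / s ^ m) ≤ JJ m μ h x s := by
      unfold JJ
      rw [← mul_div_assoc]
      refine div_le_div_of_nonneg_right ?_ (by positivity)
      rw [← integral_const_mul]
      refine integral_mono ((integrable_ker_scale x hs0).const_mul _)
        (integrable_ker_mul hh.continuous x hs0) fun y => ?_
      by_cases hy : y ∈ closedBall x s
      · have := hs2 y hy
        simp only
        rw [mul_comm]
        exact mul_le_mul_of_nonneg_left this (kern_nonneg _)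
      · simp only
        rw [ker_scale_zero' hs0 hy]
        simp
    have h5 : (om m - δ) * (h x - δ) ≤ (h x - δ) * ((∫ y, ker (s⁻¹ • (y - x)) ∂μ) / s ^ m) := by
      rw [mul_comm]
      exact mul_le_mul_of_nonneg_left hs1 (by linarith)
    have h6 : lam * (r - s) ≤ lam * r := mul_le_mul_of_nonneg_left (by linarith) hlam
    linarith
  have hlim : Tendsto (fun δ : ℝ => (om m - δ) * (h x - δ)) (𝓝[>] 0) (𝓝 (om m * h x)) := by
    have : Continuous fun δ : ℝ => (om m - δ) * (h x - δ) := by fun_prop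
    have h1 := this.tendsto 0
    simp only [sub_zero] at h1
    exact h1.mono_left nhdsWithin_le_nhds
  exact le_of_tendsto hlim key

/-- **maximal function estimate** -/
lemma bad_set [IsFiniteMeasureOnCompacts μ] {C lam R r₁ G : ℝ} (hC : 0 < C) (hlam : 0 < lam)
    (hr1 : r₁ ≤ 1)
    (hratio : ∀ (x : E) (r : ℝ), 0 < r → r ≤ 1 → μ.real (closedBall x r) ≤ C * r ^ m)
    {g : E → ℝ} (g0 : ∀ y, 0 ≤ g y) (hg : IntegrableOn g (closedBall 0 (R + 1)) μ)
    (hG : ∫ y in closedBall 0 (R + 1), g y ∂μ ≤ G) (A : Set E)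
    (hA : ∀ x ∈ A, x ∈ closedBall (0 : E) R ∧
      ∃ t, 0 < t ∧ t ≤ r₁ ∧ lam * t ^ m < ∫ y in closedBall x t, g y ∂μ) :
    μ A ≤ ENNReal.ofReal (Vale.Agent.P214.BES.nB E * C * (G / lam)) := by
  have hprop : ProperSpace E := FiniteDimensional.proper_real E
  have hq : 0 < lam / C := div_pos hlam hC
  have h := Vale.Agent.P214.BES.weak_type_fun μ (fun y => ENNReal.ofReal (g y)) r₁
    (ENNReal.ofReal (lam / C)) (by simpa using hq) ENNReal.ofReal_ne_top (closedBall 0 (R + 1))
    measurableSet_closedBall A (fun x hx => ?_)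
  · refine h.trans ?_
    have e1 : ∫⁻ y in closedBall 0 (R + 1), ENNReal.ofReal (g y) ∂μ ≤ ENNReal.ofReal G := by
      rw [← ofReal_integral_eq_lintegral_ofReal hg (Eventually.of_forall g0)]
      exact ENNReal.ofReal_le_ofReal hG
    calc (Vale.Agent.P214.BES.nB E : ℝ≥0∞) * ((∫⁻ y in closedBall 0 (R + 1),
          ENNReal.ofReal (g y) ∂μ) / ENNReal.ofReal (lam / C))
        ≤ (Vale.Agent.P214.BES.nB E : ℝ≥0∞) * (ENNReal.ofReal G / ENNReal.ofReal (lam / C)) := by
          gcongr
      _ = ENNReal.ofReal (Vale.Agent.P214.BES.nB E * C * (G / lam)) := by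
          rw [← ENNReal.ofReal_div_of_pos hq, ← ENNReal.ofReal_natCast,
            ← ENNReal.ofReal_mul (by positivity)]
          congr 1
          field_simp
  · obtain ⟨hx1, t, ht0, ht1, ht2⟩ := hA x hx
    have hsub : closedBall x t ⊆ closedBall 0 (R + 1) := by
      refine closedBall_subset_closedBall' ?_
      rw [mem_closedBall] at hx1
      linarith
    refine ⟨t, ht0, ht1, hsub, ?_⟩
    have h1 := hratio x t ht0 (ht1.trans hr1)
    have h2 : μ (closedBall x t) = ENNReal.ofReal (μ.real (closedBall x t)) := by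
      rw [Measure.real, ENNReal.ofReal_toReal]
      exact (isCompact_closedBall x t).measure_lt_top.ne
    rw [← ofReal_integral_eq_lintegral_ofReal (hg.mono_set hsub) (Eventually.of_forall g0), h2,
      ← ENNReal.ofReal_mul hq.le]
    refine ENNReal.ofReal_le_ofReal ?_
    calc lam / C * μ.real (closedBall x t) ≤ lam / C * (C * t ^ m) := by gcongr
      _ = lam * t ^ m := by field_simp
      _ ≤ _ := ht2.le

lemma JJ_le [IsFiniteMeasureOnCompacts μ] {h : E → ℝ} (hh : Continuous h) (h0 : ∀ y, 0 ≤ h y)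
    {x : E} {r : ℝ} (hr : 0 < r) :
    JJ m μ h x r ≤ (∫ y in closedBall x r, h y ∂μ) / r ^ m := by
  have hprop : ProperSpace E := FiniteDimensional.proper_real E
  unfold JJ
  refine div_le_div_of_nonneg_right ?_ (by positivity)
  rw [← integral_indicator measurableSet_closedBall]
  refine integral_mono (integrable_ker_mul hh x hr) ?_ fun y => ?_
  · exact (integrable_indicator_iff measurableSet_closedBall).2
      (hh.continuousOn.integrableOn_compact (isCompact_closedBall x r))
  · by_cases hy : y ∈ closedBall x r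
    · simp only
      rw [indicator_of_mem hy]
      exact mul_le_of_le_one_left (h0 y) (kern_le_one _)
    · simp only
      rw [indicator_of_notMem hy, ker_scale_zero' hr hy, zero_mul]

/-- **weak Michael-Simon inequality** -/
lemma meas_large (hS : Slice m μ T H) {h : E → ℝ} (hh : ContDiff ℝ 1 h) (h0 : ∀ y, 0 ≤ h y)
    {C R G r : ℝ} (hC : 0 < C) (hGp : 0 < G) (hr : 0 < r) (hr1 : r ≤ 1)
    (hratio : ∀ (x : E) (r : ℝ), 0 < r → r ≤ 1 → μ.real (closedBall x r) ≤ C * r ^ m)
    (hG : ∫ y in closedBall 0 (R + 1), err T H h y ∂μ ≤ G)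
    (hG' : ∫ y in closedBall 0 (R + 1), h y ∂μ ≤ G) :
    μ {x | x ∈ closedBall (0 : E) R ∧ 4 * G / (om m * r ^ m) ≤ h x}
      ≤ ENNReal.ofReal (Vale.Agent.P214.BES.nB E * C * r ^ (m + 1)) := by
  have hfin := hS.mc.fin
  have hprop : ProperSpace E := FiniteDimensional.proper_real E
  have hom := om_pos m
  set s : ℝ := 4 * G / (om m * r ^ m) with hs
  have hsp : 0 < s := by positivity
  set lam : ℝ := om m * s / (4 * r) with hlam
  have hlamp : 0 < lam := by positivity
  set A : Set E := {x | x ∈ closedBall (0 : E) R ∧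
      ∃ t, 0 < t ∧ t ≤ r ∧ lam * t ^ m < ∫ y in closedBall x t, err T H h y ∂μ} with hA
  have hbad : μ A ≤ ENNReal.ofReal (Vale.Agent.P214.BES.nB E * C * (G / lam)) :=
    bad_set hC hlamp hr1 hratio (fun y => err_nonneg h0 y)
      (hS.err_integrableOn hh (isCompact_closedBall _ _)) hG A (fun x hx => hx)
  have hval : G / lam = r ^ (m + 1) := by
    rw [hlam, hs]
    field_simp
    ring
  rw [hval] at hbad
  refine le_trans ?_ hbad
  refine measure_mono_ae ?_
  filter_upwards [hS.dens] with x hx hxs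
  obtain ⟨hx1, hx2⟩ := hxs
  refine ⟨hx1, ?_⟩
  by_contra hcon
  push Not at hcon
  have h1 := om_mul_le hS hh h0 hx hr (fun t ht htr => hcon t ht htr)
  have h2 := JJ_le (m := m) (μ := μ) hh.continuous h0 (x := x) hr
  have hsub : closedBall x r ⊆ closedBall 0 (R + 1) := by
    refine closedBall_subset_closedBall' ?_
    rw [mem_closedBall] at hx1
    linarith
  have h3 : ∫ y in closedBall x r, h y ∂μ ≤ G := by
    refine le_trans ?_ hG'
    exact setIntegral_mono_set (hh.continuous.continuousOn.integrableOn_compact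
      (isCompact_closedBall _ _)) (Eventually.of_forall h0) hsub.eventuallyLE
  have h4 : JJ m μ h x r ≤ G / r ^ m := h2.trans (div_le_div_of_nonneg_right h3 (by positivity))
  have h5 : G / r ^ m = om m * s / 4 := by
    rw [hs]; field_simp
  have h6 : lam * r = om m * s / 4 := by
    rw [hlam]; field_simp
  have h7 : om m * s ≤ om m * h x := mul_le_mul_of_nonneg_left hx2 hom.le
  have h8 : 0 < om m * s := by positivity
  rw [h5] at h4
  rw [h6] at h1
  linarith

/-- **equi-integrability** -/
lemma tail_int (hm : 0 < m) (hS : Slice m μ T H) {h : E → ℝ} (hh : ContDiff ℝ 1 h)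
    (h0 : ∀ y, 0 ≤ h y)
    {C R G r : ℝ} (hC : 0 < C) (hGp : 0 < G) (hr : 0 < r) (hr1 : r ≤ 1)
    (hratio : ∀ (x : E) (r : ℝ), 0 < r → r ≤ 1 → μ.real (closedBall x r) ≤ C * r ^ m)
    (hG : ∫ y in closedBall 0 (R + 1), err T H h y ∂μ ≤ G)
    (hG' : ∫ y in closedBall 0 (R + 1), h y ∂μ ≤ G) :
    ∫⁻ x in {x | x ∈ closedBall (0 : E) R ∧ 4 * G / (om m * r ^ m) ≤ h x}, ENNReal.ofReal (h x) ∂μ
      ≤ ENNReal.ofReal (2 ^ (m + 3) * G / om m * (Vale.Agent.P214.BES.nB E * C) * r) := by
  have hfin := hS.mc.fin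
  have hprop : ProperSpace E := FiniteDimensional.proper_real E
  have hom := om_pos m
  set s : ℕ → ℝ := fun k => 4 * G / (om m * (r / 2 ^ k) ^ m) with hs
  have hsp : ∀ k, 0 < s k := fun k => by simp only [hs]; positivity
  have hs_succ : ∀ k, s (k + 1) = 2 ^ m * s k := by
    intro k
    simp only [hs]
    have e : r / 2 ^ (k + 1) = r / 2 ^ k / 2 := by rw [pow_succ, div_div]
    rw [e, div_pow (r / 2 ^ k)]
    field_simp
  set A : ℕ → Set E := fun k => {x | x ∈ closedBall (0 : E) R ∧ s k ≤ h x ∧ h x ≤ s (k + 1)} with hA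
  -- the sets cover
  have hcov : {x | x ∈ closedBall (0 : E) R ∧ 4 * G / (om m * r ^ m) ≤ h x} ⊆ ⋃ k, A k := by
    rintro x ⟨hx1, hx2⟩
    have hx2' : s 0 ≤ h x := by simpa [hs] using hx2
    have h2m : (1 : ℝ) < 2 ^ m := one_lt_pow₀ (by norm_num) hm.ne'
    have hgrow : ∀ k, s k = (2 ^ m) ^ k * s 0 := by
      intro k
      induction k with
      | zero => simp
      | succ k ih => rw [hs_succ, ih]; ring
    have htend : Tendsto s atTop atTop := by
      have h3 : Tendsto (fun k : ℕ => ((2 : ℝ) ^ m) ^ k * s 0) atTop atTop :=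
        (tendsto_pow_atTop_atTop_of_one_lt h2m).atTop_mul_const (hsp 0)
      exact h3.congr fun k => (hgrow k).symm
    obtain ⟨k, hk⟩ := (htend.eventually_ge_atTop (h x)).exists
    classical
    have hex : ∃ k, h x ≤ s (k + 1) := by
      refine ⟨k, hk.trans ?_⟩
      rw [hs_succ]
      exact le_mul_of_one_le_left (hsp k).le h2m.le
    let j := Nat.find hex
    have hj : h x ≤ s (j + 1) := Nat.find_spec hex
    refine mem_iUnion.2 ⟨j, hx1, ?_, hj⟩
    rcases Nat.eq_zero_or_pos j with hj0 | hj0
    · rw [hj0]; exact hx2'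
    · have := Nat.find_min hex (m := j - 1) (by omega)
      push Not at this
      have e : j - 1 + 1 = j := by omega
      rw [e] at this
      exact this.le
  -- each piece
  have hpiece : ∀ k, ∫⁻ x in A k, ENNReal.ofReal (h x) ∂μ
      ≤ ENNReal.ofReal (2 ^ (m + 2) * G / om m * (Vale.Agent.P214.BES.nB E * C) * r
        * (1 / 2) ^ k) := by
    intro k
    have hrk : 0 < r / 2 ^ k := by positivity
    have hrk1 : r / 2 ^ k ≤ 1 := by
      rw [div_le_one (by positivity)]
      exact hr1.trans (one_le_pow₀ (by norm_num))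
    have h1 := meas_large hS hh h0 (C := C) (R := R) (G := G) hC hGp hrk hrk1 hratio hG hG'
    have hmeasA : MeasurableSet (A k) := by
      have e1 : MeasurableSet {x : E | s k ≤ h x} :=
        measurableSet_le measurable_const hh.continuous.measurable
      have e2 : MeasurableSet {x : E | h x ≤ s (k + 1)} :=
        measurableSet_le hh.continuous.measurable measurable_const
      exact measurableSet_closedBall.inter (e1.inter e2)
    calc ∫⁻ x in A k, ENNReal.ofReal (h x) ∂μ
        ≤ ∫⁻ x in A k, ENNReal.ofReal (s (k + 1)) ∂μ := by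
          refine setLIntegral_mono measurable_const fun x hx => ?_
          exact ENNReal.ofReal_le_ofReal hx.2.2
      _ = ENNReal.ofReal (s (k + 1)) * μ (A k) := by
          rw [setLIntegral_const]
      _ ≤ ENNReal.ofReal (s (k + 1)) * ENNReal.ofReal (Vale.Agent.P214.BES.nB E * C
            * (r / 2 ^ k) ^ (m + 1)) := by
          gcongr
          refine le_trans (measure_mono ?_) h1
          exact fun x hx => ⟨hx.1, hx.2.1⟩
      _ = ENNReal.ofReal (2 ^ (m + 2) * G / om m * (Vale.Agent.P214.BES.nB E * C) * r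
        * (1 / 2) ^ k) := by
          rw [← ENNReal.ofReal_mul (hsp _).le]
          congr 1
          rw [hs_succ]
          simp only [hs]
          have h2k : (0 : ℝ) < 2 ^ k := by positivity
          have hp : 0 < (r / 2 ^ k) ^ m := by positivity
          rw [pow_succ (r / 2 ^ k) m, one_div, inv_pow]
          field_simp
          ring
  have hsum : Summable fun k : ℕ => 2 ^ (m + 2) * G / om m * (Vale.Agent.P214.BES.nB E * C) * r
        * (1 / 2 : ℝ) ^ k := (summable_geometric_two).mul_left _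
  calc ∫⁻ x in {x | x ∈ closedBall (0 : E) R ∧ 4 * G / (om m * r ^ m) ≤ h x},
        ENNReal.ofReal (h x) ∂μ
      ≤ ∫⁻ x in ⋃ k, A k, ENNReal.ofReal (h x) ∂μ := lintegral_mono_set hcov
    _ ≤ ∑' k, ∫⁻ x in A k, ENNReal.ofReal (h x) ∂μ := lintegral_iUnion_le _ _
    _ ≤ ∑' k, ENNReal.ofReal (2 ^ (m + 2) * G / om m * (Vale.Agent.P214.BES.nB E * C) * r
        * (1 / 2) ^ k) := ENNReal.tsum_le_tsum hpiece
    _ = ENNReal.ofReal (∑' k, 2 ^ (m + 2) * G / om m * (Vale.Agent.P214.BES.nB E * C) * r
        * (1 / 2) ^ k) := by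
        rw [ENNReal.ofReal_tsum_of_nonneg (fun k => by positivity) hsum]
    _ = _ := by
        rw [tsum_mul_left, tsum_geometric_two]
        congr 1
        ring

end tools

end Vale.Agent.P218.H313
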