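import Vale.Agent.P218.H313.C2

/-! Nondegenerate shrinkers, package C: strong compactness. -/

open MeasureTheory Set Filter Topology Metric
open scoped ENNReal NNReal RealInnerProductSpace

namespace Vale.Agent.P218.H313

open Vale.Agent.P214 (IntegralVarifold proj divAlong IsTestField)
open Vale.Agent.P218.H552 (MC BF NN)

set_option linter.unusedSectionVars false
set_option linter.unusedVariables false

/-! ## the truncation -/

/-- a `C¹` function which is `0` on `(-∞, s]` and `1` on `[2s, ∞)` -/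
noncomputable def gam (s u : ℝ) : ℝ := 1 - psi ((max (u / s - 1) 0) ^ 2)

/-- its derivative -/
noncomputable def gam' (s u : ℝ) : ℝ :=
  -(psi' ((max (u / s - 1) 0) ^ 2) * (2 * max (u / s - 1) 0 * (1 / s)))

lemma gam_nonneg (s u : ℝ) : 0 ≤ gam s u := by
  unfold gam
  have := psi_le_one (sq_nonneg (max (u / s - 1) 0))
  linarith

lemma gam_le_one (s u : ℝ) : gam s u ≤ 1 := by
  unfold gam
  have := psi_nonneg ((max (u / s - 1) 0) ^ 2)
  linarith

lemma gam_one {s u : ℝ} (hs : 0 < s) (hu : 2 * s ≤ u) : gam s u = 1 := by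
  unfold gam
  rw [psi_zero, sub_zero]
  have h1 : 1 ≤ u / s - 1 := by
    rw [le_sub_iff_add_le, le_div_iff₀ hs]
    linarith
  rw [max_eq_left (by linarith)]
  nlinarith

lemma gam_zero {s u : ℝ} (hs : 0 < s) (hu : u ≤ s) : gam s u = 0 := by
  unfold gam
  have h1 : u / s - 1 ≤ 0 := by
    rw [sub_nonpos, div_le_one hs]
    exact hu
  rw [max_eq_right h1]
  simp [psi]

lemma hasDerivAt_gam (s u : ℝ) : HasDerivAt (gam s) (gam' s u) u := by
  have h1 : HasDerivAt (fun u : ℝ => u / s - 1) (1 / s) u :=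
    ((hasDerivAt_id u).div_const s).sub_const 1
  have h2 := (hasDerivAt_maxsq (u / s - 1)).comp u h1
  have h3 := (hasDerivAt_psi ((max (u / s - 1) 0) ^ 2)).comp u h2
  exact h3.const_sub 1

lemma abs_gam'_le {s : ℝ} (hs : 0 < s) (u : ℝ) : |gam' s u| ≤ 4 / s := by
  unfold gam'
  rw [abs_neg, abs_mul]
  rcases le_total 1 (u / s - 1) with h | h
  · have : psi' ((max (u / s - 1) 0) ^ 2) = 0 := by
      refine psi'_zero ?_
      rw [max_eq_left (by linarith)]
      nlinarith
    rw [this]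
    simp
    positivity
  · have h1 := psi'_bound (sq_nonneg (max (u / s - 1) 0))
    have h2 : |2 * max (u / s - 1) 0 * (1 / s)| ≤ 2 / s := by
      have h3 : max (u / s - 1) 0 ≤ 1 := max_le h zero_le_one
      have h4 := le_max_right (u / s - 1) 0
      rw [abs_of_nonneg (by positivity)]
      calc 2 * max (u / s - 1) 0 * (1 / s) ≤ 2 * 1 * (1 / s) := by gcongr
        _ = 2 / s := by ring
    calc |psi' ((max (u / s - 1) 0) ^ 2)| * |2 * max (u / s - 1) 0 * (1 / s)|
        ≤ 2 * (2 / s) := by gcongr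
      _ = 4 / s := by ring

lemma continuous_gam' (s : ℝ) : Continuous (gam' s) := by
  unfold gam'
  have := continuous_psi'
  fun_prop

lemma contDiff_gam (s : ℝ) : ContDiff ℝ 1 (gam s) := by
  rw [contDiff_one_iff_deriv]
  refine ⟨fun u => (hasDerivAt_gam s u).differentiableAt, ?_⟩
  have : deriv (gam s) = gam' s := funext fun u => (hasDerivAt_gam s u).deriv
  rw [this]; exact continuous_gam' s

section single

variable {E : Type*} [NormedAddCommGroup E] [InnerProductSpace ℝ E] [FiniteDimensional ℝ E]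
  [MeasurableSpace E] [BorelSpace E]
variable {m : ℕ} {μ : Measure E} {T : E → Submodule ℝ E} {H : E → E}

lemma grad_gam {w : E → ℝ} (hw : ContDiff ℝ 1 w) (s : ℝ) (y : E) :
    grad (fun y => gam s (w y)) y = gam' s (w y) • grad w y := by
  refine grad_unique fun v => ?_
  have h1 : HasFDerivAt w (fderiv ℝ w y) y := (hw.differentiable (by norm_num) y).hasFDerivAt
  have h2 := (hasDerivAt_gam s (w y)).comp_hasFDerivAt y h1
  have h3 : fderiv ℝ (fun y => gam s (w y)) y = _ := h2.fderiv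
  rw [h3, inner_smul_left, inner_grad]
  simp

/-- the dominating integrand -/
noncomputable def dom (T : E → Submodule ℝ E) (H : E → E) (w : E → ℝ) (s : ℝ) (y : E) : ℝ :=
  w y ^ 2 + (4 / s * (1 + ‖proj (T y) (grad w y)‖ ^ 2) + (1 + ‖H y‖ ^ 2))

lemma dom_nonneg {w : E → ℝ} {s : ℝ} (hs : 0 < s) (y : E) : 0 ≤ dom T H w s y := by
  unfold dom; positivity

lemma err_gam_le {w : E → ℝ} (hw : ContDiff ℝ 1 w) {s : ℝ} (hs : 0 < s) (y : E) :
    err T H (fun y => gam s (w y)) y ≤ dom T H w s y := by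
  unfold err dom
  rw [grad_gam hw, map_smul, norm_smul, Real.norm_eq_abs]
  have h1 := abs_gam'_le hs (w y)
  have h2 := gam_le_one s (w y)
  have h3 := gam_nonneg s (w y)
  have h4 : ‖proj (T y) (grad w y)‖ ≤ 1 + ‖proj (T y) (grad w y)‖ ^ 2 := by
    nlinarith [sq_nonneg (‖proj (T y) (grad w y)‖ - 1), norm_nonneg (proj (T y) (grad w y))]
  have h5 : ‖H y‖ ≤ 1 + ‖H y‖ ^ 2 := by
    nlinarith [sq_nonneg (‖H y‖ - 1), norm_nonneg (H y)]
  have h6 : |gam' s (w y)| * ‖proj (T y) (grad w y)‖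
      ≤ 4 / s * (1 + ‖proj (T y) (grad w y)‖ ^ 2) :=
    mul_le_mul h1 h4 (norm_nonneg _) (by positivity)
  have h7 : gam s (w y) * ‖H y‖ ≤ 1 + ‖H y‖ ^ 2 :=
    (mul_le_of_le_one_left (norm_nonneg _) h2).trans h5
  have h8 := sq_nonneg (w y)
  linarith

lemma Slice.sq_proj_grad_integrableOn (hS : Slice m μ T H) {w : E → ℝ} (hw : ContDiff ℝ 1 w)
    {K : Set E} (hK : IsCompact K) :
    IntegrableOn (fun y => ‖proj (T y) (grad w y)‖ ^ 2) K μ := by
  have : ProperSpace E := FiniteDimensional.proper_real E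
  have := hS.mc.fin
  obtain ⟨C₁, hC₁⟩ := hK.exists_bound_of_continuousOn (continuous_grad hw).continuousOn
  have h4 : IntegrableOn (fun _ : E => |C₁| ^ 2) K μ :=
      (locallyIntegrable_const (|C₁| ^ 2)).integrableOn_isCompact hK
  refine Integrable.mono' h4
    ((hS.proj_apply_meas (continuous_grad hw).aestronglyMeasurable).norm.pow 2).restrict ?_
  refine (ae_restrict_iff' hK.measurableSet).2 (Eventually.of_forall fun y hy => ?_)
  have e1 := hC₁ y hy
  have e3 := norm_proj_apply_le (T y) (grad w y)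
  rw [norm_pow, norm_norm]
  have e4 := le_abs_self C₁
  gcongr
  linarith

lemma Slice.sq_mul_H_integrableOn (hS : Slice m μ T H) {w : E → ℝ} (hw : Continuous w)
    {K : Set E} (hK : IsCompact K) :
    IntegrableOn (fun y => w y ^ 2 * ‖H y‖) K μ := by
  have : ProperSpace E := FiniteDimensional.proper_real E
  have := hS.mc.fin
  obtain ⟨C₁, hC₁⟩ := hK.exists_bound_of_continuousOn hw.continuousOn
  have h3 : IntegrableOn (fun _ : E => (1 : ℝ)) K μ :=
      (locallyIntegrable_const (1 : ℝ)).integrableOn_isCompact hK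
  have h4 : IntegrableOn (fun y => |C₁| ^ 2 * (1 + ‖H y‖ ^ 2)) K μ :=
    (h3.add (hS.mc.locL2 K hK)).const_mul _
  refine Integrable.mono' h4
    ((hw.aestronglyMeasurable.pow 2).mul hS.mc.meas.norm).restrict ?_
  refine (ae_restrict_iff' hK.measurableSet).2 (Eventually.of_forall fun y hy => ?_)
  have e1 := hC₁ y hy
  have h5 : ‖H y‖ ≤ 1 + ‖H y‖ ^ 2 := by
    nlinarith [sq_nonneg (‖H y‖ - 1), norm_nonneg (H y)]
  rw [norm_mul, norm_pow, norm_norm]
  have e4 := le_abs_self C₁
  gcongr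
  linarith

lemma Slice.dom_integrableOn (hS : Slice m μ T H) {w : E → ℝ} (hw : ContDiff ℝ 1 w) (s : ℝ)
    {K : Set E} (hK : IsCompact K) : IntegrableOn (dom T H w s) K μ := by
  have : ProperSpace E := FiniteDimensional.proper_real E
  have := hS.mc.fin
  have h3 : IntegrableOn (fun _ : E => (1 : ℝ)) K μ :=
      (locallyIntegrable_const (1 : ℝ)).integrableOn_isCompact hK
  have h1 : IntegrableOn (fun y => w y ^ 2) K μ :=
    (hw.continuous.pow 2).continuousOn.integrableOn_compact hK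
  have h2 := hS.sq_proj_grad_integrableOn hw hK
  exact h1.add (((h3.add h2).const_mul _).add (h3.add (hS.mc.locL2 K hK)))

/-- **good points** -/
lemma exists_good (hS : Slice m μ T H) {w : E → ℝ} (hw : ContDiff ℝ 1 w) {C R G s lam : ℝ}
    (hC : 0 < C) (hs : 0 < s) (hlam : 0 < lam)
    (hratio : ∀ (x : E) (r : ℝ), 0 < r → r ≤ 1 → μ.real (closedBall x r) ≤ C * r ^ m)
    (hG : ∫ y in closedBall 0 (R + 1), dom T H w s y ∂μ ≤ G)
    (hbig : ENNReal.ofReal (Vale.Agent.P214.BES.nB E * C * (G / lam))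
      < μ {x | x ∈ closedBall (0 : E) R ∧ 2 * s ≤ w x}) :
    ∃ x ∈ closedBall (0 : E) R,
      (∀ t, 0 < t → t ≤ 1 → om m ≤ JJ m μ (fun y => gam s (w y)) x t + lam * t) ∧
      (∀ t, 0 < t → t ≤ 1 → ∫ y in closedBall x t, w y ^ 2 ∂μ ≤ lam * t ^ m) := by
  have hfin := hS.mc.fin
  have hprop : ProperSpace E := FiniteDimensional.proper_real E
  set A : Set E := {x | x ∈ closedBall (0 : E) R ∧
      ∃ t, 0 < t ∧ t ≤ 1 ∧ lam * t ^ m < ∫ y in closedBall x t, dom T H w s y ∂μ} with hA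
  have hbad : μ A ≤ ENNReal.ofReal (Vale.Agent.P214.BES.nB E * C * (G / lam)) :=
    bad_set hC hlam le_rfl hratio (fun y => dom_nonneg hs y)
      (hS.dom_integrableOn hw s (isCompact_closedBall _ _)) hG A (fun x hx => hx)
  have hex : ∃ x, (x ∈ closedBall (0 : E) R ∧ 2 * s ≤ w x) ∧ x ∉ A ∧
      ∀ c < om m, ∀ᶠ r in 𝓝[>] (0 : ℝ), c ≤ (∫ y, ker (r⁻¹ • (y - x)) ∂μ) / r ^ m := by
    by_contra hcon
    push Not at hcon
    have : μ {x | x ∈ closedBall (0 : E) R ∧ 2 * s ≤ w x} ≤ μ A := by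
      refine measure_mono_ae ?_
      filter_upwards [hS.dens] with x hx hxs
      by_contra hxA
      obtain ⟨c, hc1, hc2⟩ := hcon x hxs hxA
      exact hc2 ((hx c hc1).mono fun r hr => not_lt.2 hr)
    exact absurd (lt_of_lt_of_le hbig (this.trans hbad)) (lt_irrefl _)
  obtain ⟨x, ⟨hx1, hx2⟩, hxA, hxd⟩ := hex
  have hgood : ∀ t, 0 < t → t ≤ 1 → ∫ y in closedBall x t, dom T H w s y ∂μ ≤ lam * t ^ m := by
    intro t ht ht1
    by_contra hcon
    push Not at hcon
    exact hxA ⟨hx1, t, ht, ht1, hcon⟩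
  have hh : ContDiff ℝ 1 (fun y => gam s (w y)) := (contDiff_gam s).comp hw
  refine ⟨x, hx1, fun t ht ht1 => ?_, fun t ht ht1 => ?_⟩
  · have h1 := om_mul_le hS hh (fun y => gam_nonneg s _) hxd (lam := lam) ht (fun τ hτ hτt => by
      refine le_trans ?_ (hgood τ hτ (hτt.trans ht1))
      exact integral_mono (hS.err_integrableOn hh (isCompact_closedBall _ _))
        (hS.dom_integrableOn hw s (isCompact_closedBall _ _)) fun y => err_gam_le hw hs y)
    rw [gam_one hs hx2, mul_one] at h1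
    exact h1
  · refine le_trans ?_ (hgood t ht ht1)
    refine integral_mono ((hw.continuous.pow 2).continuousOn.integrableOn_compact
      (isCompact_closedBall _ _)) (hS.dom_integrableOn hw s (isCompact_closedBall _ _)) fun y => ?_
    simp only [dom]
    have h1 : 0 ≤ 4 / s * (1 + ‖proj (T y) (grad w y)‖ ^ 2) + (1 + ‖H y‖ ^ 2) := by positivity
    linarith

/-- comparison of kernels centred at nearby points -/
lemma ker_compare [IsFiniteMeasureOnCompacts μ] {h : E → ℝ} (hh : Continuous h)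
    (h0 : ∀ y, 0 ≤ h y) (h1 : ∀ y, h y ≤ 1) {x x₀ : E} {R t M : ℝ}
    (hx : x ∈ closedBall (0 : E) R) (hx₀ : x₀ ∈ closedBall (0 : E) R) (ht : 0 < t) (ht1 : t ≤ 1)
    (hM : μ.real (closedBall 0 (R + 1)) ≤ M) :
    ∫ y, ker (t⁻¹ • (y - x)) * h y ∂μ
      ≤ ∫ y, ker (t⁻¹ • (y - x₀)) * h y ∂μ + 4 * (t⁻¹ * dist x x₀) * M := by
  have hprop : ProperSpace E := FiniteDimensional.proper_real E
  have i1 := integrable_ker_mul (μ := μ) hh x ht
  have i2 := integrable_ker_mul (μ := μ) hh x₀ ht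
  have hsub : ∀ z ∈ closedBall (0 : E) R, closedBall z t ⊆ closedBall 0 (R + 1) := fun z hz => by
    refine closedBall_subset_closedBall' ?_
    rw [mem_closedBall] at hz
    linarith
  have i3 : Integrable ((closedBall (0 : E) (R + 1)).indicator
      fun _ => 4 * (t⁻¹ * dist x x₀)) μ :=
    (integrable_indicator_iff measurableSet_closedBall).2
      ((locallyIntegrable_const _).integrableOn_isCompact (isCompact_closedBall _ _))
  have key : ∫ y, (ker (t⁻¹ • (y - x)) * h y - ker (t⁻¹ • (y - x₀)) * h y) ∂μ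
      ≤ ∫ y, (closedBall (0 : E) (R + 1)).indicator (fun _ => 4 * (t⁻¹ * dist x x₀)) y ∂μ := by
    refine integral_mono (i1.sub i2) i3 fun y => ?_
    simp only
    by_cases hy : y ∈ closedBall (0 : E) (R + 1)
    · rw [indicator_of_mem hy]
      have e1 := abs_ker_sub_le (t⁻¹ • (y - x)) (t⁻¹ • (y - x₀))
      have e2 : ‖t⁻¹ • (y - x) - t⁻¹ • (y - x₀)‖ = t⁻¹ * dist x x₀ := by
        rw [← smul_sub, norm_smul, norm_inv, Real.norm_of_nonneg ht.le, dist_comm, dist_eq_norm]
        congr 2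
        abel
      rw [e2] at e1
      have e3 := le_abs_self (ker (t⁻¹ • (y - x)) - ker (t⁻¹ • (y - x₀)))
      have e4 : ker (t⁻¹ • (y - x)) * h y - ker (t⁻¹ • (y - x₀)) * h y
          = (ker (t⁻¹ • (y - x)) - ker (t⁻¹ • (y - x₀))) * h y := by ring
      rw [e4]
      have e5 : 0 ≤ t⁻¹ * dist x x₀ := mul_nonneg (inv_pos.2 ht).le dist_nonneg
      calc (ker (t⁻¹ • (y - x)) - ker (t⁻¹ • (y - x₀))) * h y
          ≤ (4 * (t⁻¹ * dist x x₀)) * h y := mul_le_mul_of_nonneg_right (e3.trans e1) (h0 y)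
        _ ≤ (4 * (t⁻¹ * dist x x₀)) * 1 := mul_le_mul_of_nonneg_left (h1 y) (by positivity)
        _ = _ := mul_one _
    · rw [indicator_of_notMem hy, ker_scale_zero' ht (fun h => hy (hsub x hx h)),
        ker_scale_zero' ht (fun h => hy (hsub x₀ hx₀ h))]
      simp
  rw [integral_sub i1 i2, integral_indicator measurableSet_closedBall, setIntegral_const,
    smul_eq_mul] at key
  have e5 : 0 ≤ t⁻¹ * dist x x₀ := mul_nonneg (inv_pos.2 ht).le dist_nonneg
  have e6 : μ.real (closedBall 0 (R + 1)) * (4 * (t⁻¹ * dist x x₀)) ≤ M * (4 * (t⁻¹ * dist x x₀)) :=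
    mul_le_mul_of_nonneg_right hM (by positivity)
  linarith

/-- **the contradiction inequality** -/
lemma int_lower [IsFiniteMeasureOnCompacts μ] {w : E → ℝ} (hw : Continuous w) {x x₀ : E}
    {R t M ε lam η s : ℝ} (hs : 0 < s)
    (hx : x ∈ closedBall (0 : E) R) (hx₀ : x₀ ∈ closedBall (0 : E) R) (ht : 0 < t)
    (ht2 : 2 * t ≤ 1) (hM : μ.real (closedBall 0 (R + 1)) ≤ M)
    (hd : 4 * (t⁻¹ * dist x x₀) * M ≤ ε * t ^ m) (hd2 : dist x x₀ ≤ t)
    (hker : ∫ y, ker (t⁻¹ • (y - x₀)) ∂μ ≤ (om m + 2 * ε) * t ^ m)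
    (hJ : om m ≤ JJ m μ (fun y => gam s (w y)) x t + lam * t)
    (hw2 : ∫ y in closedBall x (2 * t), w y ^ 2 ∂μ ≤ lam * (2 * t) ^ m) (hη : 0 < η) :
    (s * (om m - lam * t - ε) - η * (lam * 2 ^ m) - (3 * ε + lam * t) / (4 * η)) * t ^ m
      ≤ ∫ y, ker (t⁻¹ • (y - x₀)) * w y ∂μ := by
  have hprop : ProperSpace E := FiniteDimensional.proper_real E
  have hgc : Continuous fun y => gam s (w y) := (contDiff_gam s).continuous.comp hw
  have htm : 0 < t ^ m := by positivity
  set a : ℝ := ∫ y, ker (t⁻¹ • (y - x₀)) * gam s (w y) ∂μ with ha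
  set b : ℝ := ∫ y, ker (t⁻¹ • (y - x₀)) * w y ^ 2 ∂μ with hb
  set k : ℝ := ∫ y, ker (t⁻¹ • (y - x₀)) ∂μ with hk
  -- (3)
  have h3 : (om m - lam * t - ε) * t ^ m ≤ a := by
    have e1 := ker_compare (μ := μ) hgc (fun y => gam_nonneg s _) (fun y => gam_le_one s _)
      hx hx₀ ht (by linarith) hM
    have e2 : (om m - lam * t) * t ^ m ≤ ∫ y, ker (t⁻¹ • (y - x)) * gam s (w y) ∂μ := by
      have : om m - lam * t ≤ (∫ y, ker (t⁻¹ • (y - x)) * gam s (w y) ∂μ) / t ^ m := by
        unfold JJ at hJ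
        linarith
      rwa [le_div_iff₀ htm] at this
    rw [← ha] at e1
    nlinarith
  -- (5)
  have h5 : b ≤ lam * 2 ^ m * t ^ m := by
    have e1 : b ≤ ∫ y in closedBall x (2 * t), w y ^ 2 ∂μ := by
      rw [hb, ← integral_indicator measurableSet_closedBall]
      refine integral_mono (integrable_ker_mul (hw.pow 2) x₀ ht)
        ((integrable_indicator_iff measurableSet_closedBall).2
          ((hw.pow 2).continuousOn.integrableOn_compact (isCompact_closedBall _ _))) fun y => ?_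
      simp only
      by_cases hy : y ∈ closedBall x (2 * t)
      · rw [indicator_of_mem hy]
        exact mul_le_of_le_one_left (sq_nonneg _) (kern_le_one _)
      · rw [indicator_of_notMem hy, ker_scale_zero' ht, zero_mul]
        intro hy'
        refine hy ?_
        rw [mem_closedBall] at hy' ⊢
        have := dist_triangle y x₀ x
        rw [dist_comm x₀ x] at this
        linarith
    have e2 : lam * (2 * t) ^ m = lam * 2 ^ m * t ^ m := by rw [mul_pow]; ring
    linarith
  -- (4)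
  have i0 := integrable_ker_scale (μ := μ) x₀ ht
  have i1 := integrable_ker_mul (μ := μ) hgc x₀ ht
  have i2 : Integrable (fun y => ker (t⁻¹ • (y - x₀)) * w y ^ 2) μ :=
    integrable_ker_mul (μ := μ) (hw.pow 2) x₀ ht
  have i3 := integrable_ker_mul (μ := μ) hw x₀ ht
  have h6 : s * a - η * b - (k - a) / (4 * η) ≤ ∫ y, ker (t⁻¹ • (y - x₀)) * w y ∂μ := by
    have e1 : s * a - η * b - (k - a) / (4 * η)
        = ∫ y, (s * (ker (t⁻¹ • (y - x₀)) * gam s (w y)) - η * (ker (t⁻¹ • (y - x₀)) * w y ^ 2)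
          - (4 * η)⁻¹ * (ker (t⁻¹ • (y - x₀)) - ker (t⁻¹ • (y - x₀)) * gam s (w y))) ∂μ := by
      have j1 : Integrable (fun y => s * (ker (t⁻¹ • (y - x₀)) * gam s (w y))
          - η * (ker (t⁻¹ • (y - x₀)) * w y ^ 2)) μ := (i1.const_mul s).sub (i2.const_mul η)
      have j2 : Integrable (fun y => (4 * η)⁻¹ * (ker (t⁻¹ • (y - x₀))
          - ker (t⁻¹ • (y - x₀)) * gam s (w y))) μ := (i0.sub i1).const_mul _
      rw [integral_sub j1 j2, integral_sub (i1.const_mul s) (i2.const_mul η),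
        integral_const_mul, integral_const_mul, integral_const_mul, integral_sub i0 i1]
      rw [div_eq_inv_mul]
    rw [e1]
    refine integral_mono (((i1.const_mul s).sub (i2.const_mul η)).sub ((i0.sub i1).const_mul _))
      i3 fun y => ?_
    simp only
    have p0 := kern_nonneg (t⁻¹ • (y - x₀))
    have p1 := gam_nonneg s (w y)
    have p2 := gam_le_one s (w y)
    have p3 : s * gam s (w y) - η * w y ^ 2 - (4 * η)⁻¹ * (1 - gam s (w y)) ≤ w y := by
      have q1 : s * gam s (w y) ≤ w y * gam s (w y) := by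
        rcases le_total (w y) s with hc | hc
        · rw [gam_zero hs hc]; simp
        · exact mul_le_mul_of_nonneg_right hc p1
      have q2 : -(w y) ≤ η * w y ^ 2 + (4 * η)⁻¹ := by
        have : 0 ≤ (2 * η * w y + 1) ^ 2 / (4 * η) := by positivity
        have e : (2 * η * w y + 1) ^ 2 / (4 * η) = η * w y ^ 2 + w y + (4 * η)⁻¹ := by
          field_simp; ring
        linarith
      have q3 : -(w y) * (1 - gam s (w y)) ≤ (η * w y ^ 2 + (4 * η)⁻¹) * (1 - gam s (w y)) :=
        mul_le_mul_of_nonneg_right q2 (by linarith)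
      have q4 : η * w y ^ 2 * (1 - gam s (w y)) ≤ η * w y ^ 2 :=
        mul_le_of_le_one_right (by positivity) (by linarith)
      nlinarith
    have p4 := mul_le_mul_of_nonneg_left p3 p0
    linarith
  refine le_trans ?_ h6
  have h7 : (k - a) / (4 * η) ≤ (3 * ε + lam * t) / (4 * η) * t ^ m := by
    rw [div_mul_eq_mul_div]
    refine div_le_div_of_nonneg_right ?_ (by positivity)
    linarith
  have h8 : η * b ≤ η * (lam * 2 ^ m) * t ^ m := by
    have := mul_le_mul_of_nonneg_left h5 hη.le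
    linarith
  have h9 : s * ((om m - lam * t - ε) * t ^ m) ≤ s * a := mul_le_mul_of_nonneg_left h3 hs.le
  linarith

end single

end Vale.Agent.P218.H313
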