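import Vale.Agent.P218.H313.Basic

/-! Nondegenerate shrinkers: Cayley rotations, definitions. -/

open MeasureTheory Set Filter Topology Metric
open scoped ENNReal NNReal RealInnerProductSpace

namespace Vale.Agent.P218.H313

/-- skew operators -/
def skew (E : Type*) [NormedAddCommGroup E] [InnerProductSpace ℝ E] :
    Submodule ℝ (E →L[ℝ] E) where
  carrier := {A | ∀ x, ⟪A x, x⟫ = 0}
  add_mem' := by
    intro a b ha hb x
    simp only [add_apply, inner_add_left, ha x, hb x, add_zero]
  zero_mem' := by intro x; simp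
  smul_mem' := by
    intro c a ha x
    simp only [smul_apply, real_inner_smul_left, ha x, mul_zero]

variable {E : Type*} [NormedAddCommGroup E] [InnerProductSpace ℝ E] [FiniteDimensional ℝ E]

/-- `(1 + a)⁻¹` -/
noncomputable def rinv (a : E →L[ℝ] E) : E →L[ℝ] E := Ring.inverse (1 + a)

/-- the Cayley transform `2 (1 + a)⁻¹ - 1` -/
noncomputable def cay (a : E →L[ℝ] E) : E →L[ℝ] E := (2 : ℝ) • rinv a - 1

/-- its derivative at `a` in direction `b` -/
noncomputable def dcay (a b : E →L[ℝ] E) : E →L[ℝ] E := (-2 : ℝ) • (rinv a * b * rinv a)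

variable [MeasurableSpace E] [BorelSpace E]

/-- squared distance after rotation -/
noncomputable def GD (μ : Measure E) (W : E → ℝ) (a : E →L[ℝ] E) : ℝ :=
  ∫ x, W (cay a x) ^ 2 * rho x ∂μ

/-- half its derivative -/
noncomputable def GP (μ : Measure E) (W : E → ℝ) (a b : E →L[ℝ] E) : ℝ :=
  ∫ x, W (cay a x) * ⟪grad W (cay a x), dcay a b x⟫ * rho x ∂μ

end Vale.Agent.P218.H313
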