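import Vale.Agent.P218.H313.Static

/-! Nondegenerate shrinkers: finite-dimensional families of shrinkers. -/

open MeasureTheory Set Filter Topology Metric
open scoped ENNReal NNReal RealInnerProductSpace

namespace Vale.Agent.P218.H313

variable {E : Type*} [NormedAddCommGroup E] [InnerProductSpace ℝ E] [FiniteDimensional ℝ E]
  [MeasurableSpace E] [BorelSpace E]
variable {P : Type*} [NormedAddCommGroup P] [NormedSpace ℝ P]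

/-- A family `V a`, `‖a‖ ≤ r`, of tube functions, with derivative `V' a b` in the direction `b`
of the parameter; `drift` says that `∫ V_a ∂_b V_a ρ` varies only to second order. -/
structure Fam (m : ℕ) (V : P → E → ℝ) (V' : P → P →ₗ[ℝ] (E → ℝ)) (r c K : ℝ) (q : ℕ) :
    Prop where
  rpos : 0 < r
  Knn : 0 ≤ K
  tube : ∀ a, ‖a‖ ≤ r → TubeD (V a) c K
  lip : ∀ a a', ‖a‖ ≤ r → ‖a'‖ ≤ r → ∀ x, |V a x - V a' x| ≤ K * (1 + ‖x‖) ^ q * ‖a - a'‖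
  lipg : ∀ a a', ‖a‖ ≤ r → ‖a'‖ ≤ r → ∀ x,
    ‖grad (V a) x - grad (V a') x‖ ≤ K * (1 + ‖x‖) ^ q * ‖a - a'‖
  taylor : ∀ a a', ‖a‖ ≤ r → ‖a'‖ ≤ r → ∀ x,
    |V a' x - V a x - V' a (a' - a) x| ≤ K * (1 + ‖x‖) ^ q * ‖a' - a‖ ^ 2
  dlip : ∀ a a', ‖a‖ ≤ r → ‖a'‖ ≤ r → ∀ b x,
    |V' a b x - V' a' b x| ≤ K * (1 + ‖x‖) ^ q * ‖a - a'‖ * ‖b‖
  dsm : ∀ a, ‖a‖ ≤ r → ∀ b, ContDiff ℝ 1 (V' a b)
  db0 : ∀ a, ‖a‖ ≤ r → ∀ b x, |V' a b x| ≤ K * (1 + ‖x‖) * ‖b‖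
  db1 : ∀ a, ‖a‖ ≤ r → ∀ b x, ‖grad (V' a b) x‖ ≤ K * (1 + ‖x‖) * ‖b‖
  jacc : ∀ ζ : E → ℝ, ContDiff ℝ (⊤ : ℕ∞) ζ → HasCompactSupport ζ → ∀ ε > 0, ∃ η > 0,
    ∀ a, ‖a‖ ≤ r → ‖a‖ ≤ η → ∀ x, |jac (V a) ζ x - jac (V 0) ζ x| ≤ ε
  drift : ∀ a, ‖a‖ ≤ r → ∀ b, ∀ (μ : Measure E) (T : E → Submodule ℝ E) (H : E → E),
    GSlice m μ T H → |∫ x, ⟪grad (fun y => V a y * V' a b y) x, vel T H x⟫ * rho x ∂μ|
      ≤ K * ‖b‖ * (DD μ (V a) 1 + TG μ T (V a) 1 + dis μ T H)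

/-- half the derivative of `a ↦ ∫ V_a² ρ dμ` -/
noncomputable def GF (μ : Measure E) (V : P → E → ℝ) (V' : P → P →ₗ[ℝ] (E → ℝ)) (a b : P) : ℝ :=
  ∫ x, V a x * V' a b x * rho x ∂μ

end Vale.Agent.P218.H313
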