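import Vale.Agent.P218.H313.Cay
import Vale.Agent.P218.H313.Fam

/-! Nondegenerate shrinkers: algebra of the Cayley rotations. -/

open MeasureTheory Set Filter Topology Metric
open scoped ENNReal NNReal RealInnerProductSpace

namespace Vale.Agent.P218.H313

open Vale.Agent.P214 (IntegralVarifold proj divAlong IsTestField)

set_option linter.unusedSectionVars false
set_option linter.unusedVariables false

section alg

variable {E : Type*} [NormedAddCommGroup E] [InnerProductSpace ℝ E] [FiniteDimensional ℝ E]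

lemma mem_skew {a : E →L[ℝ] E} : a ∈ skew E ↔ ∀ x, ⟪a x, x⟫ = 0 := Iff.rfl

lemma skew_inner {a : E →L[ℝ] E} (ha : a ∈ skew E) (x y : E) : ⟪a x, y⟫ = -⟪x, a y⟫ := by
  have h := ha (x + y)
  rw [map_add, inner_add_left, inner_add_right, inner_add_right, ha x, ha y] at h
  rw [real_inner_comm (a y) x]
  linarith

lemma one_add_apply (a : E →L[ℝ] E) (x : E) : (1 + a) x = x + a x := rfl

lemma norm_one_add_sq {a : E →L[ℝ] E} (ha : a ∈ skew E) (x : E) :
    ‖x + a x‖ ^ 2 = ‖x‖ ^ 2 + ‖a x‖ ^ 2 := by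
  rw [norm_add_sq_real, real_inner_comm, ha x]
  ring

lemma norm_one_sub_sq {a : E →L[ℝ] E} (ha : a ∈ skew E) (x : E) :
    ‖x - a x‖ ^ 2 = ‖x‖ ^ 2 + ‖a x‖ ^ 2 := by
  rw [norm_sub_sq_real, real_inner_comm, ha x]
  ring

lemma norm_le_one_add {a : E →L[ℝ] E} (ha : a ∈ skew E) (x : E) : ‖x‖ ≤ ‖x + a x‖ := by
  have h := norm_one_add_sq ha x
  exact le_of_sq_le_sq (by nlinarith [sq_nonneg ‖a x‖]) (norm_nonneg _)

lemma isUnit_one_add {a : E →L[ℝ] E} (ha : a ∈ skew E) : IsUnit (1 + a) := by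
  have := FiniteDimensional.complete ℝ E
  rw [ContinuousLinearMap.isUnit_iff_bijective]
  have hinj : Function.Injective (1 + a : E →L[ℝ] E) := by
    rw [injective_iff_map_eq_zero]
    intro x hx
    have h := norm_le_one_add ha x
    rw [← one_add_apply, hx, norm_zero] at h
    exact norm_le_zero_iff.1 h
  refine ⟨hinj, ?_⟩
  exact (LinearMap.injective_iff_surjective (f := (1 + a : E →L[ℝ] E).toLinearMap)).1 hinj

lemma rinv_spec {a : E →L[ℝ] E} (ha : a ∈ skew E) (x : E) : rinv a x + a (rinv a x) = x := by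
  have h := Ring.mul_inverse_cancel _ (isUnit_one_add ha)
  have h2 := congrArg (fun L : E →L[ℝ] E => L x) h
  exact h2

lemma rinv_spec' {a : E →L[ℝ] E} (ha : a ∈ skew E) (x : E) : rinv a (x + a x) = x := by
  have h := Ring.inverse_mul_cancel _ (isUnit_one_add ha)
  have h2 := congrArg (fun L : E →L[ℝ] E => L x) h
  exact h2

lemma norm_rinv_apply_le {a : E →L[ℝ] E} (ha : a ∈ skew E) (x : E) : ‖rinv a x‖ ≤ ‖x‖ := by
  have h := norm_le_one_add ha (rinv a x)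
  rwa [rinv_spec ha] at h

lemma cay_apply (a : E →L[ℝ] E) (x : E) : cay a x = (2 : ℝ) • rinv a x - x := rfl

lemma cay_eq {a : E →L[ℝ] E} (ha : a ∈ skew E) (x : E) :
    cay a x = rinv a x - a (rinv a x) := by
  rw [cay_apply]
  have h := rinv_spec ha x
  have h2 : x = rinv a x + a (rinv a x) := h.symm
  rw [two_smul]
  nth_rewrite 3 [h2]
  abel

lemma norm_cay {a : E →L[ℝ] E} (ha : a ∈ skew E) (x : E) : ‖cay a x‖ = ‖x‖ := by
  have h1 := norm_one_sub_sq ha (rinv a x)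
  have h2 := norm_one_add_sq ha (rinv a x)
  rw [← cay_eq ha] at h1
  rw [rinv_spec ha] at h2
  have : ‖cay a x‖ ^ 2 = ‖x‖ ^ 2 := by rw [h1, h2]
  exact (pow_left_inj₀ (norm_nonneg _) (norm_nonneg _) two_ne_zero).1 this

/-- `cay a` is orthogonal for skew `a` -/
theorem exists_cayE {a : E →L[ℝ] E} (ha : a ∈ skew E) :
    ∃ Q : E ≃ₗᵢ[ℝ] E, ∀ x, Q x = cay a x := by
  let li : E →ₗᵢ[ℝ] E := ⟨(cay a).toLinearMap, norm_cay ha⟩
  exact ⟨li.toLinearIsometryEquiv rfl, fun x => rfl⟩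

lemma dcay_apply (a b : E →L[ℝ] E) (x : E) : dcay a b x = (-2 : ℝ) • rinv a (b (rinv a x)) := rfl

lemma rinv_sub {a a' : E →L[ℝ] E} (ha : a ∈ skew E) (ha' : a' ∈ skew E) (x : E) :
    rinv a x - rinv a' x = -rinv a ((a - a') (rinv a' x)) := by
  have h1 : rinv a' x = rinv a (rinv a' x + a (rinv a' x)) := (rinv_spec' ha _).symm
  have h2 : rinv a x = rinv a (rinv a' x + a' (rinv a' x)) := by rw [rinv_spec ha']
  calc rinv a x - rinv a' x
      = rinv a (rinv a' x + a' (rinv a' x)) - rinv a (rinv a' x + a (rinv a' x)) := by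
        rw [← h2, ← h1]
    _ = rinv a ((rinv a' x + a' (rinv a' x)) - (rinv a' x + a (rinv a' x))) := by rw [map_sub]
    _ = rinv a (-((a - a') (rinv a' x))) := by
        congr 1
        rw [sub_apply]
        abel
    _ = _ := by rw [map_neg]

lemma norm_rinv_sub_le {a a' : E →L[ℝ] E} (ha : a ∈ skew E) (ha' : a' ∈ skew E) (x : E) :
    ‖rinv a x - rinv a' x‖ ≤ ‖a - a'‖ * ‖x‖ := by
  rw [rinv_sub ha ha', norm_neg]
  calc ‖rinv a ((a - a') (rinv a' x))‖ ≤ ‖(a - a') (rinv a' x)‖ := norm_rinv_apply_le ha _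
    _ ≤ ‖a - a'‖ * ‖rinv a' x‖ := ContinuousLinearMap.le_opNorm _ _
    _ ≤ ‖a - a'‖ * ‖x‖ := by
        have := norm_rinv_apply_le ha' x
        gcongr

lemma cay_sub (a a' : E →L[ℝ] E) (x : E) :
    cay a x - cay a' x = (2 : ℝ) • (rinv a x - rinv a' x) := by
  rw [cay_apply, cay_apply, smul_sub]
  abel

lemma norm_cay_sub_le {a a' : E →L[ℝ] E} (ha : a ∈ skew E) (ha' : a' ∈ skew E) (x : E) :
    ‖cay a x - cay a' x‖ ≤ 2 * ‖a - a'‖ * ‖x‖ := by
  rw [cay_sub, norm_smul, Real.norm_of_nonneg (by norm_num : (0 : ℝ) ≤ 2), mul_assoc]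
  have := norm_rinv_sub_le ha ha' x
  linarith

lemma norm_dcay_le {a : E →L[ℝ] E} (ha : a ∈ skew E) (b : E →L[ℝ] E) (x : E) :
    ‖dcay a b x‖ ≤ 2 * ‖b‖ * ‖x‖ := by
  rw [dcay_apply, norm_smul, norm_neg, Real.norm_of_nonneg (by norm_num : (0 : ℝ) ≤ 2), mul_assoc]
  have h1 := norm_rinv_apply_le ha (b (rinv a x))
  have h2 := b.le_opNorm (rinv a x)
  have h3 := norm_rinv_apply_le ha x
  have h4 : ‖b‖ * ‖rinv a x‖ ≤ ‖b‖ * ‖x‖ := by gcongr
  linarith

/-- first order expansion of the Cayley transform -/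
lemma norm_cay_taylor_le {a a' : E →L[ℝ] E} (ha : a ∈ skew E) (ha' : a' ∈ skew E) (x : E) :
    ‖cay a' x - cay a x - dcay a (a' - a) x‖ ≤ 2 * ‖a' - a‖ ^ 2 * ‖x‖ := by
  have h1 : cay a' x - cay a x = (-2 : ℝ) • rinv a' ((a' - a) (rinv a x)) := by
    rw [cay_sub, rinv_sub ha' ha, smul_neg, neg_smul]
  have h2 : cay a' x - cay a x - dcay a (a' - a) x
      = (-2 : ℝ) • (rinv a' ((a' - a) (rinv a x)) - rinv a ((a' - a) (rinv a x))) := by
    rw [h1, dcay_apply, smul_sub]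
  rw [h2, norm_smul, norm_neg, Real.norm_of_nonneg (by norm_num : (0 : ℝ) ≤ 2)]
  have h3 := norm_rinv_sub_le ha' ha ((a' - a) (rinv a x))
  have h4 := (a' - a).le_opNorm (rinv a x)
  have h5 := norm_rinv_apply_le ha x
  have h6 : ‖a' - a‖ * ‖rinv a x‖ ≤ ‖a' - a‖ * ‖x‖ := by gcongr
  have h7 : ‖a' - a‖ * ‖(a' - a) (rinv a x)‖ ≤ ‖a' - a‖ * (‖a' - a‖ * ‖x‖) := by
    gcongr
    linarith
  nlinarith

lemma norm_dcay_sub_le {a a' : E →L[ℝ] E} (ha : a ∈ skew E) (ha' : a' ∈ skew E)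
    (b : E →L[ℝ] E) (x : E) :
    ‖dcay a b x - dcay a' b x‖ ≤ 4 * ‖a - a'‖ * ‖b‖ * ‖x‖ := by
  have h1 : dcay a b x - dcay a' b x = (-2 : ℝ) • ((rinv a (b (rinv a x)) - rinv a' (b (rinv a x)))
      + rinv a' (b (rinv a x - rinv a' x))) := by
    rw [dcay_apply, dcay_apply, ← smul_sub, map_sub b, map_sub (rinv a')]
    congr 1
    abel
  rw [h1, norm_smul, norm_neg, Real.norm_of_nonneg (by norm_num : (0 : ℝ) ≤ 2)]
  have h2 := norm_add_le (rinv a (b (rinv a x)) - rinv a' (b (rinv a x)))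
    (rinv a' (b (rinv a x - rinv a' x)))
  have h3 := norm_rinv_sub_le ha ha' (b (rinv a x))
  have h4 := norm_rinv_apply_le ha' (b (rinv a x - rinv a' x))
  have h5 := b.le_opNorm (rinv a x - rinv a' x)
  have h6 := norm_rinv_sub_le ha ha' x
  have h7 := b.le_opNorm (rinv a x)
  have h8 := norm_rinv_apply_le ha x
  have h9 : ‖a - a'‖ * ‖b (rinv a x)‖ ≤ ‖a - a'‖ * (‖b‖ * ‖x‖) := by
    refine mul_le_mul_of_nonneg_left ?_ (norm_nonneg _)
    refine h7.trans ?_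
    gcongr
  have h10 : ‖b‖ * ‖rinv a x - rinv a' x‖ ≤ ‖b‖ * (‖a - a'‖ * ‖x‖) := by gcongr
  nlinarith

/-- in the rotated frame the derivative is skew -/
lemma inner_dcay_cay {a b : E →L[ℝ] E} (ha : a ∈ skew E) (hb : b ∈ skew E) (x : E) :
    ⟪dcay a b x, cay a x⟫ = 0 := by
  rw [dcay_apply, cay_eq ha, real_inner_smul_left]
  set y := rinv a x with hy
  set z := rinv a (b y) with hz
  have h1 : z + a z = b y := rinv_spec ha _
  have h2 : ⟪z, y - a y⟫ = ⟪z + a z, y⟫ := by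
    rw [inner_sub_right, inner_add_left, skew_inner ha z y]
    ring
  rw [h2, h1, hb y, mul_zero]

lemma rinv_zero : rinv (0 : E →L[ℝ] E) = 1 := by
  unfold rinv
  rw [add_zero, Ring.inverse_one]

lemma cay_zero : cay (0 : E →L[ℝ] E) = 1 := by
  unfold cay
  rw [rinv_zero, two_smul]
  abel

lemma dcay_zero (b : E →L[ℝ] E) : dcay 0 b = (-2 : ℝ) • b := by
  unfold dcay
  rw [rinv_zero, one_mul, mul_one]

lemma dcay_add (a b b' : E →L[ℝ] E) : dcay a (b + b') = dcay a b + dcay a b' := by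
  unfold dcay
  rw [mul_add, add_mul, smul_add]

lemma dcay_smul (a b : E →L[ℝ] E) (k : ℝ) : dcay a (k • b) = k • dcay a b := by
  unfold dcay
  rw [mul_smul_comm, smul_mul_assoc, smul_comm]

end alg

end Vale.Agent.P218.H313
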