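import Vale.Agent.P218.H313.Step
import Vale.Agent.P218.H313.Blow

/-! Nondegenerate shrinkers: the chain estimate along good times. -/

open MeasureTheory Set Filter Topology Metric
open scoped ENNReal NNReal RealInnerProductSpace

namespace Vale.Agent.P218.H313

open Vale.Agent.P214 (IntegralVarifold proj divAlong IsTestField)

set_option linter.unusedSectionVars false
set_option linter.unusedVariables false

variable {E : Type*} [NormedAddCommGroup E] [InnerProductSpace ℝ E] [FiniteDimensional ℝ E]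
  [MeasurableSpace E] [BorelSpace E]
variable {m : ℕ} {N : ℝ → Measure E} {T : ℝ → E → Submodule ℝ E} {H : ℝ → E → E} {s₀ : ℝ}
variable {P : Type*} [NormedAddCommGroup P] [NormedSpace ℝ P]
  {V : P → E → ℝ} {V' : P → P →ₗ[ℝ] (E → ℝ)} {r c K : ℝ} {q : ℕ}

/-- the time `s` is good with gauge `a` -/
structure GoodAt (m : ℕ) (N : ℝ → Measure E) (T : ℝ → E → Submodule ℝ E) (H : ℝ → E → E)
    (V : P → E → ℝ) (V' : P → P →ₗ[ℝ] (E → ℝ)) (r₁ lam C₀ : ℝ) (s : ℝ) (a : P) : Prop where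
  sl : GSlice m (N s) (T s) (H s)
  nrm : ‖a‖ ≤ r₁
  crit : ∀ b, GF (N s) V V' a b = 0
  sta : DD (N s) (V a) 0 ≤ C₀ * dis (N s) (T s) (H s)
  mono : ∀ a', ‖a'‖ ≤ r₁ →
    lam * ‖a - a'‖ ^ 2 ≤ GF (N s) V V' a (a - a') - GF (N s) V V' a' (a - a')

lemma int_abs_le {μ : Measure E} {T : E → Submodule ℝ E} {H : E → E} (hS : GSlice m μ T H)
    {W : E → ℝ} (hW : TubeD W c K) : ∫ x, |W x| * rho x ∂μ ≤ √(FA μ) * √(DD μ W 0) := by
  have i1 : Integrable (fun x => (1 : ℝ) ^ 2 * rho x) μ := by simpa using hS.mom 0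
  have i2 : Integrable (fun x => |W x| ^ 2 * rho x) μ := by
    have := hS.int_DD hW 0
    simpa [wt] using this
  have i3 : Integrable (fun x => (1 : ℝ) * |W x| * rho x) μ := by
    have := hS.integrable_PB hW.cont.norm.aestronglyMeasurable hW.pg.b0.norm
    simpa using this
  have h := abs_integral_mul_le (fun x => (rho_pos x).le) i1 i2 i3
  simp only [one_pow, one_mul, sq_abs] at h
  rw [DD_zero_eq]
  exact (le_abs_self _).trans h

namespace RF

variable (h : RF m N T H s₀)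
include h

/-- **the chain estimate** -/
theorem exists_chain (hE : Module.finrank ℝ E = m + 1) (hF : Fam m V V' r c K q) {r₁ lam C₀ : ℝ}
    (hr₁ : r₁ ≤ r) (hlam : 0 < lam) (hC₀ : 0 ≤ C₀) :
    ∃ δ : ℝ, 0 < δ ∧ ∀ φ : E → ℝ, ContDiff ℝ 2 φ → HasCompactSupport φ → ∃ C : ℝ, 0 ≤ C ∧
      ∀ (t : ℕ → ℝ) (a : ℕ → P), (∀ j, s₀ ≤ t j) → (∀ j, t j ≤ t (j + 1)) →
        (∀ j, t (j + 1) ≤ t j + δ) → ∀ k K', k ≤ K' →
        (∀ j, k ≤ j → j ≤ K' → GoodAt m N T H V V' r₁ lam C₀ (t j) (a j)) →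
        |∫ x, φ x * rho x ∂(N (t K')) - ∫ x, φ x * rho x ∂(N (t k))|
          ≤ C * (√(dis (N (t k)) (T (t k)) (H (t k))) + √(dis (N (t K')) (T (t K')) (H (t K')))
            + ∑ j ∈ Finset.Ico k K', (dis (N (t j)) (T (t j)) (H (t j))
              + (FA (N (t j)) - FA (N (t (j + 1)))))) := by
  have hc : 0 < c := (hF.tube 0 (by simpa using hF.rpos.le)).cpos
  have hK : 0 ≤ K := (hF.tube 0 (by simpa using hF.rpos.le)).K_nonneg
  obtain ⟨δ, hδ, C₁, hC₁, hdrift⟩ := h.exists_drift hE hc hK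
  obtain ⟨C₂, hC₂, hD1⟩ := exists_DD_one_le (E := E) hE hc hK
  refine ⟨δ, hδ, fun φ hφ hφc => ?_⟩
  obtain ⟨A, hA, hct⟩ := exists_ct hE hc hK hφ hφc
  obtain ⟨B, hB, hb0, hb1, hb2⟩ := exists_bounds2 hφ hφc
  obtain ⟨M, hM⟩ := h.moment q
  have hM0 : 0 ≤ M := (integral_nonneg fun x => mul_nonneg (by positivity) (rho_pos x).le).trans
    (hM s₀ le_rfl).2
  set C₃ := C₂ * (C₀ + 1) + 1 with hC₃
  have hC₃0 : 0 ≤ C₃ := by positivity
  -- constants
  set F₀ := FA (N s₀) with hF₀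
  have hF₀0 : 0 ≤ F₀ := FA_nonneg _
  set Cb := B * K * √F₀ * √C₀ with hCb
  set Ca := C₁ * K * C₃ / lam with hCa
  set Ce := C₁ * A * C₃ + (2 * B * K ^ 2 * M) * Ca with hCe
  have hCb0 : 0 ≤ Cb := by positivity
  have hCa0 : 0 ≤ Ca := by positivity
  have hCe0 : 0 ≤ Ce := by positivity
  refine ⟨Cb + Ce, by positivity, fun t a ht0 htm htδ k K' hkK hgood => ?_⟩
  set d : ℕ → ℝ := fun j => dis (N (t j)) (T (t j)) (H (t j)) with hd
  set f : ℕ → ℝ := fun j => FA (N (t j)) - FA (N (t (j + 1))) with hf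
  have hd0 : ∀ j, 0 ≤ d j := fun j => dis_nonneg
  have hf0 : ∀ j, 0 ≤ f j := fun j => by
    have := h.FA_anti (ht0 j) (htm j)
    simp only [hf]; linarith
  set Ef : ℕ → ℝ := fun j => ∫ x, ct φ (V (a j)) x * rho x ∂(N (t j)) with hEf
  have htube : ∀ j, k ≤ j → j ≤ K' → TubeD (V (a j)) c K := fun j h1 h2 =>
    hF.tube _ ((hgood j h1 h2).nrm.trans hr₁)
  have hDD : ∀ j, k ≤ j → j ≤ K' → DD (N (t j)) (V (a j)) 1 + f j ≤ C₃ * (d j + f j) := by
    intro j h1 h2
    have g := hgood j h1 h2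
    have e1 := hD1 _ (htube j h1 h2) _ _ _ g.sl
    have e2 := g.sta
    have e3 : DD (N (t j)) (V (a j)) 1 ≤ C₂ * (C₀ + 1) * d j := by
      refine e1.trans ?_
      have : DD (N (t j)) (V (a j)) 0 + dis (N (t j)) (T (t j)) (H (t j)) ≤ (C₀ + 1) * d j := by
        simp only [hd]; linarith
      calc C₂ * (DD (N (t j)) (V (a j)) 0 + dis (N (t j)) (T (t j)) (H (t j)))
          ≤ C₂ * ((C₀ + 1) * d j) := by gcongr
        _ = _ := by ring
    have e4 : 0 ≤ C₂ * (C₀ + 1) * f j := by have := hf0 j; positivity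
    rw [hC₃]
    nlinarith [hd0 j, hf0 j]
  -- the boundary terms
  have hbdry : ∀ j, k ≤ j → j ≤ K' → |∫ x, φ x * rho x ∂(N (t j)) - Ef j| ≤ Cb * √(d j) := by
    intro j h1 h2
    have g := hgood j h1 h2
    have hW := htube j h1 h2
    have i1 : Integrable (fun x => φ x * rho x) (N (t j)) :=
      g.sl.integrable_PB hφ.continuous.aestronglyMeasurable (PB.of_compact hφ.continuous hφc)
    have i2 : Integrable (fun x => ct φ (V (a j)) x * rho x) (N (t j)) :=
      g.sl.integrable_PB (pg_ct hφ hφc hW).cont.aestronglyMeasurable (pg_ct hφ hφc hW).b0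
    have i3 : Integrable (fun x => |V (a j) x| * rho x) (N (t j)) :=
      g.sl.integrable_PB hW.cont.norm.aestronglyMeasurable hW.pg.b0.norm
    simp only [hEf]
    rw [← integral_sub i1 i2, ← Real.norm_eq_abs]
    have e1 : ‖∫ x, (φ x * rho x - ct φ (V (a j)) x * rho x) ∂(N (t j))‖
        ≤ ∫ x, B * K * (|V (a j) x| * rho x) ∂(N (t j)) := by
      refine norm_integral_le_of_norm_le (i3.const_mul _) (Eventually.of_forall fun x => ?_)
      have e2 : φ x * rho x - ct φ (V (a j)) x * rho x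
          = nc φ (V (a j)) x * (V (a j) x * rho x) := by
        unfold ct; ring
      rw [e2, norm_mul, norm_mul, Real.norm_of_nonneg (rho_pos x).le, Real.norm_eq_abs,
        Real.norm_eq_abs]
      refine mul_le_mul_of_nonneg_right ?_ (mul_nonneg (abs_nonneg _) (rho_pos x).le)
      exact (abs_real_inner_le_norm _ _).trans (mul_le_mul (hb1 x) (hW.b1 x) (norm_nonneg _) hB)
    rw [integral_const_mul] at e1
    refine e1.trans ?_
    have e3 := int_abs_le g.sl hW
    have e4 : √(FA (N (t j))) ≤ √F₀ := Real.sqrt_le_sqrt (h.FA_anti le_rfl (ht0 j))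
    have e5 : √(DD (N (t j)) (V (a j)) 0) ≤ √C₀ * √(d j) := by
      rw [← Real.sqrt_mul hC₀]
      exact Real.sqrt_le_sqrt g.sta
    calc B * K * ∫ x, |V (a j) x| * rho x ∂(N (t j))
        ≤ B * K * (√F₀ * (√C₀ * √(d j))) := by
          refine mul_le_mul_of_nonneg_left (e3.trans ?_) (by positivity)
          exact mul_le_mul e4 e5 (Real.sqrt_nonneg _) (Real.sqrt_nonneg _)
      _ = Cb * √(d j) := by rw [hCb]; ring
  -- one step for the gauge
  have hgauge : ∀ j, k ≤ j → j + 1 ≤ K' → ‖a (j + 1) - a j‖ ≤ Ca * (d j + f j) := by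
    intro j h1 h2
    have g := hgood j h1 (by omega)
    have g' := hgood (j + 1) (by omega) h2
    have ha := g.nrm.trans hr₁
    set b := a (j + 1) - a j with hb
    have e1 := g'.mono (a j) g.nrm
    rw [← hb, g'.crit b, zero_sub] at e1
    have e2 := hdrift (V (a j)) (hF.tube _ ha) (fun x => V (a j) x * V' (a j) b x) (K * ‖b‖)
      (by positivity) (hF.pgψ ha b) (hF.bound_ψ ha b)
      (fun μ T H hS => hF.drift (a j) ha b μ T H hS) (t j) (t (j + 1)) (ht0 j) (htm j) (htδ j)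
    have e3 : ∫ x, V (a j) x * V' (a j) b x * rho x ∂(N (t j)) = 0 := g.crit b
    rw [e3, sub_zero] at e2
    have e4 := neg_abs_le (∫ x, V (a j) x * V' (a j) b x * rho x ∂(N (t (j + 1))))
    have e5 : lam * ‖b‖ ^ 2 ≤ C₁ * (K * ‖b‖) * (C₃ * (d j + f j)) := by
      have e6 : lam * ‖b‖ ^ 2 ≤ -∫ x, V (a j) x * V' (a j) b x * rho x ∂(N (t (j + 1))) := e1
      refine e6.trans ((neg_le_abs _).trans (e2.trans ?_))
      exact mul_le_mul_of_nonneg_left (hDD j h1 (by omega)) (by positivity)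
    rcases (norm_nonneg b).eq_or_lt with h0 | h0
    · rw [← h0]
      exact mul_nonneg hCa0 (add_nonneg (hd0 j) (hf0 j))
    · have e7 : lam * ‖b‖ ≤ C₁ * K * C₃ * (d j + f j) := by
        have : ‖b‖ * (lam * ‖b‖) ≤ ‖b‖ * (C₁ * K * C₃ * (d j + f j)) := by
          calc ‖b‖ * (lam * ‖b‖) = lam * ‖b‖ ^ 2 := by ring
            _ ≤ _ := e5
            _ = _ := by ring
        exact le_of_mul_le_mul_left this h0
      rw [hCa, div_mul_eq_mul_div, le_div_iff₀ hlam]
      linarith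
  -- one step for the test function
  have hstep : ∀ j, k ≤ j → j + 1 ≤ K' → |Ef (j + 1) - Ef j| ≤ Ce * (d j + f j) := by
    intro j h1 h2
    have g := hgood j h1 (by omega)
    have g' := hgood (j + 1) (by omega) h2
    have hW := htube j h1 (by omega)
    have hW' := htube (j + 1) (by omega) h2
    obtain ⟨q1, q2⟩ := hct (V (a j)) hW
    have e2 := hdrift (V (a j)) hW (ct φ (V (a j))) A hA (pg_ct hφ hφc hW) q1 q2
      (t j) (t (j + 1)) (ht0 j) (htm j) (htδ j)
    have e3 : |∫ x, ct φ (V (a j)) x * rho x ∂(N (t (j + 1))) - Ef j| ≤ C₁ * A * (C₃ * (d j + f j)) :=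
      e2.trans (mul_le_mul_of_nonneg_left (hDD j h1 (by omega)) (by positivity))
    -- change of the gauge
    have i1 : Integrable (fun x => ct φ (V (a j)) x * rho x) (N (t (j + 1))) :=
      g'.sl.integrable_PB (pg_ct hφ hφc hW).cont.aestronglyMeasurable (pg_ct hφ hφc hW).b0
    have i2 : Integrable (fun x => ct φ (V (a (j + 1))) x * rho x) (N (t (j + 1))) :=
      g'.sl.integrable_PB (pg_ct hφ hφc hW').cont.aestronglyMeasurable (pg_ct hφ hφc hW').b0
    have e4 : |Ef (j + 1) - ∫ x, ct φ (V (a j)) x * rho x ∂(N (t (j + 1)))|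
        ≤ (2 * B * K ^ 2 * M) * ‖a (j + 1) - a j‖ := by
      simp only [hEf]
      rw [← integral_sub i2 i1, ← Real.norm_eq_abs]
      obtain ⟨j1, j2⟩ := hM (t (j + 1)) (ht0 _)
      have e5 : ‖∫ x, (ct φ (V (a (j + 1))) x * rho x - ct φ (V (a j)) x * rho x)
          ∂(N (t (j + 1)))‖ ≤ ∫ x, (2 * B * K ^ 2 * ‖a (j + 1) - a j‖) * ((1 + ‖x‖) ^ q * rho x)
            ∂(N (t (j + 1))) := by
        refine norm_integral_le_of_norm_le (j1.const_mul _) (Eventually.of_forall fun x => ?_)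
        rw [← sub_mul, norm_mul, Real.norm_of_nonneg (rho_pos x).le, ← mul_assoc]
        refine mul_le_mul_of_nonneg_right ?_ (rho_pos x).le
        have l1 := hF.lip (a (j + 1)) (a j) (g'.nrm.trans hr₁) (g.nrm.trans hr₁) x
        have l2 := hF.lipg (a (j + 1)) (a j) (g'.nrm.trans hr₁) (g.nrm.trans hr₁) x
        have n1 : |nc φ (V (a (j + 1))) x| ≤ B * K := (abs_real_inner_le_norm _ _).trans
          (mul_le_mul (hb1 x) (hW'.b1 x) (norm_nonneg _) hB)
        have n2 : |nc φ (V (a (j + 1))) x - nc φ (V (a j)) x|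
            ≤ B * (K * (1 + ‖x‖) ^ q * ‖a (j + 1) - a j‖) := by
          unfold nc
          rw [← inner_sub_right]
          exact (abs_real_inner_le_norm _ _).trans (mul_le_mul (hb1 x) l2 (norm_nonneg _) hB)
        have e6 : ct φ (V (a (j + 1))) x - ct φ (V (a j)) x
            = -((V (a (j + 1)) x - V (a j) x) * nc φ (V (a (j + 1))) x
              + V (a j) x * (nc φ (V (a (j + 1))) x - nc φ (V (a j)) x)) := by
          unfold ct; ring
        rw [e6, norm_neg, Real.norm_eq_abs]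
        refine (abs_add_le _ _).trans ?_
        rw [abs_mul, abs_mul]
        have n3 : |V (a (j + 1)) x - V (a j) x| * |nc φ (V (a (j + 1))) x|
            ≤ (K * (1 + ‖x‖) ^ q * ‖a (j + 1) - a j‖) * (B * K) :=
          mul_le_mul l1 n1 (abs_nonneg _) (by positivity)
        have n4 : |V (a j) x| * |nc φ (V (a (j + 1))) x - nc φ (V (a j)) x|
            ≤ K * (B * (K * (1 + ‖x‖) ^ q * ‖a (j + 1) - a j‖)) :=
          mul_le_mul (hW.b0 x) n2 (abs_nonneg _) hK
        refine (add_le_add n3 n4).trans (le_of_eq ?_)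
        ring
      rw [integral_const_mul] at e5
      refine e5.trans ?_
      calc 2 * B * K ^ 2 * ‖a (j + 1) - a j‖ * ∫ x, (1 + ‖x‖) ^ q * rho x ∂(N (t (j + 1)))
          ≤ 2 * B * K ^ 2 * ‖a (j + 1) - a j‖ * M := by gcongr
        _ = _ := by ring
    have e5 := hgauge j h1 h2
    have e6 : (2 * B * K ^ 2 * M) * ‖a (j + 1) - a j‖
        ≤ (2 * B * K ^ 2 * M) * (Ca * (d j + f j)) := by gcongr
    have e7 := abs_sub_le (Ef (j + 1)) (∫ x, ct φ (V (a j)) x * rho x ∂(N (t (j + 1)))) (Ef j)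
    refine e7.trans ?_
    rw [hCe]
    nlinarith
  -- telescoping
  have htel : ∀ L, k ≤ L → L ≤ K' →
      |Ef L - Ef k| ≤ Ce * ∑ j ∈ Finset.Ico k L, (d j + f j) := by
    intro L hL
    induction L, hL using Nat.le_induction with
    | base => intro _; simp
    | succ L hL ih =>
      intro hL'
      rw [Finset.sum_Ico_succ_top hL, mul_add]
      have e1 := ih (by omega)
      have e2 := hstep L hL hL'
      have e3 := abs_sub_le (Ef (L + 1)) (Ef L) (Ef k)
      linarith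
  have t1 := htel K' hkK le_rfl
  have t2 := hbdry k le_rfl hkK
  have t3 := hbdry K' hkK le_rfl
  set S := ∑ j ∈ Finset.Ico k K', (d j + f j) with hS
  have hS0 : 0 ≤ S := Finset.sum_nonneg fun j _ => add_nonneg (hd0 j) (hf0 j)
  have e1 : ∫ x, φ x * rho x ∂(N (t K')) - ∫ x, φ x * rho x ∂(N (t k))
      = (∫ x, φ x * rho x ∂(N (t K')) - Ef K') + (Ef K' - Ef k)
        - (∫ x, φ x * rho x ∂(N (t k)) - Ef k) := by ring
  rw [e1]
  have e2 := abs_sub ((∫ x, φ x * rho x ∂(N (t K')) - Ef K') + (Ef K' - Ef k))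
    (∫ x, φ x * rho x ∂(N (t k)) - Ef k)
  have e3 := abs_add_le (∫ x, φ x * rho x ∂(N (t K')) - Ef K') (Ef K' - Ef k)
  have p1 : 0 ≤ √(d k) := Real.sqrt_nonneg _
  have p2 : 0 ≤ √(d K') := Real.sqrt_nonneg _
  change _ ≤ (Cb + Ce) * (√(d k) + √(d K') + S)
  nlinarith [mul_nonneg hCe0 p1, mul_nonneg hCe0 p2, mul_nonneg hCb0 hS0]

end RF

end Vale.Agent.P218.H313
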