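import Vale.Agent.P218.H313.Fam
import Vale.Agent.P218.H313.A2

/-! Nondegenerate shrinkers: estimates along the flow on short time intervals. -/

open MeasureTheory Set Filter Topology Metric
open scoped ENNReal NNReal RealInnerProductSpace

namespace Vale.Agent.P218.H313

open Vale.Agent.P214 (IntegralVarifold proj divAlong IsTestField)

set_option linter.unusedSectionVars false
set_option linter.unusedVariables false

variable {E : Type*} [NormedAddCommGroup E] [InnerProductSpace ℝ E] [FiniteDimensional ℝ E]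
  [MeasurableSpace E] [BorelSpace E]
variable {m : ℕ} {N : ℝ → Measure E} {T : ℝ → E → Submodule ℝ E} {H : ℝ → E → E} {s₀ : ℝ}

/-- the Gaussian area -/
noncomputable def FA (μ : Measure E) : ℝ := ∫ x, rho x ∂μ

namespace RF

variable (h : RF m N T H s₀)
include h

lemma ineq_PG {f : E → ℝ} (hf : PG f) (hnn : ∀ x, 0 ≤ f x) {a b : ℝ} (ha : s₀ ≤ a)
    (hab : a ≤ b) :
    IntervalIntegrable (fun s => LL (N s) (T s) (H s) f) volume a b ∧
      ∫ x, f x * rho x ∂(N b) - ∫ x, f x * rho x ∂(N a)
        ≤ ∫ s in a..b, LL (N s) (T s) (H s) f :=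
  h.ineq_poly hf.cd hf.b0 hf.b1 hnn ha hab

omit h in
lemma LL_one (μ : Measure E) (T : E → Submodule ℝ E) (H : E → E) :
    LL μ T H (fun _ => 1) = - dis μ T H := by
  unfold LL dis
  rw [← integral_neg]
  congr 1; ext x
  simp

/-- the dissipation is integrable in time -/
lemma dis_int {a b : ℝ} (ha : s₀ ≤ a) (hab : a ≤ b) :
    IntervalIntegrable (fun s => dis (N s) (T s) (H s)) volume a b ∧
      ∫ s in a..b, dis (N s) (T s) (H s) ≤ FA (N a) - FA (N b) := by
  obtain ⟨h1, h2⟩ := h.ineq_PG (PG.const (1 : ℝ)) (fun _ => zero_le_one) ha hab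
  simp_rw [LL_one] at h1 h2
  have h3 := h1.neg
  have e : (-fun s => -dis (N s) (T s) (H s)) = fun s => dis (N s) (T s) (H s) := by
    ext s; simp
  rw [e] at h3
  refine ⟨h3, ?_⟩
  rw [intervalIntegral.integral_neg] at h2
  unfold FA
  simp only [one_mul] at h2
  linarith

lemma FA_anti {a b : ℝ} (ha : s₀ ≤ a) (hab : a ≤ b) : FA (N b) ≤ FA (N a) := by
  obtain ⟨h1, h2⟩ := h.dis_int ha hab
  have h3 : 0 ≤ ∫ s in a..b, dis (N s) (T s) (H s) :=
    intervalIntegral.integral_nonneg hab fun s _ => dis_nonneg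
  linarith

omit h in
lemma FA_nonneg (μ : Measure E) : 0 ≤ FA μ := integral_nonneg fun x => (rho_pos x).le

/-- almost everywhere in a time interval the slice is good -/
lemma ae_gslice {a b : ℝ} (ha : s₀ ≤ a) (hab : a ≤ b) :
    ∀ᵐ s ∂(volume.restrict (Icc a b)), GSlice m (N s) (T s) (H s) := by
  rw [ae_restrict_iff' measurableSet_Icc]
  filter_upwards [h.gslice] with s hs h1
  exact hs (ha.trans h1.1)

/-- a time with small dissipation -/
lemma exists_good {a b : ℝ} (ha : s₀ ≤ a) (hab : a < b) :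
    ∃ s ∈ Icc a b, GSlice m (N s) (T s) (H s) ∧
      dis (N s) (T s) (H s) ≤ (FA (N a) - FA (N b)) / (b - a) := by
  obtain ⟨h1, h2⟩ := h.dis_int ha hab.le
  by_contra hcon
  push Not at hcon
  have h3 : ∀ᵐ s ∂(volume.restrict (Icc a b)),
      (FA (N a) - FA (N b)) / (b - a) < dis (N s) (T s) (H s) := by
    filter_upwards [h.ae_gslice ha hab.le, ae_restrict_mem measurableSet_Icc] with s hs hs'
    exact hcon s hs' hs
  have h4 : ∫ s in a..b, (FA (N a) - FA (N b)) / (b - a) < ∫ s in a..b, dis (N s) (T s) (H s) := by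
    refine intervalIntegral.integral_lt_integral_of_ae_le_of_measure_setOfPred_lt_ne_zero hab.le
      intervalIntegrable_const h1 ?_ ?_
    · exact (ae_restrict_of_ae_restrict_of_subset Ioc_subset_Icc_self h3).mono fun s hs => hs.le
    · intro h0
      have h5 : ∀ᵐ s ∂(volume.restrict (Ioc a b)),
          (FA (N a) - FA (N b)) / (b - a) < dis (N s) (T s) (H s) :=
        ae_restrict_of_ae_restrict_of_subset Ioc_subset_Icc_self h3
      have h6 : ∀ᵐ s ∂(volume.restrict (Ioc a b)),
          ¬ ((FA (N a) - FA (N b)) / (b - a) < dis (N s) (T s) (H s)) := by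
        rw [ae_iff]
        simpa using h0
      have h7 : ∀ᵐ s ∂(volume.restrict (Ioc a b)), False := by
        filter_upwards [h5, h6] with s h8 h9 using h9 h8
      rw [ae_iff] at h7
      simp only [not_false_eq_true, ofPred_true, Measure.restrict_apply_univ, Real.volume_Ioc,
        ENNReal.ofReal_eq_zero] at h7
      linarith
  rw [intervalIntegral.integral_const, smul_eq_mul, mul_div_cancel₀] at h4
  · linarith
  · linarith

/-- **short time estimate** for the weighted squared distance -/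
theorem exists_short (hE : Module.finrank ℝ E = m + 1) {c K : ℝ} (hc : 0 < c) (hK : 0 ≤ K) :
    ∃ δ : ℝ, 0 < δ ∧ ∀ W : E → ℝ, TubeD W c K → ∀ a b : ℝ, s₀ ≤ a → a ≤ b → b ≤ a + δ →
      (∀ s ∈ Icc a b, DD (N s) W 1 ≤ 2 * DD (N a) W 1) ∧
      ∃ G : ℝ → ℝ, IntervalIntegrable G volume a b ∧
        (∀ᵐ s ∂(volume.restrict (Icc a b)), GSlice m (N s) (T s) (H s) ∧
          TG (N s) (T s) W 1 + 1 / 2 * VW (N s) (T s) (H s) W 1 ≤ G s) ∧
        ∫ s in a..b, G s ≤ 2 * DD (N a) W 1 := by
  obtain ⟨C, hC, hLL⟩ := exists_LL_le (E := E) hE hc hK 1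
  obtain ⟨M, hM⟩ := h.moment 2
  refine ⟨1 / (2 * (C + 1)), by positivity, fun W hW a b ha hab hb => ?_⟩
  have hpg := pg_sq_wt hW 1
  have hnn : ∀ x, 0 ≤ W x ^ 2 * wt 1 x := fun x => mul_nonneg (sq_nonneg _) (wt_pos 1 x).le
  -- upper bound
  have hbd : ∀ s, s₀ ≤ s → DD (N s) W 1 ≤ K ^ 2 * M := by
    intro s hs
    obtain ⟨i1, i2⟩ := hM s hs
    refine le_trans ?_ (mul_le_mul_of_nonneg_left i2 (sq_nonneg K))
    rw [← integral_const_mul]
    refine integral_mono_of_nonneg (Eventually.of_forall fun x => ?_) (i1.const_mul _)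
      (Eventually.of_forall fun x => ?_)
    · have := rho_pos x
      simp only [Pi.zero_apply]; positivity
    · have h1 := hW.b0 x
      have h2 : W x ^ 2 ≤ K ^ 2 := by rw [← sq_abs]; gcongr
      have h3 : (1 + ‖x‖ ^ 2) ^ 1 ≤ (1 + ‖x‖) ^ 2 := by nlinarith [norm_nonneg x]
      have h4 := rho_pos x
      calc W x ^ 2 * (1 + ‖x‖ ^ 2) ^ 1 * rho x ≤ K ^ 2 * (1 + ‖x‖) ^ 2 * rho x := by gcongr
        _ = _ := by ring
  set S := sSup ((fun s => DD (N s) W 1) '' Icc a b) with hS
  have hbdd : BddAbove ((fun s => DD (N s) W 1) '' Icc a b) := by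
    refine ⟨K ^ 2 * M, ?_⟩
    rintro _ ⟨s, hs, rfl⟩
    exact hbd s (ha.trans hs.1)
  have hne : ((fun s => DD (N s) W 1) '' Icc a b).Nonempty := ⟨_, a, left_mem_Icc.2 hab, rfl⟩
  have hle : ∀ s ∈ Icc a b, DD (N s) W 1 ≤ S := fun s hs => le_csSup hbdd ⟨s, hs, rfl⟩
  have hS0 : 0 ≤ S := (DD_nonneg (μ := N a) (W := W) 1).trans (hle a (left_mem_Icc.2 hab))
  -- the rate
  have hrate : ∀ᵐ s ∂(volume.restrict (Icc a b)), GSlice m (N s) (T s) (H s) ∧
      LL (N s) (T s) (H s) (fun x => W x ^ 2 * wt 1 x)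
        ≤ - TG (N s) (T s) W 1 - 1 / 2 * VW (N s) (T s) (H s) W 1 + C * S := by
    filter_upwards [h.ae_gslice ha hab, ae_restrict_mem measurableSet_Icc] with s hs hs'
    have h1 := hLL W hW (N s) (T s) (H s) hs
    have h2 := mul_le_mul_of_nonneg_left (hle s hs') hC
    exact ⟨hs, by linarith⟩
  have hδ : C * (b - a) ≤ 1 / 2 := by
    have h1 : b - a ≤ 1 / (2 * (C + 1)) := by linarith
    calc C * (b - a) ≤ C * (1 / (2 * (C + 1))) := by gcongr
      _ ≤ 1 / 2 := by
          rw [mul_one_div, div_le_div_iff₀ (by positivity) (by norm_num)]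
          nlinarith
  have hSle : S ≤ DD (N a) W 1 + 1 / 2 * S := by
    refine csSup_le hne ?_
    rintro _ ⟨s, hs, rfl⟩
    obtain ⟨i1, i2⟩ := h.ineq_PG hpg hnn ha hs.1
    have i3 : ∫ t in a..s, LL (N t) (T t) (H t) (fun x => W x ^ 2 * wt 1 x)
        ≤ ∫ t in a..s, C * S := by
      refine intervalIntegral.integral_mono_ae_restrict hs.1 i1 intervalIntegrable_const ?_
      have h5 := ae_restrict_of_ae_restrict_of_subset (Icc_subset_Icc_right hs.2) hrate
      filter_upwards [h5] with t ht
      have h3 := TG_nonneg (μ := N t) (T := T t) (W := W) 1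
      have h4 := VW_nonneg (μ := N t) (T := T t) (H := H t) (W := W) 1
      linarith [ht.2]
    rw [intervalIntegral.integral_const, smul_eq_mul] at i3
    have h6 : (s - a) * (C * S) ≤ 1 / 2 * S := by
      have : (s - a) * (C * S) = C * (s - a) * S := by ring
      rw [this]
      refine mul_le_mul_of_nonneg_right ?_ hS0
      exact (mul_le_mul_of_nonneg_left (by linarith [hs.2]) hC).trans hδ
    have e : ∀ s, ∫ x, W x ^ 2 * wt 1 x * rho x ∂(N s) = DD (N s) W 1 := fun s => rfl
    rw [e, e] at i2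
    simp only
    linarith
  have hS2 : S ≤ 2 * DD (N a) W 1 := by linarith
  refine ⟨fun s hs => (hle s hs).trans hS2, fun s => C * S
    - LL (N s) (T s) (H s) (fun x => W x ^ 2 * wt 1 x), ?_, ?_, ?_⟩
  · exact intervalIntegrable_const.sub (h.ineq_PG hpg hnn ha hab).1
  · filter_upwards [hrate] with s hs
    exact ⟨hs.1, by linarith [hs.2]⟩
  · obtain ⟨i1, i2⟩ := h.ineq_PG hpg hnn ha hab
    rw [intervalIntegral.integral_sub intervalIntegrable_const i1,
      intervalIntegral.integral_const, smul_eq_mul]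
    have e : ∀ s, ∫ x, W x ^ 2 * wt 1 x * rho x ∂(N s) = DD (N s) W 1 := fun s => rfl
    rw [e, e] at i2
    have h6 : (b - a) * (C * S) ≤ 1 / 2 * S := by
      have : (b - a) * (C * S) = C * (b - a) * S := by ring
      rw [this]
      exact mul_le_mul_of_nonneg_right hδ hS0
    have h7 := DD_nonneg (μ := N b) (W := W) 1
    linarith

/-- **drift principle**: functions whose first variation is of second order vary slowly -/
theorem exists_drift (hE : Module.finrank ℝ E = m + 1) {c K : ℝ} (hc : 0 < c) (hK : 0 ≤ K) :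
    ∃ δ : ℝ, 0 < δ ∧ ∃ C : ℝ, 0 ≤ C ∧ ∀ W : E → ℝ, TubeD W c K → ∀ (ψ : E → ℝ) (A : ℝ), 0 ≤ A →
      PG ψ → (∀ x, |ψ x| ≤ A * (1 + W x ^ 2 * wt 1 x)) →
      (∀ (μ : Measure E) (T : E → Submodule ℝ E) (H : E → E), GSlice m μ T H →
        |∫ x, ⟪grad ψ x, vel T H x⟫ * rho x ∂μ| ≤ A * (DD μ W 1 + TG μ T W 1 + dis μ T H)) →
      ∀ a b : ℝ, s₀ ≤ a → a ≤ b → b ≤ a + δ →
      |∫ x, ψ x * rho x ∂(N b) - ∫ x, ψ x * rho x ∂(N a)|
        ≤ C * A * (DD (N a) W 1 + (FA (N a) - FA (N b))) := by
  obtain ⟨δ, hδ, hshort⟩ := h.exists_short hE hc hK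
  obtain ⟨C, hC, hLL⟩ := exists_LL_le (E := E) hE hc hK 1
  refine ⟨δ, hδ, 2 * (C + 1) * δ + 3 + 2, by positivity,
    fun W hW ψ A hA hψ hψb hψg a b ha hab hb => ?_⟩
  obtain ⟨hD, G, hG1, hG2, hG3⟩ := hshort W hW a b ha hab hb
  have hDa := DD_nonneg (μ := N a) (W := W) 1
  have hDb := DD_nonneg (μ := N b) (W := W) 1
  have hFd : 0 ≤ FA (N a) - FA (N b) := by linarith [h.FA_anti ha hab]
  obtain ⟨M, hM⟩ := h.moment 0
  have hfpg := pg_sq_wt hW 1
  -- one-sided version
  have key : ∀ η : E → ℝ, PG η → (∀ x, |η x| ≤ A * (1 + W x ^ 2 * wt 1 x)) →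
      (∀ (μ : Measure E) (T : E → Submodule ℝ E) (H : E → E), GSlice m μ T H →
        |∫ x, ⟪grad η x, vel T H x⟫ * rho x ∂μ| ≤ A * (DD μ W 1 + TG μ T W 1 + dis μ T H)) →
      ∫ x, η x * rho x ∂(N b) - ∫ x, η x * rho x ∂(N a)
        ≤ (2 * (C + 1) * δ + 3 + 2) * A * (DD (N a) W 1 + (FA (N a) - FA (N b))) := by
    intro η hη hηb hηg
    set f : E → ℝ := fun x => A * (1 + W x ^ 2 * wt 1 x) + η x with hf
    have hf1 : PG (fun x => A * (1 + W x ^ 2 * wt 1 x)) := ((PG.const 1).add hfpg).const_mul A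
    have hfp : PG f := hf1.add hη
    have hfnn : ∀ x, 0 ≤ f x := fun x => by
      have := neg_abs_le (η x)
      have := hηb x
      simp only [hf]; linarith
    obtain ⟨i1, i2⟩ := h.ineq_PG hfp hfnn ha hab
    -- evaluation of the integrals of `f`
    have hev : ∀ s, s₀ ≤ s → ∫ x, f x * rho x ∂(N s)
        = A * FA (N s) + A * DD (N s) W 1 + ∫ x, η x * rho x ∂(N s) := by
      intro s hs
      have hfin := h.fin s hs
      have hmomI : ∀ {u : E → ℝ}, Continuous u → PB u →
          Integrable (fun x => u x * rho x) (N s) := by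
        intro u hu hub
        obtain ⟨C', p, hC', hub'⟩ := hub
        obtain ⟨M', hM'⟩ := h.moment p
        refine ((hM' s hs).1.const_mul C').mono' (hu.mul continuous_rho).aestronglyMeasurable
          (Eventually.of_forall fun x => ?_)
        rw [norm_mul, Real.norm_of_nonneg (rho_pos x).le, ← mul_assoc]
        exact mul_le_mul_of_nonneg_right (hub' x) (rho_pos x).le
      have j1 : Integrable (fun x => rho x) (N s) := by
        simpa using hmomI (u := fun _ => 1) continuous_const (PB.const 1)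
      have j2 : Integrable (fun x => W x ^ 2 * wt 1 x * rho x) (N s) := hmomI hfpg.cont hfpg.b0
      have j3 : Integrable (fun x => η x * rho x) (N s) := hmomI hη.cont hη.b0
      have e := integral_comb j1 j2 j3 A A 1
      simp only [one_mul] at e
      unfold FA
      rw [DD_eq, ← e]
      congr 1; ext x; simp only [hf]; ring
    rw [hev b (ha.trans hab), hev a ha] at i2
    -- the rate
    have hrate : ∀ᵐ s ∂(volume.restrict (Icc a b)), LL (N s) (T s) (H s) f
        ≤ A * ((C + 1) * (2 * DD (N a) W 1)) + A * dis (N s) (T s) (H s) + A * G s := by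
      filter_upwards [hG2, ae_restrict_mem measurableSet_Icc] with s hs hs'
      obtain ⟨hsl, hGs⟩ := hs
      have e1 : LL (N s) (T s) (H s) f = A * LL (N s) (T s) (H s) (fun _ => 1)
          + A * LL (N s) (T s) (H s) (fun x => W x ^ 2 * wt 1 x)
          + (∫ x, ⟪grad η x, vel (T s) (H s) x⟫ * rho x ∂(N s)
            - ∫ x, η x * ‖vel (T s) (H s) x‖ ^ 2 * rho x ∂(N s)) := by
        have hvPG : ∀ {u : E → ℝ}, PG u →
            Integrable (fun x => ⟪grad u x, vel (T s) (H s) x⟫ * rho x) (N s) := fun {u} hu =>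
          hsl.integrable_inner_vel (continuous_grad hu.cd).aestronglyMeasurable
            (hu.b1.mono fun x => by rw [norm_grad])
        have hqPG : ∀ {u : E → ℝ}, PG u →
            Integrable (fun x => u x * ‖vel (T s) (H s) x‖ ^ 2 * rho x) (N s) := fun {u} hu =>
          hsl.integrable_mul_vel_sq hu.cont.aestronglyMeasurable hu.b0
        rw [hsl.LL_eq hfp, hsl.LL_eq (PG.const 1), hsl.LL_eq hfpg]
        have g1 : ∀ x, grad f x = A • grad (fun x => W x ^ 2 * wt 1 x) x + grad η x := by
          intro x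
          have : grad f x = grad (fun x => A * (1 + W x ^ 2 * wt 1 x)) x + grad η x :=
            grad_add (hf1.diff x) (hη.diff x)
          rw [this, grad_const_mul A (((PG.const 1).add hfpg).diff x),
            grad_add ((PG.const (1 : ℝ)).diff x) (hfpg.diff x)]
          have : grad (fun _ : E => (1 : ℝ)) x = 0 := grad_unique fun v => by simp
          rw [this, zero_add]
        have g0 : ∀ x : E, grad (fun _ : E => (1 : ℝ)) x = 0 := fun x => grad_unique fun v => by simp
        have s1 : ∫ x, ⟪grad f x, vel (T s) (H s) x⟫ * rho x ∂(N s)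
            = A * ∫ x, ⟪grad (fun x => W x ^ 2 * wt 1 x) x, vel (T s) (H s) x⟫ * rho x ∂(N s)
              + ∫ x, ⟪grad η x, vel (T s) (H s) x⟫ * rho x ∂(N s) := by
          have := integral_comb2 (hvPG hfpg) (hvPG hη) A 1
          simp only [one_mul] at this
          rw [← this]
          congr 1; ext x
          rw [g1, inner_add_left, real_inner_smul_left]; ring
        have s2 : ∫ x, f x * ‖vel (T s) (H s) x‖ ^ 2 * rho x ∂(N s)
            = A * ∫ x, (1 : ℝ) * ‖vel (T s) (H s) x‖ ^ 2 * rho x ∂(N s)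
              + A * ∫ x, W x ^ 2 * wt 1 x * ‖vel (T s) (H s) x‖ ^ 2 * rho x ∂(N s)
              + ∫ x, η x * ‖vel (T s) (H s) x‖ ^ 2 * rho x ∂(N s) := by
          have := integral_comb (hqPG (PG.const (1 : ℝ))) (hqPG hfpg) (hqPG hη) A A 1
          simp only [one_mul] at this
          simp only [one_mul]
          rw [← this]
          congr 1; ext x
          simp only [hf]; ring
        rw [s1, s2]
        simp only [g0, inner_zero_left, zero_mul, integral_zero]
        ring
      have e2 := hLL W hW (N s) (T s) (H s) hsl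
      have e3 := hηg (N s) (T s) (H s) hsl
      have e4 : - ∫ x, η x * ‖vel (T s) (H s) x‖ ^ 2 * rho x ∂(N s)
          ≤ A * dis (N s) (T s) (H s) + A * VW (N s) (T s) (H s) W 1 := by
        have := integral_comb2 hsl.int_vel_sq (hsl.int_VW hW 1) A A
        have e5 : A * dis (N s) (T s) (H s) + A * VW (N s) (T s) (H s) W 1
            = ∫ x, (A * (‖vel (T s) (H s) x‖ ^ 2 * rho x)
              + A * (W x ^ 2 * wt 1 x * ‖vel (T s) (H s) x‖ ^ 2 * rho x)) ∂(N s) := this.symm
        rw [e5, ← integral_neg]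
        refine integral_mono (hsl.integrable_mul_vel_sq hη.cont.aestronglyMeasurable hη.b0).neg
          ((hsl.int_vel_sq.const_mul _).add ((hsl.int_VW hW 1).const_mul _)) fun x => ?_
        have h1 := neg_abs_le (η x)
        have h2 := hηb x
        have h3 : 0 ≤ ‖vel (T s) (H s) x‖ ^ 2 * rho x := mul_nonneg (sq_nonneg _) (rho_pos x).le
        have h4 : -η x ≤ A * (1 + W x ^ 2 * wt 1 x) := by linarith
        have h5 := mul_le_mul_of_nonneg_right h4 h3
        simp only
        nlinarith
      have e6 := hD s hs'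
      have e7 := le_abs_self (∫ x, ⟪grad η x, vel (T s) (H s) x⟫ * rho x ∂(N s))
      have e8 := dis_nonneg (μ := N s) (T := T s) (H := H s)
      have e9 := VW_nonneg (μ := N s) (T := T s) (H := H s) (W := W) 1
      have e10 := TG_nonneg (μ := N s) (T := T s) (W := W) 1
      rw [e1, LL_one]
      have f1 := mul_le_mul_of_nonneg_left e2 hA
      have f2 := mul_le_mul_of_nonneg_left hGs hA
      have f3 := mul_le_mul_of_nonneg_left e6 (mul_nonneg hA (by linarith : (0 : ℝ) ≤ C + 1))
      have f4 := mul_nonneg hA e10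
      nlinarith
    have i3 : ∫ s in a..b, LL (N s) (T s) (H s) f
        ≤ ∫ s in a..b, (A * ((C + 1) * (2 * DD (N a) W 1)) + A * dis (N s) (T s) (H s)
          + A * G s) := by
      refine intervalIntegral.integral_mono_ae_restrict hab i1 ?_ hrate
      exact (intervalIntegrable_const.add ((h.dis_int ha hab).1.const_mul A)).add
        (hG1.const_mul A)
    have i4 : ∫ s in a..b, (A * ((C + 1) * (2 * DD (N a) W 1)) + A * dis (N s) (T s) (H s)
          + A * G s) = (b - a) * (A * ((C + 1) * (2 * DD (N a) W 1)))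
          + A * (∫ s in a..b, dis (N s) (T s) (H s)) + A * ∫ s in a..b, G s := by
      rw [intervalIntegral.integral_add (intervalIntegrable_const.add
        ((h.dis_int ha hab).1.const_mul A)) (hG1.const_mul A),
        intervalIntegral.integral_add intervalIntegrable_const ((h.dis_int ha hab).1.const_mul A),
        intervalIntegral.integral_const, intervalIntegral.integral_const_mul,
        intervalIntegral.integral_const_mul, smul_eq_mul]
    rw [i4] at i3
    have i5 := mul_le_mul_of_nonneg_left (h.dis_int ha hab).2 hA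
    have i6 := mul_le_mul_of_nonneg_left hG3 hA
    have i7 : (b - a) * (A * ((C + 1) * (2 * DD (N a) W 1)))
        ≤ δ * (A * ((C + 1) * (2 * DD (N a) W 1))) := by
      refine mul_le_mul_of_nonneg_right (by linarith) ?_
      have : 0 ≤ C + 1 := by linarith
      positivity
    have p1 := mul_nonneg hA hDa
    have p2 := mul_nonneg hA hDb
    have p3 := mul_nonneg hA hFd
    have p4 : 0 ≤ (C + 1) * δ * (A * (FA (N a) - FA (N b))) := by
      have : 0 ≤ C + 1 := by linarith
      positivity
    nlinarith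
  rw [abs_le]
  constructor
  · have h1 := key (fun x => -ψ x) hψ.neg (fun x => by rw [abs_neg]; exact hψb x)
      (fun μ T H hS => by
        have e : ∀ x, grad (fun x => -ψ x) x = - grad ψ x := by
          intro x
          have := grad_const_mul (-1) (hψ.diff x)
          simpa using this
        simp_rw [e, inner_neg_left, neg_mul]
        rw [integral_neg, abs_neg]
        exact hψg μ T H hS)
    simp only [neg_mul] at h1
    rw [integral_neg, integral_neg] at h1
    linarith
  · exact key ψ hψ hψb hψg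

end RF

end Vale.Agent.P218.H313
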