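import Vale.Agent.P218.H313.Fam

/-! Nondegenerate shrinkers: the gauge, that is the best parameter for a given measure. -/

open MeasureTheory Set Filter Topology Metric
open scoped ENNReal NNReal RealInnerProductSpace

namespace Vale.Agent.P218.H313

set_option linter.unusedSectionVars false
set_option linter.unusedVariables false

section gauge

variable {E : Type*} [NormedAddCommGroup E] [InnerProductSpace ℝ E] [FiniteDimensional ℝ E]
  [MeasurableSpace E] [BorelSpace E]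
variable {P : Type*} [NormedAddCommGroup P] [NormedSpace ℝ P]
variable {m : ℕ} {V : P → E → ℝ} {V' : P → P →ₗ[ℝ] (E → ℝ)} {r c K : ℝ} {q : ℕ}

lemma rho_cont : Continuous (rho : E → ℝ) := by
  unfold rho; fun_prop

lemma rho_pos' (x : E) : 0 < rho x := Real.exp_pos _

lemma Fam.cont_V (hF : Fam m V V' r c K q) {a : P} (ha : ‖a‖ ≤ r) : Continuous (V a) :=
  (hF.tube a ha).cont

lemma Fam.cont_V' (hF : Fam m V V' r c K q) {a : P} (ha : ‖a‖ ≤ r) (b : P) :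
    Continuous (V' a b) := (hF.dsm a ha b).continuous

lemma Fam.zero_le (hF : Fam m V V' r c K q) : ‖(0 : P)‖ ≤ r := by
  rw [norm_zero]; exact hF.rpos.le

lemma int_of_le {N : Measure E} {e : ℕ} (hN : Integrable (fun x => (1 + ‖x‖) ^ e * rho x) N)
    {f : E → ℝ} (hf : Continuous f) {C : ℝ} (hb : ∀ x, |f x| ≤ C * (1 + ‖x‖) ^ e) :
    Integrable (fun x => f x * rho x) N := by
  refine (hN.const_mul C).mono' (hf.mul rho_cont).aestronglyMeasurable
    (ae_of_all _ fun x => ?_)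
  rw [Real.norm_eq_abs, abs_mul, abs_of_pos (rho_pos' x), ← mul_assoc]
  exact mul_le_mul_of_nonneg_right (hb x) (rho_pos' x).le

lemma integral_le_of_le {N : Measure E} {e : ℕ}
    (hN : Integrable (fun x => (1 + ‖x‖) ^ e * rho x) N)
    {f : E → ℝ} (hf : Continuous f) {C : ℝ} (hb : ∀ x, |f x| ≤ C * (1 + ‖x‖) ^ e) :
    |∫ x, f x * rho x ∂N| ≤ C * ∫ x, (1 + ‖x‖) ^ e * rho x ∂N := by
  rw [← integral_const_mul, ← Real.norm_eq_abs]
  refine norm_integral_le_of_norm_le (hN.const_mul C) (ae_of_all _ fun x => ?_)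
  rw [Real.norm_eq_abs, abs_mul, abs_of_pos (rho_pos' x), ← mul_assoc]
  exact mul_le_mul_of_nonneg_right (hb x) (rho_pos' x).le

lemma pow_w_le (x : E) {i j : ℕ} (h : i ≤ j) : (1 + ‖x‖) ^ i ≤ (1 + ‖x‖) ^ j :=
  pow_le_pow_right₀ (by linarith [norm_nonneg x]) h

lemma one_le_w (x : E) (i : ℕ) : (1 : ℝ) ≤ (1 + ‖x‖) ^ i :=
  one_le_pow₀ (by linarith [norm_nonneg x])

/-- pointwise monotonicity -/
lemma Fam.pt (hF : Fam m V V' r c K q) {r₁ : ℝ} (h1 : r₁ ≤ r) {a a' : P} (ha : ‖a‖ ≤ r₁)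
    (ha' : ‖a'‖ ≤ r₁) (x : E) :
    V' 0 (a - a') x ^ 2 - ‖a - a'‖ ^ 2 * (5 * K ^ 2 * r₁ * (1 + ‖x‖) ^ (2 * q + 1)
      + K * (1 + ‖x‖) ^ q * |V 0 x|)
    ≤ V a x * V' a (a - a') x - V a' x * V' a' (a - a') x := by
  have hK := hF.Knn
  have hr1 : 0 ≤ r₁ := (norm_nonneg _).trans ha
  have har : ‖a‖ ≤ r := ha.trans h1
  have har' : ‖a'‖ ≤ r := ha'.trans h1
  set b := a - a' with hb
  set w : ℝ := 1 + ‖x‖ with hw
  have hw1 : 1 ≤ w := by have := norm_nonneg x; rw [hw]; linarith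
  set n := ‖b‖ with hn
  have hn0 : 0 ≤ n := norm_nonneg _
  have hn2 : n ≤ 2 * r₁ := by
    rw [hn, hb]; exact (norm_sub_le _ _).trans (by linarith)
  have hwq : 1 ≤ w ^ q := one_le_pow₀ hw1
  have e1 : w ^ (2 * q + 1) = w ^ q * w ^ q * w := by ring
  have t1 := hF.taylor a a' har har' x
  have hba : a' - a = -b := by rw [hb]; abel
  rw [hba, map_neg, norm_neg] at t1
  simp only [Pi.neg_apply, sub_neg_eq_add] at t1
  have t2 := hF.dlip a a' har har' b x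
  have t3 := hF.db0 a har b x
  have t4 := hF.lip a' 0 har' hF.zero_le x
  have t5 := hF.dlip a 0 har hF.zero_le b x
  have t6 := hF.db0 0 hF.zero_le b x
  rw [sub_zero] at t4 t5
  rw [← hb] at t2
  rw [← hw] at t1 t2 t3 t4 t5 t6
  rw [← hn] at t1 t2 t3 t5 t6
  rw [e1]
  set A := V a x
  set A' := V a' x
  set D := V' a b x
  set D' := V' a' b x
  set D0 := V' 0 b x
  set v := |V 0 x| with hv
  have hv0 : 0 ≤ v := abs_nonneg _
  set W := w ^ q with hW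
  -- bounds
  have hA' : |A'| ≤ v + K * W * r₁ := by
    have h2 : |A'| ≤ |A' - V 0 x| + |V 0 x| := by
      have := abs_add_le (A' - V 0 x) (V 0 x); simpa using this
    have h3 : K * W * ‖a'‖ ≤ K * W * r₁ := by gcongr
    linarith
  have hR : |(A - A') - D| ≤ K * W * n ^ 2 := by
    have : (A - A') - D = -(A' - A + D) := by ring
    rw [this, abs_neg]; exact t1
  have i1 : (A - A' - D) * D ≥ -(K * W * n ^ 2 * (K * w * n)) := by
    have : |(A - A' - D) * D| ≤ K * W * n ^ 2 * (K * w * n) := by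
      rw [abs_mul]; gcongr
    have := neg_abs_le ((A - A' - D) * D)
    linarith
  have i2 : A' * (D - D') ≥ -((v + K * W * r₁) * (K * W * n ^ 2)) := by
    have h : |A' * (D - D')| ≤ (v + K * W * r₁) * (K * W * n ^ 2) := by
      rw [abs_mul]
      have : K * W * n * n = K * W * n ^ 2 := by ring
      rw [this] at t2
      gcongr
    have := neg_abs_le (A' * (D - D'))
    linarith
  have i3 : D ^ 2 ≥ D0 ^ 2 - K * W * r₁ * n * (2 * (K * w * n)) := by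
    have h : |(D - D0) * (D + D0)| ≤ K * W * r₁ * n * (2 * (K * w * n)) := by
      rw [abs_mul]
      have h5 : |D - D0| ≤ K * W * r₁ * n := t5.trans (by gcongr)
      have h6 : |D + D0| ≤ 2 * (K * w * n) := (abs_add_le _ _).trans (by linarith)
      gcongr
    have := neg_abs_le ((D - D0) * (D + D0))
    have e : (D - D0) * (D + D0) = D ^ 2 - D0 ^ 2 := by ring
    rw [e] at this h
    linarith
  have e2 : A * D - A' * D' = D ^ 2 + (A - A' - D) * D + A' * (D - D') := by ring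
  rw [e2]
  have j1 : K * W * n ^ 2 * (K * w * n) ≤ n ^ 2 * (2 * K ^ 2 * r₁ * (W * W * w)) := by
    have : K * W * n ^ 2 * (K * w * n) = n ^ 2 * (K ^ 2 * n * (W * 1 * w)) := by ring
    rw [this]
    have : 2 * K ^ 2 * r₁ * (W * W * w) = K ^ 2 * (2 * r₁) * (W * W * w) := by ring
    rw [this]
    gcongr
  have j2 : K * W * r₁ * n * (2 * (K * w * n)) ≤ n ^ 2 * (2 * K ^ 2 * r₁ * (W * W * w)) := by
    have : K * W * r₁ * n * (2 * (K * w * n)) = n ^ 2 * (2 * K ^ 2 * r₁ * (W * 1 * w)) := by ring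
    rw [this]
    gcongr
  have j3 : (v + K * W * r₁) * (K * W * n ^ 2) ≤
      n ^ 2 * (K * W * v) + n ^ 2 * (K ^ 2 * r₁ * (W * W * w)) := by
    have : (v + K * W * r₁) * (K * W * n ^ 2) =
      n ^ 2 * (K * W * v) + n ^ 2 * (K ^ 2 * r₁ * (W * W * 1)) := by ring
    rw [this]
    gcongr
  have e3 : D0 ^ 2 - n ^ 2 * (5 * K ^ 2 * r₁ * (W * W * w) + K * W * v) =
    D0 ^ 2 - n ^ 2 * (2 * K ^ 2 * r₁ * (W * W * w)) - n ^ 2 * (2 * K ^ 2 * r₁ * (W * W * w))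
      - (n ^ 2 * (K * W * v) + n ^ 2 * (K ^ 2 * r₁ * (W * W * w))) := by ring
  rw [e3]
  linarith

variable {N : Measure E}

lemma Fam.bd_VV (hF : Fam m V V' r c K q) {a : P} (ha : ‖a‖ ≤ r) (b : P) (x : E) :
    |V a x * V' a b x| ≤ K ^ 2 * ‖b‖ * (1 + ‖x‖) ^ (2 * q + 2) := by
  have hK := hF.Knn
  rw [abs_mul]
  have h1 := (hF.tube a ha).b0 x
  have h2 := hF.db0 a ha b x
  have h3 : (1 + ‖x‖) ≤ (1 + ‖x‖) ^ (2 * q + 2) := by
    simpa using pow_w_le x (i := 1) (j := 2 * q + 2) (by omega)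
  have h0 := norm_nonneg x
  calc |V a x| * |V' a b x| ≤ K * (K * (1 + ‖x‖) * ‖b‖) := by gcongr
    _ = K ^ 2 * ‖b‖ * (1 + ‖x‖) := by ring
    _ ≤ _ := by gcongr

lemma Fam.int_GF (hF : Fam m V V' r c K q)
    (hN : Integrable (fun x => (1 + ‖x‖) ^ (2 * q + 2) * rho x) N) {a : P} (ha : ‖a‖ ≤ r)
    (b : P) : Integrable (fun x => V a x * V' a b x * rho x) N :=
  int_of_le hN ((hF.cont_V ha).mul (hF.cont_V' ha b)) (hF.bd_VV ha b)

lemma Fam.GF_smul (V : P → E → ℝ) (V' : P → P →ₗ[ℝ] (E → ℝ)) (N : Measure E) (a b : P) (t : ℝ) :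
    GF N V V' a (t • b) = t * GF N V V' a b := by
  unfold GF
  rw [← integral_const_mul]
  congr 1; ext x
  simp only [map_smul, Pi.smul_apply, smul_eq_mul]
  ring

lemma Fam.abs_GF_le (hF : Fam m V V' r c K q)
    (hN : Integrable (fun x => (1 + ‖x‖) ^ (2 * q + 2) * rho x) N) {a : P} (ha : ‖a‖ ≤ r)
    (b : P) : |GF N V V' a b| ≤ K ^ 2 * ‖b‖ * ∫ x, (1 + ‖x‖) ^ (2 * q + 2) * rho x ∂N :=
  integral_le_of_le hN ((hF.cont_V ha).mul (hF.cont_V' ha b)) (hF.bd_VV ha b)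

lemma Fam.cont_q (hF : Fam m V V' r c K q) (b : P) :
    Continuous (fun x => V' 0 b x ^ 2) := (hF.cont_V' hF.zero_le b).pow 2

lemma Fam.bd_q (hF : Fam m V V' r c K q) (b : P) (x : E) :
    |V' 0 b x ^ 2| ≤ K ^ 2 * ‖b‖ ^ 2 * (1 + ‖x‖) ^ (2 * q + 2) := by
  have hK := hF.Knn
  have h2 := hF.db0 0 hF.zero_le b x
  have h3 : (1 + ‖x‖) ^ 2 ≤ (1 + ‖x‖) ^ (2 * q + 2) := pow_w_le x (by omega)
  rw [abs_pow]
  calc |V' 0 b x| ^ 2 ≤ (K * (1 + ‖x‖) * ‖b‖) ^ 2 := by gcongr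
    _ = K ^ 2 * ‖b‖ ^ 2 * (1 + ‖x‖) ^ 2 := by ring
    _ ≤ _ := by gcongr

lemma Fam.int_q (hF : Fam m V V' r c K q)
    (hN : Integrable (fun x => (1 + ‖x‖) ^ (2 * q + 2) * rho x) N) (b : P) :
    Integrable (fun x => V' 0 b x ^ 2 * rho x) N :=
  int_of_le hN (hF.cont_q b) (hF.bd_q b)

lemma Fam.cont_e (hF : Fam m V V' r c K q) :
    Continuous (fun x => K * (1 + ‖x‖) ^ q * |V 0 x|) := by
  have := hF.cont_V hF.zero_le
  fun_prop

lemma Fam.bd_e (hF : Fam m V V' r c K q) (x : E) :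
    |K * (1 + ‖x‖) ^ q * (|V 0 x|)| ≤ K ^ 2 * (1 + ‖x‖) ^ (2 * q + 2) := by
  have hK := hF.Knn
  have h1 := (hF.tube 0 hF.zero_le).b0 x
  have h0 := norm_nonneg x
  rw [abs_of_nonneg (by positivity)]
  have h3 : (1 + ‖x‖) ^ q ≤ (1 + ‖x‖) ^ (2 * q + 2) := pow_w_le x (by omega)
  calc K * (1 + ‖x‖) ^ q * |V 0 x| ≤ K * (1 + ‖x‖) ^ (2 * q + 2) * K := by gcongr
    _ = _ := by ring

lemma Fam.int_e (hF : Fam m V V' r c K q)
    (hN : Integrable (fun x => (1 + ‖x‖) ^ (2 * q + 2) * rho x) N) :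
    Integrable (fun x => K * (1 + ‖x‖) ^ q * |V 0 x| * rho x) N :=
  int_of_le hN hF.cont_e hF.bd_e

lemma Fam.mono_GF (hF : Fam m V V' r c K q)
    (hN : Integrable (fun x => (1 + ‖x‖) ^ (2 * q + 2) * rho x) N) {r₁ : ℝ} (h1 : r₁ ≤ r)
    {a a' : P} (ha : ‖a‖ ≤ r₁) (ha' : ‖a'‖ ≤ r₁) :
    ∫ x, V' 0 (a - a') x ^ 2 * rho x ∂N
      - ‖a - a'‖ ^ 2 * (5 * K ^ 2 * r₁ * ∫ x, (1 + ‖x‖) ^ (2 * q + 2) * rho x ∂N
        + ∫ x, K * (1 + ‖x‖) ^ q * |V 0 x| * rho x ∂N)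
    ≤ GF N V V' a (a - a') - GF N V V' a' (a - a') := by
  have hr1 : 0 ≤ r₁ := (norm_nonneg _).trans ha
  have i1 := hF.int_GF hN (ha.trans h1) (a - a')
  have i2 := hF.int_GF hN (ha'.trans h1) (a - a')
  have i3 := hF.int_q hN (a - a')
  have i4 : Integrable (fun x => 5 * K ^ 2 * r₁ * ((1 + ‖x‖) ^ (2 * q + 2) * rho x)) N :=
    hN.const_mul _
  have i5 := hF.int_e hN
  have i6 : Integrable (fun x => 5 * K ^ 2 * r₁ * ((1 + ‖x‖) ^ (2 * q + 2) * rho x)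
      + K * (1 + ‖x‖) ^ q * |V 0 x| * rho x) N := i4.add i5
  have i7 : Integrable (fun x => ‖a - a'‖ ^ 2 * (5 * K ^ 2 * r₁ * ((1 + ‖x‖) ^ (2 * q + 2) * rho x)
      + K * (1 + ‖x‖) ^ q * |V 0 x| * rho x)) N := i6.const_mul _
  unfold GF
  rw [← integral_sub i1 i2, ← integral_const_mul, ← integral_add i4 i5, ← integral_const_mul,
    ← integral_sub i3 i7]
  refine integral_mono (i3.sub i7) (i1.sub i2) fun x => ?_
  have hp := hF.pt h1 ha ha' x
  have hpos := rho_pos' x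
  have h3 : (1 + ‖x‖) ^ (2 * q + 1) ≤ (1 + ‖x‖) ^ (2 * q + 2) := pow_w_le x (by omega)
  have h4 : V' 0 (a - a') x ^ 2 - ‖a - a'‖ ^ 2 * (5 * K ^ 2 * r₁ * (1 + ‖x‖) ^ (2 * q + 2)
      + K * (1 + ‖x‖) ^ q * |V 0 x|) ≤
    V' 0 (a - a') x ^ 2 - ‖a - a'‖ ^ 2 * (5 * K ^ 2 * r₁ * (1 + ‖x‖) ^ (2 * q + 1)
      + K * (1 + ‖x‖) ^ q * |V 0 x|) := by gcongr
  have h5 := mul_le_mul_of_nonneg_right (h4.trans hp) hpos.le
  have e1 : V' 0 (a - a') x ^ 2 * rho x
      - ‖a - a'‖ ^ 2 * (5 * K ^ 2 * r₁ * ((1 + ‖x‖) ^ (2 * q + 2) * rho x)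
      + K * (1 + ‖x‖) ^ q * |V 0 x| * rho x) =
      (V' 0 (a - a') x ^ 2 - ‖a - a'‖ ^ 2 * (5 * K ^ 2 * r₁ * (1 + ‖x‖) ^ (2 * q + 2)
      + K * (1 + ‖x‖) ^ q * |V 0 x|)) * rho x := by ring
  have e2 : V a x * V' a (a - a') x * rho x - V a' x * V' a' (a - a') x * rho x =
      (V a x * V' a (a - a') x - V a' x * V' a' (a - a') x) * rho x := by ring
  simp only [e1, e2]
  exact h5

/-- half the expansion of `a ↦ ∫ V_a² ρ` -/
noncomputable def GG (N : Measure E) (V : P → E → ℝ) (a : P) : ℝ := ∫ x, V a x ^ 2 * rho x ∂N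

lemma Fam.bd_sq (hF : Fam m V V' r c K q) {a : P} (ha : ‖a‖ ≤ r) (x : E) :
    |V a x ^ 2| ≤ K ^ 2 * (1 + ‖x‖) ^ (2 * q + 2) := by
  have hK := hF.Knn
  have h1 := (hF.tube a ha).b0 x
  have h2 := one_le_w x (2 * q + 2)
  rw [abs_pow]
  calc |V a x| ^ 2 ≤ K ^ 2 * 1 := by rw [mul_one]; gcongr
    _ ≤ _ := by gcongr

lemma Fam.int_sq (hF : Fam m V V' r c K q)
    (hN : Integrable (fun x => (1 + ‖x‖) ^ (2 * q + 2) * rho x) N) {a : P} (ha : ‖a‖ ≤ r) :
    Integrable (fun x => V a x ^ 2 * rho x) N :=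
  int_of_le hN ((hF.cont_V ha).pow 2) (hF.bd_sq ha)

lemma Fam.expand (hF : Fam m V V' r c K q)
    (hN : Integrable (fun x => (1 + ‖x‖) ^ (2 * q + 2) * rho x) N) {a a' : P}
    (ha : ‖a‖ ≤ r) (ha' : ‖a'‖ ≤ r) :
    |GG N V a' - GG N V a - 2 * GF N V V' a (a' - a)|
      ≤ 3 * K ^ 2 * ‖a' - a‖ ^ 2 * ∫ x, (1 + ‖x‖) ^ (2 * q + 2) * rho x ∂N := by
  have i1 := hF.int_GF hN ha (a' - a)
  have i2 := hF.int_sq hN ha
  have i3 := hF.int_sq hN ha'
  have e : GG N V a' - GG N V a - 2 * GF N V V' a (a' - a) =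
      ∫ x, (V a' x ^ 2 - V a x ^ 2 - 2 * (V a x * V' a (a' - a) x)) * rho x ∂N := by
    have i4 : Integrable (fun x => V a' x ^ 2 * rho x - V a x ^ 2 * rho x) N := i3.sub i2
    have i5 : Integrable (fun x => 2 * (V a x * V' a (a' - a) x * rho x)) N := i1.const_mul 2
    unfold GG GF
    rw [← integral_const_mul, ← integral_sub i3 i2, ← integral_sub i4 i5]
    congr 1; ext x
    ring
  rw [e]
  refine integral_le_of_le hN ?_ fun x => ?_
  · have h1 := hF.cont_V ha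
    have h2 := hF.cont_V ha'
    have h3 := hF.cont_V' ha (a' - a)
    fun_prop
  · have hK := hF.Knn
    have t1 := hF.taylor a a' ha ha' x
    have t2 := hF.lip a' a ha' ha x
    have t3 := (hF.tube a ha).b0 x
    set n := ‖a' - a‖
    set A := V a x
    set A' := V a' x
    set D := V' a (a' - a) x
    have hw0 : 0 ≤ ‖x‖ := norm_nonneg x
    have e1 : A' ^ 2 - A ^ 2 - 2 * (A * D) = (A' - A) ^ 2 + 2 * A * (A' - A - D) := by ring
    rw [e1]
    have h1 : |(A' - A) ^ 2| ≤ K ^ 2 * n ^ 2 * (1 + ‖x‖) ^ (2 * q + 2) := by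
      rw [abs_pow]
      calc |A' - A| ^ 2 ≤ (K * (1 + ‖x‖) ^ q * n) ^ 2 := by gcongr
        _ = K ^ 2 * n ^ 2 * (1 + ‖x‖) ^ (2 * q) := by ring
        _ ≤ _ := by gcongr ?_ * ?_; exact pow_w_le x (by omega)
    have h2 : |2 * A * (A' - A - D)| ≤ 2 * K ^ 2 * n ^ 2 * (1 + ‖x‖) ^ (2 * q + 2) := by
      rw [abs_mul, abs_mul, abs_two]
      calc 2 * |A| * |A' - A - D| ≤ 2 * K * (K * (1 + ‖x‖) ^ q * n ^ 2) := by gcongr
        _ = 2 * K ^ 2 * n ^ 2 * (1 + ‖x‖) ^ q := by ring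
        _ ≤ _ := by gcongr ?_ * ?_; exact pow_w_le x (by omega)
    refine (abs_add_le _ _).trans ?_
    linarith

/-- a minimum of `a ↦ ∫ V_a² ρ` on a ball is a zero of `GF` if `GF` is outward pointing -/
lemma Fam.exists_zero [FiniteDimensional ℝ P] (hF : Fam m V V' r c K q)
    (hN : Integrable (fun x => (1 + ‖x‖) ^ (2 * q + 2) * rho x) N) {r₁ : ℝ} (h0 : 0 < r₁)
    (h1 : r₁ ≤ r) (hout : ∀ a : P, ‖a‖ = r₁ → 0 < GF N V V' a a) :
    ∃ a : P, ‖a‖ < r₁ ∧ ∀ b, GF N V V' a b = 0 := by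
  have : ProperSpace P := FiniteDimensional.proper ℝ P
  set M := ∫ x, (1 + ‖x‖) ^ (2 * q + 2) * rho x ∂N with hM
  have hM0 : 0 ≤ M := integral_nonneg fun x => by
    have := rho_pos' x; have := norm_nonneg x; positivity
  have hcont : ContinuousOn (GG N V) (closedBall 0 r₁) := by
    rw [Metric.continuousOn_iff]
    intro a ha ε hε
    have ha1 : ‖a‖ ≤ r := by rw [mem_closedBall_zero_iff] at ha; exact ha.trans h1
    set L := 2 * K ^ 2 * M + 3 * K ^ 2 * M * (2 * r) + 1 with hL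
    have hLp : 0 < L := by have := hF.rpos; positivity
    refine ⟨ε / L, by positivity, fun a' ha' hd => ?_⟩
    have ha1' : ‖a'‖ ≤ r := by rw [mem_closedBall_zero_iff] at ha'; exact ha'.trans h1
    rw [dist_eq_norm] at hd
    have t1 := hF.expand hN ha1 ha1'
    have t2 := hF.abs_GF_le hN ha1 (a' - a)
    rw [← hM] at t1 t2
    have hn : ‖a' - a‖ ≤ 2 * r := (norm_sub_le _ _).trans (by linarith)
    rw [Real.dist_eq]
    have t3 : |GG N V a' - GG N V a| ≤ 2 * (K ^ 2 * ‖a' - a‖ * M) + 3 * K ^ 2 * ‖a' - a‖ ^ 2 * M := by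
      have h2 : GG N V a' - GG N V a = (GG N V a' - GG N V a - 2 * GF N V V' a (a' - a))
          + 2 * GF N V V' a (a' - a) := by ring
      rw [h2]
      refine (abs_add_le _ _).trans ?_
      rw [abs_mul, abs_two]
      linarith
    have t4 : 2 * (K ^ 2 * ‖a' - a‖ * M) + 3 * K ^ 2 * ‖a' - a‖ ^ 2 * M ≤ L * ‖a' - a‖ := by
      have : 3 * K ^ 2 * ‖a' - a‖ ^ 2 * M ≤ 3 * K ^ 2 * M * (2 * r) * ‖a' - a‖ := by
        have : 3 * K ^ 2 * ‖a' - a‖ ^ 2 * M = 3 * K ^ 2 * M * ‖a' - a‖ * ‖a' - a‖ := by ring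
        rw [this]
        gcongr
      rw [hL]
      nlinarith [norm_nonneg (a' - a)]
    have t5 : L * ‖a' - a‖ < ε := by
      rw [lt_div_iff₀ hLp] at hd; linarith
    linarith
  obtain ⟨a, ha, hmin⟩ := (isCompact_closedBall (0 : P) r₁).exists_isMinOn
    ⟨0, by simp [h0.le]⟩ hcont
  rw [mem_closedBall_zero_iff] at ha
  have har := ha.trans h1
  -- the basic inequality
  have key : ∀ b : P, ‖a + b‖ ≤ r₁ → 0 ≤ 2 * GF N V V' a b + 3 * K ^ 2 * ‖b‖ ^ 2 * M := by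
    intro b hb
    have t1 := hF.expand hN har (hb.trans h1)
    rw [add_sub_cancel_left, ← hM] at t1
    have t2 : GG N V a ≤ GG N V (a + b) := hmin (by rw [mem_closedBall_zero_iff]; exact hb)
    have := (abs_le.1 t1).2
    linarith
  rcases ha.lt_or_eq with hlt | heq
  · refine ⟨a, hlt, fun b => ?_⟩
    by_contra hne
    -- choose the sign
    obtain ⟨b', hb'⟩ : ∃ b' : P, GF N V V' a b' < 0 := by
      rcases lt_or_gt_of_ne hne with h | h
      · exact ⟨b, h⟩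
      · refine ⟨-b, ?_⟩
        have := Fam.GF_smul V V' N a b (-1)
        rw [neg_one_smul] at this
        rw [this]; linarith
    set g := -GF N V V' a b' with hg
    have hgp : 0 < g := by rw [hg]; linarith
    set B := ‖b'‖ with hB
    have hB0 : 0 ≤ B := norm_nonneg _
    set t := min ((r₁ - ‖a‖) / (B + 1)) (g / (3 * K ^ 2 * B ^ 2 * M + 1)) with ht
    have htp : 0 < t := lt_min (div_pos (by linarith) (by positivity)) (by positivity)
    have h3 := key (t • b') (by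
      refine (norm_add_le _ _).trans ?_
      rw [norm_smul, Real.norm_eq_abs, abs_of_pos htp]
      have : t * B ≤ (r₁ - ‖a‖) / (B + 1) * (B + 1) :=
        mul_le_mul (min_le_left _ _) (by linarith) hB0
          (div_nonneg (by linarith) (by positivity))
      rw [div_mul_cancel₀ _ (by positivity)] at this
      linarith)
    rw [Fam.GF_smul, norm_smul, Real.norm_eq_abs, abs_of_pos htp] at h3
    have h4 : t * (3 * K ^ 2 * B ^ 2 * M) ≤ g := by
      have : t * (3 * K ^ 2 * B ^ 2 * M + 1) ≤ g := by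
        have := min_le_right ((r₁ - ‖a‖) / (B + 1)) (g / (3 * K ^ 2 * B ^ 2 * M + 1))
        rw [← ht, le_div_iff₀ (by positivity)] at this
        exact this
      nlinarith
    have h5 : 2 * (t * GF N V V' a b') + 3 * K ^ 2 * (t * ‖b'‖) ^ 2 * M
        = t * (-(2 * g) + t * (3 * K ^ 2 * B ^ 2 * M)) := by rw [hg, ← hB]; ring
    rw [h5] at h3
    have h6 : t * (-(2 * g) + t * (3 * K ^ 2 * B ^ 2 * M)) < 0 :=
      mul_neg_of_pos_of_neg htp (by linarith)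
    linarith
  · exfalso
    have hg := hout a heq
    set g := GF N V V' a a with hgdef
    set t := min 1 (g / (3 * K ^ 2 * r₁ ^ 2 * M + 1)) with ht
    have htp : 0 < t := lt_min one_pos (by positivity)
    have ht1 : t ≤ 1 := min_le_left _ _
    have h3 := key ((-t) • a) (by
      have : a + (-t) • a = (1 - t) • a := by rw [sub_smul, one_smul, neg_smul, sub_eq_add_neg]
      rw [this, norm_smul, Real.norm_eq_abs, abs_of_nonneg (by linarith), heq]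
      nlinarith)
    rw [Fam.GF_smul, norm_smul, Real.norm_eq_abs, abs_neg, abs_of_pos htp, heq, ← hgdef] at h3
    have h4 : t * (3 * K ^ 2 * r₁ ^ 2 * M) ≤ g := by
      have : t * (3 * K ^ 2 * r₁ ^ 2 * M + 1) ≤ g := by
        have := min_le_right 1 (g / (3 * K ^ 2 * r₁ ^ 2 * M + 1))
        rw [← ht, le_div_iff₀ (by positivity)] at this
        exact this
      nlinarith
    have h5 : 2 * (-t * g) + 3 * K ^ 2 * (t * r₁) ^ 2 * M
        = t * (-(2 * g) + t * (3 * K ^ 2 * r₁ ^ 2 * M)) := by ring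
    rw [h5] at h3
    have h6 : t * (-(2 * g) + t * (3 * K ^ 2 * r₁ ^ 2 * M)) < 0 :=
      mul_neg_of_pos_of_neg htp (by linarith)
    linarith

/-- the quadratic form at the origin -/
noncomputable def QQ (N : Measure E) (V' : P → P →ₗ[ℝ] (E → ℝ)) (b : P) : ℝ :=
  ∫ x, V' 0 b x ^ 2 * rho x ∂N

lemma QQ_smul (N : Measure E) (V' : P → P →ₗ[ℝ] (E → ℝ)) (t : ℝ) (b : P) :
    QQ N V' (t • b) = t ^ 2 * QQ N V' b := by
  unfold QQ
  rw [← integral_const_mul]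
  congr 1; ext x
  simp only [map_smul, Pi.smul_apply, smul_eq_mul]
  ring

lemma Fam.QQ_lip (hF : Fam m V V' r c K q)
    (hN : Integrable (fun x => (1 + ‖x‖) ^ (2 * q + 2) * rho x) N) (b b' : P) :
    |QQ N V' b' - QQ N V' b| ≤ K ^ 2 * ‖b' - b‖ * (‖b'‖ + ‖b‖)
      * ∫ x, (1 + ‖x‖) ^ (2 * q + 2) * rho x ∂N := by
  unfold QQ
  rw [← integral_sub (hF.int_q hN b') (hF.int_q hN b)]
  have e : ∫ x, (V' 0 b' x ^ 2 * rho x - V' 0 b x ^ 2 * rho x) ∂N =
      ∫ x, (V' 0 b' x ^ 2 - V' 0 b x ^ 2) * rho x ∂N := by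
    congr 1; ext x; ring
  rw [e]
  refine integral_le_of_le hN ?_ fun x => ?_
  · have h1 := hF.cont_V' hF.zero_le b
    have h2 := hF.cont_V' hF.zero_le b'
    fun_prop
  · have hK := hF.Knn
    have h1 := hF.db0 0 hF.zero_le b x
    have h2 := hF.db0 0 hF.zero_le b' x
    have h3 := hF.db0 0 hF.zero_le (b' - b) x
    rw [map_sub] at h3
    simp only [Pi.sub_apply] at h3
    have h0 := norm_nonneg x
    have e1 : V' 0 b' x ^ 2 - V' 0 b x ^ 2 = (V' 0 b' x - V' 0 b x) * (V' 0 b' x + V' 0 b x) := by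
      ring
    rw [e1, abs_mul]
    have h4 : |V' 0 b' x + V' 0 b x| ≤ K * (1 + ‖x‖) * (‖b'‖ + ‖b‖) :=
      (abs_add_le _ _).trans (by linarith)
    calc |V' 0 b' x - V' 0 b x| * |V' 0 b' x + V' 0 b x|
        ≤ K * (1 + ‖x‖) * ‖b' - b‖ * (K * (1 + ‖x‖) * (‖b'‖ + ‖b‖)) := by gcongr
      _ = K ^ 2 * ‖b' - b‖ * (‖b'‖ + ‖b‖) * (1 + ‖x‖) ^ 2 := by ring
      _ ≤ _ := by gcongr ?_ * ?_; exact pow_w_le x (by omega)

theorem Fam.exists_lam {ι : Type*} {l : Filter ι} {N : ι → Measure E} {κ : Measure E}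
    [FiniteDimensional ℝ P] (hF : Fam m V V' r c K q)
    (hmom : ∃ C : ℝ, ∀ᶠ i in l, Integrable (fun x => (1 + ‖x‖) ^ (2 * q + 2) * rho x) (N i) ∧
      ∫ x, (1 + ‖x‖) ^ (2 * q + 2) * rho x ∂(N i) ≤ C)
    (hlim : ∀ f : E → ℝ, Continuous f → PB f →
      Tendsto (fun i => ∫ x, f x * rho x ∂(N i)) l (𝓝 (∫ x, f x * rho x ∂κ)))
    (hκ : Integrable (fun x => (1 + ‖x‖) ^ (2 * q + 2) * rho x) κ)
    (hinj : ∀ b : P, (∀ᵐ x ∂κ, V' 0 b x = 0) → b = 0) :
    ∃ lam > 0, ∀ᶠ i in l, ∀ b : P, lam * ‖b‖ ^ 2 ≤ QQ (N i) V' b := by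
  have : ProperSpace P := FiniteDimensional.proper ℝ P
  have hsph : ∃ lam > 0, ∀ᶠ i in l, ∀ b ∈ sphere (0 : P) 1, lam ≤ QQ (N i) V' b := by
    refine (isCompact_sphere (0 : P) 1).induction_on
      (p := fun s => ∃ lam > 0, ∀ᶠ i in l, ∀ b ∈ s, lam ≤ QQ (N i) V' b)
      ⟨1, one_pos, by simp⟩ ?_ ?_ ?_
    · rintro s t hst ⟨lam, hl, h⟩
      exact ⟨lam, hl, h.mono fun i hi b hb => hi b (hst hb)⟩
    · rintro s t ⟨l1, h1, e1⟩ ⟨l2, h2, e2⟩
      refine ⟨min l1 l2, lt_min h1 h2, (e1.and e2).mono fun i hi b hb => ?_⟩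
      rcases hb with hb | hb
      · exact (min_le_left _ _).trans (hi.1 b hb)
      · exact (min_le_right _ _).trans (hi.2 b hb)
    · intro b hb
      have hb1 : ‖b‖ = 1 := by simpa using hb
      have hpos : 0 < QQ κ V' b := by
        have h0 : 0 ≤ᵐ[κ] fun x => V' 0 b x ^ 2 * rho x :=
          ae_of_all _ fun x => mul_nonneg (sq_nonneg _) (rho_pos' x).le
        rcases (integral_nonneg_of_ae h0).lt_or_eq with h | h
        · exact h
        · exfalso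
          have h2 := (integral_eq_zero_iff_of_nonneg_ae h0 (hF.int_q hκ b)).1 h.symm
          have h3 : ∀ᵐ x ∂κ, V' 0 b x = 0 := by
            filter_upwards [h2] with x hx
            have h4 : V' 0 b x ^ 2 * rho x = 0 := hx
            rcases mul_eq_zero.1 h4 with h5 | h5
            · exact pow_eq_zero_iff (two_ne_zero) |>.1 h5
            · exact absurd h5 (rho_pos' x).ne'
          have := hinj b h3
          rw [this, norm_zero] at hb1
          exact zero_ne_one hb1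
      have hPB : PB (fun x => V' 0 b x ^ 2) :=
        PB.of_le (C := K ^ 2 * ‖b‖ ^ 2) (p := 2 * q + 2) fun x => by
          rw [Real.norm_eq_abs]; exact hF.bd_q b x
      have ht : Tendsto (fun i => QQ (N i) V' b) l (𝓝 (QQ κ V' b)) := hlim _ (hF.cont_q b) hPB
      obtain ⟨C, hC⟩ := hmom
      set C' := max C 0 with hC'
      have hC0 : 0 ≤ C' := le_max_right _ _
      set L := K ^ 2 * 3 * C' + 1 with hL
      have hLp : 0 < L := by positivity
      set δ := min 1 (QQ κ V' b / (4 * L)) with hδ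
      have hδp : 0 < δ := lt_min one_pos (by positivity)
      refine ⟨ball b δ, mem_nhdsWithin_of_mem_nhds (ball_mem_nhds b hδp), QQ κ V' b / 2,
        by positivity, ?_⟩
      filter_upwards [hC, ht.eventually (lt_mem_nhds (show QQ κ V' b * (3 / 4) < QQ κ V' b by
        linarith))] with i hi hi2 b' hb'
      rw [mem_ball, dist_eq_norm] at hb'
      have h1 := hF.QQ_lip hi.1 b b'
      have hd1 : ‖b' - b‖ ≤ 1 := hb'.le.trans (min_le_left _ _)
      have hd2 : ‖b' - b‖ * (4 * L) ≤ QQ κ V' b := by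
        have := hb'.le.trans (min_le_right _ _)
        rwa [le_div_iff₀ (by positivity)] at this
      have hn : ‖b'‖ ≤ 2 := by
        have := norm_add_le (b' - b) b
        rw [sub_add_cancel] at this; linarith
      have h2 : K ^ 2 * ‖b' - b‖ * (‖b'‖ + ‖b‖) * ∫ x, (1 + ‖x‖) ^ (2 * q + 2) * rho x ∂(N i)
          ≤ K ^ 2 * ‖b' - b‖ * 3 * C' := by
        have h3 : ∫ x, (1 + ‖x‖) ^ (2 * q + 2) * rho x ∂(N i) ≤ C' := hi.2.trans (le_max_left _ _)
        have h4 : ‖b'‖ + ‖b‖ ≤ 3 := by linarith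
        have h5 : 0 ≤ ∫ x, (1 + ‖x‖) ^ (2 * q + 2) * rho x ∂(N i) :=
          integral_nonneg fun x => by
            have := rho_pos' x; have := norm_nonneg x
            simp only [Pi.zero_apply]; positivity
        gcongr
      have h3 : K ^ 2 * ‖b' - b‖ * 3 * C' ≤ L * ‖b' - b‖ := by
        rw [hL]; nlinarith [norm_nonneg (b' - b)]
      have h4 := (abs_le.1 h1).1
      nlinarith
  obtain ⟨lam, hl, h⟩ := hsph
  refine ⟨lam, hl, h.mono fun i hi b => ?_⟩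
  rcases eq_or_ne b 0 with rfl | hb
  · have := QQ_smul (N i) V' 0 0
    rw [smul_zero] at this
    rw [norm_zero, this]; simp
  · have hn : 0 < ‖b‖ := norm_pos_iff.2 hb
    have h1 := hi (‖b‖⁻¹ • b) (by
      rw [mem_sphere_zero_iff_norm, norm_smul, norm_inv, norm_norm, inv_mul_cancel₀ hn.ne'])
    rw [QQ_smul] at h1
    have h2 := mul_le_mul_of_nonneg_left h1 (sq_nonneg ‖b‖)
    have h3 : ‖b‖ ^ 2 * (‖b‖⁻¹ ^ 2 * QQ (N i) V' b) = QQ (N i) V' b := by
      field_simp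
    rw [h3] at h2
    linarith

/-- The gauge: for measures near the zero set of `V 0` there is exactly one best parameter near
the origin. -/
theorem Fam.gauge {ι : Type*} {l : Filter ι} {N : ι → Measure E} {κ : Measure E}
    [FiniteDimensional ℝ P] (hF : Fam m V V' r c K q)
    (hmom : ∀ p : ℕ, ∃ C : ℝ, ∀ᶠ i in l, Integrable (fun x => (1 + ‖x‖) ^ p * rho x) (N i) ∧
      ∫ x, (1 + ‖x‖) ^ p * rho x ∂(N i) ≤ C)
    (hlim : ∀ f : E → ℝ, Continuous f → PB f →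
      Tendsto (fun i => ∫ x, f x * rho x ∂(N i)) l (𝓝 (∫ x, f x * rho x ∂κ)))
    (hκ : ∀ p : ℕ, Integrable (fun x => (1 + ‖x‖) ^ p * rho x) κ) (hV0 : ∀ᵐ x ∂κ, V 0 x = 0)
    (hinj : ∀ b : P, (∀ᵐ x ∂κ, V' 0 b x = 0) → b = 0) :
    ∃ r₁ > 0, r₁ ≤ r ∧ ∃ lam > 0,
      (∀ᶠ i in l, ∀ a a' : P, ‖a‖ ≤ r₁ → ‖a'‖ ≤ r₁ →
        lam * ‖a - a'‖ ^ 2 ≤ GF (N i) V V' a (a - a') - GF (N i) V V' a' (a - a')) ∧
      (∀ᶠ i in l, ∃ a : P, ‖a‖ < r₁ ∧ ∀ b, GF (N i) V V' a b = 0) ∧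
      (∀ a : ι → P, (∀ᶠ i in l, ‖a i‖ ≤ r₁ ∧ ∀ b, GF (N i) V V' (a i) b = 0) →
        Tendsto a l (𝓝 0)) := by
  have hK := hF.Knn
  obtain ⟨lam, hl, hlam⟩ := hF.exists_lam (hmom _) hlim (hκ _) hinj
  obtain ⟨C, hC⟩ := hmom (2 * q + 2)
  set C' := max C 0 with hC'
  have hC0 : 0 ≤ C' := le_max_right _ _
  set r₁ := min r (lam / (4 * (5 * K ^ 2 * C' + 1))) with hr₁
  have hr1 : 0 < r₁ := lt_min hF.rpos (by positivity)
  have h1 : r₁ ≤ r := min_le_left _ _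
  have h2 : 5 * K ^ 2 * r₁ * C' ≤ lam / 4 := by
    have := min_le_right r (lam / (4 * (5 * K ^ 2 * C' + 1)))
    rw [← hr₁, le_div_iff₀ (by positivity)] at this
    nlinarith
  -- the error terms
  have herr : Tendsto (fun i => ∫ x, K * (1 + ‖x‖) ^ q * |V 0 x| * rho x ∂(N i)) l (𝓝 0) := by
    have h := hlim _ hF.cont_e (PB.of_le (C := K ^ 2) (p := 2 * q + 2) fun x => by
      rw [Real.norm_eq_abs]; exact hF.bd_e x)
    have e : ∫ x, K * (1 + ‖x‖) ^ q * |V 0 x| * rho x ∂κ = 0 := by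
      rw [integral_eq_zero_of_ae]
      filter_upwards [hV0] with x hx
      rw [hx]; simp
    rwa [e] at h
  have hmono : ∀ᶠ i in l, ∀ a a' : P, ‖a‖ ≤ r₁ → ‖a'‖ ≤ r₁ →
      lam / 2 * ‖a - a'‖ ^ 2 ≤ GF (N i) V V' a (a - a') - GF (N i) V V' a' (a - a') := by
    filter_upwards [hlam, hC, herr.eventually (gt_mem_nhds (show 0 < lam / 4 by positivity))]
      with i hi1 hi2 hi3 a a' ha ha'
    have h3 := hF.mono_GF hi2.1 h1 ha ha'
    have h4 := hi1 (a - a')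
    unfold QQ at h4
    have h5 : 5 * K ^ 2 * r₁ * ∫ x, (1 + ‖x‖) ^ (2 * q + 2) * rho x ∂(N i)
        ≤ 5 * K ^ 2 * r₁ * C' := by
      have : ∫ x, (1 + ‖x‖) ^ (2 * q + 2) * rho x ∂(N i) ≤ C' := hi2.2.trans (le_max_left _ _)
      gcongr
    have h6 : ‖a - a'‖ ^ 2 * (5 * K ^ 2 * r₁ * ∫ x, (1 + ‖x‖) ^ (2 * q + 2) * rho x ∂(N i)
        + ∫ x, K * (1 + ‖x‖) ^ q * |V 0 x| * rho x ∂(N i)) ≤ ‖a - a'‖ ^ 2 * (lam / 2) := by
      refine mul_le_mul_of_nonneg_left ?_ (sq_nonneg _)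
      linarith
    linarith
  -- `GF` at the origin
  have hGF0 : ∀ᶠ i in l, ∀ b : P, |GF (N i) V V' 0 b| ≤
      ‖b‖ * ∫ x, K * (1 + ‖x‖) ^ 1 * |V 0 x| * rho x ∂(N i) := by
    filter_upwards [hC] with i hi b
    have hc0 := hF.cont_V hF.zero_le
    have hint : Integrable (fun x => K * (1 + ‖x‖) ^ 1 * |V 0 x| * rho x) (N i) := by
      refine int_of_le (C := K ^ 2) hi.1 (by fun_prop) fun x => ?_
      have h1 := (hF.tube 0 hF.zero_le).b0 x
      have h0 := norm_nonneg x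
      rw [abs_of_nonneg (by positivity)]
      have h3 : (1 + ‖x‖) ^ 1 ≤ (1 + ‖x‖) ^ (2 * q + 2) := pow_w_le x (by omega)
      calc K * (1 + ‖x‖) ^ 1 * |V 0 x| ≤ K * (1 + ‖x‖) ^ (2 * q + 2) * K := by gcongr
        _ = _ := by ring
    unfold GF
    rw [← integral_const_mul, ← Real.norm_eq_abs]
    refine norm_integral_le_of_norm_le (hint.const_mul _) (ae_of_all _ fun x => ?_)
    have h3 := hF.db0 0 hF.zero_le b x
    have hp := rho_pos' x
    rw [Real.norm_eq_abs, abs_mul, abs_mul, abs_of_pos hp]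
    calc |V 0 x| * |V' 0 b x| * rho x ≤ |V 0 x| * (K * (1 + ‖x‖) * ‖b‖) * rho x := by gcongr
      _ = _ := by ring
  have herr1 : Tendsto (fun i => ∫ x, K * (1 + ‖x‖) ^ 1 * |V 0 x| * rho x ∂(N i)) l (𝓝 0) := by
    have hc0 := hF.cont_V hF.zero_le
    have h := hlim (fun x => K * (1 + ‖x‖) ^ 1 * |V 0 x|) (by fun_prop)
      (PB.of_le (C := K ^ 2) (p := 1) fun x => by
        have h1 := (hF.tube 0 hF.zero_le).b0 x
        have h0 := norm_nonneg x
        rw [Real.norm_eq_abs, abs_of_nonneg (by positivity)]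
        calc K * (1 + ‖x‖) ^ 1 * |V 0 x| ≤ K * (1 + ‖x‖) ^ 1 * K := by gcongr
          _ = _ := by ring)
    have e : ∫ x, K * (1 + ‖x‖) ^ 1 * |V 0 x| * rho x ∂κ = 0 := by
      rw [integral_eq_zero_of_ae]
      filter_upwards [hV0] with x hx
      rw [hx]; simp
    rwa [e] at h
  have h0r : ‖(0 : P)‖ ≤ r₁ := by rw [norm_zero]; exact hr1.le
  refine ⟨r₁, hr1, h1, lam / 2, by positivity, hmono, ?_, ?_⟩
  · filter_upwards [hmono, hGF0, hC, herr1.eventually (gt_mem_nhds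
      (show 0 < lam / 2 * r₁ by positivity))] with i hi1 hi2 hi3 hi4
    refine hF.exists_zero hi3.1 hr1 h1 fun a ha => ?_
    have h3 := hi1 a 0 ha.le h0r
    rw [sub_zero] at h3
    have h4 := (abs_le.1 (hi2 a)).1
    rw [ha] at h3 h4
    nlinarith
  · intro a ha
    rw [tendsto_zero_iff_norm_tendsto_zero]
    have hb : ∀ᶠ i in l, ‖a i‖ ≤ (lam / 2)⁻¹ * ∫ x, K * (1 + ‖x‖) ^ 1 * |V 0 x| * rho x ∂(N i) := by
      filter_upwards [hmono, hGF0, ha] with i hi1 hi2 hi3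
      have h3 := hi1 (a i) 0 hi3.1 h0r
      rw [sub_zero, hi3.2 (a i)] at h3
      have h4 := (abs_le.1 (hi2 (a i))).1
      rcases (norm_nonneg (a i)).lt_or_eq with hp | hz
      · rw [← div_eq_inv_mul, le_div_iff₀ (by positivity)]
        have h5 : ‖a i‖ * (‖a i‖ * (lam / 2)) ≤
            ‖a i‖ * ∫ x, K * (1 + ‖x‖) ^ 1 * |V 0 x| * rho x ∂(N i) := by nlinarith
        exact le_of_mul_le_mul_left h5 hp
      · rw [← hz]
        refine mul_nonneg (by positivity) (integral_nonneg fun x => ?_)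
        have := rho_pos' x
        have := norm_nonneg x
        simp only [Pi.zero_apply]
        positivity
    have ht : Tendsto (fun i => (lam / 2)⁻¹ * ∫ x, K * (1 + ‖x‖) ^ 1 * |V 0 x| * rho x ∂(N i)) l
        (𝓝 0) := by
      have := herr1.const_mul ((lam / 2)⁻¹)
      rwa [mul_zero] at this
    exact squeeze_zero' (Eventually.of_forall fun i => norm_nonneg _) hb ht

end gauge

end Vale.Agent.P218.H313
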