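import Vale.Agent.P218.H313.Static

/-! Nondegenerate shrinkers: the height function is almost a weak Jacobi field on a good slice. -/

open MeasureTheory Set Filter Topology Metric
open scoped ENNReal NNReal RealInnerProductSpace

namespace Vale.Agent.P218.H313

open Vale.Agent.P214 (IntegralVarifold proj divAlong IsTestField)

set_option linter.unusedSectionVars false
set_option linter.unusedVariables false

variable {E : Type*} [NormedAddCommGroup E] [InnerProductSpace ℝ E] [FiniteDimensional ℝ E]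
variable {m : ℕ} {c K : ℝ}

/-- bounds for a compactly supported `C²` function -/
lemma exists_bounds2 {ζ : E → ℝ} (hζ : ContDiff ℝ 2 ζ) (hζc : HasCompactSupport ζ) :
    ∃ B : ℝ, 0 ≤ B ∧ (∀ x, |ζ x| ≤ B) ∧ (∀ x, ‖grad ζ x‖ ≤ B) ∧
      (∀ x, ‖fderiv ℝ (grad ζ) x‖ ≤ B) := by
  have hg : ContDiff ℝ 1 (grad ζ) := contDiff_grad_one hζ
  have hgc : HasCompactSupport (grad ζ) := by
    have h1 := hζc.fderiv (𝕜 := ℝ)
    exact h1.comp_left (g := riesz E) (map_zero _)
  obtain ⟨B₁, h₁⟩ := hζc.exists_bound_of_continuous hζ.continuous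
  obtain ⟨B₂, h₂⟩ := hgc.exists_bound_of_continuous hg.continuous
  obtain ⟨B₃, h₃⟩ := (hgc.fderiv (𝕜 := ℝ)).exists_bound_of_continuous
    (hg.continuous_fderiv (by norm_num))
  refine ⟨max B₁ (max B₂ B₃), ?_, fun x => ?_, fun x => ?_, fun x => ?_⟩
  · exact ((norm_nonneg _).trans (h₁ 0)).trans (le_max_left _ _)
  · exact (h₁ x).trans (le_max_left _ _)
  · exact (h₂ x).trans ((le_max_left _ _).trans (le_max_right _ _))
  · exact (h₃ x).trans ((le_max_right _ _).trans (le_max_right _ _))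

lemma hasCompactSupport_grad {ζ : E → ℝ} (hζc : HasCompactSupport ζ) :
    HasCompactSupport (grad ζ) := by
  have h1 := hζc.fderiv (𝕜 := ℝ)
  exact h1.comp_left (g := riesz E) (map_zero _)

lemma aux_far {w c B u v U V : ℝ} (hc : 0 < c) (hw : c ≤ w) (hB : 0 ≤ B) (hU : 0 ≤ U)
    (hV : 0 ≤ V) (hu : u ≤ U) (hv : v ≤ V) :
    w * u + B * v ≤ (U / c + B * V / c ^ 2) * w ^ 2 := by
  have hw0 : 0 < w := hc.trans_le hw
  have h1 : 1 ≤ w / c := by rw [le_div_iff₀ hc]; linarith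
  have h1' : 1 ≤ (w / c) ^ 2 := one_le_pow₀ h1
  have h2 : w * u ≤ w * U := mul_le_mul_of_nonneg_left hu hw0.le
  have h3 : w * U ≤ (w / c) * (w * U) := le_mul_of_one_le_left (by positivity) h1
  have h4 : B * v ≤ B * V := mul_le_mul_of_nonneg_left hv hB
  have h5 : B * V ≤ (w / c) ^ 2 * (B * V) := le_mul_of_one_le_left (by positivity) h1'
  have e : (U / c + B * V / c ^ 2) * w ^ 2 = (w / c) * (w * U) + (w / c) ^ 2 * (B * V) := by
    field_simp
  rw [e]
  linarith

/-- the pointwise error in the Jacobi equation -/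
lemma exists_jac_pt (hE : Module.finrank ℝ E = m + 1) (hc : 0 < c) (hK : 0 ≤ K) {B : ℝ}
    (hB : 0 ≤ B) : ∃ C : ℝ, 0 ≤ C ∧ ∀ W : E → ℝ, TubeD W c K → ∀ ζ : E → ℝ,
      (∀ x, |ζ x| ≤ B) → (∀ x, ‖fderiv ℝ (grad ζ) x‖ ≤ B) →
      ∀ (x : E) (T : Submodule ℝ E), Module.finrank ℝ T = m →
      |W x * (tr (fderiv ℝ (grad ζ) x) - ⟪fderiv ℝ (grad ζ) x (grad W x), grad W x⟫
          - tr ((proj T).comp (fderiv ℝ (grad ζ) x)))
        + ζ x * (tr ((proj T).comp (fderiv ℝ (grad W) x)) - 1 / 2 * ⟪x, grad W x⟫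
          + (tr ((fderiv ℝ (grad W) x).comp (fderiv ℝ (grad W) x)) + 1 / 2) * W x)|
        ≤ C * (W x ^ 2 + ‖proj T (grad W x)‖ ^ 2) := by
  set n : ℝ := (Module.finrank ℝ E : ℝ) with hn
  have hn0 : 0 ≤ n := by rw [hn]; positivity
  set C₁ := 2 * B + B * K with hC₁
  set C₂ := (2 * n + K ^ 2) * B / c + B * ((n + 1) * K + (n * K ^ 2 + 1) * K) / c ^ 2 with hC₂
  have hC₁0 : 0 ≤ C₁ := by positivity
  have hC₂0 : 0 ≤ C₂ := by positivity
  refine ⟨C₁ + C₂, by positivity, fun W hW ζ hζ0 hζ2 x T hT => ?_⟩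
  set D := fderiv ℝ (grad ζ) x with hD
  set g := grad W x with hg
  set q := tr ((fderiv ℝ (grad W) x).comp (fderiv ℝ (grad W) x)) with hq
  set a := tr ((proj T).comp (fderiv ℝ (grad W) x)) - 1 / 2 * ⟪x, g⟫ with ha
  set P := ‖proj T g‖ with hP
  have hP0 : 0 ≤ P := norm_nonneg _
  have hw2 : W x ^ 2 = |W x| ^ 2 := (sq_abs _).symm
  have hwa := abs_nonneg (W x)
  have hDB : ‖D‖ ≤ B := hζ2 x
  have hsum : 0 ≤ W x ^ 2 + P ^ 2 := by positivity
  have tri : |W x * (tr D - ⟪D g, g⟫ - tr ((proj T).comp D)) + ζ x * (a + (q + 1 / 2) * W x)|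
      ≤ |W x| * |tr D - ⟪D g, g⟫ - tr ((proj T).comp D)| + B * |a + (q + 1 / 2) * W x| := by
    refine (abs_add_le _ _).trans ?_
    rw [abs_mul, abs_mul]
    have := hζ0 x
    gcongr
  refine tri.trans ?_
  by_cases hx : |W x| < c
  · have h1 := hW.hess_est hE x T hT hx D
    have h2 := hW.trace_est hE x T hT hx
    have h3 : |tr D - ⟪D g, g⟫ - tr ((proj T).comp D)| ≤ 4 * B * P := by
      rw [abs_sub_comm]
      refine h1.trans ?_
      gcongr
    have h4 : |a + (q + 1 / 2) * W x| ≤ K * (W x ^ 2 + P ^ 2) := h2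
    calc |W x| * |tr D - ⟪D g, g⟫ - tr ((proj T).comp D)| + B * |a + (q + 1 / 2) * W x|
        ≤ |W x| * (4 * B * P) + B * (K * (W x ^ 2 + P ^ 2)) := by gcongr
      _ ≤ C₁ * (W x ^ 2 + P ^ 2) := by
          rw [hC₁, hw2]
          nlinarith [mul_nonneg hB (sq_nonneg (|W x| - P))]
      _ ≤ (C₁ + C₂) * (W x ^ 2 + P ^ 2) := by gcongr; linarith
  · push Not at hx
    have h2 : |tr D - ⟪D g, g⟫ - tr ((proj T).comp D)| ≤ (2 * n + K ^ 2) * B := by
      have e1 := abs_tr_le D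
      have e2 := abs_tr_proj_comp_le T D
      have e3 : |⟪D g, g⟫| ≤ K ^ 2 * B := by
        refine (abs_real_inner_le_norm _ _).trans ?_
        have e4 := D.le_opNorm g
        have e5 : ‖g‖ ≤ K := hW.b1 x
        calc ‖D g‖ * ‖g‖ ≤ (‖D‖ * ‖g‖) * ‖g‖ := by gcongr
          _ ≤ (B * K) * K := by gcongr
          _ = K ^ 2 * B := by ring
      have e6 : |tr D| ≤ n * B := e1.trans (by gcongr)
      have e7 : |tr ((proj T).comp D)| ≤ n * B := e2.trans (by gcongr)
      have e8 := abs_sub (tr D - ⟪D g, g⟫) (tr ((proj T).comp D))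
      have e9 := abs_sub (tr D) ⟪D g, g⟫
      nlinarith
    have h3 : |a + (q + 1 / 2) * W x| ≤ (n + 1) * K + (n * K ^ 2 + 1) * K := by
      have e1 := abs_tr_proj_comp_le T (fderiv ℝ (grad W) x)
      have e2 : (n : ℝ) * ‖fderiv ℝ (grad W) x‖ ≤ n * K := by
        have := hW.b2 x
        gcongr
      have e3 := hW.bx x
      have e4 : |a| ≤ |tr ((proj T).comp (fderiv ℝ (grad W) x))| + |1 / 2 * ⟪x, g⟫| := abs_sub _ _
      rw [abs_mul, abs_of_pos (by norm_num : (0 : ℝ) < 1 / 2)] at e4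
      have e5 : |q| ≤ n * K ^ 2 := hW.q_le x
      have e6 : |(q + 1 / 2) * W x| ≤ (n * K ^ 2 + 1) * K := by
        rw [abs_mul]
        have e7 : |q + 1 / 2| ≤ n * K ^ 2 + 1 := by
          refine (abs_add_le _ _).trans ?_
          rw [abs_of_pos (by norm_num : (0 : ℝ) < 1 / 2)]
          linarith
        have e8 := hW.b0 x
        gcongr
      have e9 := abs_add_le a ((q + 1 / 2) * W x)
      nlinarith
    have h5 := aux_far hc hx hB (by positivity : 0 ≤ (2 * n + K ^ 2) * B)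
      (by positivity : 0 ≤ (n + 1) * K + (n * K ^ 2 + 1) * K) h2 h3
    have e1 : C₂ * |W x| ^ 2 ≤ C₂ * (W x ^ 2 + P ^ 2) :=
      mul_le_mul_of_nonneg_left (by rw [hw2]; have : 0 ≤ P ^ 2 := sq_nonneg _
                                    linarith) hC₂0
    have e2 : 0 ≤ C₁ * (W x ^ 2 + P ^ 2) := mul_nonneg hC₁0 hsum
    linarith

variable [MeasurableSpace E] [BorelSpace E]

lemma continuous_jac {W ζ : E → ℝ} (hW : TubeD W c K) (hζ : ContDiff ℝ 2 ζ) :
    Continuous (jac W ζ) := by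
  have h1 : Continuous (fderiv ℝ (grad ζ)) :=
    (contDiff_grad_one hζ).continuous_fderiv (by norm_num)
  have h2 : Continuous (fderiv ℝ (grad W)) := hW.grad_cd.continuous_fderiv (by norm_num)
  have h3 : Continuous (grad W) := hW.pg_grad.cont
  have h4 : Continuous (grad ζ) := (contDiff_grad_one hζ).continuous
  have h5 := hζ.continuous
  have h6 : Continuous (fun x => tr (fderiv ℝ (grad ζ) x)) := (trL E).continuous.comp h1
  have h7 : Continuous (fun x => tr ((fderiv ℝ (grad W) x).comp (fderiv ℝ (grad W) x))) :=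
    (trL E).continuous.comp (h2.clm_comp h2)
  unfold jac
  exact ((h6.sub ((h1.clm_apply h3).inner h3)).sub
    (continuous_const.mul (continuous_id.inner h4))).add ((h7.add continuous_const).mul h5)

lemma hasCompactSupport_jac {W ζ : E → ℝ} (hζc : HasCompactSupport ζ) :
    HasCompactSupport (jac W ζ) := by
  have hg := hasCompactSupport_grad hζc
  have hf := hg.fderiv (𝕜 := ℝ)
  apply HasCompactSupport.intro (K := tsupport ζ ∪ (tsupport (grad ζ) ∪ tsupport (fderiv ℝ (grad ζ))))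
    (hζc.isCompact.union (hg.isCompact.union hf.isCompact))
  intro x hx
  simp only [mem_union, not_or] at hx
  obtain ⟨h1, h2, h3⟩ := hx
  have e1 := image_eq_zero_of_notMem_tsupport h1
  have e2 := image_eq_zero_of_notMem_tsupport h2
  have e3 := image_eq_zero_of_notMem_tsupport h3
  unfold jac
  rw [e1, e2, e3]
  have : tr (0 : E →L[ℝ] E) = 0 := (trL E).map_zero
  simp [this]

/-- **the almost Jacobi equation** on a Gaussian slice -/
theorem exists_jac_est (hE : Module.finrank ℝ E = m + 1) (hc : 0 < c) (hK : 0 ≤ K)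
    {ζ : E → ℝ} (hζ : ContDiff ℝ 2 ζ) (hζc : HasCompactSupport ζ) :
    ∃ C : ℝ, 0 ≤ C ∧ ∀ W : E → ℝ, TubeD W c K → ∀ (μ : Measure E) (T : E → Submodule ℝ E)
      (H : E → E), GSlice m μ T H →
      |∫ x, W x * jac W ζ x * rho x ∂μ|
        ≤ C * (DD μ W 0 + dis μ T H + ∫ x, ‖vel T H x‖ * rho x ∂μ) := by
  obtain ⟨B, hB, hζ0, hζ1, hζ2⟩ := exists_bounds2 hζ hζc
  obtain ⟨C₁, hC₁, hpt⟩ := exists_jac_pt (E := E) hE hc hK hB
  obtain ⟨C₂, hC₂, hTG⟩ := exists_TG_le (E := E) hE hc hK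
  refine ⟨C₁ + C₁ * C₂ + 2 * B * K, by positivity, fun W hW μ T H hS => ?_⟩
  have hTG' := hTG W hW μ T H hS
  have hDD := DD_nonneg (μ := μ) (W := W) 0
  have hdis := dis_nonneg (μ := μ) (T := T) (H := H)
  have hζpg : PG ζ := PG.of_compact (hζ.of_le (by norm_num)) hζc
  have hgζpg : PG (grad ζ) := PG.of_compact (contDiff_grad_one hζ) (hasCompactSupport_grad hζc)
  have hXpg : PG (fun x => ζ x • grad W x) := hζpg.smul hW.pg_grad
  have hYpg : PG (fun x => W x • grad ζ x) := hW.pg.smul hgζpg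
  have wX := hS.wfv hXpg.cd hXpg.b0 hXpg.b1
  have wY := hS.wfv hYpg.cd hYpg.b0 hYpg.b1
  have dX := hS.integrable_div hXpg.cd hXpg.b1
  have dY := hS.integrable_div hYpg.cd hYpg.b1
  have nX := hS.integrable_PB (continuous_id.inner hXpg.cont).aestronglyMeasurable
    (PB.id'.inner' hXpg.b0)
  have nY := hS.integrable_PB (continuous_id.inner hYpg.cont).aestronglyMeasurable
    (PB.id'.inner' hYpg.b0)
  have vX := hS.integrable_inner_vel hXpg.cont.aestronglyMeasurable hXpg.b0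
  have vY := hS.integrable_inner_vel hYpg.cont.aestronglyMeasurable hYpg.b0
  have ivel : Integrable (fun x => ‖vel T H x‖ * rho x) μ := by
    refine hS.integrable hS.vel_meas.norm (C := 1) (p := 0) (Eventually.of_forall fun x => ?_)
    rw [abs_of_nonneg (norm_nonneg _)]
    nlinarith [sq_nonneg (‖vel T H x‖ - 1), norm_nonneg (vel T H x)]
  -- the identity
  set R : E → ℝ := fun x => W x * (tr (fderiv ℝ (grad ζ) x)
        - ⟪fderiv ℝ (grad ζ) x (grad W x), grad W x⟫
        - tr ((proj (T x)).comp (fderiv ℝ (grad ζ) x)))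
      + ζ x * (tr ((proj (T x)).comp (fderiv ℝ (grad W) x)) - 1 / 2 * ⟪x, grad W x⟫
        + (tr ((fderiv ℝ (grad W) x).comp (fderiv ℝ (grad W) x)) + 1 / 2) * W x) with hR
  have hpw : ∀ x, W x * jac W ζ x * rho x
      = ((divAlong (T x) (fun x => W x • grad ζ x) x - 1 / 2 * ⟪x, W x • grad ζ x⟫) * rho x
        - (divAlong (T x) (fun x => ζ x • grad W x) x - 1 / 2 * ⟪x, ζ x • grad W x⟫) * rho x)
        + R x * rho x := by
    intro x
    rw [divAlong_smul (T x) (hW.diff x) (hgζpg.diff x),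
      divAlong_smul (T x) (hζpg.diff x) (hW.pg_grad.diff x), H552.inner_proj_left,
      real_inner_smul_right, real_inner_smul_right, divAlong_eq, divAlong_eq,
      real_inner_comm (proj (T x) (grad ζ x)) (grad W x)]
    simp only [hR, jac]
    ring
  have iJ : Integrable (fun x => W x * jac W ζ x * rho x) μ := by
    refine hS.integrable_PB (hW.cont.mul (continuous_jac hW hζ)).aestronglyMeasurable ?_
    exact hW.pg.b0.mul (PB.of_compact (continuous_jac hW hζ) (hasCompactSupport_jac hζc))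
  have iX : Integrable (fun x => (divAlong (T x) (fun x => ζ x • grad W x) x
      - 1 / 2 * ⟪x, ζ x • grad W x⟫) * rho x) μ := by
    refine (dX.sub (nX.const_mul (1 / 2))).congr (Eventually.of_forall fun x => ?_)
    simp only [Pi.sub_apply, id]
    ring
  have iY : Integrable (fun x => (divAlong (T x) (fun x => W x • grad ζ x) x
      - 1 / 2 * ⟪x, W x • grad ζ x⟫) * rho x) μ := by
    refine (dY.sub (nY.const_mul (1 / 2))).congr (Eventually.of_forall fun x => ?_)
    simp only [Pi.sub_apply, id]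
    ring
  have iR : Integrable (fun x => R x * rho x) μ := by
    refine (iJ.sub (iY.sub iX)).congr (Eventually.of_forall fun x => ?_)
    simp only [Pi.sub_apply]
    rw [hpw x]
    ring
  have hid : ∫ x, W x * jac W ζ x * rho x ∂μ
      = - ∫ x, ⟪W x • grad ζ x, vel T H x⟫ * rho x ∂μ
        + ∫ x, ⟪ζ x • grad W x, vel T H x⟫ * rho x ∂μ + ∫ x, R x * rho x ∂μ := by
    have h := integral_comb iY iX iR 1 (-1) 1
    simp only [one_mul, neg_mul, ← sub_eq_add_neg] at h
    rw [integral_congr_ae (Eventually.of_forall hpw), h, wX, wY]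
    ring
  -- bounds
  have bY : |∫ x, ⟪W x • grad ζ x, vel T H x⟫ * rho x ∂μ| ≤ B * K * ∫ x, ‖vel T H x‖ * rho x ∂μ := by
    rw [← integral_const_mul, ← Real.norm_eq_abs]
    refine norm_integral_le_of_norm_le (ivel.const_mul _) (Eventually.of_forall fun x => ?_)
    rw [norm_mul, Real.norm_of_nonneg (rho_pos x).le, ← mul_assoc]
    refine mul_le_mul_of_nonneg_right ?_ (rho_pos x).le
    refine (norm_inner_le_norm _ _).trans (mul_le_mul_of_nonneg_right ?_ (norm_nonneg _))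
    rw [norm_smul, Real.norm_eq_abs, mul_comm]
    exact mul_le_mul (hζ1 x) (hW.b0 x) (abs_nonneg _) hB
  have bX : |∫ x, ⟪ζ x • grad W x, vel T H x⟫ * rho x ∂μ| ≤ B * K * ∫ x, ‖vel T H x‖ * rho x ∂μ := by
    rw [← integral_const_mul, ← Real.norm_eq_abs]
    refine norm_integral_le_of_norm_le (ivel.const_mul _) (Eventually.of_forall fun x => ?_)
    rw [norm_mul, Real.norm_of_nonneg (rho_pos x).le, ← mul_assoc]
    refine mul_le_mul_of_nonneg_right ?_ (rho_pos x).le
    refine (norm_inner_le_norm _ _).trans (mul_le_mul_of_nonneg_right ?_ (norm_nonneg _))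
    rw [norm_smul, Real.norm_eq_abs]
    exact mul_le_mul (hζ0 x) (hW.b1 x) (norm_nonneg _) hB
  have bR : |∫ x, R x * rho x ∂μ| ≤ C₁ * (DD μ W 0 + TG μ T W 0) := by
    have e : C₁ * (DD μ W 0 + TG μ T W 0) = ∫ x, (C₁ * (W x ^ 2 * wt 0 x * rho x)
        + C₁ * (wt 0 x * ‖proj (T x) (grad W x)‖ ^ 2 * rho x)) ∂μ := by
      rw [integral_comb2 (hS.int_DD hW 0) (hS.int_TG hW 0), mul_add]; rfl
    rw [e, ← Real.norm_eq_abs]
    refine norm_integral_le_of_norm_le
      (((hS.int_DD hW 0).const_mul _).add ((hS.int_TG hW 0).const_mul _)) ?_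
    filter_upwards [hS.mc.dim] with x hx
    rw [norm_mul, Real.norm_of_nonneg (rho_pos x).le, Real.norm_eq_abs]
    have h1 := hpt W hW ζ hζ0 hζ2 x (T x) hx
    have h2 := mul_le_mul_of_nonneg_right h1 (rho_pos x).le
    simp only [wt, pow_zero, mul_one, one_mul]
    refine h2.trans (le_of_eq (by ring))
  rw [hid]
  have t1 := abs_add_le (- ∫ x, ⟪W x • grad ζ x, vel T H x⟫ * rho x ∂μ
        + ∫ x, ⟪ζ x • grad W x, vel T H x⟫ * rho x ∂μ) (∫ x, R x * rho x ∂μ)
  have t2 := abs_add_le (- ∫ x, ⟪W x • grad ζ x, vel T H x⟫ * rho x ∂μ)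
    (∫ x, ⟪ζ x • grad W x, vel T H x⟫ * rho x ∂μ)
  rw [abs_neg] at t2
  have hv0 : 0 ≤ ∫ x, ‖vel T H x‖ * rho x ∂μ :=
    integral_nonneg fun x => mul_nonneg (norm_nonneg _) (rho_pos x).le
  have t3 : C₁ * TG μ T W 0 ≤ C₁ * (C₂ * (DD μ W 0 + dis μ T H)) := by gcongr
  nlinarith [mul_nonneg (mul_nonneg hC₁ hC₂) hv0, mul_nonneg hC₁ hv0, mul_nonneg hC₁ hdis,
    mul_nonneg (mul_nonneg hB hK) hDD, mul_nonneg (mul_nonneg hB hK) hdis]

end Vale.Agent.P218.H313
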