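import Vale.Agent.P218.H313.W1

/-! The upper density of the model hypersurface is at most one. -/

open MeasureTheory Set Filter Topology Metric
open scoped ENNReal NNReal RealInnerProductSpace

namespace Vale.Agent.P218.H313

open Vale.Agent.P214 (IntegralVarifold proj divAlong IsTestField)

set_option linter.unusedSectionVars false

lemma isAddHaar_euc (m : ℕ) :
    (μH[m] : Measure (EuclideanSpace ℝ (Fin m))).IsAddHaarMeasure := by
  have h1 : ((Module.finrank ℝ (EuclideanSpace ℝ (Fin m)) : ℕ) : ℝ) = m := by simp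
  rw [← h1]
  infer_instance

section ker

variable {E : Type*} [NormedAddCommGroup E] [InnerProductSpace ℝ E]

lemma ker_nonneg (z : E) : 0 ≤ ker z := sq_nonneg _

lemma ker_le_one (z : E) : ker z ≤ 1 := by
  unfold ker
  have h1 : max (1 - ‖z‖ ^ 2) 0 ≤ 1 := max_le (by have := sq_nonneg ‖z‖; linarith) zero_le_one
  have h0 : 0 ≤ max (1 - ‖z‖ ^ 2) 0 := le_max_right _ _
  nlinarith

lemma continuous_ker : Continuous (ker : E → ℝ) := by
  unfold ker; fun_prop

lemma ker_eq_zero {z : E} (h : 1 ≤ ‖z‖) : ker z = 0 := by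
  unfold ker
  rw [max_eq_right (by nlinarith)]; norm_num

lemma ker_anti {F : Type*} [NormedAddCommGroup F] [InnerProductSpace ℝ F] {z : E} {z' : F}
    (h : ‖z‖ ≤ ‖z'‖) : ker z' ≤ ker z := by
  unfold ker
  have h1 : ‖z‖ ^ 2 ≤ ‖z'‖ ^ 2 := pow_le_pow_left₀ (norm_nonneg _) h 2
  apply pow_le_pow_left₀ (le_max_right _ _)
  exact max_le_max (by linarith) le_rfl

lemma ker_compact [FiniteDimensional ℝ E] : HasCompactSupport (ker : E → ℝ) := by
  refine HasCompactSupport.intro (isCompact_closedBall (0 : E) 1) fun y hy => ?_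
  rw [mem_closedBall, dist_zero_right, not_le] at hy
  exact ker_eq_zero hy.le

end ker

/-- scaling of the kernel integral -/
lemma lintegral_ker_euc (m : ℕ) {r : ℝ} (hr : 0 < r) :
    ∫⁻ p, ENNReal.ofReal (ker (r⁻¹ • p)) ∂(μH[m] : Measure (EuclideanSpace ℝ (Fin m)))
      = ENNReal.ofReal (r ^ m * om m) := by
  have hH := isAddHaar_euc m
  have hc : Continuous fun p : EuclideanSpace ℝ (Fin m) => ker (r⁻¹ • p) :=
    continuous_ker.comp (continuous_const_smul _)
  have hcs : HasCompactSupport fun p : EuclideanSpace ℝ (Fin m) => ker (r⁻¹ • p) :=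
    ker_compact.comp_homeomorph (Homeomorph.smulOfNeZero r⁻¹ (inv_ne_zero hr.ne'))
  have hi : Integrable (fun p : EuclideanSpace ℝ (Fin m) => ker (r⁻¹ • p)) μH[m] :=
    hc.integrable_of_hasCompactSupport hcs
  rw [← ofReal_integral_eq_lintegral_ofReal hi (Eventually.of_forall fun p => ker_nonneg _),
    Measure.integral_comp_inv_smul_of_nonneg _ _ hr.le, finrank_euclideanSpace_fin]
  rfl

variable {E : Type*} [NormedAddCommGroup E] [InnerProductSpace ℝ E] [FiniteDimensional ℝ E]
  [MeasurableSpace E] [BorelSpace E]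
variable {m : ℕ} {W : E → ℝ} {c K : ℝ}

/-- integral of the kernel over a plane -/
lemma lintegral_ker_plane {T : Submodule ℝ E} (hT : Module.finrank ℝ T = m) {r : ℝ} (hr : 0 < r) :
    ∫⁻ z in (T : Set E), ENNReal.ofReal (ker (r⁻¹ • z)) ∂μH[m] = ENNReal.ofReal (r ^ m * om m) := by
  let b := (stdOrthonormalBasis ℝ T).reindex (finCongr hT)
  let i : EuclideanSpace ℝ (Fin m) → E := fun p => ((b.repr.symm p : T) : E)
  have hi : Isometry i := (isometry_subtype_coe).comp b.repr.symm.isometry
  have hrange : range i = (T : Set E) := by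
    ext y
    constructor
    · rintro ⟨p, rfl⟩; exact (b.repr.symm p).2
    · intro hy
      exact ⟨b.repr ⟨y, hy⟩, by simp [i]⟩
  have h1 := hi.map_hausdorffMeasure (d := (m : ℝ)) (Or.inl (Nat.cast_nonneg m))
  have hmeas : Measurable fun z : E => ENNReal.ofReal (ker (r⁻¹ • z)) :=
    (continuous_ker.comp (continuous_const_smul _)).measurable.ennreal_ofReal
  rw [← hrange, ← h1, lintegral_map hmeas hi.continuous.measurable, ← lintegral_ker_euc m hr]
  refine lintegral_congr fun p => ?_
  congr 1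
  have h2 : ‖i p‖ = ‖p‖ := by
    have h3 : ‖(b.repr.symm p : T)‖ = ‖p‖ := b.repr.symm.norm_map p
    exact h3
  apply le_antisymm
  · apply ker_anti; rw [norm_smul, norm_smul, h2]
  · apply ker_anti; rw [norm_smul, norm_smul, h2]

/-- the level set is almost flat at small scales -/
lemma TubeD.flat (hW : TubeD W c K) {x : E} {r : ℝ} {y y' : E}
    (hy : y ∈ closedBall x r) (hy' : y' ∈ closedBall x r) (h0 : W y = 0) (h0' : W y' = 0) :
    |⟪grad W x, y - y'⟫| ≤ K * r * ‖y - y'‖ := by
  have hWd : ∀ z, HasFDerivAt W (fderiv ℝ W z) z := fun z =>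
    (hW.smooth.differentiable (by norm_num) z).hasFDerivAt
  set F : E → ℝ := fun z => W z - ⟪grad W x, z⟫ with hF
  have hFd : ∀ z ∈ closedBall x r, HasFDerivWithinAt F (fderiv ℝ W z - innerSL ℝ (grad W x))
      (closedBall x r) z := by
    intro z _
    exact ((hWd z).sub (innerSL ℝ (grad W x)).hasFDerivAt).hasFDerivWithinAt
  have hlip : ∀ z ∈ closedBall x r, ‖fderiv ℝ W z - innerSL ℝ (grad W x)‖ ≤ K * r := by
    intro z hz
    have h1 : ‖grad W z - grad W x‖ ≤ K * ‖z - x‖ := by
      apply Convex.norm_image_sub_le_of_norm_hasFDerivWithin_le (𝕜 := ℝ) (s := univ)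
        (f' := fderiv ℝ (grad W)) _ (fun y _ => hW.b2 y) convex_univ (mem_univ _) (mem_univ _)
      intro y _
      exact ((contDiff_grad_one hW.smooth).differentiable (by norm_num) y).hasFDerivAt.hasFDerivWithinAt
    have h2 : ‖z - x‖ ≤ r := by rwa [← dist_eq_norm]
    have hK : 0 ≤ K := (norm_nonneg _).trans (hW.b2 x)
    refine ContinuousLinearMap.opNorm_le_bound _ (by
      have : 0 ≤ r := (norm_nonneg _).trans h2
      positivity) fun v => ?_
    have h3 : (fderiv ℝ W z - innerSL ℝ (grad W x)) v = ⟪grad W z - grad W x, v⟫ := by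
      rw [inner_sub_left, inner_grad]; rfl
    rw [h3]
    refine (norm_inner_le_norm _ _).trans ?_
    apply mul_le_mul_of_nonneg_right _ (norm_nonneg _)
    exact h1.trans (mul_le_mul_of_nonneg_left h2 hK)
  have h4 := (convex_closedBall x r).norm_image_sub_le_of_norm_hasFDerivWithin_le (𝕜 := ℝ)
    hFd hlip hy' hy
  simp only [hF, h0, h0', zero_sub] at h4
  rw [inner_sub_right]
  rw [Real.norm_eq_abs] at h4
  refine le_trans (le_of_eq ?_) h4
  rw [← abs_neg]
  congr 1
  ring

/-- **Density of the model.** -/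
theorem density_le (hE : Module.finrank ℝ E = m + 1) (hW : TubeD W c K)
    (x : E) {b : ℝ} (hb : om m < b) :
    ∀ᶠ r in 𝓝[>] (0 : ℝ),
      (∫ y, ker (r⁻¹ • (y - x)) ∂((μH[m] : Measure E).restrict {z | W z = 0})) / r ^ m ≤ b := by
  have hom : 0 ≤ om m := integral_nonneg fun p => ker_nonneg _
  have hWc : Continuous W := hW.smooth.continuous
  set S : Set E := {z | W z = 0} with hS
  have hSc : IsClosed S := isClosed_eq hWc continuous_const
  by_cases hx : W x = 0
  swap
  · -- points off `S`
    have h1 : ∀ᶠ y in 𝓝 x, W y ≠ 0 := hWc.continuousAt.eventually_ne hx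
    obtain ⟨ε, hε, hball⟩ := Metric.eventually_nhds_iff.1 h1
    filter_upwards [Ioo_mem_nhdsGT hε] with r hr
    have h2 : ∫ y in S, ker (r⁻¹ • (y - x)) ∂(μH[m] : Measure E) = 0 := by
      have h3 : ∫ y in S, ker (r⁻¹ • (y - x)) ∂(μH[m] : Measure E)
          = ∫ y in S, (0 : ℝ) ∂(μH[m] : Measure E) := by
        apply setIntegral_congr_fun hSc.measurableSet
        intro y hy
        simp only
        apply ker_eq_zero
        rw [norm_smul, norm_inv, Real.norm_eq_abs, abs_of_pos hr.1, ← dist_eq_norm]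
        by_contra hcon
        push Not at hcon
        rw [inv_mul_lt_iff₀ hr.1, mul_one] at hcon
        exact hball (hcon.trans hr.2) hy
      rw [h3]; simp
    rw [h2, zero_div]
    linarith
  -- points of `S`
  set g := grad W x with hg
  have hg1 : ‖g‖ = 1 := hW.eik x (by rw [hx, abs_zero]; exact hW.cpos)
  have hg0 : g ≠ 0 := by intro h; rw [h, norm_zero] at hg1; norm_num at hg1
  set T : Submodule ℝ E := (ℝ ∙ g)ᗮ with hT
  have hTd : Module.finrank ℝ T = m := by
    have : Fact (Module.finrank ℝ E = m + 1) := ⟨hE⟩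
    exact Submodule.finrank_orthogonal_span_singleton hg0
  have hproj : ∀ v, proj T v = v - ⟪g, v⟫ • g := by
    intro v
    unfold proj
    have h1 : T.starProjection v = v - (ℝ ∙ g).starProjection v :=
      Submodule.starProjection_orthogonal_val v
    rw [h1, Submodule.starProjection_unit_singleton ℝ hg1]
  have hK : 0 ≤ K := (norm_nonneg _).trans (hW.b2 x)
  -- the Lipschitz constant
  set L : ℝ → ℝ := fun r => (√(1 - (K * r) ^ 2))⁻¹ with hL
  have hLlim : Tendsto (fun r => L r ^ m * om m) (𝓝[>] 0) (𝓝 (om m)) := by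
    have h1 : ContinuousAt (fun r : ℝ => L r ^ m * om m) 0 := by
      have h2 : ContinuousAt L 0 := by
        apply ContinuousAt.inv₀ (by fun_prop)
        simp
      exact (h2.pow m).mul continuousAt_const
    have h3 := h1.tendsto
    have h4 : L 0 ^ m * om m = om m := by simp [hL]
    rw [h4] at h3
    exact h3.mono_left nhdsWithin_le_nhds
  have hev1 : ∀ᶠ r in 𝓝[>] (0 : ℝ), L r ^ m * om m < b := hLlim.eventually (gt_mem_nhds hb)
  have hev2 : ∀ᶠ r in 𝓝[>] (0 : ℝ), K * r < 1 := by
    have h1 : Tendsto (fun r : ℝ => K * r) (𝓝[>] 0) (𝓝 (K * 0)) :=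
      ((continuous_const_mul K).tendsto 0).mono_left nhdsWithin_le_nhds
    rw [mul_zero] at h1
    exact h1.eventually (gt_mem_nhds one_pos)
  filter_upwards [hev1, hev2, self_mem_nhdsWithin] with r h1 h2 hr
  have hr0 : 0 < r := hr
  have hKr0 : 0 ≤ K * r := by positivity
  have hpos : 0 < 1 - (K * r) ^ 2 := by nlinarith
  have hLpos : 0 < L r := by simp only [hL]; positivity
  set A : Set E := S ∩ closedBall x r with hA
  have hAc : IsClosed A := hSc.inter isClosed_closedBall
  set q : E → E := fun y => proj T (y - x) with hq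
  have hqc : Continuous q := (proj T).continuous.comp (by fun_prop)
  have hqT : ∀ y, q y ∈ T := fun y => H552.proj_mem T _
  -- `q` is expanding up to the factor `L`
  have hexp : ∀ y ∈ A, ∀ y' ∈ A, dist y y' ≤ L r * dist (q y) (q y') := by
    intro y hy y' hy'
    have h3 := hW.flat hy.2 hy'.2 hy.1 hy'.1
    have h4 : q y - q y' = proj T (y - y') := by
      simp only [hq]; rw [← map_sub]; congr 1; abel
    have h5 : ‖proj T (y - y')‖ ^ 2 = ‖y - y'‖ ^ 2 - ⟪g, y - y'⟫ ^ 2 :=
      H63.norm_proj_sq hg1 hproj _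
    have h6 : (1 - (K * r) ^ 2) * ‖y - y'‖ ^ 2 ≤ ‖proj T (y - y')‖ ^ 2 := by
      rw [h5]
      have h7 : ⟪g, y - y'⟫ ^ 2 ≤ (K * r * ‖y - y'‖) ^ 2 := by
        rw [← sq_abs]; exact pow_le_pow_left₀ (abs_nonneg _) h3 2
      nlinarith
    rw [dist_eq_norm, dist_eq_norm, h4]
    have h8 : √(1 - (K * r) ^ 2) * ‖y - y'‖ ≤ ‖proj T (y - y')‖ := by
      apply le_of_sq_le_sq _ (norm_nonneg _)
      rw [mul_pow, Real.sq_sqrt hpos.le]
      exact h6
    have h9 : 0 < √(1 - (K * r) ^ 2) := Real.sqrt_pos.2 hpos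
    calc ‖y - y'‖ = L r * (√(1 - (K * r) ^ 2) * ‖y - y'‖) := by
          simp only [hL]
          rw [← mul_assoc, inv_mul_cancel₀ h9.ne', one_mul]
      _ ≤ L r * ‖proj T (y - y')‖ := mul_le_mul_of_nonneg_left h8 hLpos.le
  -- comparison of measures
  have hmeasle : ∀ s : Set E, MeasurableSet s →
      (μH[m] : Measure E) (A ∩ q ⁻¹' s) ≤ ENNReal.ofReal (L r ^ m) * (μH[m] : Measure E) (T ∩ s) := by
    intro s hs
    have hanti : AntilipschitzWith (L r).toNNReal (fun y : A => q y) := by
      refine AntilipschitzWith.of_le_mul_dist fun y y' => ?_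
      rw [Real.coe_toNNReal _ hLpos.le]
      exact hexp y y.2 y' y'.2
    have h3 := hanti.hausdorffMeasure_preimage_le (d := (m : ℝ)) (Nat.cast_nonneg m) ((T : Set E) ∩ s)
    have h4 : (Subtype.val : A → E) '' ((fun y : A => q y) ⁻¹' ((T : Set E) ∩ s)) = A ∩ q ⁻¹' s := by
      ext y
      constructor
      · rintro ⟨z, hz, rfl⟩
        exact ⟨z.2, hz.2⟩
      · rintro ⟨hyA, hys⟩
        exact ⟨⟨y, hyA⟩, ⟨hqT y, hys⟩, rfl⟩
    rw [← h4, isometry_subtype_coe.hausdorffMeasure_image (Or.inl (Nat.cast_nonneg m))]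
    refine h3.trans (le_of_eq ?_)
    congr 1
    rw [ENNReal.rpow_natCast, ENNReal.ofReal_pow hLpos.le]
    rfl
  have hmap : ((μH[m] : Measure E).restrict A).map q
      ≤ ENNReal.ofReal (L r ^ m) • (μH[m] : Measure E).restrict T := by
    refine Measure.le_iff.2 fun s hs => ?_
    rw [Measure.map_apply hqc.measurable hs, Measure.restrict_apply (hqc.measurable hs),
      Measure.smul_apply, Measure.restrict_apply hs, smul_eq_mul, inter_comm _ A, inter_comm s]
    exact hmeasle s hs
  -- the integrals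
  have hmeas : Measurable fun z : E => ENNReal.ofReal (ker (r⁻¹ • z)) :=
    (continuous_ker.comp (continuous_const_smul _)).measurable.ennreal_ofReal
  have hlin : ∫⁻ y in S, ENNReal.ofReal (ker (r⁻¹ • (y - x))) ∂(μH[m] : Measure E)
      ≤ ENNReal.ofReal (L r ^ m * (r ^ m * om m)) := by
    calc ∫⁻ y in S, ENNReal.ofReal (ker (r⁻¹ • (y - x))) ∂(μH[m] : Measure E)
        = ∫⁻ y in A, ENNReal.ofReal (ker (r⁻¹ • (y - x))) ∂(μH[m] : Measure E) := by
          have e1 : ∫⁻ y in S, ENNReal.ofReal (ker (r⁻¹ • (y - x))) ∂(μH[m] : Measure E)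
              = ∫⁻ y in S, (closedBall x r).indicator
                (fun y => ENNReal.ofReal (ker (r⁻¹ • (y - x)))) y ∂(μH[m] : Measure E) := by
            apply lintegral_congr
            intro y
            by_cases hy : y ∈ closedBall x r
            · rw [indicator_of_mem hy]
            · rw [indicator_of_notMem hy]
              rw [mem_closedBall, not_le, dist_eq_norm] at hy
              rw [ker_eq_zero, ENNReal.ofReal_zero]
              rw [norm_smul, norm_inv, Real.norm_eq_abs, abs_of_pos hr0]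
              rw [le_inv_mul_iff₀ hr0, mul_one]
              exact hy.le
          rw [e1, lintegral_indicator isClosed_closedBall.measurableSet,
            Measure.restrict_restrict isClosed_closedBall.measurableSet, inter_comm]
      _ ≤ ∫⁻ y in A, ENNReal.ofReal (ker (r⁻¹ • q y)) ∂(μH[m] : Measure E) := by
          apply lintegral_mono
          intro y
          apply ENNReal.ofReal_le_ofReal
          apply ker_anti
          rw [norm_smul, norm_smul]
          apply mul_le_mul_of_nonneg_left _ (norm_nonneg _)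
          exact norm_proj_apply_le T _
      _ = ∫⁻ z, ENNReal.ofReal (ker (r⁻¹ • z)) ∂(((μH[m] : Measure E).restrict A).map q) := by
          rw [lintegral_map hmeas hqc.measurable]
      _ ≤ ∫⁻ z, ENNReal.ofReal (ker (r⁻¹ • z))
            ∂(ENNReal.ofReal (L r ^ m) • (μH[m] : Measure E).restrict T) :=
          lintegral_mono' hmap le_rfl
      _ = ENNReal.ofReal (L r ^ m) * ENNReal.ofReal (r ^ m * om m) := by
          rw [lintegral_smul_measure, smul_eq_mul, lintegral_ker_plane hTd hr0]
      _ = _ := by rw [← ENNReal.ofReal_mul (by positivity)]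
  have hint : ∫ y in S, ker (r⁻¹ • (y - x)) ∂(μH[m] : Measure E) ≤ L r ^ m * (r ^ m * om m) := by
    rw [integral_eq_lintegral_of_nonneg_ae (Eventually.of_forall fun y => ker_nonneg _)
      (continuous_ker.comp (by fun_prop)).aestronglyMeasurable]
    exact ENNReal.toReal_le_of_le_ofReal (by positivity) hlin
  rw [div_le_iff₀ (by positivity)]
  calc ∫ y in S, ker (r⁻¹ • (y - x)) ∂(μH[m] : Measure E)
      ≤ L r ^ m * (r ^ m * om m) := hint
    _ = (L r ^ m * om m) * r ^ m := by ring
    _ ≤ b * r ^ m := mul_le_mul_of_nonneg_right h1.le (by positivity)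

end Vale.Agent.P218.H313
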