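import Vale.Agent.P218.H313.Near
import Vale.Agent.P218.H552.Bridge2

/-! Nondegenerate shrinkers: convergence of the rescaled flow. -/

open MeasureTheory Set Filter Topology Metric
open scoped ENNReal NNReal RealInnerProductSpace CompactlySupported

namespace Vale.Agent.P218.H313

open Vale.Agent.P214 (IntegralVarifold proj divAlong IsTestField)

set_option linter.unusedSectionVars false
set_option linter.unusedVariables false

variable {E : Type*} [NormedAddCommGroup E] [InnerProductSpace ℝ E] [FiniteDimensional ℝ E]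
  [MeasurableSpace E] [BorelSpace E]
variable {m : ℕ} {N : ℝ → Measure E} {T : ℝ → E → Submodule ℝ E} {H : ℝ → E → E} {s₀ : ℝ}
variable {P : Type*} [NormedAddCommGroup P] [NormedSpace ℝ P]
  {V : P → E → ℝ} {V' : P → P →ₗ[ℝ] (E → ℝ)} {r c K : ℝ} {q : ℕ} {κ : Measure E}

/-- weak convergence needs to be checked on `C²` functions only -/
lemma weakTendsto_of_contDiff (hN : Slow N s₀) {σ : ℕ → ℝ} (hσ : ∀ i, s₀ ≤ σ i)
    [IsLocallyFiniteMeasure κ]
    (h : ∀ φ : E → ℝ, ContDiff ℝ 2 φ → HasCompactSupport φ →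
      Tendsto (fun i => ∫ x, φ x ∂(N (σ i))) atTop (𝓝 (∫ x, φ x ∂κ))) :
    WeakTendsto (fun i => N (σ i)) κ := by
  intro φ hφc hφs
  obtain ⟨R, hR⟩ : ∃ R : ℝ, ∀ x, R < ‖x‖ → φ x = 0 := by
    obtain ⟨R, hR⟩ := hφs.isCompact.isBounded.subset_closedBall 0
    refine ⟨R, fun x hx => image_eq_zero_of_notMem_tsupport fun h => ?_⟩
    have := hR h
    rw [mem_closedBall_zero_iff] at this
    linarith
  obtain ⟨C, hC⟩ := hN.bdd _ (isCompact_closedBall (0 : E) R)
  obtain ⟨C', hC'⟩ : ∃ C : ℝ≥0, κ (Metric.closedBall 0 R) ≤ C :=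
    ⟨(κ (Metric.closedBall 0 R)).toNNReal,
      (ENNReal.coe_toNNReal (isCompact_closedBall (0 : E) R).measure_lt_top.ne).ge⟩
  refine tendsto_of_approx fun ε hε => ?_
  set M : ℝ := ε / (C + C' + 1) with hM
  have hMpos : 0 < M := by positivity
  obtain ⟨g, hg1, hg2, hg3⟩ := hφc.exists_contDiff_approx 2 (ε := fun _ => M)
    continuous_const (fun _ => hMpos)
  have hgR : ∀ x, R < ‖x‖ → g x = 0 := by
    intro x hx
    by_contra hne
    exact hg3 (show x ∈ Function.support g from hne) (hR x hx)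
  have hgs : HasCompactSupport g :=
    HasCompactSupport.intro (isCompact_closedBall (0 : E) R) fun x hx => hgR x (by simpa using hx)
  have happ : ∀ x, ‖x‖ ≤ R → |φ x - g x| ≤ M := fun x _ => by
    rw [abs_sub_comm]
    have := hg2 x
    rw [Real.dist_eq] at this
    exact this.le
  refine ⟨fun i => ∫ x, g x ∂(N (σ i)), ∫ x, g x ∂κ, h g hg1 hgs, ?_, ?_⟩
  · refine Eventually.of_forall fun i => ?_
    have := hN.locFin (hσ i)
    refine (abs_integral_sub_le hφc hg1.continuous hR hgR happ hMpos.le (hC _ (hσ i))).trans ?_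
    rw [hM, div_mul_eq_mul_div, div_le_iff₀ (by positivity)]
    nlinarith [C.coe_nonneg, C'.coe_nonneg]
  · refine (abs_integral_sub_le hφc hg1.continuous hR hgR happ hMpos.le hC').trans ?_
    rw [hM, div_mul_eq_mul_div, div_le_iff₀ (by positivity)]
    nlinarith [C.coe_nonneg, C'.coe_nonneg]

lemma contDiff_rho_inv {n : ℕ∞} : ContDiff ℝ n (fun x : E => Real.exp (‖x‖ ^ 2 / 4)) :=
  Real.contDiff_exp.comp ((contDiff_norm_sq ℝ).div_const 4)

/-- test functions against the Gaussian weight -/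
lemma int_div_rho (μ : Measure E) (φ : E → ℝ) :
    ∫ x, (φ x * Real.exp (‖x‖ ^ 2 / 4)) * rho x ∂μ = ∫ x, φ x ∂μ := by
  congr 1; ext x
  unfold rho
  rw [mul_assoc, ← Real.exp_add]
  have : ‖x‖ ^ 2 / 4 + -‖x‖ ^ 2 / 4 = 0 := by ring
  rw [this, Real.exp_zero, mul_one]

/-- good times in the intervals `[s₀ + k h, s₀ + (k + 1) h]` -/
lemma RF.exists_times (h : RF m N T H s₀) {h₀ : ℝ} (hh : 0 < h₀) :
    ∃ t : ℕ → ℝ, (∀ k, s₀ + k * h₀ ≤ t k ∧ t k ≤ s₀ + (k + 1) * h₀) ∧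
      (∀ k, GSlice m (N (t k)) (T (t k)) (H (t k))) ∧
      ∀ k, dis (N (t k)) (T (t k)) (H (t k))
        ≤ (FA (N (s₀ + k * h₀)) - FA (N (s₀ + (k + 1 : ℕ) * h₀))) / h₀ := by
  have key : ∀ k : ℕ, ∃ t : ℝ, (s₀ + k * h₀ ≤ t ∧ t ≤ s₀ + (k + 1) * h₀) ∧
      GSlice m (N t) (T t) (H t) ∧ dis (N t) (T t) (H t)
        ≤ (FA (N (s₀ + k * h₀)) - FA (N (s₀ + (k + 1 : ℕ) * h₀))) / h₀ := by
    intro k
    have hk : (0 : ℝ) ≤ k * h₀ := by positivity
    obtain ⟨t, ht, h1, h2⟩ := h.exists_good (a := s₀ + k * h₀) (b := s₀ + (k + 1 : ℕ) * h₀)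
      (by linarith) (by push_cast; linarith)
    refine ⟨t, ⟨ht.1, by have := ht.2; push_cast at this; exact this⟩, h1, ?_⟩
    have e : s₀ + (k + 1 : ℕ) * h₀ - (s₀ + k * h₀) = h₀ := by push_cast; ring
    rwa [e] at h2
  choose t h1 h2 h3 using key
  exact ⟨t, h1, h2, h3⟩

section seq

variable {t : ℕ → ℝ} {h₀ : ℝ}

/-- the sums of the dissipations and of the drops are small -/
lemma RF.exists_sum_small (h : RF m N T H s₀) (hh : 0 < h₀)
    (ht : ∀ k, s₀ + k * h₀ ≤ t k ∧ t k ≤ s₀ + (k + 1) * h₀)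
    (hd : ∀ k, dis (N (t k)) (T (t k)) (H (t k))
        ≤ (FA (N (s₀ + k * h₀)) - FA (N (s₀ + (k + 1 : ℕ) * h₀))) / h₀) {ε : ℝ} (hε : 0 < ε) :
    ∃ k₀ : ℕ, ∀ k K', k₀ ≤ k → k ≤ K' →
      √(dis (N (t k)) (T (t k)) (H (t k))) + √(dis (N (t K')) (T (t K')) (H (t K')))
            + ∑ j ∈ Finset.Ico k K', (dis (N (t j)) (T (t j)) (H (t j))
              + (FA (N (t j)) - FA (N (t (j + 1))))) ≤ ε := by
  set η := min (h₀ * (ε / 4) ^ 2) (min (h₀ * (ε / 4)) (ε / 4)) with hη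
  have hη0 : 0 < η := lt_min (by positivity) (lt_min (by positivity) (by positivity))
  have η1 : η ≤ h₀ * (ε / 4) ^ 2 := min_le_left _ _
  have η2 : η ≤ h₀ * (ε / 4) := (min_le_right _ _).trans (min_le_left _ _)
  have η3 : η ≤ ε / 4 := (min_le_right _ _).trans (min_le_right _ _)
  obtain ⟨S, hS, hdrop⟩ := H552.exists_drop_le (θ := fun s => FA (N s)) (τ₀ := s₀)
    (fun a b ha hab => h.FA_anti ha hab) (fun s => FA_nonneg _) hη0
  obtain ⟨k₀, hk₀⟩ := exists_nat_ge ((S - s₀) / h₀)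
  have hk₀' : ∀ k : ℕ, k₀ ≤ k → S ≤ s₀ + k * h₀ := by
    intro k hk
    have h1 : (S - s₀) / h₀ ≤ k := hk₀.trans (by exact_mod_cast hk)
    rw [div_le_iff₀ hh] at h1
    linarith
  have hdis : ∀ k, k₀ ≤ k → √(dis (N (t k)) (T (t k)) (H (t k))) ≤ ε / 4 := by
    intro k hk
    rw [Real.sqrt_le_left (by positivity)]
    refine (hd k).trans ?_
    rw [div_le_iff₀ hh]
    have := hdrop (s₀ + k * h₀) (s₀ + (k + 1 : ℕ) * h₀) (hk₀' k hk) (by push_cast; nlinarith)
    linarith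
  refine ⟨k₀, fun k K' hk hkK => ?_⟩
  have hsum : ∀ L, k ≤ L → ∑ j ∈ Finset.Ico k L, (dis (N (t j)) (T (t j)) (H (t j))
              + (FA (N (t j)) - FA (N (t (j + 1)))))
      ≤ (FA (N (s₀ + k * h₀)) - FA (N (s₀ + L * h₀))) / h₀ + (FA (N (t k)) - FA (N (t L))) := by
    intro L hL
    induction L, hL using Nat.le_induction with
    | base => simp
    | succ L hL ih =>
      rw [Finset.sum_Ico_succ_top hL]
      have e1 := hd L
      have e2 : (FA (N (s₀ + k * h₀)) - FA (N (s₀ + (L + 1 : ℕ) * h₀))) / h₀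
          = (FA (N (s₀ + k * h₀)) - FA (N (s₀ + L * h₀))) / h₀
            + (FA (N (s₀ + L * h₀)) - FA (N (s₀ + (L + 1 : ℕ) * h₀))) / h₀ := by
        rw [← add_div]; congr 1; ring
      rw [e2]
      linarith
  have s1 := hsum K' hkK
  have hkK' : (k : ℝ) ≤ K' := by exact_mod_cast hkK
  have s2 : (FA (N (s₀ + k * h₀)) - FA (N (s₀ + K' * h₀))) / h₀ ≤ ε / 4 := by
    rw [div_le_iff₀ hh]
    have := hdrop (s₀ + k * h₀) (s₀ + K' * h₀) (hk₀' k hk) (by nlinarith)
    linarith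
  have s3 : FA (N (t k)) - FA (N (t K')) ≤ ε / 4 := by
    rcases hkK.eq_or_lt with rfl | hlt
    · rw [sub_self]; positivity
    · have h1 : (k : ℝ) + 1 ≤ K' := by exact_mod_cast hlt
      have h2 : t k ≤ t K' := (ht k).2.trans (le_trans (by nlinarith) (ht K').1)
      have := hdrop (t k) (t K') ((hk₀' k hk).trans (ht k).1) h2
      linarith
  have s4 := hdis k hk
  have s5 := hdis K' (hk.trans hkK)
  linarith

end seq

/-- **convergence of the rescaled flow** near a nondegenerate shrinker -/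
theorem RF.converge (hm : 0 < m) (hE : Module.finrank ℝ E = m + 1) [FiniteDimensional ℝ P]
    (h : RF m N T H s₀) (hslow : Slow N s₀) (hF : Fam m V V' r c K q)
    [IsLocallyFiniteMeasure κ] (hV0 : ∀ᵐ x ∂κ, V 0 x = 0)
    (hκ : ∀ x : E, ∀ c > om m, ∀ᶠ r in 𝓝[>] (0 : ℝ), (∫ y, ker (r⁻¹ • (y - x)) ∂κ) / r ^ m ≤ c)
    (hseq : ∃ τ : ℕ → ℝ, Tendsto τ atTop atTop ∧ WeakTendsto (fun i => N (τ i)) κ)
    (hinj : ∀ b : P, (∀ᵐ x ∂κ, V' 0 b x = 0) → b = 0)
    (hnd : ∀ u : E → ℝ, AEStronglyMeasurable u κ → Integrable (fun x => u x ^ 2 * rho x) κ →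
      (∀ ζ : E → ℝ, ContDiff ℝ (⊤ : ℕ∞) ζ → HasCompactSupport ζ →
        ∫ x, u x * jac (V 0) ζ x * rho x ∂κ = 0) → ∃ b, u =ᵐ[κ] V' 0 b)
    {φ : E → ℝ} (hφ : ContDiff ℝ 2 φ) (hφc : HasCompactSupport φ) :
    ∃ L : ℝ, Tendsto (fun s => ∫ x, φ x ∂(N s)) atTop (𝓝 L) := by
  obtain ⟨τ, hτ, hτκ⟩ := hseq
  -- the indices near `τ`
  have hidx : ∀ {h₀ : ℝ}, 0 < h₀ → ∀ {t : ℕ → ℝ},
      (∀ k, s₀ + k * h₀ ≤ t k ∧ t k ≤ s₀ + (k + 1) * h₀) → ∀ s, s₀ ≤ s →
        |t ⌊(s - s₀) / h₀⌋₊ - s| ≤ h₀ := by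
    intro h₀ hh t ht s hs
    set k := ⌊(s - s₀) / h₀⌋₊ with hk
    have h1 : (k : ℝ) ≤ (s - s₀) / h₀ := Nat.floor_le (div_nonneg (by linarith) hh.le)
    have h2 : (s - s₀) / h₀ < k + 1 := Nat.lt_floor_add_one _
    rw [le_div_iff₀ hh] at h1
    rw [div_lt_iff₀ hh] at h2
    obtain ⟨h3, h4⟩ := ht k
    rw [abs_le]
    constructor <;> nlinarith
  have hidx2 : ∀ {h₀ : ℝ}, 0 < h₀ → Tendsto (fun s : ℝ => ⌊(s - s₀) / h₀⌋₊) atTop atTop := by
    intro h₀ hh
    refine tendsto_nat_floor_atTop.comp ?_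
    exact (tendsto_atTop_add_const_right _ (-s₀) tendsto_id).atTop_div_const hh
  -- the filter is nontrivial
  have hne : (nearF m N T H κ).NeBot := by
    obtain ⟨t, ht, htg, -⟩ := h.exists_times one_pos
    have hk : Tendsto (fun i => ⌊(τ i - s₀) / 1⌋₊) atTop atTop := (hidx2 one_pos).comp hτ
    have hw : WeakTendsto (fun i => N (t ⌊(τ i - s₀) / 1⌋₊)) κ := by
      refine hslow.weakTendsto_shift hτ one_pos ?_ hτκ
      filter_upwards [hτ.eventually_ge_atTop s₀] with i hi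
      exact hidx one_pos ht _ hi
    have htt : Tendsto t atTop atTop := by
      refine tendsto_atTop_mono (fun k => (ht k).1) ?_
      refine tendsto_atTop_add_const_left _ _ ?_
      exact tendsto_natCast_atTop_atTop.atTop_mul_const one_pos
    have := tendsto_nearF (m := m) (N := N) (T := T) (H := H) (κ := κ)
      (t := fun i => t ⌊(τ i - s₀) / 1⌋₊) (l := atTop) (htt.comp hk)
      (Eventually.of_forall fun i => htg _) (fun φ h1 h2 => hw φ h1 h2)
    exact this.neBot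
  obtain ⟨r₁, hr₁, lam, hlam, C₀, hC₀, hgood⟩ := h.exists_goodAt hm hE hF hV0 hκ hinj hnd
  obtain ⟨δ, hδ, hchain⟩ := h.exists_chain hE hF hr₁ hlam hC₀
  obtain ⟨t, ht, htg, htd⟩ := h.exists_times (half_pos hδ)
  set h₀ := δ / 2 with hh₀
  have hh : 0 < h₀ := half_pos hδ
  have htt : Tendsto t atTop atTop := by
    refine tendsto_atTop_mono (fun k => (ht k).1) ?_
    refine tendsto_atTop_add_const_left _ _ ?_
    exact tendsto_natCast_atTop_atTop.atTop_mul_const hh
  have ht0 : ∀ k, s₀ ≤ t k := fun k => by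
    have : (0 : ℝ) ≤ k * h₀ := by positivity
    linarith [(ht k).1]
  have htm : ∀ k, t k ≤ t (k + 1) := fun k => by
    have h1 := (ht (k + 1)).1
    push_cast at h1
    exact (ht k).2.trans h1
  have htδ : ∀ k, t (k + 1) ≤ t k + δ := fun k => by
    have h1 := (ht (k + 1)).2
    have h2 := (ht k).1
    push_cast at h1
    have h3 : δ = 2 * h₀ := by rw [hh₀]; ring
    rw [h3]; nlinarith
  -- the chain estimate for good times
  set X : ℕ → Prop := fun k => ∃ a : P, GoodAt m N T H V V' r₁ lam C₀ (t k) a with hX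
  have hsmall : ∀ φ : E → ℝ, ContDiff ℝ 2 φ → HasCompactSupport φ → ∀ ε > 0, ∃ k₀ : ℕ, ∀ k K',
      k₀ ≤ k → k ≤ K' → (∀ j, k ≤ j → j ≤ K' → X j) →
        |∫ x, φ x ∂(N (t K')) - ∫ x, φ x ∂(N (t k))| ≤ ε := by
    intro φ hφ hφc ε hε
    obtain ⟨C, hC, hb⟩ := hchain (fun x => φ x * Real.exp (‖x‖ ^ 2 / 4))
      (hφ.mul contDiff_rho_inv) hφc.mul_right
    obtain ⟨k₀, hk₀⟩ := h.exists_sum_small hh ht htd (ε := ε / (C + 1)) (by positivity)
    refine ⟨k₀, fun k K' hk hkK hj => ?_⟩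
    choose! a ha using hX ▸ hj
    have h1 := hb t a ht0 htm htδ k K' hkK (fun j h1 h2 => ha j h1 h2)
    rw [int_div_rho, int_div_rho] at h1
    refine h1.trans ((mul_le_mul_of_nonneg_left (hk₀ k K' hk hkK) hC).trans ?_)
    rw [mul_div_assoc', div_le_iff₀ (by positivity)]
    nlinarith
  -- eventually all the times are good
  have hall : ∀ᶠ k in atTop, X k := by
    by_contra hcon
    rw [not_eventually, frequently_atTop] at hcon
    set k : ℕ → ℕ := fun i => ⌊(τ i - s₀) / h₀⌋₊ with hk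
    have hkt : Tendsto k atTop atTop := (hidx2 hh).comp hτ
    have hkτ : ∀ᶠ i in atTop, |t (k i) - τ i| ≤ h₀ := by
      filter_upwards [hτ.eventually_ge_atTop s₀] with i hi
      exact hidx hh ht _ hi
    have hkw : WeakTendsto (fun i => N (t (k i))) κ := hslow.weakTendsto_shift hτ hh hkτ hτκ
    have hkX : ∀ᶠ i in atTop, X (k i) :=
      (tendsto_nearF (m := m) (N := N) (T := T) (H := H) (κ := κ)
        (t := fun i => t (k i)) (l := atTop) (htt.comp hkt)
        (Eventually.of_forall fun i => htg _) (fun φ h1 h2 => hkw φ h1 h2)).eventually hgood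
    classical
    have hex : ∀ i, ∃ L, k i ≤ L ∧ ¬ X L := fun i => hcon (k i)
    set L : ℕ → ℕ := fun i => Nat.find (hex i) with hL
    have hL1 : ∀ i, k i ≤ L i := fun i => (Nat.find_spec (hex i)).1
    have hL2 : ∀ i, ¬ X (L i) := fun i => (Nat.find_spec (hex i)).2
    have hL3 : ∀ i j, k i ≤ j → j < L i → X j := by
      intro i j h1 h2
      have := Nat.find_min (hex i) h2
      push Not at this
      exact this h1
    have hlt : ∀ᶠ i in atTop, k i < L i := by
      filter_upwards [hkX] with i hi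
      refine lt_of_le_of_ne (hL1 i) fun he => hL2 i ?_
      rw [← he]; exact hi
    have hLt : Tendsto L atTop atTop := tendsto_atTop_mono hL1 hkt
    have hLt' : Tendsto (fun i => L i - 1) atTop atTop := (tendsto_sub_atTop_nat 1).comp hLt
    -- the times before the first failure
    have hw1 : WeakTendsto (fun i => N (t (L i - 1))) κ := by
      refine weakTendsto_of_contDiff hslow (fun i => ht0 _) fun φ hφ hφc => ?_
      refine tendsto_of_approx fun ε hε => ?_
      obtain ⟨k₀, hk₀⟩ := hsmall φ hφ hφc ε hε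
      refine ⟨fun i => ∫ x, φ x ∂(N (t (k i))), ∫ x, φ x ∂κ, hkw φ hφ.continuous hφc, ?_,
        by simpa using hε.le⟩
      filter_upwards [hlt, hkt.eventually_ge_atTop k₀] with i h1 h2
      exact hk₀ (k i) (L i - 1) h2 (by omega) fun j h3 h4 => hL3 i j h3 (by omega)
    have hw2 : WeakTendsto (fun i => N (t (L i))) κ := by
      refine hslow.weakTendsto_shift (htt.comp hLt') hδ ?_ hw1
      filter_upwards [hlt] with i hi
      have e : L i - 1 + 1 = L i := by omega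
      have h1 := htm (L i - 1)
      have h2 := htδ (L i - 1)
      rw [e] at h1 h2
      simp only [Function.comp]
      rw [abs_le]
      constructor <;> linarith
    have hbad : ∀ᶠ i in atTop, X (L i) :=
      (tendsto_nearF (m := m) (N := N) (T := T) (H := H) (κ := κ)
        (t := fun i => t (L i)) (l := atTop) (htt.comp hLt)
        (Eventually.of_forall fun i => htg _) (fun φ h1 h2 => hw2 φ h1 h2)).eventually hgood
    obtain ⟨i, hi⟩ := hbad.exists
    exact hL2 i hi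
  obtain ⟨k₁, hk₁⟩ := eventually_atTop.1 hall
  -- the sequence of integrals is Cauchy
  have hcau : CauchySeq fun k => ∫ x, φ x ∂(N (t k)) := by
    rw [Metric.cauchySeq_iff]
    intro ε hε
    obtain ⟨k₀, hk₀⟩ := hsmall φ hφ hφc (ε / 2) (half_pos hε)
    refine ⟨max k₀ k₁, fun a ha b hb => ?_⟩
    have key : ∀ a b, max k₀ k₁ ≤ a → a ≤ b →
        |∫ x, φ x ∂(N (t b)) - ∫ x, φ x ∂(N (t a))| < ε := by
      intro a b ha hab
      refine lt_of_le_of_lt (hk₀ a b ((le_max_left _ _).trans ha) hab fun j h1 h2 =>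
        hk₁ j ((le_max_right _ _).trans (ha.trans h1))) (by linarith)
    rw [Real.dist_eq]
    rcases le_total a b with hab | hab
    · rw [abs_sub_comm]; exact key a b ha hab
    · exact key b a hb hab
  obtain ⟨L, hL⟩ := cauchySeq_tendsto_of_complete hcau
  refine ⟨L, tendsto_of_approx fun ε hε => ?_⟩
  obtain ⟨S, hS0, hS⟩ := hslow.slow φ (hφ.of_le (by norm_num)) hφc h₀ hh ε hε
  refine ⟨fun s => ∫ x, φ x ∂(N (t ⌊(s - s₀) / h₀⌋₊)), L, hL.comp (hidx2 hh), ?_,
    by simpa using hε.le⟩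
  filter_upwards [eventually_ge_atTop (S + h₀)] with s hs
  have h1 := hidx hh ht s (by linarith)
  rw [abs_le] at h1
  rcases le_total (t ⌊(s - s₀) / h₀⌋₊) s with h3 | h3
  · exact hS _ _ (by linarith) h3 (by linarith)
  · rw [abs_sub_comm]
    exact hS _ _ (by linarith) h3 (by linarith)

end Vale.Agent.P218.H313
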