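import Vale.Agent.P218.H313.Chain
import Vale.Agent.P218.H313.Gauge
import Vale.Agent.P218.H313.K
import Vale.Agent.P218.Slow

/-! Nondegenerate shrinkers: at good times near the shrinker the gauge exists and the static
estimate holds. -/

open MeasureTheory Set Filter Topology Metric
open scoped ENNReal NNReal RealInnerProductSpace CompactlySupported

namespace Vale.Agent.P218.H313

open Vale.Agent.P214 (IntegralVarifold proj divAlong IsTestField)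

set_option linter.unusedSectionVars false
set_option linter.unusedVariables false

variable {E : Type*} [NormedAddCommGroup E] [InnerProductSpace ℝ E] [FiniteDimensional ℝ E]
  [MeasurableSpace E] [BorelSpace E]
variable {m : ℕ} {N : ℝ → Measure E} {T : ℝ → E → Submodule ℝ E} {H : ℝ → E → E} {s₀ : ℝ}
variable {P : Type*} [NormedAddCommGroup P] [NormedSpace ℝ P]
  {V : P → E → ℝ} {V' : P → P →ₗ[ℝ] (E → ℝ)} {r c K : ℝ} {q : ℕ} {κ : Measure E}

variable (m N T H) in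
/-- good times whose slices are weakly close to `κ` -/
noncomputable def nearF (κ : Measure E) : Filter ℝ :=
  (atTop ⊓ 𝓟 {s | GSlice m (N s) (T s) (H s)}) ⊓
    ⨅ φ : C_c(E, ℝ), comap (fun s => ∫ x, φ x ∂(N s)) (𝓝 (∫ x, φ x ∂κ))

lemma nearF_sl : ∀ᶠ s in nearF m N T H κ, GSlice m (N s) (T s) (H s) := by
  have : nearF m N T H κ ≤ 𝓟 {s | GSlice m (N s) (T s) (H s)} := inf_le_left.trans inf_le_right
  exact this (mem_principal_self _)

lemma nearF_atTop : nearF m N T H κ ≤ atTop := inf_le_left.trans inf_le_left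

lemma nearF_lim {φ : E → ℝ} (hc : Continuous φ) (hs : HasCompactSupport φ) :
    Tendsto (fun s => ∫ x, φ x ∂(N s)) (nearF m N T H κ) (𝓝 (∫ x, φ x ∂κ)) := by
  have : nearF m N T H κ ≤ comap (fun s => ∫ x, φ x ∂(N s)) (𝓝 (∫ x, φ x ∂κ)) :=
    inf_le_right.trans (iInf_le _ (⟨⟨φ, hc⟩, hs⟩ : C_c(E, ℝ)))
  exact tendsto_iff_comap.2 this

lemma tendsto_nearF {ι : Type*} {l : Filter ι} {t : ι → ℝ} (ht : Tendsto t l atTop)
    (hg : ∀ᶠ i in l, GSlice m (N (t i)) (T (t i)) (H (t i)))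
    (hw : ∀ φ : E → ℝ, Continuous φ → HasCompactSupport φ →
      Tendsto (fun i => ∫ x, φ x ∂(N (t i))) l (𝓝 (∫ x, φ x ∂κ))) :
    Tendsto t l (nearF m N T H κ) := by
  refine tendsto_inf.2 ⟨tendsto_inf.2 ⟨ht, tendsto_principal.2 hg⟩, tendsto_iInf.2 fun φ => ?_⟩
  exact tendsto_comap_iff.2 (hw φ φ.continuous φ.hasCompactSupport)

lemma RF.conv (h : RF m N T H s₀) [IsLocallyFiniteMeasure κ] {U : Ultrafilter ℝ}
    (hU : (U : Filter ℝ) ≤ nearF m N T H κ) : Conv U m N T H κ where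
  lf := inferInstance
  sl := hU nearF_sl
  mom p := by
    obtain ⟨C, hC⟩ := h.moment p
    refine ⟨C, ?_⟩
    filter_upwards [(hU.trans nearF_atTop) (eventually_ge_atTop s₀)] with s hs
    exact (hC s hs).2
  ratio := by
    obtain ⟨C, hC⟩ := h.ratio
    refine ⟨C, ?_⟩
    filter_upwards [(hU.trans nearF_atTop) (eventually_ge_atTop s₀)] with s hs
    exact hC s hs
  lim φ hc hs := (nearF_lim hc hs).mono_left hU

lemma RF.lim_PB (h : RF m N T H s₀) [IsLocallyFiniteMeasure κ] {f : E → ℝ}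
    (hf : Continuous f) (hb : PB f) :
    Tendsto (fun s => ∫ x, f x * rho x ∂(N s)) (nearF m N T H κ) (𝓝 (∫ x, f x * rho x ∂κ)) := by
  rw [tendsto_iff_ultrafilter]
  intro U hU
  exact (h.conv hU).lim_PB hf hb

lemma RF.mom_lim (h : RF m N T H s₀) [IsLocallyFiniteMeasure κ] [(nearF m N T H κ).NeBot]
    (p : ℕ) : Integrable (fun x => (1 + ‖x‖) ^ p * rho x) κ :=
  (h.conv (Ultrafilter.of_le (nearF m N T H κ))).mom_lim p

/-- the squared distance to the shrinkers tends to zero -/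
lemma RF.tendsto_DD (h : RF m N T H s₀) (hF : Fam m V V' r c K q) [IsLocallyFiniteMeasure κ]
    (hV0 : ∀ᵐ x ∂κ, V 0 x = 0) {a : ℝ → P} {l : Filter ℝ} (hl : l ≤ nearF m N T H κ)
    (har : ∀ᶠ s in l, ‖a s‖ ≤ r) (ha : Tendsto a l (𝓝 0)) :
    Tendsto (fun s => DD (N s) (V (a s)) 0) l (𝓝 0) := by
  have h0r : ‖(0 : P)‖ ≤ r := by simpa using hF.rpos.le
  have hW := hF.tube 0 h0r
  obtain ⟨M, hM⟩ := h.moment (2 * q)
  have l1 : Tendsto (fun s => ∫ x, V 0 x ^ 2 * rho x ∂(N s)) l (𝓝 0) := by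
    have h1 : Tendsto (fun s => ∫ x, V 0 x ^ 2 * rho x ∂(N s)) l
        (𝓝 (∫ x, V 0 x ^ 2 * rho x ∂κ)) :=
      (h.lim_PB (κ := κ) (hW.cont.pow 2) (hW.pg.b0.pow 2)).mono_left hl
    have e : ∫ x, V 0 x ^ 2 * rho x ∂κ = 0 := by
      refine integral_eq_zero_of_ae ?_
      filter_upwards [hV0] with x hx
      simp [hx]
    rwa [e] at h1
  have l2 : Tendsto (fun s => 2 * (∫ x, V 0 x ^ 2 * rho x ∂(N s)) + 2 * K ^ 2 * M * ‖a s‖ ^ 2) l
      (𝓝 0) := by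
    have := (l1.const_mul 2).add ((ha.norm.pow 2).const_mul (2 * K ^ 2 * M))
    simpa using this
  refine squeeze_zero' (Eventually.of_forall fun s => DD_nonneg 0) ?_ l2
  filter_upwards [hl nearF_sl, har, (hl.trans nearF_atTop) (eventually_ge_atTop s₀)]
    with s hs hr hs0
  rw [DD_zero_eq]
  obtain ⟨i1, i2⟩ := hM s hs0
  have i3 : Integrable (fun x => V 0 x ^ 2 * rho x) (N s) :=
    hs.integrable_PB (hW.cont.pow 2).aestronglyMeasurable (hW.pg.b0.pow 2)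
  have i4 : Integrable (fun x => V (a s) x ^ 2 * rho x) (N s) :=
    hs.integrable_PB ((hF.tube _ hr).cont.pow 2).aestronglyMeasurable ((hF.tube _ hr).pg.b0.pow 2)
  have e1 : ∫ x, V (a s) x ^ 2 * rho x ∂(N s)
      ≤ ∫ x, (2 * (V 0 x ^ 2 * rho x) + 2 * K ^ 2 * ‖a s‖ ^ 2 * ((1 + ‖x‖) ^ (2 * q) * rho x))
        ∂(N s) := by
    refine integral_mono i4 ((i3.const_mul _).add (i1.const_mul _)) fun x => ?_
    have h1 := hF.lip (a s) 0 hr h0r x
    rw [sub_zero] at h1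
    have h2 : V (a s) x ^ 2 ≤ 2 * V 0 x ^ 2 + 2 * (V (a s) x - V 0 x) ^ 2 := by
      nlinarith [sq_nonneg (V (a s) x - 2 * V 0 x)]
    have h3 : (V (a s) x - V 0 x) ^ 2 ≤ (K * (1 + ‖x‖) ^ q * ‖a s‖) ^ 2 := by
      rw [← sq_abs]; gcongr
    have h4 : (K * (1 + ‖x‖) ^ q * ‖a s‖) ^ 2 = K ^ 2 * ‖a s‖ ^ 2 * (1 + ‖x‖) ^ (2 * q) := by
      rw [mul_pow, mul_pow, ← pow_mul, mul_comm q 2]; ring
    have h5 := rho_pos x
    have h6 : V (a s) x ^ 2 ≤ 2 * V 0 x ^ 2 + 2 * (K ^ 2 * ‖a s‖ ^ 2 * (1 + ‖x‖) ^ (2 * q)) := by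
      rw [← h4]; linarith
    calc V (a s) x ^ 2 * rho x
        ≤ (2 * V 0 x ^ 2 + 2 * (K ^ 2 * ‖a s‖ ^ 2 * (1 + ‖x‖) ^ (2 * q))) * rho x := by gcongr
      _ = _ := by ring
  rw [integral_add (i3.const_mul _) (i1.const_mul _), integral_const_mul, integral_const_mul] at e1
  refine e1.trans ?_
  have : 2 * K ^ 2 * ‖a s‖ ^ 2 * ∫ x, (1 + ‖x‖) ^ (2 * q) * rho x ∂(N s)
      ≤ 2 * K ^ 2 * ‖a s‖ ^ 2 * M := by gcongr
  linarith

/-- orthogonality of the normalised heights to the Jacobi fields -/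
lemma RF.tendsto_orth (h : RF m N T H s₀) (hF : Fam m V V' r c K q)
    {a : ℝ → P} {l : Filter ℝ} (hl : l ≤ nearF m N T H κ)
    (har : ∀ᶠ s in l, ‖a s‖ ≤ r) (ha : Tendsto a l (𝓝 0))
    (hcrit : ∀ᶠ s in l, ∀ b, GF (N s) V V' (a s) b = 0) (b : P) :
    Tendsto (fun s => (∫ x, V (a s) x * V' 0 b x * rho x ∂(N s)) / √(DD (N s) (V (a s)) 0)) l
      (𝓝 0) := by
  have h0r : ‖(0 : P)‖ ≤ r := by simpa using hF.rpos.le
  obtain ⟨M, hM⟩ := h.moment (2 * q)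
  have hK := hF.Knn
  have l2 : Tendsto (fun s => K * ‖b‖ * √M * ‖a s‖) l (𝓝 0) := by
    have := (ha.norm).const_mul (K * ‖b‖ * √M)
    simpa using this
  refine squeeze_zero_norm' ?_ l2
  filter_upwards [hl nearF_sl, har, (hl.trans nearF_atTop) (eventually_ge_atTop s₀), hcrit]
    with s hs hr hs0 hc
  have hW := hF.tube _ hr
  obtain ⟨i1, i2⟩ := hM s hs0
  have j1 : Integrable (fun x => |V (a s) x| ^ 2 * rho x) (N s) :=
    hs.integrable_PB (hW.cont.norm.pow 2).aestronglyMeasurable (hW.pg.b0.norm.pow 2)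
  have j2 : Integrable (fun x => ((1 + ‖x‖) ^ q) ^ 2 * rho x) (N s) := by
    have := i1
    simpa [← pow_mul, mul_comm q 2] using this
  have hpq : PB (fun x : E => (1 + ‖x‖) ^ q) := PB.of_le (C := 1) (p := q) fun x => by
    rw [Real.norm_of_nonneg (by positivity), one_mul]
  have hcq : Continuous (fun x : E => (1 + ‖x‖) ^ q) :=
    (continuous_const.add continuous_norm).pow q
  have j3 : Integrable (fun x => |V (a s) x| * (1 + ‖x‖) ^ q * rho x) (N s) :=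
    hs.integrable_PB (hW.cont.norm.mul hcq).aestronglyMeasurable (hW.pg.b0.norm.mul hpq)
  have cs := abs_integral_mul_le (fun x => (rho_pos x).le) j1 j2 j3
  have e1 : ∫ x, |V (a s) x| ^ 2 * rho x ∂(N s) = DD (N s) (V (a s)) 0 := by
    rw [DD_zero_eq]; simp_rw [sq_abs]
  have e2 : ∫ x, ((1 + ‖x‖) ^ q) ^ 2 * rho x ∂(N s) ≤ M := by
    refine le_trans (le_of_eq ?_) i2
    congr 1; ext x
    rw [← pow_mul, mul_comm q 2]
  rw [e1] at cs
  have k1 : Integrable (fun x => V (a s) x * V' 0 b x * rho x) (N s) :=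
    hs.integrable_PB (hW.pg.mul (hF.pg' h0r b)).cont.aestronglyMeasurable
      (hW.pg.mul (hF.pg' h0r b)).b0
  have k2 : Integrable (fun x => V (a s) x * V' (a s) b x * rho x) (N s) :=
    hs.integrable_PB (hF.pgψ hr b).cont.aestronglyMeasurable (hF.pgψ hr b).b0
  have e3 : ∫ x, V (a s) x * V' 0 b x * rho x ∂(N s)
      = ∫ x, (V (a s) x * V' 0 b x * rho x - V (a s) x * V' (a s) b x * rho x) ∂(N s) := by
    rw [integral_sub k1 k2]
    have := hc b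
    unfold GF at this
    rw [this, sub_zero]
  have e4 : ‖∫ x, V (a s) x * V' 0 b x * rho x ∂(N s)‖
      ≤ K * ‖a s‖ * ‖b‖ * ∫ x, |V (a s) x| * (1 + ‖x‖) ^ q * rho x ∂(N s) := by
    rw [e3, ← integral_const_mul]
    refine norm_integral_le_of_norm_le (j3.const_mul _) (Eventually.of_forall fun x => ?_)
    have e5 : V (a s) x * V' 0 b x * rho x - V (a s) x * V' (a s) b x * rho x
        = V (a s) x * (V' 0 b x - V' (a s) b x) * rho x := by ring
    have e6 := hF.dlip 0 (a s) h0r hr b x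
    rw [zero_sub, norm_neg] at e6
    rw [e5, norm_mul, norm_mul, Real.norm_of_nonneg (rho_pos x).le, Real.norm_eq_abs,
      Real.norm_eq_abs]
    have h5 := rho_pos x
    calc |V (a s) x| * |V' 0 b x - V' (a s) b x| * rho x
        ≤ |V (a s) x| * (K * (1 + ‖x‖) ^ q * ‖a s‖ * ‖b‖) * rho x := by gcongr
      _ = _ := by ring
  rw [norm_div, Real.norm_of_nonneg (Real.sqrt_nonneg _)]
  have e7 : ∫ x, |V (a s) x| * (1 + ‖x‖) ^ q * rho x ∂(N s)
      ≤ √(DD (N s) (V (a s)) 0) * √M :=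
    (le_abs_self _).trans (cs.trans (mul_le_mul_of_nonneg_left (Real.sqrt_le_sqrt e2)
      (Real.sqrt_nonneg _)))
  rcases (Real.sqrt_nonneg (DD (N s) (V (a s)) 0)).eq_or_lt with h0 | h0
  · rw [← h0, div_zero]; positivity
  · rw [div_le_iff₀ h0]
    refine e4.trans ?_
    calc K * ‖a s‖ * ‖b‖ * ∫ x, |V (a s) x| * (1 + ‖x‖) ^ q * rho x ∂(N s)
        ≤ K * ‖a s‖ * ‖b‖ * (√(DD (N s) (V (a s)) 0) * √M) := by gcongr
      _ = _ := by ring

/-- **the static estimate** at good times near the shrinker -/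
theorem RF.exists_static (hm : 0 < m) (hE : Module.finrank ℝ E = m + 1) (h : RF m N T H s₀)
    (hF : Fam m V V' r c K q) [IsLocallyFiniteMeasure κ]
    (hV0 : ∀ᵐ x ∂κ, V 0 x = 0)
    (hκ : ∀ x : E, ∀ c > om m, ∀ᶠ r in 𝓝[>] (0 : ℝ), (∫ y, ker (r⁻¹ • (y - x)) ∂κ) / r ^ m ≤ c)
    (hnd : ∀ u : E → ℝ, AEStronglyMeasurable u κ → Integrable (fun x => u x ^ 2 * rho x) κ →
      (∀ ζ : E → ℝ, ContDiff ℝ (⊤ : ℕ∞) ζ → HasCompactSupport ζ →
        ∫ x, u x * jac (V 0) ζ x * rho x ∂κ = 0) → ∃ b, u =ᵐ[κ] V' 0 b)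
    {a : ℝ → P} (har : ∀ᶠ s in nearF m N T H κ, ‖a s‖ ≤ r)
    (ha : Tendsto a (nearF m N T H κ) (𝓝 0))
    (hcrit : ∀ᶠ s in nearF m N T H κ, ∀ b, GF (N s) V V' (a s) b = 0) :
    ∃ C₀ : ℝ, 0 ≤ C₀ ∧ ∀ᶠ s in nearF m N T H κ,
      DD (N s) (V (a s)) 0 ≤ C₀ * dis (N s) (T s) (H s) := by
  by_contra hcon
  push Not at hcon
  have h0r : ‖(0 : P)‖ ≤ r := by simpa using hF.rpos.le
  set l := nearF m N T H κ with hl
  set S : ℕ → Set ℝ := fun n => {s | (n : ℝ) * dis (N s) (T s) (H s) < DD (N s) (V (a s)) 0}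
    with hS
  have hfr : ∀ n : ℕ, (l ⊓ 𝓟 (S n)).NeBot := by
    intro n
    rw [← frequently_mem_iff_neBot]
    exact hcon n n.cast_nonneg
  have hne : (⨅ n : ℕ, l ⊓ 𝓟 (S n)).NeBot := by
    refine iInf_neBot_of_directed ?_ hfr
    refine directed_of_isDirected_le fun i j hij => ?_
    refine inf_le_inf_left _ (principal_mono.2 fun s hs => ?_)
    simp only [hS, mem_ofPred_eq] at hs ⊢
    refine lt_of_le_of_lt ?_ hs
    exact mul_le_mul_of_nonneg_right (by exact_mod_cast hij) dis_nonneg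
  set U : Ultrafilter ℝ := Ultrafilter.of (⨅ n : ℕ, l ⊓ 𝓟 (S n)) with hU
  have hUl : (U : Filter ℝ) ≤ l :=
    (Ultrafilter.of_le _).trans ((iInf_le _ 0).trans inf_le_left)
  have hUS : ∀ n : ℕ, ∀ᶠ s in (U : Filter ℝ),
      (n : ℝ) * dis (N s) (T s) (H s) < DD (N s) (V (a s)) 0 := by
    intro n
    have : (U : Filter ℝ) ≤ 𝓟 (S n) :=
      (Ultrafilter.of_le _).trans ((iInf_le _ n).trans inf_le_right)
    exact this (mem_principal_self _)
  have hconv := h.conv hUl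
  have hpos : ∀ᶠ s in (U : Filter ℝ), 0 < DD (N s) (V (a s)) 0 := by
    filter_upwards [hUS 0] with s hs
    simpa using hs
  have haU : Tendsto a U (𝓝 0) := ha.mono_left hUl
  have hwi : ∀ᶠ s in (U : Filter ℝ), TubeD (V (a s)) c K := by
    filter_upwards [hUl har] with s hs using hF.tube _ hs
  refine blow hm hE hconv hκ (hF.tube 0 h0r) hwi ?_ (V := range fun b => V' 0 b) ?_ ?_ ?_ hpos
    (h.tendsto_DD hF hV0 hUl (hUl har) haU) ?_
  · intro ζ hζ hζc ε hε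
    obtain ⟨η, hη, hj⟩ := hF.jacc ζ hζ hζc ε hε
    have h1 : ∀ᶠ s in (U : Filter ℝ), ‖a s‖ < η := by
      have := haU.norm
      rw [norm_zero] at this
      exact this.eventually_lt_const hη
    filter_upwards [hUl har, h1] with s h2 h3
    exact hj _ h2 h3.le
  · rintro _ ⟨b, rfl⟩
    exact ⟨(hF.dsm 0 h0r b).continuous, (hF.pg' h0r b).b0⟩
  · rintro _ ⟨b, rfl⟩
    exact h.tendsto_orth hF hUl (hUl har) haU (hUl hcrit) b
  · intro u h1 h2 h3
    obtain ⟨b, hb⟩ := hnd u h1 h2 h3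
    exact ⟨_, ⟨b, rfl⟩, hb⟩
  · rw [Metric.tendsto_nhds]
    intro ε hε
    obtain ⟨n, hn⟩ := exists_nat_gt (1 / ε)
    filter_upwards [hUS n, hpos] with s hs hp
    have hd : 0 ≤ dis (N s) (T s) (H s) := dis_nonneg
    rw [Real.dist_eq, sub_zero, abs_of_nonneg (by positivity), div_lt_iff₀ hp]
    have hn' : 1 < ε * n := by rwa [div_lt_iff₀' hε] at hn
    have hn0 : (0 : ℝ) < n := by
      have := one_div_pos.2 hε
      linarith
    have h5 : ε * (n * dis (N s) (T s) (H s)) < ε * DD (N s) (V (a s)) 0 :=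
      mul_lt_mul_of_pos_left hs hε
    have h6 : dis (N s) (T s) (H s) ≤ ε * n * dis (N s) (T s) (H s) :=
      le_mul_of_one_le_left hd hn'.le
    linarith

/-- good times near the shrinker have a gauge and satisfy the static estimate -/
theorem RF.exists_goodAt (hm : 0 < m) (hE : Module.finrank ℝ E = m + 1) [FiniteDimensional ℝ P]
    (h : RF m N T H s₀) (hF : Fam m V V' r c K q) [IsLocallyFiniteMeasure κ]
    [(nearF m N T H κ).NeBot] (hV0 : ∀ᵐ x ∂κ, V 0 x = 0)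
    (hκ : ∀ x : E, ∀ c > om m, ∀ᶠ r in 𝓝[>] (0 : ℝ), (∫ y, ker (r⁻¹ • (y - x)) ∂κ) / r ^ m ≤ c)
    (hinj : ∀ b : P, (∀ᵐ x ∂κ, V' 0 b x = 0) → b = 0)
    (hnd : ∀ u : E → ℝ, AEStronglyMeasurable u κ → Integrable (fun x => u x ^ 2 * rho x) κ →
      (∀ ζ : E → ℝ, ContDiff ℝ (⊤ : ℕ∞) ζ → HasCompactSupport ζ →
        ∫ x, u x * jac (V 0) ζ x * rho x ∂κ = 0) → ∃ b, u =ᵐ[κ] V' 0 b) :
    ∃ r₁ : ℝ, r₁ ≤ r ∧ ∃ lam : ℝ, 0 < lam ∧ ∃ C₀ : ℝ, 0 ≤ C₀ ∧
      ∀ᶠ s in nearF m N T H κ, ∃ a : P, GoodAt m N T H V V' r₁ lam C₀ s a := by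
  have hmom : ∀ p : ℕ, ∃ C : ℝ, ∀ᶠ s in nearF m N T H κ,
      Integrable (fun x => (1 + ‖x‖) ^ p * rho x) (N s) ∧
        ∫ x, (1 + ‖x‖) ^ p * rho x ∂(N s) ≤ C := by
    intro p
    obtain ⟨C, hC⟩ := h.moment p
    exact ⟨C, by filter_upwards [nearF_atTop (eventually_ge_atTop s₀)] with s hs using hC s hs⟩
  obtain ⟨r₁, hr₁, hr₁r, lam, hlam, g1, g2, g3⟩ := hF.gauge (l := nearF m N T H κ) (N := N)
    (κ := κ) hmom (fun f hf hb => h.lim_PB hf hb) h.mom_lim hV0 hinj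
  obtain ⟨a, ha⟩ := g2.choice
  have ha1 : ∀ᶠ s in nearF m N T H κ, ‖a s‖ ≤ r₁ ∧ ∀ b, GF (N s) V V' (a s) b = 0 := by
    filter_upwards [ha] with s hs using ⟨hs.1.le, hs.2⟩
  have ha0 := g3 a ha1
  obtain ⟨C₀, hC₀, hst⟩ := h.exists_static hm hE hF hV0 hκ hnd (a := a)
    (by filter_upwards [ha1] with s hs using hs.1.trans hr₁r) ha0
    (by filter_upwards [ha1] with s hs using hs.2)
  refine ⟨r₁, hr₁r, lam, hlam, C₀, hC₀, ?_⟩
  filter_upwards [nearF_sl, ha1, hst, g1] with s h1 h2 h3 h4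
  exact ⟨a s, h1, h2.1, h2.2, h3, fun a' ha' => h4 _ _ h2.1 ha'⟩

end Vale.Agent.P218.H313
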