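import Vale.Agent.P218.H313.WFV

/-! Nondegenerate shrinkers: `C¹` functions of polynomial growth together with the derivative. -/

open MeasureTheory Set Filter Topology Metric
open scoped ENNReal NNReal RealInnerProductSpace

namespace Vale.Agent.P218.H313

open Vale.Agent.P214 (IntegralVarifold proj divAlong IsTestField)

set_option linter.unusedSectionVars false
set_option linter.unusedVariables false

/-- `C¹`, and polynomial growth of the function and of its derivative -/
structure PG {E F : Type*} [NormedAddCommGroup E] [InnerProductSpace ℝ E]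
    [NormedAddCommGroup F] [NormedSpace ℝ F] (f : E → F) : Prop where
  cd : ContDiff ℝ 1 f
  b0 : PB f
  b1 : PB (fderiv ℝ f)

variable {E : Type*} [NormedAddCommGroup E] [InnerProductSpace ℝ E]
  {F G : Type*} [NormedAddCommGroup F] [NormedSpace ℝ F] [NormedAddCommGroup G] [NormedSpace ℝ G]

namespace PG

lemma diff {f : E → F} (hf : PG f) (x : E) : DifferentiableAt ℝ f x :=
  hf.cd.differentiable (by norm_num) x

lemma cont {f : E → F} (hf : PG f) : Continuous f := hf.cd.continuous

lemma const (c : F) : PG (fun _ : E => c) where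
  cd := contDiff_const
  b0 := PB.const c
  b1 := PB.of_bound (C := 0) fun x => by simp

lemma id' : PG (fun x : E => x) where
  cd := contDiff_id
  b0 := PB.id'
  b1 := PB.of_bound (C := 1) fun x => by
    rw [show (fun x : E => x) = _root_.id from rfl, fderiv_id]
    exact ContinuousLinearMap.norm_id_le

lemma add {f g : E → F} (hf : PG f) (hg : PG g) : PG (fun x => f x + g x) where
  cd := hf.cd.add hg.cd
  b0 := hf.b0.add hg.b0
  b1 := by
    have : fderiv ℝ (fun x => f x + g x) = fun x => fderiv ℝ f x + fderiv ℝ g x := by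
      ext1 x
      exact ((hf.diff x).hasFDerivAt.add (hg.diff x).hasFDerivAt).fderiv
    rw [this]
    exact hf.b1.add hg.b1

/-- composition with a bounded bilinear map -/
lemma bilin {f : E → F} {g : E → G} {K : Type*} [NormedAddCommGroup K] [NormedSpace ℝ K]
    (B : F →L[ℝ] G →L[ℝ] K) (hf : PG f) (hg : PG g) : PG (fun x => B (f x) (g x)) where
  cd := B.isBoundedBilinearMap.contDiff.comp (hf.cd.prodMk hg.cd)
  b0 := by
    have h1 : PB (fun x => ‖B‖ * ‖f x‖) := (PB.const ‖B‖).mul hf.b0.norm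
    refine PB.of_norm_mul h1 hg.b0 fun x => ?_
    rw [Real.norm_of_nonneg (by positivity)]
    exact B.le_opNorm₂ _ _
  b1 := by
    have e : fderiv ℝ (fun x => B (f x) (g x)) = fun x =>
        (B.precompR E (f x) (fderiv ℝ g x)) + (B.precompL E (fderiv ℝ f x) (g x)) := by
      ext1 x
      exact (B.hasFDerivAt_of_bilinear (hf.diff x).hasFDerivAt (hg.diff x).hasFDerivAt).fderiv
    rw [e]
    have h1 : PB (fun x => ‖B‖ * ‖f x‖) := (PB.const ‖B‖).mul hf.b0.norm
    have h2 : PB (fun x => ‖B‖ * ‖fderiv ℝ f x‖) := (PB.const ‖B‖).mul hf.b1.norm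
    refine PB.add (PB.of_norm_mul h1 hg.b1 fun x => ?_) (PB.of_norm_mul h2 hg.b0 fun x => ?_)
    · rw [Real.norm_of_nonneg (by positivity)]
      refine ((B.precompR E).le_opNorm₂ _ _).trans ?_
      have := B.norm_precompR_le E
      gcongr
    · rw [Real.norm_of_nonneg (by positivity)]
      refine ((B.precompL E).le_opNorm₂ _ _).trans ?_
      have := B.norm_precompL_le E
      gcongr

lemma smul {f : E → ℝ} {g : E → F} (hf : PG f) (hg : PG g) : PG (fun x => f x • g x) :=
  bilin (ContinuousLinearMap.lsmul ℝ ℝ) hf hg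

lemma mul {f g : E → ℝ} (hf : PG f) (hg : PG g) : PG (fun x => f x * g x) := by
  simpa using hf.smul hg

lemma const_mul {f : E → ℝ} (c : ℝ) (hf : PG f) : PG (fun x => c * f x) := (PG.const c).mul hf

lemma neg {f : E → F} (hf : PG f) : PG (fun x => -f x) := by
  have := (PG.const (E := E) (-1 : ℝ)).smul hf
  simpa using this

lemma sub {f g : E → F} (hf : PG f) (hg : PG g) : PG (fun x => f x - g x) := by
  simpa [sub_eq_add_neg] using hf.add hg.neg

lemma pow {f : E → ℝ} (hf : PG f) (n : ℕ) : PG (fun x => f x ^ n) := by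
  induction n with
  | zero => simpa using PG.const (E := E) (1 : ℝ)
  | succ n ih => simpa [pow_succ] using ih.mul hf

lemma inner' {f g : E → E} (hf : PG f) (hg : PG g) : PG (fun x => ⟪f x, g x⟫) :=
  bilin (innerSL ℝ) hf hg

lemma clm {f : E → F} (L : F →L[ℝ] G) (hf : PG f) : PG (fun x => L (f x)) where
  cd := L.contDiff.comp hf.cd
  b0 := PB.of_norm_mul (PB.const ‖L‖) hf.b0 fun x => by
    rw [norm_norm]; exact L.le_opNorm _
  b1 := by
    have e : fderiv ℝ (fun x => L (f x)) = fun x => L.comp (fderiv ℝ f x) := by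
      ext1 x
      exact (L.hasFDerivAt.comp x (hf.diff x).hasFDerivAt).fderiv
    rw [e]
    exact PB.of_norm_mul (PB.const ‖L‖) hf.b1 fun x => by
      rw [norm_norm]; exact L.opNorm_comp_le _

lemma normSq : PG (fun x : E => ‖x‖ ^ 2) := by
  have h : PG (fun x : E => ⟪x, x⟫) := id'.inner' id'
  simpa [real_inner_self_eq_norm_sq] using h

lemma of_compact {f : E → F} (hf : ContDiff ℝ 1 f) (hc : HasCompactSupport f) : PG f where
  cd := hf
  b0 := PB.of_compact hf.continuous hc
  b1 := PB.of_compact (hf.continuous_fderiv (by norm_num)) (hc.fderiv (𝕜 := ℝ))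

end PG

/-- the weights `(1 + |x|²)^j` -/
noncomputable def wt (j : ℕ) (x : E) : ℝ := (1 + ‖x‖ ^ 2) ^ j

lemma PG.wt (j : ℕ) : PG (wt j : E → ℝ) := ((PG.const 1).add PG.normSq).pow j

lemma wt_pos (j : ℕ) (x : E) : 0 < wt j x := by unfold wt; positivity

lemma one_le_wt (j : ℕ) (x : E) : 1 ≤ wt j x :=
  one_le_pow₀ (by have := sq_nonneg ‖x‖; linarith)

section

variable [FiniteDimensional ℝ E]

lemma grad_wt (j : ℕ) (x : E) :
    grad (wt (j + 1) : E → ℝ) x = (2 * (j + 1) * wt j x) • x := by
  refine grad_unique fun v => ?_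
  have h1 : HasFDerivAt (fun y : E => 1 + ‖y‖ ^ 2) (2 • innerSL ℝ x) x :=
    (hasStrictFDerivAt_norm_sq x).hasFDerivAt.const_add 1
  have h2 := h1.pow (j + 1)
  have h3 : fderiv ℝ (wt (j + 1) : E → ℝ) x
      = ((j + 1 : ℕ) • (1 + ‖x‖ ^ 2) ^ j) • (2 • innerSL ℝ x) := by
    have e : (wt (j + 1) : E → ℝ) = fun y : E => (1 + ‖y‖ ^ 2) ^ (j + 1) := rfl
    rw [e, h2.fderiv]
    simp
  rw [h3, real_inner_smul_left]
  unfold wt
  simp
  ring

lemma norm_grad_wt_le (j : ℕ) (x : E) : ‖grad (wt j : E → ℝ) x‖ ≤ j * wt j x := by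
  cases j with
  | zero =>
    have e : (wt 0 : E → ℝ) = fun _ => 1 := by ext y; simp [wt]
    have : grad (wt 0 : E → ℝ) x = 0 := by
      refine grad_unique fun v => ?_
      rw [e]; simp
    rw [this]; simp
  | succ j =>
    rw [grad_wt, norm_smul, Real.norm_of_nonneg (by have := wt_pos j x; positivity)]
    have h1 : wt (j + 1) x = wt j x * (1 + ‖x‖ ^ 2) := by unfold wt; rw [pow_succ]
    rw [h1]
    push_cast
    have h2 : 2 * ‖x‖ ≤ 1 + ‖x‖ ^ 2 := by nlinarith [sq_nonneg (‖x‖ - 1)]
    have h3 := wt_pos j x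
    have h4 : 0 ≤ ((j : ℝ) + 1) * wt j x := by positivity
    nlinarith

end

end Vale.Agent.P218.H313
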