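import Mathlib

/-! Second order: cubic forms on a Euclidean space, the quotient `h = Q(x,x,x) / |x|²` along
perturbed gradient steps, and the summation lemma. -/

open Set Filter Topology
open scoped RealInnerProductSpace

namespace Vale.Agent.P218.H313

namespace Cubic

variable {k : ℕ}

variable (Q : EuclideanSpace ℝ (Fin k) →ₗ[ℝ] EuclideanSpace ℝ (Fin k) →ₗ[ℝ]
  EuclideanSpace ℝ (Fin k) →ₗ[ℝ] ℝ)

/-- the standard basis -/
noncomputable def eb (i : Fin k) : EuclideanSpace ℝ (Fin k) := EuclideanSpace.single i (1 : ℝ)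

lemma sum_eb (x : EuclideanSpace ℝ (Fin k)) : ∑ i, x i • (eb i : EuclideanSpace ℝ (Fin k)) = x := by
  have := (EuclideanSpace.basisFun (Fin k) ℝ).sum_repr x
  simpa [eb] using this

lemma abs_coord_le (x : EuclideanSpace ℝ (Fin k)) (i : Fin k) : |x i| ≤ ‖x‖ := by
  have := PiLp.norm_apply_le x i
  simpa using this

lemma exists_bound : ∃ B : ℝ, 0 ≤ B ∧ ∀ x y z : EuclideanSpace ℝ (Fin k),
    |Q x y z| ≤ B * ‖x‖ * ‖y‖ * ‖z‖ := by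
  refine ⟨∑ l, ∑ j, ∑ i, |Q (eb i) (eb j) (eb l)|, by positivity, fun x y z => ?_⟩
  have e : Q x y z = ∑ l, ∑ j, ∑ i, z l * (y j * (x i * Q (eb i) (eb j) (eb l))) := by
    conv_lhs => rw [← sum_eb x, ← sum_eb y, ← sum_eb z]
    simp only [map_sum, map_smul, LinearMap.sum_apply, LinearMap.smul_apply, smul_eq_mul,
      Finset.mul_sum]
  rw [e]
  refine (Finset.abs_sum_le_sum_abs _ _).trans ?_
  rw [Finset.sum_mul, Finset.sum_mul, Finset.sum_mul]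
  refine Finset.sum_le_sum fun l _ => ?_
  refine (Finset.abs_sum_le_sum_abs _ _).trans ?_
  rw [Finset.sum_mul, Finset.sum_mul, Finset.sum_mul]
  refine Finset.sum_le_sum fun j _ => ?_
  refine (Finset.abs_sum_le_sum_abs _ _).trans ?_
  rw [Finset.sum_mul, Finset.sum_mul, Finset.sum_mul]
  refine Finset.sum_le_sum fun i _ => ?_
  rw [abs_mul, abs_mul, abs_mul]
  have h1 := abs_coord_le x i
  have h2 := abs_coord_le y j
  have h3 := abs_coord_le z l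
  calc |z l| * (|y j| * (|x i| * |Q (eb i) (eb j) (eb l)|))
      ≤ ‖z‖ * (‖y‖ * (‖x‖ * |Q (eb i) (eb j) (eb l)|)) := by gcongr
    _ = _ := by ring

/-- the gradient of a cubic form, up to the factor 3 -/
noncomputable def G (x : EuclideanSpace ℝ (Fin k)) : EuclideanSpace ℝ (Fin k) := ∑ i, Q x x (eb i) • (eb i : EuclideanSpace ℝ (Fin k))

lemma inner_G (x z : EuclideanSpace ℝ (Fin k)) : ⟪G Q x, z⟫ = Q x x z := by
  have e : Q x x z = ∑ i, z i * Q x x (eb i) := by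
    conv_lhs => rw [← sum_eb z]
    simp only [map_sum, map_smul, smul_eq_mul]
  rw [e, G, sum_inner]
  refine Finset.sum_congr rfl fun i _ => ?_
  rw [real_inner_smul_left, eb, EuclideanSpace.inner_single_left]
  simp [mul_comm]

lemma continuous_G : Continuous (G Q) := by
  unfold G
  refine continuous_finsetSum _ fun i _ =>
    (?_ : Continuous fun x : EuclideanSpace ℝ (Fin k) => Q x x (eb i)).smul continuous_const
  have e : (fun x : EuclideanSpace ℝ (Fin k) => Q x x (eb i)) = fun x => ∑ j, x j * ((Q (eb j)).flip (eb i)) x := by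
    ext x
    conv_lhs => rw [show Q x = Q (∑ j, x j • (eb j : EuclideanSpace ℝ (Fin k))) by rw [sum_eb]]
    simp only [map_sum, map_smul, LinearMap.sum_apply, LinearMap.smul_apply, smul_eq_mul,
      LinearMap.flip_apply]
  rw [e]
  refine continuous_finsetSum _ fun j _ => ?_
  refine Continuous.mul (by fun_prop) ?_
  exact LinearMap.continuous_of_finiteDimensional _

lemma G_smul (t : ℝ) (x : EuclideanSpace ℝ (Fin k)) : G Q (t • x) = t ^ 2 • G Q x := by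
  unfold G
  rw [Finset.smul_sum]
  refine Finset.sum_congr rfl fun i _ => ?_
  simp only [map_smul, LinearMap.smul_apply, smul_eq_mul, smul_smul]
  congr 1; ring

lemma G_zero : G Q 0 = 0 := by simp [G]

lemma exists_nondeg (hQ : ∀ x, (∀ l, Q x x l = 0) → x = 0) :
    ∃ c : ℝ, 0 < c ∧ ∀ x : EuclideanSpace ℝ (Fin k), c * ‖x‖ ^ 2 ≤ ‖G Q x‖ := by
  rcases (Metric.sphere (0 : EuclideanSpace ℝ (Fin k)) 1).eq_empty_or_nonempty with hs | hs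
  · refine ⟨1, one_pos, fun x => ?_⟩
    have hx : x = 0 := by
      by_contra hx
      have : ‖x‖⁻¹ • x ∈ Metric.sphere (0 : EuclideanSpace ℝ (Fin k)) 1 := by
        rw [mem_sphere_zero_iff_norm, norm_smul, norm_inv, norm_norm,
          inv_mul_cancel₀ (norm_ne_zero_iff.2 hx)]
      rw [hs] at this
      exact this
    simp [hx, G_zero]
  · obtain ⟨x₀, hx₀, hmin⟩ := (isCompact_sphere (0 : EuclideanSpace ℝ (Fin k)) 1).exists_isMinOn hs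
      (continuous_G Q).norm.continuousOn
    have hx₁ : ‖x₀‖ = 1 := mem_sphere_zero_iff_norm.1 hx₀
    refine ⟨‖G Q x₀‖, ?_, fun x => ?_⟩
    · rw [norm_pos_iff]
      intro h0
      have : x₀ = 0 := hQ x₀ fun l => by rw [← inner_G, h0, inner_zero_left]
      rw [this, norm_zero] at hx₁
      exact zero_ne_one hx₁
    · rcases eq_or_ne x 0 with rfl | hx
      · simp
      · have hn : ‖x‖ ≠ 0 := norm_ne_zero_iff.2 hx
        have h1 : ‖x‖⁻¹ • x ∈ Metric.sphere (0 : EuclideanSpace ℝ (Fin k)) 1 := by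
          rw [mem_sphere_zero_iff_norm, norm_smul, norm_inv, norm_norm, inv_mul_cancel₀ hn]
        have h2 : ‖G Q x₀‖ ≤ ‖G Q (‖x‖⁻¹ • x)‖ := hmin h1
        rw [G_smul, norm_smul, norm_pow, norm_inv, norm_norm] at h2
        calc ‖G Q x₀‖ * ‖x‖ ^ 2 ≤ (‖x‖⁻¹ ^ 2 * ‖G Q x‖) * ‖x‖ ^ 2 := by gcongr
          _ = ‖G Q x‖ := by field_simp

/-- the quotient `Q(x,x,x) / |x|²` -/
noncomputable def hq (x : EuclideanSpace ℝ (Fin k)) : ℝ := Q x x x / ‖x‖ ^ 2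

variable {Q} {B : ℝ}

lemma norm_G_le (hB : 0 ≤ B) (hQB : ∀ x y z : EuclideanSpace ℝ (Fin k), |Q x y z| ≤ B * ‖x‖ * ‖y‖ * ‖z‖) (x : EuclideanSpace ℝ (Fin k)) :
    ‖G Q x‖ ≤ B * ‖x‖ ^ 2 := by
  rcases (norm_nonneg (G Q x)).eq_or_lt with h0 | h0
  · rw [← h0]; positivity
  · have h1 : ‖G Q x‖ ^ 2 ≤ B * ‖x‖ ^ 2 * ‖G Q x‖ := by
      rw [← real_inner_self_eq_norm_sq, inner_G]
      refine (le_abs_self _).trans ((hQB _ _ _).trans (le_of_eq (by ring)))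
    have h2 : ‖G Q x‖ * ‖G Q x‖ ≤ (B * ‖x‖ ^ 2) * ‖G Q x‖ := by nlinarith
    exact le_of_mul_le_mul_right h2 h0

lemma abs_hq_le (hB : 0 ≤ B) (hQB : ∀ x y z : EuclideanSpace ℝ (Fin k), |Q x y z| ≤ B * ‖x‖ * ‖y‖ * ‖z‖) (x : EuclideanSpace ℝ (Fin k)) :
    |hq Q x| ≤ B * ‖x‖ := by
  unfold hq
  rcases eq_or_ne x 0 with rfl | hx
  · simp
  · have hn : 0 < ‖x‖ := norm_pos_iff.2 hx
    rw [abs_div, abs_of_pos (pow_pos hn 2), div_le_iff₀ (pow_pos hn 2)]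
    exact (hQB x x x).trans (le_of_eq (by ring))

lemma hq_lip_aux (hB : 0 ≤ B) (hQB : ∀ x y z : EuclideanSpace ℝ (Fin k), |Q x y z| ≤ B * ‖x‖ * ‖y‖ * ‖z‖) {x y : EuclideanSpace ℝ (Fin k)}
    (hxy : ‖y‖ ≤ ‖x‖) : |hq Q x - hq Q y| ≤ 5 * B * ‖x - y‖ := by
  rcases eq_or_ne y 0 with rfl | hy
  · have h1 := abs_hq_le hB hQB x
    have h2 : hq Q (0 : EuclideanSpace ℝ (Fin k)) = 0 := by simp [hq]
    rw [h2, sub_zero, sub_zero]
    have : 0 ≤ B * ‖x‖ := by positivity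
    linarith
  · have hny : 0 < ‖y‖ := norm_pos_iff.2 hy
    have hnx : 0 < ‖x‖ := hny.trans_le hxy
    have e1 : Q x x x - Q y y y = Q (x - y) x x + Q y (x - y) x + Q y y (x - y) := by
      simp only [map_sub, LinearMap.sub_apply]; ring
    have e2 : |Q x x x - Q y y y| ≤ 3 * B * ‖x - y‖ * ‖x‖ ^ 2 := by
      rw [e1]
      have a1 := hQB (x - y) x x
      have a2 := hQB y (x - y) x
      have a3 := hQB y y (x - y)
      have b0 : 0 ≤ B * ‖x - y‖ := by positivity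
      have b2 : B * ‖y‖ * ‖x - y‖ * ‖x‖ ≤ B * ‖x - y‖ * ‖x‖ ^ 2 := by
        calc B * ‖y‖ * ‖x - y‖ * ‖x‖ = (B * ‖x - y‖ * ‖x‖) * ‖y‖ := by ring
          _ ≤ (B * ‖x - y‖ * ‖x‖) * ‖x‖ := by gcongr
          _ = _ := by ring
      have b3 : B * ‖y‖ * ‖y‖ * ‖x - y‖ ≤ B * ‖x - y‖ * ‖x‖ ^ 2 := by
        calc B * ‖y‖ * ‖y‖ * ‖x - y‖ = (B * ‖x - y‖) * (‖y‖ * ‖y‖) := by ring
          _ ≤ (B * ‖x - y‖) * (‖x‖ * ‖x‖) := by gcongr
          _ = _ := by ring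
      have c1 := abs_add_le (Q (x - y) x x + Q y (x - y) x) (Q y y (x - y))
      have c2 := abs_add_le (Q (x - y) x x) (Q y (x - y) x)
      nlinarith
    have e3 : hq Q x - hq Q y = (Q x x x - Q y y y) / ‖x‖ ^ 2
        + Q y y y * ((‖y‖ - ‖x‖) * (‖y‖ + ‖x‖)) / (‖x‖ ^ 2 * ‖y‖ ^ 2) := by
      unfold hq
      field_simp
      ring
    have e4 : |(Q x x x - Q y y y) / ‖x‖ ^ 2| ≤ 3 * B * ‖x - y‖ := by
      rw [abs_div, abs_of_pos (pow_pos hnx 2), div_le_iff₀ (pow_pos hnx 2)]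
      exact e2
    have e5 : |Q y y y * ((‖y‖ - ‖x‖) * (‖y‖ + ‖x‖)) / (‖x‖ ^ 2 * ‖y‖ ^ 2)|
        ≤ 2 * B * ‖x - y‖ := by
      have hp : 0 < ‖x‖ ^ 2 * ‖y‖ ^ 2 := by positivity
      rw [abs_div, abs_of_pos hp, div_le_iff₀ hp, abs_mul, abs_mul]
      have a1 := hQB y y y
      have a2 : |‖y‖ - ‖x‖| ≤ ‖x - y‖ := by
        rw [abs_sub_comm]; exact abs_norm_sub_norm_le x y
      have a3 : |‖y‖ + ‖x‖| ≤ 2 * ‖x‖ := by
        rw [abs_of_nonneg (by positivity)]; linarith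
      calc |Q y y y| * (|‖y‖ - ‖x‖| * |‖y‖ + ‖x‖|)
          ≤ (B * ‖y‖ * ‖y‖ * ‖y‖) * (‖x - y‖ * (2 * ‖x‖)) := by gcongr
        _ = (2 * B * ‖x - y‖) * (‖x‖ * ‖y‖ ^ 2) * ‖y‖ := by ring
        _ ≤ (2 * B * ‖x - y‖) * (‖x‖ * ‖y‖ ^ 2) * ‖x‖ := by gcongr
        _ = _ := by ring
    rw [e3]
    have := abs_add_le ((Q x x x - Q y y y) / ‖x‖ ^ 2)
      (Q y y y * ((‖y‖ - ‖x‖) * (‖y‖ + ‖x‖)) / (‖x‖ ^ 2 * ‖y‖ ^ 2))
    linarith

lemma hq_lip (hB : 0 ≤ B) (hQB : ∀ x y z : EuclideanSpace ℝ (Fin k), |Q x y z| ≤ B * ‖x‖ * ‖y‖ * ‖z‖) (x y : EuclideanSpace ℝ (Fin k)) :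
    |hq Q x - hq Q y| ≤ 5 * B * ‖x - y‖ := by
  rcases le_total ‖y‖ ‖x‖ with h | h
  · exact hq_lip_aux hB hQB h
  · rw [abs_sub_comm, norm_sub_rev]; exact hq_lip_aux hB hQB h

lemma step_num {n g F a b τ B : ℝ} (hn : 0 < n) (hg0 : 0 ≤ g) (hB : 0 ≤ B) (hτ : 0 ≤ τ)
    (hx : τ * B * n ≤ 1 / 100) (hgB : g ≤ B * n ^ 2) (hFB : |F| ≤ B * n ^ 3)
    (hF2 : F ^ 2 ≤ g ^ 2 * n ^ 2) (haB : |a| ≤ B * n * g ^ 2) (hbB : |b| ≤ B * g ^ 3) :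
    n ^ 2 + 2 * τ * F + τ ^ 2 * g ^ 2 ≤ 103 / 100 * n ^ 2 ∧
    97 / 100 * n ^ 2 ≤ n ^ 2 + 2 * τ * F + τ ^ 2 * g ^ 2 ∧
    9 / 10 * τ * g ^ 2 * n ^ 2 ≤ (F + 3 * τ * g ^ 2 + 3 * τ ^ 2 * a + τ ^ 3 * b) * n ^ 2
      - F * (n ^ 2 + 2 * τ * F + τ ^ 2 * g ^ 2) := by
  obtain ⟨θ, hθ⟩ : ∃ θ, θ = τ * B * n := ⟨_, rfl⟩
  have hθ0 : 0 ≤ θ := by rw [hθ]; positivity
  rw [← hθ] at hx
  have hτg : τ * g ≤ θ * n := by
    calc τ * g ≤ τ * (B * n ^ 2) := by gcongr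
      _ = θ * n := by rw [hθ]; ring
  have hτF : |τ * F| ≤ θ * n ^ 2 := by
    rw [abs_mul, abs_of_nonneg hτ]
    calc τ * |F| ≤ τ * (B * n ^ 3) := by gcongr
      _ = θ * n ^ 2 := by rw [hθ]; ring
  have hθ2 : θ ^ 2 ≤ 1 / 100 * θ := by nlinarith
  have hn2 : 0 < n ^ 2 := by positivity
  have c1 : θ * n ^ 2 ≤ 1 / 100 * n ^ 2 := by gcongr
  refine ⟨?_, ?_, ?_⟩
  · have b1 := (abs_le.1 hτF).2
    have b2 : (τ * g) ^ 2 ≤ (θ * n) ^ 2 := by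
      have : 0 ≤ τ * g := by positivity
      gcongr
    have b3 : (θ * n) ^ 2 ≤ 1 / 100 * (θ * n ^ 2) := by
      calc (θ * n) ^ 2 = θ ^ 2 * n ^ 2 := by ring
        _ ≤ (1 / 100 * θ) * n ^ 2 := by gcongr
        _ = _ := by ring
    have e : τ ^ 2 * g ^ 2 = (τ * g) ^ 2 := by ring
    rw [e]
    linarith
  · have b1 := (abs_le.1 hτF).1
    have b2 : 0 ≤ τ ^ 2 * g ^ 2 := by positivity
    linarith
  · obtain ⟨X, hX⟩ : ∃ X, X = τ * g ^ 2 * n ^ 2 := ⟨_, rfl⟩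
    have hX0 : 0 ≤ X := by rw [hX]; positivity
    have a1 : -(θ * X) ≤ τ ^ 2 * a * n ^ 2 := by
      have := (abs_le.1 haB).1
      have hp : 0 ≤ τ ^ 2 * n ^ 2 := by positivity
      calc -(θ * X) = τ ^ 2 * n ^ 2 * (-(B * n * g ^ 2)) := by rw [hθ, hX]; ring
        _ ≤ τ ^ 2 * n ^ 2 * a := mul_le_mul_of_nonneg_left this hp
        _ = _ := by ring
    have a2 : -(θ ^ 2 * X) ≤ τ ^ 3 * b * n ^ 2 := by
      have h3 := (abs_le.1 hbB).1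
      have hp : 0 ≤ τ ^ 3 * n ^ 2 := by positivity
      have h4 : τ ^ 3 * n ^ 2 * (B * g ^ 3) ≤ θ ^ 2 * X := by
        have h5 : τ * B * (τ * g) ≤ θ ^ 2 := by
          calc τ * B * (τ * g) ≤ τ * B * (θ * n) := by gcongr
            _ = θ ^ 2 := by rw [hθ]; ring
        calc τ ^ 3 * n ^ 2 * (B * g ^ 3) = τ * B * (τ * g) * X := by rw [hX]; ring
          _ ≤ θ ^ 2 * X := by gcongr
      calc -(θ ^ 2 * X) ≤ τ ^ 3 * n ^ 2 * (-(B * g ^ 3)) := by linarith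
        _ ≤ τ ^ 3 * n ^ 2 * b := mul_le_mul_of_nonneg_left h3 hp
        _ = _ := by ring
    have a3 : -(θ * X) ≤ -(τ ^ 2 * g ^ 2 * F) := by
      have := (abs_le.1 hFB).2
      have hp : 0 ≤ τ ^ 2 * g ^ 2 := by positivity
      have h3 := mul_le_mul_of_nonneg_left this hp
      calc -(θ * X) = -(τ ^ 2 * g ^ 2 * (B * n ^ 3)) := by rw [hθ, hX]; ring
        _ ≤ _ := by linarith
    have a5 : τ * F ^ 2 ≤ X := by
      calc τ * F ^ 2 ≤ τ * (g ^ 2 * n ^ 2) := by gcongr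
        _ = X := by rw [hX]; ring
    have a6 : θ * X ≤ 1 / 100 * X := by gcongr
    have a7 : θ ^ 2 * X ≤ 1 / 100 * X := by
      have : θ ^ 2 ≤ 1 / 100 := by linarith
      gcongr
    have e : (F + 3 * τ * g ^ 2 + 3 * τ ^ 2 * a + τ ^ 3 * b) * n ^ 2
        - F * (n ^ 2 + 2 * τ * F + τ ^ 2 * g ^ 2)
        = 3 * X + 3 * (τ ^ 2 * a * n ^ 2) + τ ^ 3 * b * n ^ 2 - 2 * (τ * F ^ 2)
          - τ ^ 2 * g ^ 2 * F := by rw [hX]; ring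
    have e' : 9 / 10 * τ * g ^ 2 * n ^ 2 = 9 / 10 * X := by rw [hX]; ring
    rw [e, e']
    linarith

lemma Q_expand (h1 : ∀ x y z, Q x y z = Q y x z) (h2 : ∀ x y z, Q x y z = Q x z y)
    (x v : EuclideanSpace ℝ (Fin k)) (τ : ℝ) : Q (x + τ • v) (x + τ • v) (x + τ • v)
      = Q x x x + 3 * τ * Q x x v + 3 * τ ^ 2 * Q x v v + τ ^ 3 * Q v v v := by
  have s1 : Q v x x = Q x x v := by rw [h1, h2]
  have s2 : Q x v x = Q x x v := by rw [h2]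
  have s3 : Q v v x = Q x v v := by rw [h2, h1]
  have s4 : Q v x v = Q x v v := by rw [h1]
  simp only [map_add, map_smul, LinearMap.add_apply, LinearMap.smul_apply, smul_eq_mul]
  rw [s1, s2, s3, s4]
  ring

/-- the gradient step increases the quotient -/
lemma hq_step (hB : 0 ≤ B)
    (hQB : ∀ x y z : EuclideanSpace ℝ (Fin k), |Q x y z| ≤ B * ‖x‖ * ‖y‖ * ‖z‖)
    (h1 : ∀ x y z, Q x y z = Q y x z) (h2 : ∀ x y z, Q x y z = Q x z y) {c : ℝ} (hc : 0 < c)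
    (hnd : ∀ x : EuclideanSpace ℝ (Fin k), c * ‖x‖ ^ 2 ≤ ‖G Q x‖)
    {x : EuclideanSpace ℝ (Fin k)} {τ : ℝ} (hτ : 0 ≤ τ) (hx : τ * B * ‖x‖ ≤ 1 / 100) :
    hq Q x + τ / 2 * c ^ 2 * ‖x‖ ^ 2 ≤ hq Q (x + τ • G Q x) := by
  rcases eq_or_ne x 0 with rfl | hx0
  · simp [G_zero, hq]
  have hn : 0 < ‖x‖ := norm_pos_iff.2 hx0
  have hg0 : 0 ≤ ‖G Q x‖ := norm_nonneg _
  have hgB : ‖G Q x‖ ≤ B * ‖x‖ ^ 2 := norm_G_le hB hQB x
  have hFg : |Q x x x| ≤ ‖G Q x‖ * ‖x‖ := by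
    rw [← inner_G]
    exact abs_real_inner_le_norm _ _
  have hFB : |Q x x x| ≤ B * ‖x‖ ^ 3 := (hQB x x x).trans (le_of_eq (by ring))
  have hF2 : Q x x x ^ 2 ≤ ‖G Q x‖ ^ 2 * ‖x‖ ^ 2 := by
    rw [← sq_abs, ← mul_pow]
    gcongr
  have eG : Q x x (G Q x) = ‖G Q x‖ ^ 2 := by
    rw [← inner_G, real_inner_self_eq_norm_sq]
  have haB : |Q x (G Q x) (G Q x)| ≤ B * ‖x‖ * ‖G Q x‖ ^ 2 :=
    (hQB _ _ _).trans (le_of_eq (by ring))
  have hbB : |Q (G Q x) (G Q x) (G Q x)| ≤ B * ‖G Q x‖ ^ 3 :=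
    (hQB _ _ _).trans (le_of_eq (by ring))
  obtain ⟨n1, n2, n3⟩ := step_num hn hg0 hB hτ hx hgB hFB hF2 haB hbB
  have en : ‖x + τ • G Q x‖ ^ 2 = ‖x‖ ^ 2 + 2 * τ * Q x x x + τ ^ 2 * ‖G Q x‖ ^ 2 := by
    rw [norm_add_sq_real, real_inner_smul_right, real_inner_comm, inner_G, norm_smul,
      Real.norm_of_nonneg hτ]
    ring
  have ef := Q_expand h1 h2 x (G Q x) τ
  rw [eG] at ef
  rw [← en] at n1 n2 n3
  rw [← ef] at n3
  have hn2 : 0 < ‖x‖ ^ 2 := by positivity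
  have hyp : 0 < ‖x + τ • G Q x‖ ^ 2 := lt_of_lt_of_le (by positivity) n2
  have hcg : c * ‖x‖ ^ 2 ≤ ‖G Q x‖ := hnd x
  unfold hq
  generalize Q (x + τ • G Q x) (x + τ • G Q x) (x + τ • G Q x) = fy at *
  generalize ‖x + τ • G Q x‖ ^ 2 = ny at *
  generalize Q x x x = F at *
  generalize ‖G Q x‖ = g at *
  generalize ‖x‖ = n at *
  have e1 : fy / ny - F / n ^ 2 = (fy * n ^ 2 - F * ny) / (ny * n ^ 2) := by
    field_simp
  have e2 : τ / 2 * c ^ 2 * n ^ 2 ≤ fy / ny - F / n ^ 2 := by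
    rw [e1, le_div_iff₀ (mul_pos hyp hn2)]
    refine le_trans ?_ n3
    have b1 : (c * n ^ 2) ^ 2 ≤ g ^ 2 := by gcongr
    have b2 : τ / 2 * c ^ 2 * n ^ 2 * (ny * n ^ 2)
        ≤ τ / 2 * c ^ 2 * n ^ 2 * ((103 / 100 * n ^ 2) * n ^ 2) := by gcongr
    have b3 : τ / 2 * c ^ 2 * n ^ 2 * ((103 / 100 * n ^ 2) * n ^ 2)
        = 103 / 200 * τ * (c * n ^ 2) ^ 2 * n ^ 2 := by ring
    have b4 : 103 / 200 * τ * (c * n ^ 2) ^ 2 * n ^ 2 ≤ 103 / 200 * τ * g ^ 2 * n ^ 2 := by gcongr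
    have b5 : 0 ≤ τ * g ^ 2 * n ^ 2 := by positivity
    rw [b3] at b2
    linarith
  linarith

/-- one perturbed step -/
lemma hq_step' (hB : 0 ≤ B) (hQB : ∀ x y z : EuclideanSpace ℝ (Fin k), |Q x y z| ≤ B * ‖x‖ * ‖y‖ * ‖z‖)
    (h1 : ∀ x y z, Q x y z = Q y x z) (h2 : ∀ x y z, Q x y z = Q x z y) {c : ℝ} (hc : 0 < c)
    (hnd : ∀ x : EuclideanSpace ℝ (Fin k), c * ‖x‖ ^ 2 ≤ ‖G Q x‖)
    {x x' : EuclideanSpace ℝ (Fin k)} {τ e : ℝ} (hτ : 0 ≤ τ)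
    (hx : τ * B * ‖x‖ ≤ 1 / 100) (he : ‖x' - x - τ • G Q x‖ ≤ e) :
    hq Q x + τ / 2 * c ^ 2 * ‖x‖ ^ 2 ≤ hq Q x' + 5 * B * e := by
  have e1 := hq_step hB hQB h1 h2 hc hnd hτ hx
  have e2 := hq_lip hB hQB (x + τ • G Q x) x'
  have e3 : ‖x + τ • G Q x - x'‖ ≤ e := by
    rw [norm_sub_rev]
    have : x' - (x + τ • G Q x) = x' - x - τ • G Q x := by abel
    rw [this]; exact he
  have e4 : 5 * B * ‖x + τ • G Q x - x'‖ ≤ 5 * B * e := by gcongr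
  have e5 := (le_abs_self _).trans e2
  linarith

/-- **summation** -/
theorem sum_le (hB : 0 ≤ B) (hQB : ∀ x y z : EuclideanSpace ℝ (Fin k), |Q x y z| ≤ B * ‖x‖ * ‖y‖ * ‖z‖)
    (h1 : ∀ x y z, Q x y z = Q y x z) (h2 : ∀ x y z, Q x y z = Q x z y) {c : ℝ} (hc : 0 < c)
    (hnd : ∀ x : EuclideanSpace ℝ (Fin k), c * ‖x‖ ^ 2 ≤ ‖G Q x‖)
    {τ₀ η C₁ C₂ : ℝ} (hτ₀ : 0 < τ₀) (hη : 0 ≤ η) (hC₁ : 0 ≤ C₁) (hC₂ : 0 ≤ C₂)
    (hsmall : 5 * B * η * C₂ ≤ τ₀ * c ^ 2 / 4) :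
    ∃ C : ℝ, 0 ≤ C ∧ ∀ (α : ℕ → EuclideanSpace ℝ (Fin k)) (τ D d : ℕ → ℝ) (a b : ℕ), a ≤ b →
      (∀ j, a ≤ j → j < b → τ₀ ≤ τ j) → (∀ j, a ≤ j → j < b → τ j * B * ‖α j‖ ≤ 1 / 100) →
      (∀ j, a ≤ j → j < b → 0 ≤ d j) →
      (∀ j, a ≤ j → j < b → D j ≤ C₂ * (‖α j‖ ^ 2 + d j)) →
      (∀ j, a ≤ j → j < b →
        ‖α (j + 1) - α j - τ j • G Q (α j)‖ ≤ η * D j + C₁ * d j) →
      ∑ j ∈ Finset.Ico a b, D j ≤ C * (‖α a‖ + ‖α b‖ + ∑ j ∈ Finset.Ico a b, d j) := by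
  set C₃ := 5 * B * η * C₂ + 5 * B * C₁ with hC₃
  have hC₃0 : 0 ≤ C₃ := by positivity
  set lam := τ₀ * c ^ 2 / 4 with hlam
  have hlam0 : 0 < lam := by positivity
  refine ⟨C₂ * (B + C₃) / lam + C₂, by positivity, fun α τ D d a b hab ht hα hd hD hstep => ?_⟩
  have key : ∀ n, a ≤ n → n ≤ b → lam * ∑ j ∈ Finset.Ico a n, ‖α j‖ ^ 2
      ≤ hq Q (α n) - hq Q (α a) + C₃ * ∑ j ∈ Finset.Ico a n, d j := by
    intro n hn
    induction n, hn using Nat.le_induction with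
    | base => intro _; simp
    | succ n hn ih =>
      intro hnb
      rw [Finset.sum_Ico_succ_top hn, Finset.sum_Ico_succ_top hn, mul_add, mul_add]
      have i1 := ih (by omega)
      have hnb' : n < b := by omega
      have i2 := hq_step' hB hQB h1 h2 hc hnd (hτ₀.le.trans (ht n hn hnb')) (hα n hn hnb')
        (hstep n hn hnb')
      have i3 := hD n hn hnb'
      have i4 := hd n hn hnb'
      have i5 : τ₀ / 2 * c ^ 2 * ‖α n‖ ^ 2 ≤ τ n / 2 * c ^ 2 * ‖α n‖ ^ 2 := by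
        have := ht n hn hnb'
        gcongr
      have i6 : 5 * B * (η * D n + C₁ * d n)
          ≤ 5 * B * (η * (C₂ * (‖α n‖ ^ 2 + d n)) + C₁ * d n) := by gcongr
      have i7 : 5 * B * η * C₂ * ‖α n‖ ^ 2 ≤ lam * ‖α n‖ ^ 2 := by gcongr
      have i8 : τ₀ / 2 * c ^ 2 * ‖α n‖ ^ 2 = 2 * lam * ‖α n‖ ^ 2 := by rw [hlam]; ring
      have i9 : 5 * B * (η * (C₂ * (‖α n‖ ^ 2 + d n)) + C₁ * d n)
          = 5 * B * η * C₂ * ‖α n‖ ^ 2 + C₃ * d n := by rw [hC₃]; ring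
      linarith
  have k1 := key b hab le_rfl
  have k2 := abs_hq_le hB hQB (α b)
  have k3 := abs_hq_le hB hQB (α a)
  have k4 := (le_abs_self _).trans k2
  have k5 := (neg_abs_le _).trans' (neg_le_neg k3)
  set S := ∑ j ∈ Finset.Ico a b, d j with hS
  have hS0 : 0 ≤ S := Finset.sum_nonneg fun j hj => by
    rw [Finset.mem_Ico] at hj
    exact hd j hj.1 hj.2
  set X := ∑ j ∈ Finset.Ico a b, ‖α j‖ ^ 2 with hX
  have k6 : ∑ j ∈ Finset.Ico a b, D j ≤ C₂ * (X + S) := by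
    rw [hX, hS, ← Finset.sum_add_distrib, Finset.mul_sum]
    refine Finset.sum_le_sum fun j hj => ?_
    rw [Finset.mem_Ico] at hj
    exact hD j hj.1 hj.2
  have hn1 := norm_nonneg (α a)
  have hn2 := norm_nonneg (α b)
  have k7 : lam * X ≤ (B + C₃) * (‖α a‖ + ‖α b‖ + S) := by
    nlinarith [mul_nonneg hC₃0 hn1, mul_nonneg hC₃0 hn2, mul_nonneg hB hS0]
  have k8 : X ≤ (B + C₃) / lam * (‖α a‖ + ‖α b‖ + S) := by
    rw [div_mul_eq_mul_div, le_div_iff₀ hlam0]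
    linarith
  calc ∑ j ∈ Finset.Ico a b, D j ≤ C₂ * (X + S) := k6
    _ ≤ C₂ * ((B + C₃) / lam * (‖α a‖ + ‖α b‖ + S) + (‖α a‖ + ‖α b‖ + S)) := by
        gcongr
        linarith
    _ = _ := by ring

end Cubic

end Vale.Agent.P218.H313
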