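import Vale.Agent.P218.H313.Near
import Vale.Agent.P218.H313.SecOde

/-! Second order: the interface. `Sec` is the data (Jacobi fields orthogonal to the velocities of
the family, cubic form), `St` the static estimates near the shrinker, `DynP` the dynamic ones. -/

open MeasureTheory Set Filter Topology Metric
open scoped ENNReal NNReal RealInnerProductSpace CompactlySupported

namespace Vale.Agent.P218.H313

set_option linter.unusedSectionVars false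
set_option linter.unusedVariables false

variable {E : Type*} [NormedAddCommGroup E] [InnerProductSpace ℝ E] [FiniteDimensional ℝ E]
  [MeasurableSpace E] [BorelSpace E]
variable {P : Type*} [NormedAddCommGroup P] [NormedSpace ℝ P]

/-- the parameter space of the remaining Jacobi fields -/
abbrev LS (k : ℕ) : Type := EuclideanSpace ℝ (Fin k)

/-- the rate `∫ ⟨∇ψ, φ⟩ ρ dμ` -/
noncomputable def EE (μ : Measure E) (T : E → Submodule ℝ E) (H : E → E) (ψ : E → ℝ) : ℝ :=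
  ∫ x, ⟪grad ψ x, vel T H x⟫ * rho x ∂μ

/-- Second order data for a family of tube functions `V a` with derivative `V' a`: functions
`Z a l` which at `a = 0` are orthogonal to the velocities `V' 0 b`, and a nondegenerate symmetric
cubic form `Q`. -/
structure Sec (k : ℕ) (V' : P → P →ₗ[ℝ] (E → ℝ))
    (Z : P → LS k →ₗ[ℝ] (E → ℝ)) (Q : LS k →ₗ[ℝ] LS k →ₗ[ℝ] LS k →ₗ[ℝ] ℝ)
    (κ : Measure E) (r K : ℝ) (q : ℕ) : Prop where
  sm : ∀ a, ‖a‖ ≤ r → ∀ l, ContDiff ℝ 1 (Z a l)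
  b0 : ∀ a, ‖a‖ ≤ r → ∀ l x, |Z a l x| ≤ K * (1 + ‖x‖) ^ q * ‖l‖
  b1 : ∀ a, ‖a‖ ≤ r → ∀ l x, ‖grad (Z a l) x‖ ≤ K * (1 + ‖x‖) ^ q * ‖l‖
  lip : ∀ a a', ‖a‖ ≤ r → ‖a'‖ ≤ r → ∀ l x,
    |Z a l x - Z a' l x| ≤ K * (1 + ‖x‖) ^ q * ‖a - a'‖ * ‖l‖
  orth : ∀ b l, ∫ x, V' 0 b x * Z 0 l x * rho x ∂κ = 0
  symm₁ : ∀ x y z, Q x y z = Q y x z
  symm₂ : ∀ x y z, Q x y z = Q x z y
  nondeg : ∀ x, (∀ l, Q x x l = 0) → x = 0

/-- the coordinates `∫ V_a Z_a(e_i) ρ dμ` of a slice -/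
noncomputable def al {k : ℕ} (μ : Measure E) (V : P → E → ℝ) (Z : P → LS k →ₗ[ℝ] (E → ℝ))
    (a : P) : LS k :=
  WithLp.toLp 2 fun i => ∫ x, V a x * Z a (Cubic.eb i) x * rho x ∂μ

/-- the static estimates near the shrinker, pulled back to the times and gauges -/
structure St (m k : ℕ) (N : ℝ → Measure E) (T : ℝ → E → Submodule ℝ E) (H : ℝ → E → E)
    (V : P → E → ℝ) (V' : P → P →ₗ[ℝ] (E → ℝ))
    (Z : P → LS k →ₗ[ℝ] (E → ℝ)) (Q : LS k →ₗ[ℝ] LS k →ₗ[ℝ] LS k →ₗ[ℝ] ℝ)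
    (κ : Measure E) (J : ℕ) : Prop where
  rate : ∀ ε : ℝ, 0 < ε → ∃ C : ℝ, 0 ≤ C ∧ ∀ᶠ p : ℝ × P in nearF m N T H κ ×ˢ 𝓝 (0 : P),
    ∀ g : ℝ, 0 ≤ g → (∀ b, |GF (N p.1) V V' p.2 b| ≤ g * ‖b‖) → ∀ l,
      |EE (N p.1) (T p.1) (H p.1) (fun y => V p.2 y * Z p.2 l y)
          - Q (al (N p.1) V Z p.2) (al (N p.1) V Z p.2) l|
        ≤ ‖l‖ * (ε * (DD (N p.1) (V p.2) J + TG (N p.1) (T p.1) (V p.2) J)
          + C * (dis (N p.1) (T p.1) (H p.1) + g ^ 2))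
  coer : ∃ C : ℝ, 0 ≤ C ∧ ∀ᶠ p : ℝ × P in nearF m N T H κ ×ˢ 𝓝 (0 : P),
    ∀ g : ℝ, 0 ≤ g → (∀ b, |GF (N p.1) V V' p.2 b| ≤ g * ‖b‖) →
      DD (N p.1) (V p.2) 0 ≤ C * (‖al (N p.1) V Z p.2‖ ^ 2
        + dis (N p.1) (T p.1) (H p.1) + g ^ 2)
  small : ∀ C₂ : ℝ, 0 ≤ C₂ → ∃ C : ℝ, 0 ≤ C ∧
    ∀ᶠ p : ℝ × P in nearF m N T H κ ×ˢ 𝓝 (0 : P),
    ∀ g : ℝ, 0 ≤ g → (∀ b, |GF (N p.1) V V' p.2 b| ≤ g * ‖b‖) → ∀ e : ℝ, 0 ≤ e →
      DD (N p.1) (V p.2) J + TG (N p.1) (T p.1) (V p.2) J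
        ≤ C₂ * (‖al (N p.1) V Z p.2‖ ^ 2 + e) →
      ‖al (N p.1) V Z p.2‖ ^ 2 ≤ C * (√(dis (N p.1) (T p.1) (H p.1))
        + dis (N p.1) (T p.1) (H p.1) + g ^ 2 + e)

/-- the dynamic estimates on time intervals of length `≤ δ` -/
structure DynP (m : ℕ) (N : ℝ → Measure E) (T : ℝ → E → Submodule ℝ E) (H : ℝ → E → E)
    (s₀ c K : ℝ) (q J : ℕ) (δ : ℝ) : Prop where
  pos : 0 < δ
  one : δ ≤ 1
  bd : ∃ C : ℝ, 0 ≤ C ∧ ∀ W : E → ℝ, TubeD W c K → ∀ a b : ℝ, s₀ + 1 ≤ a → a ≤ b → b ≤ a + δ →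
    (∀ s ∈ Icc a b, DD (N s) W J ≤ C * (DD (N a) W 0 + (FA (N (a - 1)) - FA (N b)))) ∧
    ∃ G : ℝ → ℝ, IntervalIntegrable G volume a b ∧
      (∀ᵐ s ∂(volume.restrict (Icc a b)), GSlice m (N s) (T s) (H s) ∧
        TG (N s) (T s) W J ≤ G s) ∧
      ∫ s in a..b, G s ≤ C * (DD (N a) W 0 + (FA (N (a - 1)) - FA (N b)))
  drift : ∃ C : ℝ, 0 ≤ C ∧ ∀ W : E → ℝ, TubeD W c K → ∀ (ψ : E → ℝ) (A : ℝ), 0 ≤ A →
      PG ψ → (∀ x, |ψ x| ≤ A * (1 + W x ^ 2 * wt 1 x)) →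
      (∀ (μ : Measure E) (T : E → Submodule ℝ E) (H : E → E), GSlice m μ T H →
        |∫ x, ⟪grad ψ x, vel T H x⟫ * rho x ∂μ| ≤ A * (DD μ W 1 + TG μ T W 1 + dis μ T H)) →
      ∀ a b : ℝ, s₀ + 1 ≤ a → a ≤ b → b ≤ a + δ →
      |∫ x, ψ x * rho x ∂(N b) - ∫ x, ψ x * rho x ∂(N a)|
        ≤ C * A * (DD (N a) W 0 + (FA (N (a - 1)) - FA (N b)))
  dyn : ∀ ε : ℝ, 0 < ε → ∃ C : ℝ, 0 ≤ C ∧
    ∀ W : E → ℝ, TubeD W c K → ∀ (ψ : E → ℝ) (A : ℝ), 0 ≤ A → PG ψ →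
      (∀ x, |ψ x| ≤ A * (|W x| * (1 + ‖x‖) ^ q)) →
      ∀ a b : ℝ, s₀ + 1 ≤ a → a ≤ b → b ≤ a + δ →
      ∀ (v : ℝ) (Θ : ℝ → ℝ), IntervalIntegrable Θ volume a b →
        (∀ᵐ s ∂(volume.restrict (Icc a b)), GSlice m (N s) (T s) (H s) →
          |EE (N s) (T s) (H s) ψ - v| ≤ Θ s) →
        |∫ x, ψ x * rho x ∂(N b) - ∫ x, ψ x * rho x ∂(N a) - (b - a) * v|
          ≤ (∫ s in a..b, Θ s)
            + A * (ε * DD (N a) W 0 + C * (FA (N (a - 1)) - FA (N b)))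

/-- times near the shrinker: an eventual property holds on the whole window around -/
theorem nearF_window {m : ℕ} {N : ℝ → Measure E} {T : ℝ → E → Submodule ℝ E}
    {H : ℝ → E → E} {s₀ : ℝ} {κ : Measure E} (hslow : Slow N s₀) {p : ℝ → Prop}
    (hp : ∀ᶠ s in nearF m N T H κ, p s) {h₀ : ℝ} (hh : 0 < h₀) :
    ∀ᶠ t in nearF m N T H κ, ∀ s, |s - t| ≤ h₀ → GSlice m (N s) (T s) (H s) → p s := by
  by_contra hcon
  rw [not_eventually] at hcon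
  push Not at hcon
  set S : Set ℝ := {t | ∃ s, |s - t| ≤ h₀ ∧ GSlice m (N s) (T s) (H s) ∧ ¬ p s} with hS
  have hne : (nearF m N T H κ ⊓ 𝓟 S).NeBot := by
    rw [← frequently_mem_iff_neBot]
    exact hcon
  have hex : ∀ t, ∃ s, t ∈ S → |s - t| ≤ h₀ ∧ GSlice m (N s) (T s) (H s) ∧ ¬ p s := by
    intro t
    by_cases ht : t ∈ S
    · obtain ⟨s, hs⟩ := ht
      exact ⟨s, fun _ => hs⟩
    · exact ⟨0, fun h => absurd h ht⟩
  choose σ hσ using hex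
  have hS' : ∀ᶠ t in nearF m N T H κ ⊓ 𝓟 S, t ∈ S := mem_inf_of_right (mem_principal_self S)
  have hat : nearF m N T H κ ⊓ 𝓟 S ≤ atTop := inf_le_left.trans nearF_atTop
  have h1 : Tendsto σ (nearF m N T H κ ⊓ 𝓟 S) atTop := by
    have h2 : Tendsto (fun t : ℝ => t - h₀) (nearF m N T H κ ⊓ 𝓟 S) atTop :=
      (tendsto_atTop_add_const_right atTop (-h₀) tendsto_id).mono_left hat
    refine tendsto_atTop_mono' _ ?_ h2
    filter_upwards [hS'] with t ht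
    have := (abs_le.1 (hσ t ht).1).1
    linarith
  have h2 : Tendsto σ (nearF m N T H κ ⊓ 𝓟 S) (nearF m N T H κ) := by
    refine tendsto_nearF h1 ?_ fun φ hφ hφc => ?_
    · filter_upwards [hS'] with t ht using (hσ t ht).2.1
    · refine tendsto_of_approx fun ε hε => ?_
      obtain ⟨S₀, hS0, hS1⟩ := hslow.slow' φ hφ hφc hh hε
      refine ⟨fun t => ∫ x, φ x ∂(N t), ∫ x, φ x ∂κ, (nearF_lim hφ hφc).mono_left inf_le_left,
        ?_, by simpa using hε.le⟩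
      filter_upwards [hS', hat (eventually_ge_atTop (S₀ + h₀))] with t ht ht'
      have h3 := abs_le.1 (hσ t ht).1
      rcases le_total t (σ t) with h4 | h4
      · exact hS1 _ _ (by linarith) h4 (by linarith [h3.2])
      · rw [abs_sub_comm]
        exact hS1 _ _ (by linarith [h3.1]) h4 (by linarith [h3.1])
  obtain ⟨t, h3, h4⟩ := ((h2.eventually hp).and hS').exists
  exact (hσ t h4).2.2 h3

end Vale.Agent.P218.H313
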