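import Vale.Agent.P218.H313.SecStep

/-! Second order: the chain estimate. -/

open MeasureTheory Set Filter Topology Metric
open scoped ENNReal NNReal RealInnerProductSpace CompactlySupported

namespace Vale.Agent.P218.H313

set_option linter.unusedSectionVars false
set_option linter.unusedVariables false

variable {E : Type*} [NormedAddCommGroup E] [InnerProductSpace ℝ E] [FiniteDimensional ℝ E]
  [MeasurableSpace E] [BorelSpace E]
variable {P : Type*} [NormedAddCommGroup P] [NormedSpace ℝ P]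
variable {m k : ℕ} {N : ℝ → Measure E} {T : ℝ → E → Submodule ℝ E} {H : ℝ → E → E}
  {s₀ r c K K' δ : ℝ} {q q' J : ℕ} {κ : Measure E}
  {V : P → E → ℝ} {V' : P → P →ₗ[ℝ] (E → ℝ)} {Z : P → LS k →ₗ[ℝ] (E → ℝ)}
  {Q : LS k →ₗ[ℝ] LS k →ₗ[ℝ] LS k →ₗ[ℝ] ℝ}

/-- the time `s` is good with gauge `a` -/
structure Good2 (m : ℕ) (N : ℝ → Measure E) (T : ℝ → E → Submodule ℝ E) (H : ℝ → E → E)
    (V : P → E → ℝ) (V' : P → P →ₗ[ℝ] (E → ℝ)) (r₁ lam : ℝ) (s : ℝ) (a : P) : Prop where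
  sl : GSlice m (N s) (T s) (H s)
  nrm : ‖a‖ ≤ r₁
  crit : ∀ b, GF (N s) V V' a b = 0
  mono : ∀ a', ‖a'‖ ≤ r₁ →
    lam * ‖a - a'‖ ^ 2 ≤ GF (N s) V V' a (a - a') - GF (N s) V V' a' (a - a')

/-- the change of the gauge in one step -/
lemma gauge_step (hF : Fam m V V' r c K q) (hdyn : DynP m N T H s₀ c K q' J δ) {lam : ℝ}
    (hlam : 0 < lam) : ∃ C : ℝ, 0 ≤ C ∧ ∀ (r₁ : ℝ) (t u : ℝ) (a a' : P), r₁ ≤ r →
      s₀ + 1 ≤ t → t ≤ u → u ≤ t + δ → Good2 m N T H V V' r₁ lam t a →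
      Good2 m N T H V V' r₁ lam u a' →
      0 ≤ DD (N t) (V a) 0 + (FA (N (t - 1)) - FA (N u)) →
      ‖a' - a‖ ≤ C * (DD (N t) (V a) 0 + (FA (N (t - 1)) - FA (N u))) := by
  obtain ⟨Cg, hCg, hg⟩ := gf_drift hF hdyn
  refine ⟨Cg / lam, by positivity, fun r₁ t u a a' hr₁ ht htu hu g g' hX => ?_⟩
  set X := DD (N t) (V a) 0 + (FA (N (t - 1)) - FA (N u)) with hXd
  have e1 := g'.mono a g.nrm
  rw [g'.crit, zero_sub] at e1
  have e2 := hg t u a (g.nrm.trans hr₁) ht htu hu g.crit (a' - a)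
  have e3 : lam * ‖a' - a‖ ^ 2 ≤ Cg * X * ‖a' - a‖ := e1.trans ((neg_le_abs _).trans e2)
  rcases (norm_nonneg (a' - a)).eq_or_lt with h0 | h0
  · rw [← h0]; positivity
  · have e4 : (lam * ‖a' - a‖) * ‖a' - a‖ ≤ (Cg * X) * ‖a' - a‖ := by nlinarith
    have e5 := le_of_mul_le_mul_right e4 h0
    rw [div_mul_eq_mul_div, le_div_iff₀ hlam]
    linarith

/-- **the chain estimate** -/
theorem exists_chain2 (h : RF m N T H s₀) (hE : Module.finrank ℝ E = m + 1)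
    (hF : Fam m V V' r c K q) (hdyn : DynP m N T H s₀ c K q' J δ) {r₁ lam : ℝ}
    (hr₁ : r₁ ≤ r) (hlam : 0 < lam) :
    ∀ φ : E → ℝ, ContDiff ℝ 2 φ → HasCompactSupport φ → ∃ C : ℝ, 0 ≤ C ∧
      ∀ (t : ℕ → ℝ) (a : ℕ → P), (∀ j, s₀ + 1 ≤ t j) → (∀ j, t j ≤ t (j + 1)) →
        (∀ j, t (j + 1) ≤ t j + δ) → ∀ k K', k ≤ K' →
        (∀ j, k ≤ j → j ≤ K' → Good2 m N T H V V' r₁ lam (t j) (a j)) →
        |∫ x, φ x * rho x ∂(N (t K')) - ∫ x, φ x * rho x ∂(N (t k))|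
          ≤ C * (√(DD (N (t k)) (V (a k)) 0) + √(DD (N (t K')) (V (a K')) 0)
            + ∑ j ∈ Finset.Ico k K', (DD (N (t j)) (V (a j)) 0
              + (FA (N (t j - 1)) - FA (N (t (j + 1)))))) := by
  have hc : 0 < c := (hF.tube 0 (by simpa using hF.rpos.le)).cpos
  have hK : 0 ≤ K := (hF.tube 0 (by simpa using hF.rpos.le)).K_nonneg
  obtain ⟨C₁, hC₁, hdrift⟩ := hdyn.drift
  obtain ⟨Ca, hCa0, hgst⟩ := gauge_step hF hdyn hlam
  intro φ hφ hφc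
  obtain ⟨A, hA, hct⟩ := exists_ct hE hc hK hφ hφc
  obtain ⟨B, hB, hb0, hb1, hb2⟩ := exists_bounds2 hφ hφc
  obtain ⟨M, hM⟩ := h.moment q
  have hM0 : 0 ≤ M := (integral_nonneg fun x => mul_nonneg (by positivity) (rho_pos x).le).trans
    (hM s₀ le_rfl).2
  -- constants
  set F₀ := FA (N s₀) with hF₀
  have hF₀0 : 0 ≤ F₀ := RF.FA_nonneg _
  set Cb := B * K * √F₀ with hCb
  set Ce := C₁ * A + (2 * B * K ^ 2 * M) * Ca with hCe
  have hCb0 : 0 ≤ Cb := by positivity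
  have hCe0 : 0 ≤ Ce := by positivity
  refine ⟨Cb + Ce, by positivity, fun t a ht0 htm htδ k K' hkK hgood => ?_⟩
  have ht0' : ∀ j, s₀ ≤ t j := fun j => by linarith [ht0 j]
  set D : ℕ → ℝ := fun j => DD (N (t j)) (V (a j)) 0 with hD
  set f : ℕ → ℝ := fun j => FA (N (t j - 1)) - FA (N (t (j + 1))) with hf
  have hd0 : ∀ j, 0 ≤ D j := fun j => DD_nonneg 0
  have hf0 : ∀ j, 0 ≤ f j := fun j => by
    have h1 := h.FA_anti (a := t j - 1) (b := t (j + 1)) (by linarith [ht0 j])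
      (by linarith [htm j])
    simp only [hf]; linarith
  set Ef : ℕ → ℝ := fun j => ∫ x, ct φ (V (a j)) x * rho x ∂(N (t j)) with hEf
  have htube : ∀ j, k ≤ j → j ≤ K' → TubeD (V (a j)) c K := fun j h1 h2 =>
    hF.tube _ ((hgood j h1 h2).nrm.trans hr₁)
  -- the boundary terms
  have hbdry : ∀ j, k ≤ j → j ≤ K' → |∫ x, φ x * rho x ∂(N (t j)) - Ef j| ≤ Cb * √(D j) := by
    intro j h1 h2
    have g := hgood j h1 h2
    have hW := htube j h1 h2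
    have i1 : Integrable (fun x => φ x * rho x) (N (t j)) :=
      g.sl.integrable_PB hφ.continuous.aestronglyMeasurable (PB.of_compact hφ.continuous hφc)
    have i2 : Integrable (fun x => ct φ (V (a j)) x * rho x) (N (t j)) :=
      g.sl.integrable_PB (pg_ct hφ hφc hW).cont.aestronglyMeasurable (pg_ct hφ hφc hW).b0
    have i3 : Integrable (fun x => |V (a j) x| * rho x) (N (t j)) :=
      g.sl.integrable_PB hW.cont.norm.aestronglyMeasurable hW.pg.b0.norm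
    simp only [hEf]
    rw [← integral_sub i1 i2, ← Real.norm_eq_abs]
    have e1 : ‖∫ x, (φ x * rho x - ct φ (V (a j)) x * rho x) ∂(N (t j))‖
        ≤ ∫ x, B * K * (|V (a j) x| * rho x) ∂(N (t j)) := by
      refine norm_integral_le_of_norm_le (i3.const_mul _) (Eventually.of_forall fun x => ?_)
      have e2 : φ x * rho x - ct φ (V (a j)) x * rho x
          = nc φ (V (a j)) x * (V (a j) x * rho x) := by
        unfold ct; ring
      rw [e2, norm_mul, norm_mul, Real.norm_of_nonneg (rho_pos x).le, Real.norm_eq_abs,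
        Real.norm_eq_abs]
      refine mul_le_mul_of_nonneg_right ?_ (mul_nonneg (abs_nonneg _) (rho_pos x).le)
      exact (abs_real_inner_le_norm _ _).trans (mul_le_mul (hb1 x) (hW.b1 x) (norm_nonneg _) hB)
    rw [integral_const_mul] at e1
    refine e1.trans ?_
    have e3 := int_abs_le g.sl hW
    have e4 : √(FA (N (t j))) ≤ √F₀ := Real.sqrt_le_sqrt (h.FA_anti le_rfl (ht0' j))
    calc B * K * ∫ x, |V (a j) x| * rho x ∂(N (t j))
        ≤ B * K * (√F₀ * √(D j)) := by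
          refine mul_le_mul_of_nonneg_left (e3.trans ?_) (by positivity)
          exact mul_le_mul e4 le_rfl (Real.sqrt_nonneg _) (Real.sqrt_nonneg _)
      _ = Cb * √(D j) := by rw [hCb]; ring
  -- one step for the test function
  have hstep : ∀ j, k ≤ j → j + 1 ≤ K' → |Ef (j + 1) - Ef j| ≤ Ce * (D j + f j) := by
    intro j h1 h2
    have g := hgood j h1 (by omega)
    have g' := hgood (j + 1) (by omega) h2
    have hW := htube j h1 (by omega)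
    have hW' := htube (j + 1) (by omega) h2
    obtain ⟨q1, q2⟩ := hct (V (a j)) hW
    have e3 : |∫ x, ct φ (V (a j)) x * rho x ∂(N (t (j + 1))) - Ef j| ≤ C₁ * A * (D j + f j) :=
      hdrift (V (a j)) hW (ct φ (V (a j))) A hA (pg_ct hφ hφc hW) q1 q2
        (t j) (t (j + 1)) (ht0 j) (htm j) (htδ j)
    -- change of the gauge
    have i1 : Integrable (fun x => ct φ (V (a j)) x * rho x) (N (t (j + 1))) :=
      g'.sl.integrable_PB (pg_ct hφ hφc hW).cont.aestronglyMeasurable (pg_ct hφ hφc hW).b0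
    have i2 : Integrable (fun x => ct φ (V (a (j + 1))) x * rho x) (N (t (j + 1))) :=
      g'.sl.integrable_PB (pg_ct hφ hφc hW').cont.aestronglyMeasurable (pg_ct hφ hφc hW').b0
    have e4 : |Ef (j + 1) - ∫ x, ct φ (V (a j)) x * rho x ∂(N (t (j + 1)))|
        ≤ (2 * B * K ^ 2 * M) * ‖a (j + 1) - a j‖ := by
      simp only [hEf]
      rw [← integral_sub i2 i1, ← Real.norm_eq_abs]
      obtain ⟨j1, j2⟩ := hM (t (j + 1)) (ht0' _)
      have e5 : ‖∫ x, (ct φ (V (a (j + 1))) x * rho x - ct φ (V (a j)) x * rho x)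
          ∂(N (t (j + 1)))‖ ≤ ∫ x, (2 * B * K ^ 2 * ‖a (j + 1) - a j‖) * ((1 + ‖x‖) ^ q * rho x)
            ∂(N (t (j + 1))) := by
        refine norm_integral_le_of_norm_le (j1.const_mul _) (Eventually.of_forall fun x => ?_)
        rw [← sub_mul, norm_mul, Real.norm_of_nonneg (rho_pos x).le, ← mul_assoc]
        refine mul_le_mul_of_nonneg_right ?_ (rho_pos x).le
        have l1 := hF.lip (a (j + 1)) (a j) (g'.nrm.trans hr₁) (g.nrm.trans hr₁) x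
        have l2 := hF.lipg (a (j + 1)) (a j) (g'.nrm.trans hr₁) (g.nrm.trans hr₁) x
        have n1 : |nc φ (V (a (j + 1))) x| ≤ B * K := (abs_real_inner_le_norm _ _).trans
          (mul_le_mul (hb1 x) (hW'.b1 x) (norm_nonneg _) hB)
        have n2 : |nc φ (V (a (j + 1))) x - nc φ (V (a j)) x|
            ≤ B * (K * (1 + ‖x‖) ^ q * ‖a (j + 1) - a j‖) := by
          unfold nc
          rw [← inner_sub_right]
          exact (abs_real_inner_le_norm _ _).trans (mul_le_mul (hb1 x) l2 (norm_nonneg _) hB)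
        have e6 : ct φ (V (a (j + 1))) x - ct φ (V (a j)) x
            = -((V (a (j + 1)) x - V (a j) x) * nc φ (V (a (j + 1))) x
              + V (a j) x * (nc φ (V (a (j + 1))) x - nc φ (V (a j)) x)) := by
          unfold ct; ring
        rw [e6, norm_neg, Real.norm_eq_abs]
        refine (abs_add_le _ _).trans ?_
        rw [abs_mul, abs_mul]
        have n3 : |V (a (j + 1)) x - V (a j) x| * |nc φ (V (a (j + 1))) x|
            ≤ (K * (1 + ‖x‖) ^ q * ‖a (j + 1) - a j‖) * (B * K) :=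
          mul_le_mul l1 n1 (abs_nonneg _) (by positivity)
        have n4 : |V (a j) x| * |nc φ (V (a (j + 1))) x - nc φ (V (a j)) x|
            ≤ K * (B * (K * (1 + ‖x‖) ^ q * ‖a (j + 1) - a j‖)) :=
          mul_le_mul (hW.b0 x) n2 (abs_nonneg _) hK
        refine (add_le_add n3 n4).trans (le_of_eq ?_)
        ring
      rw [integral_const_mul] at e5
      refine e5.trans ?_
      calc 2 * B * K ^ 2 * ‖a (j + 1) - a j‖ * ∫ x, (1 + ‖x‖) ^ q * rho x ∂(N (t (j + 1)))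
          ≤ 2 * B * K ^ 2 * ‖a (j + 1) - a j‖ * M := by gcongr
        _ = _ := by ring
    have e5 : ‖a (j + 1) - a j‖ ≤ Ca * (D j + f j) :=
      hgst r₁ (t j) (t (j + 1)) (a j) (a (j + 1)) hr₁ (ht0 j) (htm j) (htδ j) g g'
        (add_nonneg (hd0 j) (hf0 j))
    have e6 : (2 * B * K ^ 2 * M) * ‖a (j + 1) - a j‖
        ≤ (2 * B * K ^ 2 * M) * (Ca * (D j + f j)) := by gcongr
    have e7 := abs_sub_le (Ef (j + 1)) (∫ x, ct φ (V (a j)) x * rho x ∂(N (t (j + 1)))) (Ef j)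
    refine e7.trans ?_
    rw [hCe]
    nlinarith
  -- telescoping
  have htel : ∀ L, k ≤ L → L ≤ K' →
      |Ef L - Ef k| ≤ Ce * ∑ j ∈ Finset.Ico k L, (D j + f j) := by
    intro L hL
    induction L, hL using Nat.le_induction with
    | base => intro _; simp
    | succ L hL ih =>
      intro hL'
      rw [Finset.sum_Ico_succ_top hL, mul_add]
      have e1 := ih (by omega)
      have e2 := hstep L hL hL'
      have e3 := abs_sub_le (Ef (L + 1)) (Ef L) (Ef k)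
      linarith
  have t1 := htel K' hkK le_rfl
  have t2 := hbdry k le_rfl hkK
  have t3 := hbdry K' hkK le_rfl
  set S := ∑ j ∈ Finset.Ico k K', (D j + f j) with hS
  have hS0 : 0 ≤ S := Finset.sum_nonneg fun j _ => add_nonneg (hd0 j) (hf0 j)
  have e1 : ∫ x, φ x * rho x ∂(N (t K')) - ∫ x, φ x * rho x ∂(N (t k))
      = (∫ x, φ x * rho x ∂(N (t K')) - Ef K') + (Ef K' - Ef k)
        - (∫ x, φ x * rho x ∂(N (t k)) - Ef k) := by ring
  rw [e1]
  have e2 := abs_sub ((∫ x, φ x * rho x ∂(N (t K')) - Ef K') + (Ef K' - Ef k))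
    (∫ x, φ x * rho x ∂(N (t k)) - Ef k)
  have e3 := abs_add_le (∫ x, φ x * rho x ∂(N (t K')) - Ef K') (Ef K' - Ef k)
  have p1 : 0 ≤ √(D k) := Real.sqrt_nonneg _
  have p2 : 0 ≤ √(D K') := Real.sqrt_nonneg _
  change _ ≤ (Cb + Ce) * (√(D k) + √(D K') + S)
  nlinarith [mul_nonneg hCe0 p1, mul_nonneg hCe0 p2, mul_nonneg hCb0 hS0]

/-- squared distances are small near the shrinker, for small gauges -/
lemma exists_DD_small (h : RF m N T H s₀) (hF : Fam m V V' r c K q)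
    [IsLocallyFiniteMeasure κ] (hV0 : ∀ᵐ x ∂κ, V 0 x = 0) {σ : ℝ} (hσ : 0 < σ) :
    ∃ ρ : ℝ, 0 < ρ ∧ ρ ≤ r ∧ ∀ᶠ s in nearF m N T H κ, ∀ a : P, ‖a‖ ≤ ρ →
      DD (N s) (V a) 0 ≤ σ := by
  have h0r : ‖(0 : P)‖ ≤ r := by simpa using hF.rpos.le
  have hW := hF.tube 0 h0r
  have hK := hF.Knn
  obtain ⟨M, hM⟩ := h.moment (2 * q)
  have hM0 : 0 ≤ M := (integral_nonneg fun x => mul_nonneg (by positivity) (rho_pos x).le).trans
    (hM s₀ le_rfl).2
  have l1 : Tendsto (fun s => ∫ x, V 0 x ^ 2 * rho x ∂(N s)) (nearF m N T H κ) (𝓝 0) := by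
    have h1 : Tendsto (fun s => ∫ x, V 0 x ^ 2 * rho x ∂(N s)) (nearF m N T H κ)
        (𝓝 (∫ x, V 0 x ^ 2 * rho x ∂κ)) :=
      h.lim_PB (κ := κ) (hW.cont.pow 2) (hW.pg.b0.pow 2)
    have e : ∫ x, V 0 x ^ 2 * rho x ∂κ = 0 := by
      refine integral_eq_zero_of_ae ?_
      filter_upwards [hV0] with x hx
      simp [hx]
    rwa [e] at h1
  obtain ⟨ρ₁, hρ₁⟩ : ∃ ρ₁, ρ₁ = √(σ / (4 * (K ^ 2 * M + 1))) := ⟨_, rfl⟩
  have hρ₁0 : 0 < ρ₁ := by rw [hρ₁]; exact Real.sqrt_pos.2 (by positivity)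
  have hρ₁2 : 2 * K ^ 2 * M * ρ₁ ^ 2 ≤ σ / 2 := by
    rw [hρ₁, Real.sq_sqrt (by positivity), ← mul_div_assoc, div_le_div_iff₀ (by positivity)
      (by norm_num)]
    nlinarith [mul_nonneg (sq_nonneg K) hM0]
  refine ⟨min r ρ₁, lt_min hF.rpos hρ₁0, min_le_left _ _, ?_⟩
  filter_upwards [nearF_sl, nearF_atTop (eventually_ge_atTop s₀),
    l1.eventually_lt_const (show (0 : ℝ) < σ / 4 by positivity)] with s hs hs0 hl a ha
  have hr : ‖a‖ ≤ r := ha.trans (min_le_left _ _)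
  have ha1 : ‖a‖ ≤ ρ₁ := ha.trans (min_le_right _ _)
  rw [DD_zero_eq]
  obtain ⟨i1, i2⟩ := hM s hs0
  have i3 : Integrable (fun x => V 0 x ^ 2 * rho x) (N s) :=
    hs.integrable_PB (hW.cont.pow 2).aestronglyMeasurable (hW.pg.b0.pow 2)
  have i4 : Integrable (fun x => V a x ^ 2 * rho x) (N s) :=
    hs.integrable_PB ((hF.tube _ hr).cont.pow 2).aestronglyMeasurable ((hF.tube _ hr).pg.b0.pow 2)
  have e1 : ∫ x, V a x ^ 2 * rho x ∂(N s)
      ≤ ∫ x, (2 * (V 0 x ^ 2 * rho x) + 2 * K ^ 2 * ‖a‖ ^ 2 * ((1 + ‖x‖) ^ (2 * q) * rho x))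
        ∂(N s) := by
    refine integral_mono i4 ((i3.const_mul _).add (i1.const_mul _)) fun x => ?_
    have h1 := hF.lip a 0 hr h0r x
    rw [sub_zero] at h1
    have h2 : V a x ^ 2 ≤ 2 * V 0 x ^ 2 + 2 * (V a x - V 0 x) ^ 2 := by
      nlinarith [sq_nonneg (V a x - 2 * V 0 x)]
    have h3 : (V a x - V 0 x) ^ 2 ≤ (K * (1 + ‖x‖) ^ q * ‖a‖) ^ 2 := by
      rw [← sq_abs]; gcongr
    have h4 : (K * (1 + ‖x‖) ^ q * ‖a‖) ^ 2 = K ^ 2 * ‖a‖ ^ 2 * (1 + ‖x‖) ^ (2 * q) := by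
      rw [mul_pow, mul_pow, ← pow_mul, mul_comm q 2]; ring
    have h5 := rho_pos x
    have h6 : V a x ^ 2 ≤ 2 * V 0 x ^ 2 + 2 * (K ^ 2 * ‖a‖ ^ 2 * (1 + ‖x‖) ^ (2 * q)) := by
      rw [← h4]; linarith
    calc V a x ^ 2 * rho x
        ≤ (2 * V 0 x ^ 2 + 2 * (K ^ 2 * ‖a‖ ^ 2 * (1 + ‖x‖) ^ (2 * q))) * rho x := by gcongr
      _ = _ := by ring
  rw [integral_add (i3.const_mul _) (i1.const_mul _), integral_const_mul, integral_const_mul] at e1
  refine e1.trans ?_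
  have i5 : 0 ≤ ∫ x, (1 + ‖x‖) ^ (2 * q) * rho x ∂(N s) :=
    integral_nonneg fun x => mul_nonneg (by positivity) (rho_pos x).le
  have h7 : 2 * K ^ 2 * ‖a‖ ^ 2 * ∫ x, (1 + ‖x‖) ^ (2 * q) * rho x ∂(N s)
      ≤ 2 * K ^ 2 * M * ρ₁ ^ 2 := by
    calc 2 * K ^ 2 * ‖a‖ ^ 2 * ∫ x, (1 + ‖x‖) ^ (2 * q) * rho x ∂(N s)
        ≤ 2 * K ^ 2 * ρ₁ ^ 2 * M := by gcongr
      _ = _ := by ring
  linarith

/-- near the shrinker the velocities and the `Z` are almost orthogonal -/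
lemma exists_orth (h : RF m N T H s₀) [FiniteDimensional ℝ P] (hF : Fam m V V' r c K q)
    (hZ : Sec k V' Z Q κ r K' q') [IsLocallyFiniteMeasure κ] {ε : ℝ} (hε : 0 < ε) :
    ∀ᶠ s in nearF m N T H κ, ∀ (b : P) (l : LS k),
      |∫ x, V' 0 b x * Z 0 l x * rho x ∂(N s)| ≤ ε * ‖b‖ * ‖l‖ := by
  have h0r : ‖(0 : P)‖ ≤ r := by simpa using hF.rpos.le
  -- a basis of `P`
  let bs := Module.finBasis ℝ P
  let cl : P →L[ℝ] (Fin (Module.finrank ℝ P) → ℝ) := LinearMap.toContinuousLinearMap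
    (bs.equivFun : P →ₗ[ℝ] (Fin (Module.finrank ℝ P) → ℝ))
  obtain ⟨ε', hε'⟩ : ∃ ε' : ℝ, ε' = ε / ((‖cl‖ * Module.finrank ℝ P + 1) * (k + 1)) := ⟨_, rfl⟩
  have hε'0 : 0 < ε' := by rw [hε']; positivity
  have hlim : ∀ (b : P) (l : LS k), ∀ᶠ s in nearF m N T H κ,
      |∫ x, V' 0 b x * Z 0 l x * rho x ∂(N s)| ≤ ε' := by
    intro b l
    have h1 := h.lim_PB (κ := κ) ((hF.pg' h0r b).mul (hZ.pgZ h0r l)).cont
      ((hF.pg' h0r b).mul (hZ.pgZ h0r l)).b0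
    rw [hZ.orth b l] at h1
    have h2 := h1.abs
    rw [abs_zero] at h2
    filter_upwards [h2.eventually_lt_const hε'0] with s hs using hs.le
  have hall : ∀ᶠ s in nearF m N T H κ, ∀ i, ∀ j : Fin k,
      |∫ x, V' 0 (bs i) x * Z 0 (Cubic.eb j) x * rho x ∂(N s)| ≤ ε' :=
    eventually_all.2 fun i => eventually_all.2 fun j => hlim _ _
  filter_upwards [hall, nearF_sl] with s hs hsl b l
  have e1 : ∀ x, V' 0 b x * Z 0 l x * rho x
      = ∑ i, ∑ j, bs.repr b i * (l j * (V' 0 (bs i) x * Z 0 (Cubic.eb j) x * rho x)) := by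
    intro x
    conv_lhs => rw [← Cubic.sum_eb l, ← bs.sum_repr b]
    simp only [map_sum, map_smul, Finset.sum_apply, Pi.smul_apply, smul_eq_mul, Finset.mul_sum,
      Finset.sum_mul]
    rw [Finset.sum_comm]
    refine Finset.sum_congr rfl fun i _ => Finset.sum_congr rfl fun j _ => by ring
  have hint : ∀ i j, Integrable (fun x => V' 0 (bs i) x * Z 0 (Cubic.eb j) x * rho x) (N s) :=
    fun i j => hsl.integrable_PB
      ((hF.pg' h0r (bs i)).mul (hZ.pgZ h0r _)).cont.aestronglyMeasurable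
      ((hF.pg' h0r (bs i)).mul (hZ.pgZ h0r _)).b0
  simp_rw [e1]
  rw [integral_finsetSum _ fun i _ => integrable_finsetSum _ fun j _ =>
    ((hint i j).const_mul _).const_mul _]
  have e2 : ∀ i, ∫ x, ∑ j, bs.repr b i * (l j * (V' 0 (bs i) x * Z 0 (Cubic.eb j) x * rho x))
      ∂(N s) = ∑ j, bs.repr b i * (l j * ∫ x, V' 0 (bs i) x * Z 0 (Cubic.eb j) x * rho x ∂(N s)) := by
    intro i
    rw [integral_finsetSum _ fun j _ => ((hint i j).const_mul _).const_mul _]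
    simp only [integral_const_mul]
  simp_rw [e2]
  have hcoord : ∀ i, |bs.repr b i| ≤ ‖cl‖ * ‖b‖ := by
    intro i
    have h1 : ‖cl b‖ ≤ ‖cl‖ * ‖b‖ := cl.le_opNorm b
    have h2 : ‖(cl b) i‖ ≤ ‖cl b‖ := norm_le_pi_norm _ i
    have h3 : (cl b) i = bs.repr b i := rfl
    rw [h3, Real.norm_eq_abs] at h2
    linarith
  have e3 : |∑ i, ∑ j, bs.repr b i * (l j * ∫ x, V' 0 (bs i) x * Z 0 (Cubic.eb j) x * rho x ∂(N s))|
      ≤ ∑ i : Fin (Module.finrank ℝ P), ∑ j : Fin k, (‖cl‖ * ‖b‖) * (‖l‖ * ε') := by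
    refine (Finset.abs_sum_le_sum_abs _ _).trans (Finset.sum_le_sum fun i _ => ?_)
    refine (Finset.abs_sum_le_sum_abs _ _).trans (Finset.sum_le_sum fun j _ => ?_)
    rw [abs_mul, abs_mul]
    have h1 := hcoord i
    have h2 := Cubic.abs_coord_le l j
    have h3 := hs i j
    gcongr
  refine e3.trans ?_
  rw [Finset.sum_const, Finset.sum_const, Finset.card_univ, Finset.card_univ, Fintype.card_fin,
    Fintype.card_fin, nsmul_eq_mul, nsmul_eq_mul]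
  have e4 : ε' * ((‖cl‖ * Module.finrank ℝ P + 1) * (k + 1)) = ε := by
    rw [hε']; field_simp
  have e5 : (Module.finrank ℝ P : ℝ) * (k * ((‖cl‖ * ‖b‖) * (‖l‖ * ε')))
      = ((‖cl‖ * Module.finrank ℝ P) * k * ε') * (‖b‖ * ‖l‖) := by ring
  have e6 : (‖cl‖ * Module.finrank ℝ P) * k * ε' ≤ ε := by
    have p1 : 0 ≤ ‖cl‖ * Module.finrank ℝ P := by positivity
    have p2 : (0 : ℝ) ≤ k := by positivity
    nlinarith [mul_nonneg p1 p2, mul_nonneg (mul_nonneg p1 p2) hε'0.le]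
  rw [e5]
  calc _ ≤ ε * (‖b‖ * ‖l‖) := by gcongr
    _ = _ := by ring

/-- pointwise part of the change of the gauge -/
lemma cg_pointwise {K K' x₁ v₁ v₂ v₃ z₁ z₂ β ω ρ : ℝ} {q q' : ℕ} (hK : 0 ≤ K) (hK' : 0 ≤ K')
    (hx : 1 ≤ x₁) (hβ : 0 ≤ β) (hω : 0 ≤ ω) (hρ : 0 ≤ ρ)
    (h1 : |v₁| ≤ K * x₁ ^ q * (2 * ρ) * β) (h2 : |v₂| ≤ K * x₁ ^ q * ρ * β)
    (h3 : |v₃| ≤ K * x₁ * β) (h4 : |z₁| ≤ K' * x₁ ^ q' * ω) (h5 : |z₂| ≤ K' * x₁ ^ q' * ρ * ω) :
    |(v₁ + v₂) * z₁ + v₃ * z₂| ≤ 4 * K * K' * ρ * β * ω * x₁ ^ (q + q' + 1) := by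
  have p1 : x₁ ^ q * x₁ ^ q' ≤ x₁ ^ (q + q' + 1) := by
    rw [← pow_add]; exact pow_le_pow_right₀ hx (by omega)
  have p2 : x₁ * x₁ ^ q' ≤ x₁ ^ (q + q' + 1) := by
    rw [← pow_succ']; exact pow_le_pow_right₀ hx (by omega)
  have hx0 : 0 ≤ x₁ := by linarith
  have e1 : |(v₁ + v₂) * z₁| ≤ 3 * K * K' * ρ * β * ω * (x₁ ^ q * x₁ ^ q') := by
    rw [abs_mul]
    calc |v₁ + v₂| * |z₁| ≤ (K * x₁ ^ q * (2 * ρ) * β + K * x₁ ^ q * ρ * β) * (K' * x₁ ^ q' * ω) := by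
          have := abs_add_le v₁ v₂
          gcongr
          linarith
      _ = _ := by ring
  have e2 : |v₃ * z₂| ≤ K * K' * ρ * β * ω * (x₁ * x₁ ^ q') := by
    rw [abs_mul]
    calc |v₃| * |z₂| ≤ (K * x₁ * β) * (K' * x₁ ^ q' * ρ * ω) := by gcongr
      _ = _ := by ring
  have e3 : 3 * K * K' * ρ * β * ω * (x₁ ^ q * x₁ ^ q')
      ≤ 3 * K * K' * ρ * β * ω * x₁ ^ (q + q' + 1) := by gcongr
  have e4 : K * K' * ρ * β * ω * (x₁ * x₁ ^ q') ≤ K * K' * ρ * β * ω * x₁ ^ (q + q' + 1) := by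
    gcongr
  have e5 := abs_add_le ((v₁ + v₂) * z₁) (v₃ * z₂)
  linarith

/-- the change of the gauge moves the coordinates little -/
lemma exists_cg (h : RF m N T H s₀) [FiniteDimensional ℝ P] (hF : Fam m V V' r c K q)
    (hZ : Sec k V' Z Q κ r K' q') (hK' : 0 ≤ K') [IsLocallyFiniteMeasure κ]
    (hV0 : ∀ᵐ x ∂κ, V 0 x = 0) {η : ℝ} (hη : 0 < η) :
    ∃ ρ : ℝ, 0 < ρ ∧ ρ ≤ r ∧ ∀ᶠ s in nearF m N T H κ, ∀ a a' : P, ‖a‖ ≤ ρ → ‖a'‖ ≤ ρ →
      ‖al (N s) V Z a' - al (N s) V Z a‖ ≤ η * ‖a' - a‖ := by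
  have h0r : ‖(0 : P)‖ ≤ r := by simpa using hF.rpos.le
  have hK := hF.Knn
  obtain ⟨M, hM⟩ := h.moment (2 * q')
  have hM0 : 0 ≤ M := (integral_nonneg fun x => mul_nonneg (by positivity) (rho_pos x).le).trans
    (hM s₀ le_rfl).2
  obtain ⟨M₁, hM₁⟩ := h.moment (q + q' + 1)
  have hM₁0 : 0 ≤ M₁ := (integral_nonneg fun x => mul_nonneg (by positivity) (rho_pos x).le).trans
    (hM₁ s₀ le_rfl).2
  obtain ⟨σ, hσ⟩ : ∃ σ, σ = (η / (3 * (K' * √M + 1))) ^ 2 := ⟨_, rfl⟩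
  have hσ0 : 0 < σ := by rw [hσ]; positivity
  have hσ1 : K' * √M * √σ ≤ η / 3 := by
    rw [hσ, Real.sqrt_sq (by positivity), ← mul_div_assoc, div_le_div_iff₀ (by positivity)
      (by norm_num)]
    have : 0 ≤ K' * √M := by positivity
    nlinarith
  obtain ⟨ρ₁, hρ₁, hρ₁r, hD⟩ := exists_DD_small h hF hV0 (κ := κ) hσ0
  obtain ⟨ρ₂, hρ₂⟩ : ∃ ρ₂, ρ₂ = η / (3 * (4 * K * K' * M₁ + 1)) := ⟨_, rfl⟩
  have hρ₂0 : 0 < ρ₂ := by rw [hρ₂]; positivity
  have hρ₂1 : 4 * K * K' * ρ₂ * M₁ ≤ η / 3 := by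
    rw [hρ₂]
    have e : 4 * K * K' * (η / (3 * (4 * K * K' * M₁ + 1))) * M₁
        = (4 * K * K' * M₁) * η / (3 * (4 * K * K' * M₁ + 1)) := by ring
    rw [e, div_le_div_iff₀ (by positivity) (by norm_num)]
    have : 0 ≤ 4 * K * K' * M₁ := by positivity
    nlinarith
  refine ⟨min ρ₁ ρ₂, lt_min hρ₁ hρ₂0, (min_le_left _ _).trans hρ₁r, ?_⟩
  filter_upwards [hD, exists_orth h hF hZ (ε := η / 3) (by positivity), nearF_sl,
    nearF_atTop (eventually_ge_atTop s₀)] with s hDs hor hsl hs0 a a' ha ha'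
  have har : ‖a‖ ≤ r := ha.trans ((min_le_left _ _).trans hρ₁r)
  have har' : ‖a'‖ ≤ r := ha'.trans ((min_le_left _ _).trans hρ₁r)
  have ha2 : ‖a‖ ≤ ρ₂ := ha.trans (min_le_right _ _)
  have ha2' : ‖a'‖ ≤ ρ₂ := ha'.trans (min_le_right _ _)
  obtain ⟨w, hw⟩ : ∃ w, w = al (N s) V Z a' - al (N s) V Z a := ⟨_, rfl⟩
  rw [← hw]
  set b := a' - a with hb
  have hb2 : ‖b‖ ≤ 2 * ρ₂ := by
    rw [hb]; exact (norm_sub_le _ _).trans (by linarith)
  have e1 : ‖w‖ ^ 2 = ∫ x, (V a' x * Z a' w x * rho x - V a x * Z a w x * rho x) ∂(N s) := by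
    have i1 : Integrable (fun x => V a' x * Z a' w x * rho x) (N s) :=
      hsl.integrable_PB (hZ.pgψ hF har' w).cont.aestronglyMeasurable (hZ.pgψ hF har' w).b0
    have i2 : Integrable (fun x => V a x * Z a w x * rho x) (N s) :=
      hsl.integrable_PB (hZ.pgψ hF har w).cont.aestronglyMeasurable (hZ.pgψ hF har w).b0
    rw [integral_sub i1 i2, ← inner_al hsl hF hZ har', ← inner_al hsl hF hZ har,
      ← real_inner_self_eq_norm_sq w, ← inner_sub_left, ← hw]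
  have e2 : ∀ x, V a' x * Z a' w x * rho x - V a x * Z a w x * rho x
      = (((V a' x - V a x - V' a b x) + (V' a b x - V' 0 b x)) * Z a' w x
          + V' 0 b x * (Z a' w x - Z 0 w x)) * rho x
        + V' 0 b x * Z 0 w x * rho x + V a x * (Z a' w x - Z a w x) * rho x := by
    intro x; ring
  -- the five terms
  have g1 : PG (fun x => ((V a' x - V a x - V' a b x) + (V' a b x - V' 0 b x)) * Z a' w x
          + V' 0 b x * (Z a' w x - Z 0 w x)) := by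
    have a1 := (((hF.tube a' har').pg.sub (hF.tube a har).pg).sub (hF.pg' har b)).add
      ((hF.pg' har b).sub (hF.pg' h0r b))
    exact (a1.mul (hZ.pgZ har' w)).add ((hF.pg' h0r b).mul ((hZ.pgZ har' w).sub (hZ.pgZ h0r w)))
  have g2 : PG (fun x => V' 0 b x * Z 0 w x) := (hF.pg' h0r b).mul (hZ.pgZ h0r w)
  have g3 : PG (fun x => V a x * (Z a' w x - Z a w x)) :=
    (hF.tube a har).pg.mul ((hZ.pgZ har' w).sub (hZ.pgZ har w))
  have i1 := hsl.integrable_PB g1.cont.aestronglyMeasurable g1.b0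
  have i2 := hsl.integrable_PB g2.cont.aestronglyMeasurable g2.b0
  have i3 := hsl.integrable_PB g3.cont.aestronglyMeasurable g3.b0
  simp_rw [e2] at e1
  have i12 : Integrable (fun x => ((((V a' x - V a x - V' a b x) + (V' a b x - V' 0 b x)) * Z a' w x
          + V' 0 b x * (Z a' w x - Z 0 w x)) * rho x + V' 0 b x * Z 0 w x * rho x)) (N s) := i1.add i2
  rw [integral_add i12 i3, integral_add i1 i2] at e1
  have b2 := hor b w
  have b3 : |∫ x, V a x * (Z a' w x - Z a w x) * rho x ∂(N s)| ≤ η / 3 * ‖b‖ * ‖w‖ := by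
    have c1 := abs_int_mul_le hsl (hF.tube a har) (f := fun x => Z a' w x - Z a w x)
      ((hZ.pgZ har' w).sub (hZ.pgZ har w)).cont.aestronglyMeasurable (A := K' * ‖b‖ * ‖w‖)
      (p := q') (by positivity) (fun x => (hZ.lip a' a har' har w x).trans
        (le_of_eq (by rw [hb]; ring))) (hM s hs0).2
    refine c1.trans ?_
    have c2 : √(DD (N s) (V a) 0) ≤ √σ := Real.sqrt_le_sqrt (hDs a (ha.trans (min_le_left _ _)))
    calc K' * ‖b‖ * ‖w‖ * √M * √(DD (N s) (V a) 0) ≤ K' * ‖b‖ * ‖w‖ * √M * √σ := by gcongr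
      _ = (K' * √M * √σ) * ‖b‖ * ‖w‖ := by ring
      _ ≤ _ := by gcongr
  have b1 : |∫ x, (((V a' x - V a x - V' a b x) + (V' a b x - V' 0 b x)) * Z a' w x
          + V' 0 b x * (Z a' w x - Z 0 w x)) * rho x ∂(N s)| ≤ η / 3 * ‖b‖ * ‖w‖ := by
    obtain ⟨j1, j2⟩ := hM₁ s hs0
    have c1 : ‖∫ x, (((V a' x - V a x - V' a b x) + (V' a b x - V' 0 b x)) * Z a' w x
          + V' 0 b x * (Z a' w x - Z 0 w x)) * rho x ∂(N s)‖
        ≤ ∫ x, (4 * K * K' * ρ₂ * ‖b‖ * ‖w‖) * ((1 + ‖x‖) ^ (q + q' + 1) * rho x) ∂(N s) := by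
      refine norm_integral_le_of_norm_le (j1.const_mul _) (Eventually.of_forall fun x => ?_)
      rw [norm_mul, Real.norm_of_nonneg (rho_pos x).le, Real.norm_eq_abs, ← mul_assoc]
      refine mul_le_mul_of_nonneg_right ?_ (rho_pos x).le
      have hx0 : 0 ≤ K * (1 + ‖x‖) ^ q := by positivity
      refine cg_pointwise (q := q) (q' := q') hK hK' (one_le_one_add_norm x) (norm_nonneg b)
        (norm_nonneg w) hρ₂0.le ?_ ?_ ?_ ?_ ?_
      · refine (hF.taylor a a' har har' x).trans ?_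
        rw [← hb, pow_two, ← mul_assoc]
        gcongr
      · refine (hF.dlip a 0 har h0r b x).trans ?_
        rw [sub_zero]
        gcongr
      · exact hF.db0 0 h0r b x
      · exact hZ.b0 a' har' w x
      · refine (hZ.lip a' 0 har' h0r w x).trans ?_
        rw [sub_zero]
        gcongr
    rw [integral_const_mul] at c1
    rw [← Real.norm_eq_abs]
    refine c1.trans ?_
    calc 4 * K * K' * ρ₂ * ‖b‖ * ‖w‖ * ∫ x, (1 + ‖x‖) ^ (q + q' + 1) * rho x ∂(N s)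
        ≤ 4 * K * K' * ρ₂ * ‖b‖ * ‖w‖ * M₁ := by gcongr
      _ = (4 * K * K' * ρ₂ * M₁) * ‖b‖ * ‖w‖ := by ring
      _ ≤ _ := by gcongr
  have e3 : ‖w‖ ^ 2 ≤ η * ‖b‖ * ‖w‖ := by
    have c1 := le_abs_self (∫ x, (((V a' x - V a x - V' a b x) + (V' a b x - V' 0 b x)) * Z a' w x
          + V' 0 b x * (Z a' w x - Z 0 w x)) * rho x ∂(N s))
    have c2 := le_abs_self (∫ x, V' 0 b x * Z 0 w x * rho x ∂(N s))
    have c3 := le_abs_self (∫ x, V a x * (Z a' w x - Z a w x) * rho x ∂(N s))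
    have c4 : η * ‖b‖ * ‖w‖ = η / 3 * ‖b‖ * ‖w‖ + η / 3 * ‖b‖ * ‖w‖ + η / 3 * ‖b‖ * ‖w‖ := by ring
    linarith
  rcases (norm_nonneg w).eq_or_lt with h0 | h0
  · rw [← h0]; positivity
  · have e4 : ‖w‖ * ‖w‖ ≤ (η * ‖b‖) * ‖w‖ := by nlinarith
    exact le_of_mul_le_mul_right e4 h0

end Vale.Agent.P218.H313
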