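import Vale.Agent.P218.H313.SecSum
import Vale.Agent.P218.H313.Main
import Vale.Agent.P218.H313.Final

/-! Second order: convergence of the rescaled flow. -/

open MeasureTheory Set Filter Topology Metric
open scoped ENNReal NNReal RealInnerProductSpace CompactlySupported

namespace Vale.Agent.P218.H313

open Vale.Agent.P218.H552 (BF NN)

set_option linter.unusedSectionVars false
set_option linter.unusedVariables false

variable {E : Type*} [NormedAddCommGroup E] [InnerProductSpace ℝ E] [FiniteDimensional ℝ E]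
  [MeasurableSpace E] [BorelSpace E]
variable {P : Type*} [NormedAddCommGroup P] [NormedSpace ℝ P]
variable {m k : ℕ} {N : ℝ → Measure E} {T : ℝ → E → Submodule ℝ E} {H : ℝ → E → E}
  {s₀ r c K K' δ : ℝ} {q q' J : ℕ} {κ : Measure E}
  {V : P → E → ℝ} {V' : P → P →ₗ[ℝ] (E → ℝ)} {Z : P → LS k →ₗ[ℝ] (E → ℝ)}
  {Q : LS k →ₗ[ℝ] LS k →ₗ[ℝ] LS k →ₗ[ℝ] ℝ}

/-- near the shrinker there is a gauge of any given size -/
theorem exists_good2 [FiniteDimensional ℝ P] (h : RF m N T H s₀) (hF : Fam m V V' r c K q)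
    [IsLocallyFiniteMeasure κ] [(nearF m N T H κ).NeBot] (hV0 : ∀ᵐ x ∂κ, V 0 x = 0)
    (hinj : ∀ b : P, (∀ᵐ x ∂κ, V' 0 b x = 0) → b = 0) :
    ∃ lam : ℝ, 0 < lam ∧ ∀ ρ : ℝ, 0 < ρ → ∃ ρ' : ℝ, 0 < ρ' ∧ ρ' ≤ ρ ∧ ρ' ≤ r ∧
      ∀ᶠ s in nearF m N T H κ, ∃ a : P, Good2 m N T H V V' ρ' lam s a := by
  have hmom : ∀ p : ℕ, ∃ C : ℝ, ∀ᶠ s in nearF m N T H κ,
      Integrable (fun x => (1 + ‖x‖) ^ p * rho x) (N s) ∧
        ∫ x, (1 + ‖x‖) ^ p * rho x ∂(N s) ≤ C := by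
    intro p
    obtain ⟨C, hC⟩ := h.moment p
    exact ⟨C, by filter_upwards [nearF_atTop (eventually_ge_atTop s₀)] with s hs using hC s hs⟩
  obtain ⟨r₁, hr₁, hr₁r, lam, hlam, g1, g2, g3⟩ := hF.gauge (l := nearF m N T H κ) (N := N)
    (κ := κ) hmom (fun f hf hb => h.lim_PB hf hb) h.mom_lim hV0 hinj
  obtain ⟨a, ha⟩ := g2.choice
  have ha1 : ∀ᶠ s in nearF m N T H κ, ‖a s‖ ≤ r₁ ∧ ∀ b, GF (N s) V V' (a s) b = 0 := by
    filter_upwards [ha] with s hs using ⟨hs.1.le, hs.2⟩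
  have ha0 := (g3 a ha1).norm
  rw [norm_zero] at ha0
  refine ⟨lam, hlam, fun ρ hρ => ⟨min ρ r₁, lt_min hρ hr₁, min_le_left _ _,
    (min_le_right _ _).trans hr₁r, ?_⟩⟩
  filter_upwards [nearF_sl, ha1, ha0.eventually_lt_const (lt_min hρ hr₁), g1] with s h1 h2 h3 h4
  exact ⟨a s, h1, h3.le, h2.2, fun a' ha' => h4 _ _ h2.1 (ha'.trans (min_le_right _ _))⟩

/-- good times in the first halves of the intervals `[s₀ + 1 + k h, s₀ + 1 + (k + 1) h]` -/
lemma exists_times2 (h : RF m N T H s₀) {h₀ : ℝ} (hh : 0 < h₀) :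
    ∃ t : ℕ → ℝ, (∀ k, s₀ + 1 + k * h₀ ≤ t k ∧ t k ≤ s₀ + 1 + k * h₀ + h₀ / 2) ∧
      (∀ k, GSlice m (N (t k)) (T (t k)) (H (t k))) ∧
      ∀ k, dis (N (t k)) (T (t k)) (H (t k))
        ≤ 2 / h₀ * (FA (N (s₀ + 1 + k * h₀)) - FA (N (s₀ + 1 + k * h₀ + h₀ / 2))) := by
  have key : ∀ k : ℕ, ∃ t : ℝ, (s₀ + 1 + k * h₀ ≤ t ∧ t ≤ s₀ + 1 + k * h₀ + h₀ / 2) ∧
      GSlice m (N t) (T t) (H t) ∧ dis (N t) (T t) (H t)
        ≤ 2 / h₀ * (FA (N (s₀ + 1 + k * h₀)) - FA (N (s₀ + 1 + k * h₀ + h₀ / 2))) := by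
    intro k
    have hk : (0 : ℝ) ≤ k * h₀ := by positivity
    obtain ⟨t, ht, h1, h2⟩ := h.exists_good (a := s₀ + 1 + k * h₀)
      (b := s₀ + 1 + k * h₀ + h₀ / 2) (by linarith) (by linarith)
    refine ⟨t, ⟨ht.1, ht.2⟩, h1, ?_⟩
    have e : s₀ + 1 + k * h₀ + h₀ / 2 - (s₀ + 1 + k * h₀) = h₀ / 2 := by ring
    rw [e] at h2
    refine h2.trans (le_of_eq ?_)
    field_simp
  choose t h1 h2 h3 using key
  exact ⟨t, h1, h2, h3⟩

/-- sums of drops over overlapping windows -/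
lemma sum_window_le {f : ℕ → ℝ} {η : ℝ} {k₀ : ℕ} (hf : ∀ i j, k₀ ≤ i → i ≤ j → f i - f j ≤ η)
    (n : ℕ) {k K' : ℕ} (hk : k₀ ≤ k) (hkK : k ≤ K') :
    ∑ j ∈ Finset.Ico k K', (f j - f (j + n)) ≤ n * η := by
  induction n with
  | zero => simp
  | succ n ih =>
    have e : ∀ j, f j - f (j + (n + 1)) = (f j - f (j + n)) + (f (j + n) - f (j + n + 1)) := by
      intro j; rw [← add_assoc]; ring
    simp_rw [e]
    rw [Finset.sum_add_distrib]
    have e2 : ∑ j ∈ Finset.Ico k K', (f (j + n) - f (j + n + 1)) = f (k + n) - f (K' + n) := by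
      have h1 := Finset.sum_Ico_sub (fun j => -f (j + n)) hkK
      have h2 : ∀ j, -f (j + 1 + n) - -f (j + n) = f (j + n) - f (j + n + 1) := by
        intro j
        have : j + 1 + n = j + n + 1 := by ring
        rw [this]; ring
      simp_rw [h2] at h1
      rw [h1]; ring
    rw [e2]
    have e3 := hf (k + n) (K' + n) (by omega) (by omega)
    push_cast
    linarith

/-- the errors and their sums are small -/
lemma exists_d_small (h : RF m N T H s₀) {h₀ : ℝ} (hh : 0 < h₀) {t : ℕ → ℝ}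
    (ht : ∀ k : ℕ, s₀ + 1 + k * h₀ ≤ t k ∧ t k ≤ s₀ + 1 + k * h₀ + h₀ / 2)
    (hd : ∀ k : ℕ, dis (N (t k)) (T (t k)) (H (t k))
        ≤ 2 / h₀ * (FA (N (s₀ + 1 + k * h₀)) - FA (N (s₀ + 1 + k * h₀ + h₀ / 2))))
    {ε : ℝ} (hε : 0 < ε) : ∃ k₀ : ℕ, ∀ k, k₀ ≤ k →
      (dis (N (t k)) (T (t k)) (H (t k)) + (FA (N (t k - 1)) - FA (N (t (k + 1)))) ≤ ε) ∧
      ∀ K', k ≤ K' → ∑ j ∈ Finset.Ico k K', (dis (N (t j)) (T (t j)) (H (t j))
        + (FA (N (t j - 1)) - FA (N (t (j + 1))))) ≤ ε := by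
  obtain ⟨n, hn⟩ := exists_nat_ge ((1 + 2 * h₀) / h₀)
  rw [div_le_iff₀ hh] at hn
  obtain ⟨A, hA⟩ : ∃ A, A = 1 + 2 / h₀ := ⟨_, rfl⟩
  have hA0 : 0 < A := by rw [hA]; positivity
  obtain ⟨η, hη⟩ : ∃ η, η = ε / (A * (n + 1)) := ⟨_, rfl⟩
  have hη0 : 0 < η := by rw [hη]; positivity
  obtain ⟨S, hS, hdrop⟩ := H552.exists_drop_le (θ := fun s => FA (N s)) (τ₀ := s₀)
    (fun a b ha hab => h.FA_anti ha hab) (fun s => RF.FA_nonneg _) hη0
  obtain ⟨k₀, hk₀⟩ := exists_nat_ge ((S - s₀) / h₀)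
  set f : ℕ → ℝ := fun j => FA (N (s₀ + j * h₀)) with hf
  have hfη : ∀ i j, k₀ ≤ i → i ≤ j → f i - f j ≤ η := by
    intro i j hi hij
    have h1 : (S - s₀) / h₀ ≤ i := hk₀.trans (by exact_mod_cast hi)
    rw [div_le_iff₀ hh] at h1
    have h2 : (i : ℝ) ≤ j := by exact_mod_cast hij
    exact hdrop (s₀ + i * h₀) (s₀ + j * h₀) (by linarith) (by nlinarith)
  have hdj : ∀ j, dis (N (t j)) (T (t j)) (H (t j)) + (FA (N (t j - 1)) - FA (N (t (j + 1))))
      ≤ A * (f j - f (j + n)) := by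
    intro j
    have hj0 : (0 : ℝ) ≤ j * h₀ := by positivity
    have h1 := (ht j).1
    have h2 := (ht (j + 1)).2
    push_cast at h2
    have a1 : FA (N (t j - 1)) ≤ f j := h.FA_anti (by linarith) (by linarith)
    have a2 : f (j + n) ≤ FA (N (t (j + 1))) := by
      refine h.FA_anti ?_ ?_
      · have := (ht (j + 1)).1
        push_cast at this
        nlinarith
      · push_cast
        nlinarith
    have a3 : FA (N (s₀ + 1 + j * h₀)) ≤ f j := h.FA_anti (by linarith) (by linarith)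
    have a4 : f (j + n) ≤ FA (N (s₀ + 1 + j * h₀ + h₀ / 2)) := by
      refine h.FA_anti (by linarith) ?_
      push_cast
      nlinarith
    have a5 := hd j
    have a6 : 2 / h₀ * (FA (N (s₀ + 1 + j * h₀)) - FA (N (s₀ + 1 + j * h₀ + h₀ / 2)))
        ≤ 2 / h₀ * (f j - f (j + n)) := by
      refine mul_le_mul_of_nonneg_left (by linarith) (by positivity)
    rw [hA]
    linarith
  refine ⟨k₀, fun k hk => ⟨?_, fun K' hkK => ?_⟩⟩
  · refine (hdj k).trans ?_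
    have h1 := hfη k (k + n) hk (by omega)
    calc A * (f k - f (k + n)) ≤ A * η := by gcongr
      _ ≤ A * ((n + 1) * η) := by
          have : (0 : ℝ) ≤ n := n.cast_nonneg
          gcongr
          nlinarith
      _ = ε := by rw [hη]; field_simp
  · calc _ ≤ ∑ j ∈ Finset.Ico k K', A * (f j - f (j + n)) := Finset.sum_le_sum fun j _ => hdj j
      _ = A * ∑ j ∈ Finset.Ico k K', (f j - f (j + n)) := by rw [Finset.mul_sum]
      _ ≤ A * (n * η) := by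
          refine mul_le_mul_of_nonneg_left (sum_window_le hfη n hk hkK) hA0.le
      _ ≤ A * ((n + 1) * η) := by
          have : (0 : ℝ) ≤ n := n.cast_nonneg
          gcongr
          linarith
      _ = ε := by rw [hη]; field_simp

/-- the chain is short: integrals change little along good times -/
lemma exists_chain_small [FiniteDimensional ℝ P] (h : RF m N T H s₀)
    (hE : Module.finrank ℝ E = m + 1) (hslow : Slow N s₀)
    (hF : Fam m V V' r c K q) (hZ : Sec k V' Z Q κ r K' q') (hK' : 0 ≤ K')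
    (hSt : St m k N T H V V' Z Q κ J) (hdyn : DynP m N T H s₀ c K q' J δ)
    (htg : TgBd m N T H s₀ c K J)
    [IsLocallyFiniteMeasure κ] [(nearF m N T H κ).NeBot] (hV0 : ∀ᵐ x ∂κ, V 0 x = 0)
    (hinj : ∀ b : P, (∀ᵐ x ∂κ, V' 0 b x = 0) → b = 0) {h₀ : ℝ} (hh : 0 < h₀)
    (hh2 : 2 * h₀ ≤ δ) {t : ℕ → ℝ}
    (ht : ∀ k : ℕ, s₀ + 1 + k * h₀ ≤ t k ∧ t k ≤ s₀ + 1 + k * h₀ + h₀ / 2)
    (hd : ∀ k : ℕ, dis (N (t k)) (T (t k)) (H (t k))
        ≤ 2 / h₀ * (FA (N (s₀ + 1 + k * h₀)) - FA (N (s₀ + 1 + k * h₀ + h₀ / 2)))) :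
    ∃ Y : ℝ → Prop, (∀ᶠ s in nearF m N T H κ, Y s) ∧
      ∀ φ : E → ℝ, ContDiff ℝ 2 φ → HasCompactSupport φ → ∀ ε > 0, ∃ k₀ : ℕ, ∀ k K',
        k₀ ≤ k → k ≤ K' → (∀ j, k ≤ j → j ≤ K' → Y (t j)) →
          |∫ x, φ x ∂(N (t K')) - ∫ x, φ x ∂(N (t k))| ≤ ε := by
  obtain ⟨lam, hlam, hgd⟩ := exists_good2 (m := m) (T := T) (H := H) (κ := κ) h hF hV0 hinj
  obtain ⟨ρ₁, hρ₁, hρ₁r, Cs, hCs, hsm⟩ := exists_small2 (k := k) (Z := Z) (Q := Q) (κ := κ)
    h hF hSt htg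
  obtain ⟨ρ₂, hρ₂, hρ₂r, p, hp, σ, hσ, Cq, hCq, hsum⟩ :=
    exists_sum2 h hslow hF hZ hK' hSt hdyn hV0 hlam (τ₀ := h₀ / 2) (half_pos hh)
  obtain ⟨ρ', hρ', hρ'1, hρ'r, hg⟩ := hgd (min ρ₁ ρ₂) (lt_min hρ₁ hρ₂)
  refine ⟨_, (hg.and hp).and hsm, ?_⟩
  have ht1 : ∀ j, s₀ + 1 ≤ t j := fun j => by
    have : (0 : ℝ) ≤ j * h₀ := by positivity
    linarith [(ht j).1]
  have htτ : ∀ j, t j + h₀ / 2 ≤ t (j + 1) := fun j => by
    have h1 := (ht (j + 1)).1
    have h2 := (ht j).2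
    push_cast at h1
    linarith
  have htm : ∀ j, t j ≤ t (j + 1) := fun j => by linarith [htτ j]
  have htδ : ∀ j, t (j + 1) ≤ t j + δ := fun j => by
    have h1 := (ht (j + 1)).2
    have h2 := (ht j).1
    push_cast at h1
    linarith
  intro φ hφ hφc ε hε
  obtain ⟨Cc, hCc, hb⟩ := exists_chain2 h hE hF hdyn hρ'r hlam
    (fun x => φ x * Real.exp (‖x‖ ^ 2 / 4)) (hφ.mul contDiff_rho_inv) hφc.mul_right
  obtain ⟨ε₂, hε₂⟩ : ∃ ε₂, ε₂ = ε / (Cc * (3 + 3 * Cq) + 1) := ⟨_, rfl⟩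
  have hε₂0 : 0 < ε₂ := by rw [hε₂]; positivity
  have hε₂1 : Cc * ((3 + 3 * Cq) * ε₂) ≤ ε := by
    have e : (Cc * (3 + 3 * Cq) + 1) * ε₂ = ε := by rw [hε₂]; field_simp
    nlinarith
  obtain ⟨θ, hθ⟩ : ∃ θ, θ = ε₂ ^ 2 / (3 * Cs + 1) := ⟨_, rfl⟩
  have hθ0 : 0 < θ := by rw [hθ]; positivity
  have hθ1 : Cs * (3 * θ) ≤ ε₂ ^ 2 := by
    have e : (3 * Cs + 1) * θ = ε₂ ^ 2 := by rw [hθ]; field_simp
    nlinarith
  obtain ⟨k₀, hk₀⟩ := exists_d_small h hh ht hd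
    (ε := min (min σ ε₂) (min θ (θ ^ 2))) (lt_min (lt_min hσ hε₂0) (lt_min hθ0 (by positivity)))
  refine ⟨k₀, fun k K' hk hkK hj => ?_⟩
  have hex : ∀ j, ∃ a : P, k ≤ j → j ≤ K' → Good2 m N T H V V' ρ' lam (t j) a := by
    intro j
    by_cases hjj : k ≤ j ∧ j ≤ K'
    · obtain ⟨a, ha⟩ := (hj j hjj.1 hjj.2).1.1
      exact ⟨a, fun _ _ => ha⟩
    · exact ⟨0, fun h1 h2 => absurd ⟨h1, h2⟩ hjj⟩
  choose a ha using hex
  have hdis0 : ∀ j, 0 ≤ dis (N (t j)) (T (t j)) (H (t j)) := fun j => dis_nonneg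
  have hf0 : ∀ j, 0 ≤ FA (N (t j - 1)) - FA (N (t (j + 1))) := fun j => by
    have h1 := h.FA_anti (a := t j - 1) (b := t (j + 1)) (by linarith [ht1 j])
      (by linarith [htm j])
    linarith
  have hf1 : ∀ j, FA (N (t j - 1)) - FA (N (t j)) ≤ FA (N (t j - 1)) - FA (N (t (j + 1))) :=
    fun j => by
      have h1 := h.FA_anti (a := t j) (b := t (j + 1)) (by linarith [ht1 j]) (htm j)
      linarith
  have m1 : min (min σ ε₂) (min θ (θ ^ 2)) ≤ σ := (min_le_left _ _).trans (min_le_left _ _)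
  have m2 : min (min σ ε₂) (min θ (θ ^ 2)) ≤ ε₂ := (min_le_left _ _).trans (min_le_right _ _)
  have m3 : min (min σ ε₂) (min θ (θ ^ 2)) ≤ θ := (min_le_right _ _).trans (min_le_left _ _)
  have m4 : min (min σ ε₂) (min θ (θ ^ 2)) ≤ θ ^ 2 :=
    (min_le_right _ _).trans (min_le_right _ _)
  -- the boundary quantities
  have hbd : ∀ j, k ≤ j → j ≤ K' →
      √(DD (N (t j)) (V (a j)) 0) ≤ ε₂ ∧ ‖al (N (t j)) V Z (a j)‖ ≤ ε₂ := by
    intro j h1 h2
    have g := ha j h1 h2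
    have e1 := (hj j h1 h2).2 (a j) (g.nrm.trans (hρ'1.trans (min_le_left _ _))) g.crit
    have e2 := (hk₀ j (hk.trans h1)).1
    have e3 : √(dis (N (t j)) (T (t j)) (H (t j))) ≤ θ := by
      rw [Real.sqrt_le_left hθ0.le]
      linarith [hf0 j]
    have e4 : dis (N (t j)) (T (t j)) (H (t j)) ≤ θ := by linarith [hf0 j]
    have e5 : FA (N (t j - 1)) - FA (N (t j)) ≤ θ := by linarith [hf1 j, hdis0 j]
    have e6 : DD (N (t j)) (V (a j)) 0 + ‖al (N (t j)) V Z (a j)‖ ^ 2 ≤ ε₂ ^ 2 := by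
      refine e1.trans (le_trans (mul_le_mul_of_nonneg_left ?_ hCs) hθ1)
      linarith
    have e7 : 0 ≤ DD (N (t j)) (V (a j)) 0 := DD_nonneg 0
    constructor
    · rw [Real.sqrt_le_left hε₂0.le]
      nlinarith [sq_nonneg ‖al (N (t j)) V Z (a j)‖]
    · exact le_of_sq_le_sq (by linarith) hε₂0.le
  have s1 := hb t a ht1 htm htδ k K' hkK ha
  rw [int_div_rho, int_div_rho] at s1
  have s2 := hsum ρ' t a (hρ'1.trans (min_le_right _ _)) ht1 htτ htδ k K' hkK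
    (fun j h1 h2 => ⟨(hj j h1 h2).1.2, ha j h1 h2⟩)
    (fun j h1 h2 => by
      have := (hk₀ j (hk.trans h1)).1
      linarith [hdis0 j])
  have s3 := (hk₀ k hk).2 K' hkK
  have s4 : ∑ j ∈ Finset.Ico k K', (FA (N (t j - 1)) - FA (N (t (j + 1)))) ≤ ε₂ := by
    refine le_trans (Finset.sum_le_sum fun j _ => ?_) (s3.trans m2)
    linarith [hdis0 j]
  have s5 : ∑ j ∈ Finset.Ico k K', DD (N (t j)) (V (a j)) 0 ≤ Cq * (3 * ε₂) := by
    refine s2.trans (mul_le_mul_of_nonneg_left ?_ hCq)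
    have e1 := (hbd k le_rfl hkK).2
    have e2 := (hbd K' hkK le_rfl).2
    linarith
  refine s1.trans (le_trans (mul_le_mul_of_nonneg_left ?_ hCc) hε₂1)
  rw [Finset.sum_add_distrib]
  have e1 := (hbd k le_rfl hkK).1
  have e2 := (hbd K' hkK le_rfl).1
  linarith

/-- **convergence of the rescaled flow** near a shrinker which is nondegenerate to second order -/
theorem RF.converge2 (hm : 0 < m) (hE : Module.finrank ℝ E = m + 1) [FiniteDimensional ℝ P]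
    (h : RF m N T H s₀) (hslow : Slow N s₀) (hF : Fam m V V' r c K q)
    (hZ : Sec k V' Z Q κ r K' q') (hK' : 0 ≤ K')
    (hSt : St m k N T H V V' Z Q κ J) (hdyn : DynP m N T H s₀ c K q' J δ)
    (htg : TgBd m N T H s₀ c K J)
    [IsLocallyFiniteMeasure κ] (hV0 : ∀ᵐ x ∂κ, V 0 x = 0)
    (hseq : ∃ τ : ℕ → ℝ, Tendsto τ atTop atTop ∧ WeakTendsto (fun i => N (τ i)) κ)
    (hinj : ∀ b : P, (∀ᵐ x ∂κ, V' 0 b x = 0) → b = 0)
    {φ : E → ℝ} (hφ : ContDiff ℝ 2 φ) (hφc : HasCompactSupport φ) :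
    ∃ L : ℝ, Tendsto (fun s => ∫ x, φ x ∂(N s)) atTop (𝓝 L) := by
  obtain ⟨τ, hτ, hτκ⟩ := hseq
  obtain ⟨h₀, hh₀⟩ : ∃ h₀, h₀ = δ / 2 := ⟨_, rfl⟩
  have hh : 0 < h₀ := by rw [hh₀]; exact half_pos hdyn.pos
  obtain ⟨t, ht, htg', htd⟩ := exists_times2 h hh
  -- the indices near `τ`
  have hidx : ∀ s, s₀ + 1 ≤ s → |t ⌊(s - (s₀ + 1)) / h₀⌋₊ - s| ≤ h₀ := by
    intro s hs
    set k := ⌊(s - (s₀ + 1)) / h₀⌋₊ with hk
    have h1 : (k : ℝ) ≤ (s - (s₀ + 1)) / h₀ := Nat.floor_le (div_nonneg (by linarith) hh.le)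
    have h2 : (s - (s₀ + 1)) / h₀ < k + 1 := Nat.lt_floor_add_one _
    rw [le_div_iff₀ hh] at h1
    rw [div_lt_iff₀ hh] at h2
    obtain ⟨h3, h4⟩ := ht k
    rw [abs_le]
    constructor <;> nlinarith
  have hidx2 : Tendsto (fun s : ℝ => ⌊(s - (s₀ + 1)) / h₀⌋₊) atTop atTop := by
    refine tendsto_nat_floor_atTop.comp ?_
    exact (tendsto_atTop_add_const_right _ (-(s₀ + 1)) tendsto_id).atTop_div_const hh
  have htt : Tendsto t atTop atTop := by
    refine tendsto_atTop_mono (fun k => (ht k).1) ?_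
    refine tendsto_atTop_add_const_left _ _ ?_
    exact tendsto_natCast_atTop_atTop.atTop_mul_const hh
  have ht1 : ∀ j, s₀ ≤ t j := fun j => by
    have : (0 : ℝ) ≤ j * h₀ := by positivity
    linarith [(ht j).1]
  have htm : ∀ j, t j ≤ t (j + 1) := fun j => by
    have h1 := (ht (j + 1)).1
    have h2 := (ht j).2
    push_cast at h1
    linarith
  have htδ : ∀ j, t (j + 1) ≤ t j + δ := fun j => by
    have h1 := (ht (j + 1)).2
    have h2 := (ht j).1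
    push_cast at h1
    have h3 : δ = 2 * h₀ := by rw [hh₀]; ring
    linarith
  set k : ℕ → ℕ := fun i => ⌊(τ i - (s₀ + 1)) / h₀⌋₊ with hk
  have hkt : Tendsto k atTop atTop := hidx2.comp hτ
  have hkτ : ∀ᶠ i in atTop, |t (k i) - τ i| ≤ h₀ := by
    filter_upwards [hτ.eventually_ge_atTop (s₀ + 1)] with i hi
    exact hidx _ hi
  have hkw : WeakTendsto (fun i => N (t (k i))) κ := hslow.weakTendsto_shift hτ hh hkτ hτκ
  have hnear : Tendsto (fun i => t (k i)) atTop (nearF m N T H κ) :=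
    tendsto_nearF (m := m) (N := N) (T := T) (H := H) (κ := κ)
      (t := fun i => t (k i)) (l := atTop) (htt.comp hkt)
      (Eventually.of_forall fun i => htg' _) (fun φ h1 h2 => hkw φ h1 h2)
  have hne : (nearF m N T H κ).NeBot := hnear.neBot
  obtain ⟨Y, hY, hsmall⟩ := exists_chain_small h hE hslow hF hZ hK' hSt hdyn htg hV0 hinj hh
    (by rw [hh₀]; linarith) ht htd
  -- eventually all the times are good
  have hall : ∀ᶠ k in atTop, Y (t k) := by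
    by_contra hcon
    rw [not_eventually, frequently_atTop] at hcon
    have hkX : ∀ᶠ i in atTop, Y (t (k i)) := hnear.eventually hY
    classical
    have hex : ∀ i, ∃ L, k i ≤ L ∧ ¬ Y (t L) := fun i => hcon (k i)
    set L : ℕ → ℕ := fun i => Nat.find (hex i) with hL
    have hL1 : ∀ i, k i ≤ L i := fun i => (Nat.find_spec (hex i)).1
    have hL2 : ∀ i, ¬ Y (t (L i)) := fun i => (Nat.find_spec (hex i)).2
    have hL3 : ∀ i j, k i ≤ j → j < L i → Y (t j) := by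
      intro i j h1 h2
      have := Nat.find_min (hex i) h2
      push Not at this
      exact this h1
    have hlt : ∀ᶠ i in atTop, k i < L i := by
      filter_upwards [hkX] with i hi
      refine lt_of_le_of_ne (hL1 i) fun he => hL2 i ?_
      rw [← he]; exact hi
    have hLt : Tendsto L atTop atTop := tendsto_atTop_mono hL1 hkt
    have hLt' : Tendsto (fun i => L i - 1) atTop atTop := (tendsto_sub_atTop_nat 1).comp hLt
    -- the times before the first failure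
    have hw1 : WeakTendsto (fun i => N (t (L i - 1))) κ := by
      refine weakTendsto_of_contDiff hslow (fun i => ht1 _) fun φ hφ hφc => ?_
      refine tendsto_of_approx fun ε hε => ?_
      obtain ⟨k₀, hk₀⟩ := hsmall φ hφ hφc ε hε
      refine ⟨fun i => ∫ x, φ x ∂(N (t (k i))), ∫ x, φ x ∂κ, hkw φ hφ.continuous hφc, ?_,
        by simpa using hε.le⟩
      filter_upwards [hlt, hkt.eventually_ge_atTop k₀] with i h1 h2
      exact hk₀ (k i) (L i - 1) h2 (by omega) fun j h3 h4 => hL3 i j h3 (by omega)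
    have hw2 : WeakTendsto (fun i => N (t (L i))) κ := by
      refine hslow.weakTendsto_shift (htt.comp hLt') hdyn.pos ?_ hw1
      filter_upwards [hlt] with i hi
      have e : L i - 1 + 1 = L i := by omega
      have h1 := htm (L i - 1)
      have h2 := htδ (L i - 1)
      rw [e] at h1 h2
      simp only [Function.comp]
      rw [abs_le]
      constructor <;> linarith
    have hbad : ∀ᶠ i in atTop, Y (t (L i)) :=
      (tendsto_nearF (m := m) (N := N) (T := T) (H := H) (κ := κ)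
        (t := fun i => t (L i)) (l := atTop) (htt.comp hLt)
        (Eventually.of_forall fun i => htg' _) (fun φ h1 h2 => hw2 φ h1 h2)).eventually hY
    obtain ⟨i, hi⟩ := hbad.exists
    exact hL2 i hi
  obtain ⟨k₁, hk₁⟩ := eventually_atTop.1 hall
  -- the sequence of integrals is Cauchy
  have hcau : CauchySeq fun k => ∫ x, φ x ∂(N (t k)) := by
    rw [Metric.cauchySeq_iff]
    intro ε hε
    obtain ⟨k₀, hk₀⟩ := hsmall φ hφ hφc (ε / 2) (half_pos hε)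
    refine ⟨max k₀ k₁, fun a ha b hb => ?_⟩
    have key : ∀ a b, max k₀ k₁ ≤ a → a ≤ b →
        |∫ x, φ x ∂(N (t b)) - ∫ x, φ x ∂(N (t a))| < ε := by
      intro a b ha hab
      refine lt_of_le_of_lt (hk₀ a b ((le_max_left _ _).trans ha) hab fun j h1 h2 =>
        hk₁ j ((le_max_right _ _).trans (ha.trans h1))) (by linarith)
    rw [Real.dist_eq]
    rcases le_total a b with hab | hab
    · rw [abs_sub_comm]; exact key a b ha hab
    · exact key b a hb hab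
  obtain ⟨L, hL⟩ := cauchySeq_tendsto_of_complete hcau
  refine ⟨L, tendsto_of_approx fun ε hε => ?_⟩
  obtain ⟨S, hS0, hS⟩ := hslow.slow φ (hφ.of_le (by norm_num)) hφc h₀ hh ε hε
  refine ⟨fun s => ∫ x, φ x ∂(N (t ⌊(s - (s₀ + 1)) / h₀⌋₊)), L, hL.comp hidx2, ?_,
    by simpa using hε.le⟩
  filter_upwards [eventually_ge_atTop (S + h₀ + 1)] with s hs
  have h1 := hidx s (by linarith)
  rw [abs_le] at h1
  rcases le_total (t ⌊(s - (s₀ + 1)) / h₀⌋₊) s with h3 | h3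
  · exact hS _ _ (by linarith) h3 (by linarith)
  · rw [abs_sub_comm]
    exact hS _ _ (by linarith) h3 (by linarith)

/-- **Uniqueness of the tangent flow**, second order version: the family `V a` together with the
`Z a l` contains all the Jacobi fields, the cubic form is nondegenerate in the directions `Z`. -/
theorem Fam.unique2 [FiniteDimensional ℝ P] (hm : 0 < m) (hE : Module.finrank ℝ E = m + 1)
    (hF : Fam m V V' r c K q) (hK' : 0 ≤ K') {μ : ℝ → Measure E} (hμ : IsIntegralBrakkeFlow m μ)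
    (h0 : μ 0 univ < ⊤) (x₀ : E) {t₀ : ℝ} (ht : 0 < t₀)
    (hκ : (μH[m] : Measure E).restrict {x | V 0 x = 0} ∈ tangentSlices m μ x₀ t₀)
    (hinj : ∀ b : P, (∀ᵐ x ∂(μH[m] : Measure E).restrict {x | V 0 x = 0}, V' 0 b x = 0) → b = 0)
    (hZ : Sec k V' Z Q ((μH[m] : Measure E).restrict {x | V 0 x = 0}) r K' q')
    (hrf : ∀ (N : ℝ → Measure E) (T : ℝ → E → Submodule ℝ E) (H : ℝ → E → E) (s₀ : ℝ),
      RF m N T H s₀ → IsLocallyFiniteMeasure ((μH[m] : Measure E).restrict {x | V 0 x = 0}) →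
      ∃ (J : ℕ) (δ : ℝ), DynP m N T H s₀ c K q' J δ ∧ TgBd m N T H s₀ c K J ∧
        St m k N T H V V' Z Q ((μH[m] : Measure E).restrict {x | V 0 x = 0}) J) :
    TangentFlowUnique m μ x₀ t₀ := by
  obtain ⟨T, H, s₀, hRF⟩ := exists_RF hμ h0 x₀ ht
  obtain ⟨T', H', hB, -⟩ := A1.exists_BF_slice hμ
  have hslow := H552.slow_NN hB h0 x₀ ht
  set κ := (μH[m] : Measure E).restrict {x | V 0 x = 0} with hκd
  rw [H552.tangentSlices_eq hB h0 x₀ ht] at hκ
  rw [unique_iff hB h0 x₀ ht, H552.tangentSlices_eq hB h0 x₀ ht]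
  obtain ⟨hlf, τ, hτ, hτκ⟩ := hκ
  have hWt := hF.tube 0 (by simpa using hF.rpos.le)
  set s₁ := max s₀ (2 * H552.tau0 t₀) with hs₁
  have hslow' : Slow (fun s => NN m μ x₀ t₀ (s / 2)) s₁ := by
    constructor
    · intro K hK
      obtain ⟨C, hC⟩ := hslow.bdd K hK
      refine ⟨C, fun τ hτ => hC _ ?_⟩
      have := (le_max_right s₀ (2 * H552.tau0 t₀)).trans hτ
      linarith
    · intro φ hφ hφc h hh ε hε
      obtain ⟨S, hS0, hS⟩ := hslow.slow φ hφ hφc (h / 2) (half_pos hh) ε hε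
      refine ⟨max s₁ (2 * S), le_max_left _ _, fun τ τ' h1 h2 h3 => hS _ _ ?_ ?_ ?_⟩
      · have := (le_max_right s₁ (2 * S)).trans h1
        linarith
      · linarith
      · linarith
  have hseq : ∃ τ : ℕ → ℝ, Tendsto τ atTop atTop ∧
      WeakTendsto (fun i => NN m μ x₀ t₀ (τ i / 2)) κ := by
    refine ⟨fun i => 2 * τ i, hτ.const_mul_atTop two_pos, ?_⟩
    have e : ∀ i, 2 * τ i / 2 = τ i := fun i => by ring
    simp_rw [e]
    exact hτκ
  have hV0 : ∀ᵐ x ∂κ, V 0 x = 0 := by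
    rw [hκd]
    exact ae_restrict_mem (isClosed_eq hWt.cont continuous_const).measurableSet
  have hRF' := hRF.later (le_max_left s₀ (2 * H552.tau0 t₀))
  obtain ⟨J, δ, hdyn, htg, hSt⟩ := hrf _ T H s₁ hRF' hlf
  refine limitSet_subsingleton hslow fun φ hφ hφc => ?_
  obtain ⟨L, hL⟩ := hRF'.converge2 hm hE hslow' hF hZ hK' hSt hdyn htg hV0 hseq hinj hφ hφc
  refine ⟨L, ?_⟩
  have h2 := hL.comp (tendsto_id.const_mul_atTop (two_pos : (0 : ℝ) < 2))
  refine h2.congr fun τ => ?_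
  simp only [Function.comp, id]
  have e : 2 * τ / 2 = τ := by ring
  rw [e]

end Vale.Agent.P218.H313
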