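import Vale.Agent.P218.H313.Sec

/-! Second order: one step of the discrete gradient flow. -/

open MeasureTheory Set Filter Topology Metric
open scoped ENNReal NNReal RealInnerProductSpace CompactlySupported

namespace Vale.Agent.P218.H313

set_option linter.unusedSectionVars false
set_option linter.unusedVariables false

variable {E : Type*} [NormedAddCommGroup E] [InnerProductSpace ℝ E] [FiniteDimensional ℝ E]
  [MeasurableSpace E] [BorelSpace E]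
variable {P : Type*} [NormedAddCommGroup P] [NormedSpace ℝ P]
variable {m k : ℕ} {N : ℝ → Measure E} {T : ℝ → E → Submodule ℝ E} {H : ℝ → E → E}
  {s₀ r c K K' δ : ℝ} {q q' J : ℕ} {κ : Measure E}
  {V : P → E → ℝ} {V' : P → P →ₗ[ℝ] (E → ℝ)} {Z : P → LS k →ₗ[ℝ] (E → ℝ)}
  {Q : LS k →ₗ[ℝ] LS k →ₗ[ℝ] LS k →ₗ[ℝ] ℝ}

lemma Sec.pgZ (hZ : Sec k V' Z Q κ r K' q') {a : P} (ha : ‖a‖ ≤ r) (l : LS k) : PG (Z a l) where
  cd := hZ.sm a ha l
  b0 := PB.of_le (C := K' * ‖l‖) (p := q') fun x => by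
    rw [Real.norm_eq_abs]
    refine (hZ.b0 a ha l x).trans (le_of_eq (by ring))
  b1 := PB.of_le (C := K' * ‖l‖) (p := q') fun x => by
    rw [← norm_grad]
    refine (hZ.b1 a ha l x).trans (le_of_eq (by ring))

lemma Sec.pgψ (hF : Fam m V V' r c K q) (hZ : Sec k V' Z Q κ r K' q') {a : P} (ha : ‖a‖ ≤ r)
    (l : LS k) : PG (fun x => V a x * Z a l x) := (hF.tube a ha).pg.mul (hZ.pgZ ha l)

section static

variable {μ : Measure E} {T₀ : E → Submodule ℝ E} {H₀ : E → E}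

lemma inner_al (hS : GSlice m μ T₀ H₀) (hF : Fam m V V' r c K q)
    (hZ : Sec k V' Z Q κ r K' q') {a : P} (ha : ‖a‖ ≤ r) (l : LS k) :
    ⟪al μ V Z a, l⟫ = ∫ x, V a x * Z a l x * rho x ∂μ := by
  have e1 : ∀ x, V a x * Z a l x * rho x
      = ∑ i, l i * (V a x * Z a (Cubic.eb i) x * rho x) := by
    intro x
    conv_lhs => rw [← Cubic.sum_eb l]
    simp only [map_sum, map_smul, Finset.sum_apply, Pi.smul_apply, smul_eq_mul, Finset.mul_sum,
      Finset.sum_mul]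
    refine Finset.sum_congr rfl fun i _ => by ring
  simp_rw [e1]
  rw [integral_finsetSum]
  · simp only [integral_const_mul]
    simp only [al, PiLp.inner_apply, RCLike.inner_apply, conj_trivial]
  · intro i _
    exact (hS.integrable_PB (hZ.pgψ hF ha _).cont.aestronglyMeasurable
      (hZ.pgψ hF ha _).b0).const_mul _

lemma abs_int_mul_le (hS : GSlice m μ T₀ H₀) {W : E → ℝ} (hW : TubeD W c K) {f : E → ℝ}
    (hf : AEStronglyMeasurable f μ) {A M : ℝ} {p : ℕ} (hA : 0 ≤ A)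
    (hb : ∀ x, |f x| ≤ A * (1 + ‖x‖) ^ p) (hM : ∫ x, (1 + ‖x‖) ^ (2 * p) * rho x ∂μ ≤ M) :
    |∫ x, W x * f x * rho x ∂μ| ≤ A * √M * √(DD μ W 0) := by
  have j1 : Integrable (fun x => |W x| ^ 2 * rho x) μ :=
    hS.integrable_PB (hW.cont.norm.pow 2).aestronglyMeasurable (hW.pg.b0.norm.pow 2)
  have j2 : Integrable (fun x => ((1 + ‖x‖) ^ p) ^ 2 * rho x) μ := by
    have := hS.mom (2 * p)
    simpa [← pow_mul, mul_comm p 2] using this
  have hpq : PB (fun x : E => (1 + ‖x‖) ^ p) := PB.of_le (C := 1) (p := p) fun x => by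
    rw [Real.norm_of_nonneg (by positivity), one_mul]
  have hcq : Continuous (fun x : E => (1 + ‖x‖) ^ p) :=
    (continuous_const.add continuous_norm).pow p
  have j3 : Integrable (fun x => |W x| * (1 + ‖x‖) ^ p * rho x) μ :=
    hS.integrable_PB (hW.cont.norm.mul hcq).aestronglyMeasurable (hW.pg.b0.norm.mul hpq)
  have cs := abs_integral_mul_le (fun x => (rho_pos x).le) j1 j2 j3
  have e1 : ∫ x, |W x| ^ 2 * rho x ∂μ = DD μ W 0 := by
    rw [DD_zero_eq]; simp_rw [sq_abs]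
  have e2 : ∫ x, ((1 + ‖x‖) ^ p) ^ 2 * rho x ∂μ ≤ M := by
    refine le_trans (le_of_eq ?_) hM
    congr 1; ext x
    rw [← pow_mul, mul_comm p 2]
  rw [e1] at cs
  have e4 : ‖∫ x, W x * f x * rho x ∂μ‖ ≤ A * ∫ x, |W x| * (1 + ‖x‖) ^ p * rho x ∂μ := by
    rw [← integral_const_mul]
    refine norm_integral_le_of_norm_le (j3.const_mul _) (Eventually.of_forall fun x => ?_)
    rw [norm_mul, norm_mul, Real.norm_of_nonneg (rho_pos x).le, Real.norm_eq_abs,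
      Real.norm_eq_abs]
    have h5 := rho_pos x
    have h6 := hb x
    calc |W x| * |f x| * rho x ≤ |W x| * (A * (1 + ‖x‖) ^ p) * rho x := by gcongr
      _ = _ := by ring
  rw [← Real.norm_eq_abs]
  refine e4.trans ?_
  have e5 := (le_abs_self _).trans cs
  have e6 : √(∫ x, ((1 + ‖x‖) ^ p) ^ 2 * rho x ∂μ) ≤ √M := Real.sqrt_le_sqrt e2
  calc A * ∫ x, |W x| * (1 + ‖x‖) ^ p * rho x ∂μ
      ≤ A * (√(DD μ W 0) * √M) := by
        refine mul_le_mul_of_nonneg_left (e5.trans ?_) hA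
        gcongr
    _ = _ := by ring

lemma norm_al_le (hS : GSlice m μ T₀ H₀) (hF : Fam m V V' r c K q)
    (hZ : Sec k V' Z Q κ r K' q') (hK' : 0 ≤ K') {a : P} (ha : ‖a‖ ≤ r) {M : ℝ}
    (hM : ∫ x, (1 + ‖x‖) ^ (2 * q') * rho x ∂μ ≤ M) :
    ‖al μ V Z a‖ ≤ K' * √M * √(DD μ (V a) 0) := by
  rcases (norm_nonneg (al μ V Z a)).eq_or_lt with h0 | h0
  · rw [← h0]; positivity
  have h1 := abs_int_mul_le hS (hF.tube a ha) (f := Z a (al μ V Z a))
    (hZ.pgZ ha _).cont.aestronglyMeasurable (A := K' * ‖al μ V Z a‖) (p := q') (by positivity)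
    (fun x => (hZ.b0 a ha _ x).trans (le_of_eq (by ring))) hM
  rw [← inner_al hS hF hZ ha, real_inner_self_eq_norm_sq, abs_of_nonneg (by positivity)] at h1
  have h2 : ‖al μ V Z a‖ * ‖al μ V Z a‖ ≤ (K' * √M * √(DD μ (V a) 0)) * ‖al μ V Z a‖ := by
    nlinarith
  exact le_of_mul_le_mul_right h2 h0

lemma DD_mono (hS : GSlice m μ T₀ H₀) {W : E → ℝ} (hW : TubeD W c K) {i j : ℕ} (hij : i ≤ j) :
    DD μ W i ≤ DD μ W j := by
  refine integral_mono (hS.int_DD hW i) (hS.int_DD hW j) fun x => ?_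
  have h1 := rho_pos x
  have h2 : wt i x ≤ wt j x := pow_le_pow_right₀ (by nlinarith [sq_nonneg ‖x‖]) hij
  simp only
  change W x ^ 2 * wt i x * rho x ≤ W x ^ 2 * wt j x * rho x
  gcongr

end static

/-- drift of the gauge functionals -/
lemma gf_drift (hF : Fam m V V' r c K q) (hdyn : DynP m N T H s₀ c K q' J δ) :
    ∃ C : ℝ, 0 ≤ C ∧ ∀ (t u : ℝ) (a : P), ‖a‖ ≤ r → s₀ + 1 ≤ t → t ≤ u → u ≤ t + δ →
      (∀ b, GF (N t) V V' a b = 0) → ∀ b, |GF (N u) V V' a b|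
        ≤ C * (DD (N t) (V a) 0 + (FA (N (t - 1)) - FA (N u))) * ‖b‖ := by
  obtain ⟨C, hC, hd⟩ := hdyn.drift
  have hK := hF.Knn
  refine ⟨C * K, by positivity, fun t u a ha ht htu hu hcrit b => ?_⟩
  have h1 := hd (V a) (hF.tube a ha) (fun x => V a x * V' a b x) (K * ‖b‖) (by positivity)
    (hF.pgψ ha b) (hF.bound_ψ ha b) (fun μ T H hS => hF.drift a ha b μ T H hS) t u ht htu hu
  have h2 : ∫ x, V a x * V' a b x * rho x ∂(N t) = 0 := hcrit b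
  rw [h2, sub_zero] at h1
  refine h1.trans (le_of_eq ?_)
  ring

/-- the integrated form of a bound for the rates -/
lemma al_core (h : RF m N T H s₀) (hF : Fam m V V' r c K q) (hZ : Sec k V' Z Q κ r K' q')
    (hK' : 0 ≤ K') (hdyn : DynP m N T H s₀ c K q' J δ) {ε : ℝ} (hε : 0 < ε) :
    ∃ C : ℝ, 0 ≤ C ∧ ∀ (t u : ℝ) (a : P), ‖a‖ ≤ r → s₀ + 1 ≤ t → t ≤ u → u ≤ t + δ →
      GSlice m (N t) (T t) (H t) → GSlice m (N u) (T u) (H u) →
      ∀ (G : ℝ → ℝ) (θ ε₁ C₁ : ℝ) (v : LS k), IntervalIntegrable G volume t u →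
      0 ≤ ∫ s in t..u, G s → 0 ≤ θ → 0 ≤ ε₁ → 0 ≤ C₁ →
      (∀ᵐ s ∂(volume.restrict (Icc t u)), GSlice m (N s) (T s) (H s) → ∀ l : LS k,
        |EE (N s) (T s) (H s) (fun y => V a y * Z a l y) - ⟪v, l⟫|
          ≤ ‖l‖ * (θ + ε₁ * G s + C₁ * dis (N s) (T s) (H s))) →
      ‖al (N u) V Z a - al (N t) V Z a - (u - t) • v‖
        ≤ (u - t) * θ + ε₁ * (∫ s in t..u, G s) + C₁ * (FA (N (t - 1)) - FA (N u))
          + K' * (ε * DD (N t) (V a) 0 + C * (FA (N (t - 1)) - FA (N u))) := by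
  obtain ⟨C, hC, hd⟩ := hdyn.dyn ε hε
  refine ⟨C, hC, fun t u a ha ht htu hu hSt hSu G θ ε₁ C₁ v hG hG0 hθ hε₁ hC₁ hae => ?_⟩
  set w := al (N u) V Z a - al (N t) V Z a - (u - t) • v with hw
  obtain ⟨d1, d2⟩ := h.dis_int (a := t) (b := u) (by linarith) htu
  have hFA := h.FA_anti (a := t - 1) (b := t) (by linarith) (by linarith)
  have hΘ : IntervalIntegrable (fun s => ‖w‖ * (θ + ε₁ * G s + C₁ * dis (N s) (T s) (H s)))
      volume t u :=
    ((intervalIntegrable_const.add (hG.const_mul _)).add (d1.const_mul _)).const_mul _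
  have h1 := hd (V a) (hF.tube a ha) (fun x => V a x * Z a w x) (K' * ‖w‖) (by positivity)
    (hZ.pgψ hF ha w) (fun x => by
      rw [abs_mul]
      have := hZ.b0 a ha w x
      calc |V a x| * |Z a w x| ≤ |V a x| * (K' * (1 + ‖x‖) ^ q' * ‖w‖) := by gcongr
        _ = _ := by ring) t u ht htu hu ⟪v, w⟫ _ hΘ
    (by filter_upwards [hae] with s hs hsl using hs hsl w)
  have h2 : ∫ x, V a x * Z a w x * rho x ∂(N u) - ∫ x, V a x * Z a w x * rho x ∂(N t)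
      - (u - t) * ⟪v, w⟫ = ‖w‖ ^ 2 := by
    rw [← inner_al hSu hF hZ ha, ← inner_al hSt hF hZ ha, ← real_inner_self_eq_norm_sq w]
    conv_rhs => rw [hw]
    rw [← hw, inner_sub_left, inner_sub_left, real_inner_smul_left]
  rw [h2, abs_of_nonneg (by positivity)] at h1
  have h3 : ∫ s in t..u, ‖w‖ * (θ + ε₁ * G s + C₁ * dis (N s) (T s) (H s))
      = ‖w‖ * ((u - t) * θ + ε₁ * (∫ s in t..u, G s)
        + C₁ * ∫ s in t..u, dis (N s) (T s) (H s)) := by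
    rw [intervalIntegral.integral_const_mul, intervalIntegral.integral_add
      (intervalIntegrable_const.add (hG.const_mul _)) (d1.const_mul _),
      intervalIntegral.integral_add intervalIntegrable_const (hG.const_mul _),
      intervalIntegral.integral_const, intervalIntegral.integral_const_mul,
      intervalIntegral.integral_const_mul, smul_eq_mul]
  rw [h3] at h1
  have h4 : C₁ * ∫ s in t..u, dis (N s) (T s) (H s) ≤ C₁ * (FA (N (t - 1)) - FA (N u)) :=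
    mul_le_mul_of_nonneg_left (by linarith) hC₁
  set R := (u - t) * θ + ε₁ * (∫ s in t..u, G s) + C₁ * (FA (N (t - 1)) - FA (N u))
          + K' * (ε * DD (N t) (V a) 0 + C * (FA (N (t - 1)) - FA (N u))) with hR
  rcases (norm_nonneg w).eq_or_lt with h0 | h0
  · rw [← h0]
    have h6 := h.FA_anti (a := t) (b := u) (by linarith) htu
    have h7 := DD_nonneg (μ := N t) (W := V a) 0
    have h8 : 0 ≤ FA (N (t - 1)) - FA (N u) := by linarith
    have h9 : 0 ≤ u - t := by linarith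
    positivity
  · have h5 : ‖w‖ * ‖w‖ ≤ R * ‖w‖ := by
      calc ‖w‖ * ‖w‖ = ‖w‖ ^ 2 := by ring
        _ ≤ _ := h1
        _ ≤ ‖w‖ * ((u - t) * θ + ε₁ * (∫ s in t..u, G s) + C₁ * (FA (N (t - 1)) - FA (N u)))
          + K' * ‖w‖ * (ε * DD (N t) (V a) 0 + C * (FA (N (t - 1)) - FA (N u))) := by gcongr
        _ = R * ‖w‖ := by rw [hR]; ring
    exact le_of_mul_le_mul_right h5 h0

/-- first order bound for the motion of the coordinates -/
theorem exists_first (h : RF m N T H s₀) (hslow : Slow N s₀) (hF : Fam m V V' r c K q)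
    (hZ : Sec k V' Z Q κ r K' q') (hK' : 0 ≤ K') (hSt : St m k N T H V V' Z Q κ J)
    (hdyn : DynP m N T H s₀ c K q' J δ) :
    ∃ C : ℝ, 0 ≤ C ∧ ∃ ρ : ℝ, 0 < ρ ∧ ρ ≤ r ∧ ∀ᶠ t in nearF m N T H κ, ∀ a : P, ‖a‖ ≤ ρ →
      (∀ b, GF (N t) V V' a b = 0) → ∀ u, t ≤ u → u ≤ t + δ → GSlice m (N u) (T u) (H u) →
      DD (N t) (V a) 0 + (FA (N (t - 1)) - FA (N u)) ≤ 1 →
      ‖al (N u) V Z a - al (N t) V Z a‖
        ≤ C * (DD (N t) (V a) 0 + (FA (N (t - 1)) - FA (N u))) := by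
  have hK := hF.Knn
  obtain ⟨Cg, hCg, hg⟩ := gf_drift hF hdyn
  obtain ⟨Cr, hCr, hr⟩ := hSt.rate 1 one_pos
  obtain ⟨Cy, hCy, hcore⟩ := al_core h hF hZ hK' hdyn one_pos
  obtain ⟨Cb, hCb, hbd⟩ := hdyn.bd
  obtain ⟨M, hM⟩ := h.moment (2 * q')
  obtain ⟨B, hB, hQB⟩ := Cubic.exists_bound Q
  have hM0 : 0 ≤ M := (integral_nonneg fun x => mul_nonneg (by positivity) (rho_pos x).le).trans
    (hM s₀ le_rfl).2
  obtain ⟨pa, hpa, pb, hpb, hpab⟩ := eventually_prod_iff.1 hr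
  obtain ⟨ρ₀, hρ₀, hpb'⟩ := Metric.eventually_nhds_iff.1 hpb
  set Ca := (K' * √M) ^ 2 with hCa
  refine ⟨(B * Ca * Cb + Cb + Cr * Cg ^ 2) + Cb + Cr + K' * (1 + Cy), by positivity,
    min r (ρ₀ / 2), lt_min hF.rpos (by positivity), min_le_left _ _, ?_⟩
  filter_upwards [nearF_window hslow hpa hdyn.pos, nearF_sl,
    nearF_atTop (eventually_ge_atTop (s₀ + 1))] with t hwin hSt' ht1 a ha hcrit u htu hu hSu hX1
  have har : ‖a‖ ≤ r := ha.trans (min_le_left _ _)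
  have hpba : pb a := hpb' (by
    rw [dist_zero_right]
    exact lt_of_le_of_lt (ha.trans (min_le_right _ _)) (by linarith))
  set X := DD (N t) (V a) 0 + (FA (N (t - 1)) - FA (N u)) with hX
  obtain ⟨hb1, G, hG1, hG2, hG3⟩ := hbd (V a) (hF.tube a har) t u ht1 htu hu
  have hF1 := h.FA_anti (a := t - 1) (b := t) (by linarith) (by linarith)
  have hF2 := h.FA_anti (a := t) (b := u) (by linarith) htu
  have hD0 := DD_nonneg (μ := N t) (W := V a) 0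
  have hX0 : 0 ≤ X := by rw [hX]; linarith
  have hG0 : 0 ≤ ∫ s in t..u, G s := by
    refine intervalIntegral.integral_nonneg_of_ae_restrict htu ?_
    filter_upwards [hG2] with s hs
    exact (TG_nonneg (μ := N s) (T := T s) (W := V a) J).trans hs.2
  have key := hcore t u a har ht1 htu hu hSt' hSu G ((B * Ca * Cb + Cb + Cr * Cg ^ 2) * X) 1 Cr 0
    hG1 hG0 (by positivity) zero_le_one hCr (by
      filter_upwards [hG2, ae_restrict_mem measurableSet_Icc] with s hs hs' hsl l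
      have hsl1 : |s - t| ≤ δ := by
        rw [abs_le]
        constructor <;> linarith [hs'.1, hs'.2, hdyn.pos]
      have hps := hwin s hsl1 hsl
      have hgs : ∀ b, |GF (N s) V V' a b| ≤ (Cg * X) * ‖b‖ := by
        intro b
        refine (hg t s a har ht1 hs'.1 (hs'.2.trans hu) hcrit b).trans ?_
        have h1 := h.FA_anti (a := s) (b := u) (by linarith [hs'.1]) hs'.2
        have h2 : DD (N t) (V a) 0 + (FA (N (t - 1)) - FA (N s)) ≤ X := by rw [hX]; linarith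
        gcongr
      have h1 := hpab hps hpba (Cg * X) (by positivity) hgs l
      simp only at h1
      have h2 := norm_al_le hsl hF hZ hK' har (hM s (by linarith [hs'.1])).2
      have h3 : ‖al (N s) V Z a‖ ^ 2 ≤ Ca * (Cb * X) := by
        have h4 : ‖al (N s) V Z a‖ ^ 2 ≤ (K' * √M * √(DD (N s) (V a) 0)) ^ 2 := by gcongr
        rw [mul_pow, Real.sq_sqrt (DD_nonneg 0)] at h4
        refine h4.trans ?_
        have h5 := (DD_mono hsl (hF.tube a har) (Nat.zero_le J)).trans (hb1 s hs')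
        gcongr
      have h4 : |Q (al (N s) V Z a) (al (N s) V Z a) l| ≤ B * (Ca * (Cb * X)) * ‖l‖ := by
        refine (hQB _ _ _).trans ?_
        calc B * ‖al (N s) V Z a‖ * ‖al (N s) V Z a‖ * ‖l‖
            = B * ‖al (N s) V Z a‖ ^ 2 * ‖l‖ := by ring
          _ ≤ _ := by gcongr
      have h5 : (Cg * X) ^ 2 ≤ Cg ^ 2 * X := by
        rw [mul_pow]
        have : X ^ 2 ≤ X := by nlinarith
        gcongr
      rw [inner_zero_left, sub_zero]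
      have h6 := abs_sub_abs_le_abs_sub (EE (N s) (T s) (H s) (fun y => V a y * Z a l y))
        (Q (al (N s) V Z a) (al (N s) V Z a) l)
      have h7 : ‖l‖ * (1 * (DD (N s) (V a) J + TG (N s) (T s) (V a) J)
          + Cr * (dis (N s) (T s) (H s) + (Cg * X) ^ 2))
          ≤ ‖l‖ * ((Cb * X + G s) + Cr * (dis (N s) (T s) (H s) + Cg ^ 2 * X)) := by
        rw [one_mul]
        have h8 := hb1 s hs'
        have h9 := hs.2
        gcongr
      have h8 : ‖l‖ * ((B * Ca * Cb + Cb + Cr * Cg ^ 2) * X + 1 * G s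
          + Cr * dis (N s) (T s) (H s)) = B * (Ca * (Cb * X)) * ‖l‖
            + ‖l‖ * ((Cb * X + G s) + Cr * (dis (N s) (T s) (H s) + Cg ^ 2 * X)) := by ring
      rw [h8]
      linarith)
  rw [smul_zero, sub_zero] at key
  refine key.trans ?_
  have hδ : u - t ≤ 1 := by linarith [hdyn.one]
  have hΔ : FA (N (t - 1)) - FA (N u) ≤ X := by rw [hX]; linarith
  have hDX : DD (N t) (V a) 0 ≤ X := by rw [hX]; linarith
  have hΔ0 : 0 ≤ FA (N (t - 1)) - FA (N u) := by linarith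
  have k1 : (u - t) * ((B * Ca * Cb + Cb + Cr * Cg ^ 2) * X)
      ≤ 1 * ((B * Ca * Cb + Cb + Cr * Cg ^ 2) * X) := by gcongr
  have k2 : 1 * (∫ s in t..u, G s) ≤ Cb * X := by rw [one_mul]; exact hG3
  have k3 : Cr * (FA (N (t - 1)) - FA (N u)) ≤ Cr * X := by gcongr
  have k4 : K' * (1 * DD (N t) (V a) 0 + Cy * (FA (N (t - 1)) - FA (N u)))
      ≤ K' * (1 * X + Cy * X) := by gcongr
  calc _ ≤ 1 * ((B * Ca * Cb + Cb + Cr * Cg ^ 2) * X) + Cb * X + Cr * X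
        + K' * (1 * X + Cy * X) := by linarith
    _ = _ := by ring

lemma abs_Q_sub_le {B : ℝ} (hQB : ∀ x y z : LS k, |Q x y z| ≤ B * ‖x‖ * ‖y‖ * ‖z‖)
    (x y l : LS k) : |Q x x l - Q y y l| ≤ B * (‖x‖ + ‖y‖) * ‖x - y‖ * ‖l‖ := by
  have e : Q x x l - Q y y l = Q (x - y) x l + Q y (x - y) l := by
    simp only [map_sub, LinearMap.sub_apply]; ring
  rw [e]
  refine (abs_add_le _ _).trans ((add_le_add (hQB _ _ _) (hQB _ _ _)).trans (le_of_eq ?_))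
  ring

lemma step_arith1 {E₀ q₁ q₂ L ε D T₀ Cr d g Cb X G : ℝ} (hL : 0 ≤ L) (hε : 0 ≤ ε)
    (h1 : |E₀ - q₁| ≤ L * (ε * (D + T₀) + Cr * (d + g ^ 2))) (h2 : D ≤ Cb * X) (h3 : T₀ ≤ G)
    (h4 : Cr * g ^ 2 ≤ ε * X) (h5 : |q₁ - q₂| ≤ L * (ε * X)) :
    |E₀ - q₂| ≤ L * ((ε * Cb + 2 * ε) * X + ε * G + Cr * d) := by
  have h7 : L * (ε * (D + T₀) + Cr * (d + g ^ 2)) ≤ L * (ε * (Cb * X + G) + (Cr * d + ε * X)) := by
    refine mul_le_mul_of_nonneg_left ?_ hL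
    have h10 : ε * (D + T₀) ≤ ε * (Cb * X + G) := by gcongr
    linarith
  have h8 := abs_sub_le E₀ q₁ q₂
  have h9 : L * ((ε * Cb + 2 * ε) * X + ε * G + Cr * d)
      = L * (ε * (Cb * X + G) + (Cr * d + ε * X)) + L * (ε * X) := by ring
  rw [h9]
  linarith

lemma step_arith2 {τ ε Cb X I Cr Δ K' D Cy η : ℝ} (hτ : τ ≤ 1) (hε : 0 ≤ ε) (hCb : 0 ≤ Cb)
    (hX0 : 0 ≤ X) (hI : I ≤ Cb * X) (hX : X = D + Δ) (hD : 0 ≤ D)
    (hη : ε * (2 * Cb + 2 + K' + 1) = η) :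
    τ * ((ε * Cb + 2 * ε) * X) + ε * I + Cr * Δ + K' * (ε * D + Cy * Δ)
      ≤ η * D + (ε * (2 * Cb + 2) + Cr + K' * Cy) * Δ := by
  have k0 : 0 ≤ (ε * Cb + 2 * ε) * X := by positivity
  have k1 : τ * ((ε * Cb + 2 * ε) * X) ≤ 1 * ((ε * Cb + 2 * ε) * X) := by gcongr
  have k2 : ε * I ≤ ε * (Cb * X) := by gcongr
  have k3 : ε * (2 * Cb + 2 + K') * D ≤ η * D := by
    have h1 : ε * (2 * Cb + 2 + K') ≤ η := by nlinarith
    gcongr
  calc _ ≤ 1 * ((ε * Cb + 2 * ε) * X) + ε * (Cb * X) + Cr * Δ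
        + K' * (ε * D + Cy * Δ) := by linarith
    _ = ε * (2 * Cb + 2 + K') * D + (ε * (2 * Cb + 2) + Cr + K' * Cy) * Δ := by
        rw [hX]; ring
    _ ≤ _ := by linarith

lemma step_sigma {ε Cr Cg B Cf Ca Cb : ℝ} (hε0 : 0 < ε) (hCr : 0 ≤ Cr) (hCg : 0 ≤ Cg)
    (hB : 0 ≤ B) (hCf : 0 ≤ Cf) (hCa0 : 0 ≤ Ca) (hCb : 0 ≤ Cb) : ∃ σ : ℝ, 0 < σ ∧ σ ≤ 1 ∧
    (∀ X, 0 ≤ X → X ≤ σ → Cr * (Cg * X) ^ 2 ≤ ε * X) ∧
    (∀ X, 0 ≤ X → X ≤ σ → 2 * B * Cf * √(Ca * Cb * X) ≤ ε) := by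
  refine ⟨min 1 (min (ε / (Cr * Cg ^ 2 + 1))
    (ε ^ 2 / ((2 * B * Cf) ^ 2 * (Ca * Cb) + 1))), lt_min one_pos (lt_min (by positivity)
      (by positivity)), min_le_left _ _, fun X hX0 hX => ?_, fun X hX0 hX => ?_⟩
  · have h1 := hX.trans ((min_le_right _ _).trans (min_le_left _ _))
    rw [le_div_iff₀ (by positivity)] at h1
    have h2 : Cr * Cg ^ 2 * X ≤ ε := by nlinarith
    calc Cr * (Cg * X) ^ 2 = Cr * Cg ^ 2 * X * X := by ring
      _ ≤ ε * X := by gcongr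
  · have h1 := hX.trans ((min_le_right _ _).trans (min_le_right _ _))
    rw [le_div_iff₀ (by positivity)] at h1
    have h2 : (2 * B * Cf * √(Ca * Cb * X)) ^ 2 ≤ ε ^ 2 := by
      rw [mul_pow, Real.sq_sqrt (by positivity)]
      nlinarith
    exact le_of_sq_le_sq h2 hε0.le

/-- the estimate of the rates on the window -/
lemma step_rates (h : RF m N T H s₀) (hslow : Slow N s₀) (hF : Fam m V V' r c K q)
    (hZ : Sec k V' Z Q κ r K' q') (hK' : 0 ≤ K') (hSt : St m k N T H V V' Z Q κ J)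
    (hdyn : DynP m N T H s₀ c K q' J δ) : ∃ Cb : ℝ, 0 ≤ Cb ∧ ∀ ε : ℝ, 0 < ε →
    ∃ Cr : ℝ, 0 ≤ Cr ∧ ∃ ρ : ℝ, 0 < ρ ∧ ρ ≤ r ∧ ∃ σ : ℝ, 0 < σ ∧ σ ≤ 1 ∧
      ∀ᶠ t in nearF m N T H κ, ∀ a : P, ‖a‖ ≤ ρ →
      (∀ b, GF (N t) V V' a b = 0) → ∀ u, t ≤ u → u ≤ t + δ →
      DD (N t) (V a) 0 + (FA (N (t - 1)) - FA (N u)) ≤ σ →
      ∃ G : ℝ → ℝ, IntervalIntegrable G volume t u ∧ 0 ≤ ∫ s in t..u, G s ∧
        ∫ s in t..u, G s ≤ Cb * (DD (N t) (V a) 0 + (FA (N (t - 1)) - FA (N u))) ∧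
        ∀ᵐ s ∂(volume.restrict (Icc t u)), GSlice m (N s) (T s) (H s) → ∀ l : LS k,
        |EE (N s) (T s) (H s) (fun y => V a y * Z a l y) - Q (al (N t) V Z a) (al (N t) V Z a) l|
          ≤ ‖l‖ * ((ε * Cb + 2 * ε) * (DD (N t) (V a) 0 + (FA (N (t - 1)) - FA (N u)))
            + ε * G s + Cr * dis (N s) (T s) (H s)) := by
  have hK := hF.Knn
  obtain ⟨Cf, hCf, ρ₁, hρ₁, hρ₁r, hfirst⟩ := exists_first h hslow hF hZ hK' hSt hdyn
  obtain ⟨Cg, hCg, hg⟩ := gf_drift hF hdyn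
  obtain ⟨Cb, hCb, hbd⟩ := hdyn.bd
  obtain ⟨M, hM⟩ := h.moment (2 * q')
  obtain ⟨B, hB, hQB⟩ := Cubic.exists_bound Q
  have hM0 : 0 ≤ M := (integral_nonneg fun x => mul_nonneg (by positivity) (rho_pos x).le).trans
    (hM s₀ le_rfl).2
  refine ⟨Cb, hCb, fun ε hε0 => ?_⟩
  obtain ⟨Cr, hCr, hr⟩ := hSt.rate ε hε0
  obtain ⟨pa, hpa, pb, hpb, hpab⟩ := eventually_prod_iff.1 hr
  obtain ⟨ρ₀, hρ₀, hpb'⟩ := Metric.eventually_nhds_iff.1 hpb
  obtain ⟨Ca, hCa⟩ : ∃ Ca, Ca = (K' * √M) ^ 2 := ⟨_, rfl⟩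
  have hCa0 : 0 ≤ Ca := by rw [hCa]; positivity
  obtain ⟨σ, hσ0, hσ1, hσ2, hσ3⟩ := step_sigma hε0 hCr hCg hB hCf hCa0 hCb
  refine ⟨Cr, hCr, min ρ₁ (ρ₀ / 2), lt_min hρ₁ (by positivity), (min_le_left _ _).trans hρ₁r,
    σ, hσ0, hσ1, ?_⟩
  filter_upwards [nearF_window hslow hpa hdyn.pos, nearF_sl, hfirst,
    nearF_atTop (eventually_ge_atTop (s₀ + 1))] with t hwin hSt' hfst ht1 a ha hcrit u htu hu hXσ
  have ha1 : ‖a‖ ≤ ρ₁ := ha.trans (min_le_left _ _)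
  have har : ‖a‖ ≤ r := ha1.trans hρ₁r
  have hpba : pb a := hpb' (by
    rw [dist_zero_right]
    exact lt_of_le_of_lt (ha.trans (min_le_right _ _)) (by linarith))
  have hF1 := h.FA_anti (a := t - 1) (b := t) (by linarith) (by linarith)
  have hF2 := h.FA_anti (a := t) (b := u) (by linarith) htu
  have hD0 := DD_nonneg (μ := N t) (W := V a) 0
  obtain ⟨X, hX⟩ : ∃ X, X = DD (N t) (V a) 0 + (FA (N (t - 1)) - FA (N u)) := ⟨_, rfl⟩
  have hX0 : 0 ≤ X := by rw [hX]; linarith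
  obtain ⟨hb1, G, hG1, hG2, hG3⟩ := hbd (V a) (hF.tube a har) t u ht1 htu hu
  rw [← hX] at hXσ hb1 hG3 ⊢
  have hX1 : X ≤ 1 := hXσ.trans hσ1
  have hG0 : 0 ≤ ∫ s in t..u, G s := by
    refine intervalIntegral.integral_nonneg_of_ae_restrict htu ?_
    filter_upwards [hG2] with s hs
    exact (TG_nonneg (μ := N s) (T := T s) (W := V a) J).trans hs.2
  have hal : ∀ s ∈ Icc t u, GSlice m (N s) (T s) (H s) →
      ‖al (N s) V Z a‖ ≤ √(Ca * Cb * X) := by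
    intro s hs' hsl
    have h2 := norm_al_le hsl hF hZ hK' har (hM s (by linarith [hs'.1])).2
    refine h2.trans ?_
    rw [← Real.sqrt_sq (by positivity : 0 ≤ K' * √M), ← Real.sqrt_mul (by positivity), ← hCa,
      mul_assoc]
    refine Real.sqrt_le_sqrt (mul_le_mul_of_nonneg_left ?_ hCa0)
    exact (DD_mono hsl (hF.tube a har) (Nat.zero_le J)).trans (hb1 s hs')
  have hkey2 : 2 * B * Cf * √(Ca * Cb * X) ≤ ε := hσ3 X hX0 hXσ
  refine ⟨G, hG1, hG0, hG3, ?_⟩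
  filter_upwards [hG2, ae_restrict_mem measurableSet_Icc] with s hs hs' hsl l
  have hsl1 : |s - t| ≤ δ := by
    rw [abs_le]
    constructor <;> linarith [hs'.1, hs'.2, hdyn.pos]
  have hΔs : DD (N t) (V a) 0 + (FA (N (t - 1)) - FA (N s)) ≤ X := by
    have h1 := h.FA_anti (a := s) (b := u) (by linarith [hs'.1]) hs'.2
    rw [hX]; linarith
  have hgs : ∀ b, |GF (N s) V V' a b| ≤ (Cg * X) * ‖b‖ := by
    intro b
    refine (hg t s a har ht1 hs'.1 (hs'.2.trans hu) hcrit b).trans ?_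
    gcongr
  have h1 := hpab (hwin s hsl1 hsl) hpba (Cg * X) (by positivity) hgs l
  have h3 := hfst a ha1 hcrit s hs'.1 (hs'.2.trans hu) hsl (hΔs.trans hX1)
  have h3' : ‖al (N s) V Z a - al (N t) V Z a‖ ≤ Cf * X := h3.trans (by gcongr)
  have n1 := hal s hs' hsl
  have n2 := hal t ⟨le_rfl, htu⟩ hSt'
  have h5 : |Q (al (N s) V Z a) (al (N s) V Z a) l - Q (al (N t) V Z a) (al (N t) V Z a) l|
      ≤ ‖l‖ * (ε * X) := by
    refine (abs_Q_sub_le hQB (al (N s) V Z a) (al (N t) V Z a) l).trans ?_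
    calc B * (‖al (N s) V Z a‖ + ‖al (N t) V Z a‖) * ‖al (N s) V Z a - al (N t) V Z a‖ * ‖l‖
        ≤ B * (√(Ca * Cb * X) + √(Ca * Cb * X)) * (Cf * X) * ‖l‖ := by gcongr
      _ = ‖l‖ * ((2 * B * Cf * √(Ca * Cb * X)) * X) := by ring
      _ ≤ _ := by gcongr
  exact step_arith1 (norm_nonneg _) hε0.le h1 (hb1 s hs') hs.2 (hσ2 X hX0 hXσ) h5

/-- **one step** of the discrete gradient flow, with fixed gauge -/
theorem exists_step (h : RF m N T H s₀) (hslow : Slow N s₀) (hF : Fam m V V' r c K q)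
    (hZ : Sec k V' Z Q κ r K' q') (hK' : 0 ≤ K') (hSt : St m k N T H V V' Z Q κ J)
    (hdyn : DynP m N T H s₀ c K q' J δ) {η : ℝ} (hη : 0 < η) :
    ∃ C : ℝ, 0 ≤ C ∧ ∃ ρ : ℝ, 0 < ρ ∧ ρ ≤ r ∧ ∃ σ : ℝ, 0 < σ ∧
      ∀ᶠ t in nearF m N T H κ, ∀ a : P, ‖a‖ ≤ ρ →
      (∀ b, GF (N t) V V' a b = 0) → ∀ u, t ≤ u → u ≤ t + δ → GSlice m (N u) (T u) (H u) →
      DD (N t) (V a) 0 + (FA (N (t - 1)) - FA (N u)) ≤ σ →
      ‖al (N u) V Z a - al (N t) V Z a - (u - t) • Cubic.G Q (al (N t) V Z a)‖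
        ≤ η * DD (N t) (V a) 0 + C * (FA (N (t - 1)) - FA (N u)) := by
  obtain ⟨Cb, hCb, hrates⟩ := step_rates h hslow hF hZ hK' hSt hdyn
  obtain ⟨ε, hε⟩ : ∃ ε, ε = η / (2 * Cb + 2 + K' + 1) := ⟨_, rfl⟩
  have hε0 : 0 < ε := by rw [hε]; positivity
  have hεη : ε * (2 * Cb + 2 + K' + 1) = η := by rw [hε]; field_simp
  obtain ⟨Cr, hCr, ρ, hρ, hρr, σ, hσ0, hσ1, hev⟩ := hrates ε hε0
  obtain ⟨Cy, hCy, hcore⟩ := al_core h hF hZ hK' hdyn hε0
  refine ⟨ε * (2 * Cb + 2) + Cr + K' * Cy, by positivity, ρ, hρ, hρr, σ, hσ0, ?_⟩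
  filter_upwards [hev, nearF_sl, nearF_atTop (eventually_ge_atTop (s₀ + 1))]
    with t hev' hSt' ht1 a ha hcrit u htu hu hSu hXσ
  obtain ⟨G, hG1, hG0, hG3, hG2⟩ := hev' a ha hcrit u htu hu hXσ
  have hF1 := h.FA_anti (a := t - 1) (b := t) (by linarith) (by linarith)
  have hF2 := h.FA_anti (a := t) (b := u) (by linarith) htu
  have hD0 := DD_nonneg (μ := N t) (W := V a) 0
  have hX0 : 0 ≤ DD (N t) (V a) 0 + (FA (N (t - 1)) - FA (N u)) := by linarith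
  have key := hcore t u a (ha.trans hρr) ht1 htu hu hSt' hSu G
    ((ε * Cb + 2 * ε) * (DD (N t) (V a) 0 + (FA (N (t - 1)) - FA (N u)))) ε Cr
    (Cubic.G Q (al (N t) V Z a)) hG1 hG0 (by positivity) hε0.le hCr (by
      filter_upwards [hG2] with s hs hsl l
      rw [Cubic.inner_G]
      exact hs hsl l)
  exact key.trans (step_arith2 (by linarith [hdyn.one]) hε0.le hCb hX0 hG3 rfl hD0 hεη)

end Vale.Agent.P218.H313
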