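import Vale.Agent.P218.H313.SecChain

/-! Second order: summation of the squared distances along the chain. -/

open MeasureTheory Set Filter Topology Metric
open scoped ENNReal NNReal RealInnerProductSpace CompactlySupported

namespace Vale.Agent.P218.H313

set_option linter.unusedSectionVars false
set_option linter.unusedVariables false

variable {E : Type*} [NormedAddCommGroup E] [InnerProductSpace ℝ E] [FiniteDimensional ℝ E]
  [MeasurableSpace E] [BorelSpace E]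
variable {P : Type*} [NormedAddCommGroup P] [NormedSpace ℝ P]
variable {m k : ℕ} {N : ℝ → Measure E} {T : ℝ → E → Submodule ℝ E} {H : ℝ → E → E}
  {s₀ r c K K' δ : ℝ} {q q' J : ℕ} {κ : Measure E}
  {V : P → E → ℝ} {V' : P → P →ₗ[ℝ] (E → ℝ)} {Z : P → LS k →ₗ[ℝ] (E → ℝ)}
  {Q : LS k →ₗ[ℝ] LS k →ₗ[ℝ] LS k →ₗ[ℝ] ℝ}

/-- the static bound for the weighted quantities at a time -/
def TgBd (m : ℕ) (N : ℝ → Measure E) (T : ℝ → E → Submodule ℝ E) (H : ℝ → E → E)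
    (s₀ c K : ℝ) (J : ℕ) : Prop :=
  ∃ C : ℝ, 0 ≤ C ∧ ∀ W : E → ℝ, TubeD W c K → ∀ s, s₀ + 1 ≤ s → GSlice m (N s) (T s) (H s) →
    DD (N s) W J + TG (N s) (T s) W J
      ≤ C * (DD (N s) W 0 + dis (N s) (T s) (H s) + (FA (N (s - 1)) - FA (N s)))

/-- the squared distance in terms of the coordinates and of the dissipation -/
lemma exists_coer (h : RF m N T H s₀) (hF : Fam m V V' r c K q)
    (hSt : St m k N T H V V' Z Q κ J) :
    ∃ C : ℝ, 0 ≤ C ∧ ∃ ρ : ℝ, 0 < ρ ∧ ρ ≤ r ∧ ∀ᶠ s in nearF m N T H κ, ∀ a : P, ‖a‖ ≤ ρ →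
      (∀ b, GF (N s) V V' a b = 0) →
      DD (N s) (V a) 0 ≤ C * (‖al (N s) V Z a‖ ^ 2 + dis (N s) (T s) (H s)) := by
  obtain ⟨C, hC, hev⟩ := hSt.coer
  obtain ⟨pa, hpa, pb, hpb, hpab⟩ := eventually_prod_iff.1 hev
  obtain ⟨ρ₀, hρ₀, hpb'⟩ := Metric.eventually_nhds_iff.1 hpb
  refine ⟨C, hC, min r (ρ₀ / 2), lt_min hF.rpos (by positivity), min_le_left _ _, ?_⟩
  filter_upwards [hpa] with s hs a ha hcrit
  have hpba : pb a := hpb' (by
    rw [dist_zero_right]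
    exact lt_of_le_of_lt (ha.trans (min_le_right _ _)) (by linarith))
  have h1 := hpab hs hpba 0 le_rfl (fun b => by rw [hcrit b]; simp)
  simpa using h1

/-- near the shrinker the coordinates and the distance are controlled by the dissipation -/
theorem exists_small2 (h : RF m N T H s₀) (hF : Fam m V V' r c K q)
    (hSt : St m k N T H V V' Z Q κ J) (htg : TgBd m N T H s₀ c K J) :
    ∃ ρ : ℝ, 0 < ρ ∧ ρ ≤ r ∧ ∃ C : ℝ, 0 ≤ C ∧ ∀ᶠ s in nearF m N T H κ, ∀ a : P, ‖a‖ ≤ ρ →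
      (∀ b, GF (N s) V V' a b = 0) →
      DD (N s) (V a) 0 + ‖al (N s) V Z a‖ ^ 2 ≤ C * (√(dis (N s) (T s) (H s))
        + dis (N s) (T s) (H s) + (FA (N (s - 1)) - FA (N s))) := by
  obtain ⟨Cc, hCc, ρ₁, hρ₁, hρ₁r, hco⟩ := exists_coer (k := k) (Z := Z) (Q := Q) (κ := κ) h hF hSt
  obtain ⟨Ct, hCt, htg'⟩ := htg
  obtain ⟨Cs, hCs, hev⟩ := hSt.small (Ct * (Cc + 1)) (by positivity)
  obtain ⟨pa, hpa, pb, hpb, hpab⟩ := eventually_prod_iff.1 hev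
  obtain ⟨ρ₀, hρ₀, hpb'⟩ := Metric.eventually_nhds_iff.1 hpb
  refine ⟨min ρ₁ (ρ₀ / 2), lt_min hρ₁ (by positivity), (min_le_left _ _).trans hρ₁r,
    (Cc + 1) * (2 * Cs + 1), by positivity, ?_⟩
  filter_upwards [hpa, hco, nearF_sl, nearF_atTop (eventually_ge_atTop (s₀ + 1))]
    with s hs hcs hsl hs1 a ha hcrit
  have ha1 : ‖a‖ ≤ ρ₁ := ha.trans (min_le_left _ _)
  have har : ‖a‖ ≤ r := ha1.trans hρ₁r
  have hpba : pb a := hpb' (by
    rw [dist_zero_right]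
    exact lt_of_le_of_lt (ha.trans (min_le_right _ _)) (by linarith))
  have hD := hcs a ha1 hcrit
  have hdis : 0 ≤ dis (N s) (T s) (H s) := dis_nonneg
  have hdr : 0 ≤ FA (N (s - 1)) - FA (N s) := by
    have := h.FA_anti (a := s - 1) (b := s) (by linarith) (by linarith)
    linarith
  have htg1 := htg' (V a) (hF.tube a har) s hs1 hsl
  set d := dis (N s) (T s) (H s) with hd
  set f := FA (N (s - 1)) - FA (N s) with hf
  set A := ‖al (N s) V Z a‖ ^ 2 with hA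
  have hA0 : 0 ≤ A := by positivity
  have h1 : DD (N s) (V a) J + TG (N s) (T s) (V a) J ≤ Ct * (Cc + 1) * (A + (d + f)) := by
    refine htg1.trans ?_
    rw [mul_assoc]
    refine mul_le_mul_of_nonneg_left ?_ hCt
    nlinarith [mul_nonneg hCc hdr]
  have h2 := hpab hs hpba 0 le_rfl (fun b => by rw [hcrit b]; simp) (d + f) (by positivity) h1
  have h3 : A ≤ Cs * (√d + d + (d + f)) := by
    have h4 : ‖al (N s) V Z a‖ ^ 2 ≤ Cs * (√(dis (N s) (T s) (H s))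
        + dis (N s) (T s) (H s) + 0 ^ 2 + (d + f)) := h2
    rw [← hA, ← hd] at h4
    have e : √d + d + 0 ^ 2 + (d + f) = √d + d + (d + f) := by ring
    rwa [e] at h4
  have hsq : 0 ≤ √d := Real.sqrt_nonneg _
  have h5 : A ≤ 2 * Cs * (√d + d + f) := by
    nlinarith [mul_nonneg hCs hsq, mul_nonneg hCs hdr]
  have h6 : DD (N s) (V a) 0 + A ≤ (Cc + 1) * (A + d) := by nlinarith [mul_nonneg hCc hA0]
  refine h6.trans ?_
  rw [mul_assoc]
  refine mul_le_mul_of_nonneg_left ?_ (by positivity)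
  nlinarith

/-- **summation of the squared distances** -/
theorem exists_sum2 [FiniteDimensional ℝ P] (h : RF m N T H s₀) (hslow : Slow N s₀)
    (hF : Fam m V V' r c K q) (hZ : Sec k V' Z Q κ r K' q') (hK' : 0 ≤ K')
    (hSt : St m k N T H V V' Z Q κ J) (hdyn : DynP m N T H s₀ c K q' J δ)
    [IsLocallyFiniteMeasure κ] (hV0 : ∀ᵐ x ∂κ, V 0 x = 0) {lam τ₀ : ℝ} (hlam : 0 < lam)
    (hτ₀ : 0 < τ₀) :
    ∃ ρ : ℝ, 0 < ρ ∧ ρ ≤ r ∧ ∃ p : ℝ → Prop, (∀ᶠ s in nearF m N T H κ, p s) ∧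
      ∃ σ : ℝ, 0 < σ ∧ ∃ C : ℝ, 0 ≤ C ∧
      ∀ (ρ' : ℝ) (t : ℕ → ℝ) (a : ℕ → P), ρ' ≤ ρ → (∀ j, s₀ + 1 ≤ t j) →
        (∀ j, t j + τ₀ ≤ t (j + 1)) →
        (∀ j, t (j + 1) ≤ t j + δ) → ∀ k₁ k₂, k₁ ≤ k₂ →
        (∀ j, k₁ ≤ j → j ≤ k₂ → p (t j) ∧ Good2 m N T H V V' ρ' lam (t j) (a j)) →
        (∀ j, k₁ ≤ j → j ≤ k₂ → FA (N (t j - 1)) - FA (N (t (j + 1))) ≤ σ) →
        ∑ j ∈ Finset.Ico k₁ k₂, DD (N (t j)) (V (a j)) 0
          ≤ C * (‖al (N (t k₁)) V Z (a k₁)‖ + ‖al (N (t k₂)) V Z (a k₂)‖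
            + ∑ j ∈ Finset.Ico k₁ k₂, (dis (N (t j)) (T (t j)) (H (t j))
              + (FA (N (t j - 1)) - FA (N (t (j + 1)))))) := by
  obtain ⟨B, hB, hQB⟩ := Cubic.exists_bound Q
  obtain ⟨c₀, hc₀, hnd⟩ := Cubic.exists_nondeg Q hZ.nondeg
  obtain ⟨Cc, hCc, ρ₁, hρ₁, hρ₁r, hco⟩ := exists_coer (k := k) (Z := Z) (Q := Q) (κ := κ) h hF hSt
  obtain ⟨M, hM⟩ := h.moment (2 * q')
  have hM0 : 0 ≤ M := (integral_nonneg fun x => mul_nonneg (by positivity) (rho_pos x).le).trans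
    (hM s₀ le_rfl).2
  obtain ⟨Ca, hCa, hgst⟩ := gauge_step hF hdyn hlam
  obtain ⟨η, hη⟩ : ∃ η, η = τ₀ * c₀ ^ 2 / (20 * (B * Cc + 1)) := ⟨_, rfl⟩
  have hη0 : 0 < η := by rw [hη]; positivity
  have hηs : 5 * B * η * Cc ≤ τ₀ * c₀ ^ 2 / 4 := by
    rw [hη]
    have e : 5 * B * (τ₀ * c₀ ^ 2 / (20 * (B * Cc + 1))) * Cc
        = (B * Cc) * (τ₀ * c₀ ^ 2) * 5 / (20 * (B * Cc + 1)) := by ring
    rw [e, div_le_div_iff₀ (by positivity) (by norm_num)]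
    have h1 : 0 ≤ B * Cc := by positivity
    have h2 : 0 < τ₀ * c₀ ^ 2 := by positivity
    nlinarith
  obtain ⟨C₁, hC₁, ρ₂, hρ₂, hρ₂r, σ₁, hσ₁, hstep⟩ :=
    exists_step h hslow hF hZ hK' hSt hdyn (half_pos hη0)
  obtain ⟨η₁, hη₁⟩ : ∃ η₁, η₁ = η / (2 * (Ca + 1)) := ⟨_, rfl⟩
  have hη₁0 : 0 < η₁ := by rw [hη₁]; positivity
  have hη₁s : η₁ * Ca ≤ η / 2 := by
    rw [hη₁, div_mul_eq_mul_div, div_le_div_iff₀ (by positivity) (by norm_num)]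
    nlinarith
  obtain ⟨ρ₃, hρ₃, hρ₃r, hcg⟩ := exists_cg h hF hZ hK' hV0 hη₁0
  obtain ⟨σ₂, hσ₂⟩ : ∃ σ₂, σ₂ = min (σ₁ / 2) ((1 / (100 * (B * (K' * √M) + 1))) ^ 2) := ⟨_, rfl⟩
  have hσ₂0 : 0 < σ₂ := by rw [hσ₂]; exact lt_min (by positivity) (by positivity)
  have hσ₂a : B * (K' * √M * √σ₂) ≤ 1 / 100 := by
    have h1 : √σ₂ ≤ 1 / (100 * (B * (K' * √M) + 1)) := by
      rw [← Real.sqrt_sq (by positivity : (0 : ℝ) ≤ 1 / (100 * (B * (K' * √M) + 1)))]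
      exact Real.sqrt_le_sqrt (by rw [hσ₂]; exact min_le_right _ _)
    rw [le_div_iff₀ (by positivity)] at h1
    have h2 : 0 ≤ √σ₂ := Real.sqrt_nonneg _
    nlinarith
  obtain ⟨ρ₄, hρ₄, hρ₄r, hDs⟩ := exists_DD_small h hF hV0 (κ := κ) hσ₂0
  obtain ⟨C, hC, hsum⟩ := Cubic.sum_le hB hQB hZ.symm₁ hZ.symm₂ hc₀ hnd (τ₀ := τ₀) (η := η)
    (C₁ := C₁ + η₁ * Ca) (C₂ := Cc) hτ₀ hη0.le (by positivity) hCc hηs
  refine ⟨min (min ρ₁ ρ₂) (min ρ₃ ρ₄), lt_min (lt_min hρ₁ hρ₂) (lt_min hρ₃ hρ₄),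
    ((min_le_left _ _).trans (min_le_left _ _)).trans hρ₁r, _,
    ((hco.and hstep).and (hcg.and hDs)), σ₁ / 2, by positivity, C, hC, ?_⟩
  intro ρ' t a hρ' ht0 htτ htδ k₁ k₂ hk hgood hΔ
  have r1 : ρ' ≤ ρ₁ := hρ'.trans ((min_le_left _ _).trans (min_le_left _ _))
  have r2 : ρ' ≤ ρ₂ := hρ'.trans ((min_le_left _ _).trans (min_le_right _ _))
  have r3 : ρ' ≤ ρ₃ := hρ'.trans ((min_le_right _ _).trans (min_le_left _ _))
  have r4 : ρ' ≤ ρ₄ := hρ'.trans ((min_le_right _ _).trans (min_le_right _ _))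
  have htm : ∀ j, t j ≤ t (j + 1) := fun j => by linarith [htτ j]
  have hf0 : ∀ j, 0 ≤ FA (N (t j - 1)) - FA (N (t (j + 1))) := fun j => by
    have h1 := h.FA_anti (a := t j - 1) (b := t (j + 1)) (by linarith [ht0 j])
      (by linarith [htm j])
    linarith
  have hDj : ∀ j, k₁ ≤ j → j ≤ k₂ → DD (N (t j)) (V (a j)) 0 ≤ σ₂ := fun j h1 h2 =>
    (hgood j h1 h2).1.2.2 (a j) ((hgood j h1 h2).2.nrm.trans r4)
  refine hsum (fun j => al (N (t j)) V Z (a j)) (fun j => t (j + 1) - t j)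
    (fun j => DD (N (t j)) (V (a j)) 0)
    (fun j => dis (N (t j)) (T (t j)) (H (t j)) + (FA (N (t j - 1)) - FA (N (t (j + 1)))))
    k₁ k₂ hk (fun j h1 h2 => by linarith [htτ j]) ?_ (fun j h1 h2 => add_nonneg dis_nonneg (hf0 j))
    ?_ ?_
  · intro j h1 h2
    have g := hgood j h1 h2.le
    have e1 := norm_al_le g.2.sl hF hZ hK' (g.2.nrm.trans (r1.trans hρ₁r))
      (hM (t j) (by linarith [ht0 j])).2
    have e2 : √(DD (N (t j)) (V (a j)) 0) ≤ √σ₂ := Real.sqrt_le_sqrt (hDj j h1 h2.le)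
    have e3 : t (j + 1) - t j ≤ 1 := by linarith [htδ j, hdyn.one]
    have e4 : 0 ≤ t (j + 1) - t j := by linarith [htm j]
    calc (t (j + 1) - t j) * B * ‖al (N (t j)) V Z (a j)‖
        ≤ 1 * B * (K' * √M * √σ₂) := by
          have e5 : ‖al (N (t j)) V Z (a j)‖ ≤ K' * √M * √σ₂ := e1.trans (by gcongr)
          gcongr
      _ = B * (K' * √M * √σ₂) := by ring
      _ ≤ _ := hσ₂a
  · intro j h1 h2
    have g := hgood j h1 h2.le
    refine (g.1.1.1 (a j) (g.2.nrm.trans r1) g.2.crit).trans ?_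
    refine mul_le_mul_of_nonneg_left ?_ hCc
    linarith [hf0 j]
  · intro j h1 h2
    have g := hgood j h1 h2.le
    have g' := hgood (j + 1) (by omega) (by omega)
    have hD0 : 0 ≤ DD (N (t j)) (V (a j)) 0 := DD_nonneg 0
    have e1 := g.1.1.2 (a j) (g.2.nrm.trans r2) g.2.crit (t (j + 1)) (htm j) (htδ j) g'.2.sl
      (by
        have h3 := hDj j h1 h2.le
        have h4 := hΔ j h1 h2.le
        have h5 : σ₂ ≤ σ₁ / 2 := by rw [hσ₂]; exact min_le_left _ _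
        linarith)
    have e2 := g'.1.2.1 (a j) (a (j + 1)) (g.2.nrm.trans r3) (g'.2.nrm.trans r3)
    have e3 := hgst ρ' (t j) (t (j + 1)) (a j) (a (j + 1)) (r1.trans hρ₁r) (ht0 j) (htm j)
      (htδ j) g.2 g'.2 (add_nonneg hD0 (hf0 j))
    have e4 : al (N (t (j + 1))) V Z (a (j + 1)) - al (N (t j)) V Z (a j)
        - (t (j + 1) - t j) • Cubic.G Q (al (N (t j)) V Z (a j))
        = (al (N (t (j + 1))) V Z (a (j + 1)) - al (N (t (j + 1))) V Z (a j))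
          + (al (N (t (j + 1))) V Z (a j) - al (N (t j)) V Z (a j)
            - (t (j + 1) - t j) • Cubic.G Q (al (N (t j)) V Z (a j))) := by abel
    rw [e4]
    refine (norm_add_le _ _).trans ((add_le_add (e2.trans
      (mul_le_mul_of_nonneg_left e3 hη₁0.le)) e1).trans ?_)
    have hdis : 0 ≤ dis (N (t j)) (T (t j)) (H (t j)) := dis_nonneg
    have hfj := hf0 j
    have p1 : η₁ * (Ca * (DD (N (t j)) (V (a j)) 0 + (FA (N (t j - 1)) - FA (N (t (j + 1))))))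
        ≤ η / 2 * DD (N (t j)) (V (a j)) 0
          + η₁ * Ca * (FA (N (t j - 1)) - FA (N (t (j + 1)))) := by
      have : η₁ * Ca * DD (N (t j)) (V (a j)) 0 ≤ η / 2 * DD (N (t j)) (V (a j)) 0 := by gcongr
      linarith
    have p2 : 0 ≤ (C₁ + η₁ * Ca) * dis (N (t j)) (T (t j)) (H (t j)) := by positivity
    linarith

end Vale.Agent.P218.H313
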