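import Vale.Agent.P218.H313.Basic
import Vale.Agent.P218.H63.Trunc

/-! Geometry of the tube: rotations, traces along hyperplanes, normal components. -/

open MeasureTheory Set Filter Topology Metric
open scoped ENNReal NNReal RealInnerProductSpace

namespace Vale.Agent.P218.H313

open Vale.Agent.P214 (IntegralVarifold proj divAlong IsTestField)

set_option linter.unusedSectionVars false

variable {E : Type*} [NormedAddCommGroup E] [InnerProductSpace ℝ E] [FiniteDimensional ℝ E]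
variable {m : ℕ} {W : E → ℝ} {c K : ℝ}

lemma grad_eq_gradient (f : E → ℝ) : grad f = gradient f := rfl

lemma TubeD.isOpen (hW : TubeD W c K) : IsOpen {x | |W x| < c} :=
  isOpen_lt hW.smooth.continuous.abs continuous_const

/-- the Hessian kills the gradient in the tube -/
lemma TubeD.hess_grad (hW : TubeD W c K) {x : E} (hx : |W x| < c) :
    fderiv ℝ (grad W) x (grad W x) = 0 := by
  have h1 : ContDiff ℝ 1 (grad W) := contDiff_grad_one hW.smooth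
  have hd : HasFDerivAt (grad W) (fderiv ℝ (grad W) x) x :=
    (h1.differentiable (by norm_num) x).hasFDerivAt
  have h2 : HasFDerivAt (fun y => ‖grad W y‖ ^ 2)
      (2 • (innerSL ℝ (grad W x)).comp (fderiv ℝ (grad W) x)) x := hd.norm_sq
  have h3 : (fun y => ‖grad W y‖ ^ 2) =ᶠ[𝓝 x] fun _ => 1 := by
    filter_upwards [hW.isOpen.mem_nhds hx] with y hy
    rw [hW.eik y hy]; norm_num
  have h4 : HasFDerivAt (fun y => ‖grad W y‖ ^ 2) (0 : E →L[ℝ] ℝ) x :=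
    (hasFDerivAt_const (1 : ℝ) x).congr_of_eventuallyEq h3
  have h5 := h2.unique h4
  apply ext_inner_left ℝ
  intro v
  rw [inner_zero_right, ← hess_symm hW.smooth]
  have h6 := congrArg (fun L : E →L[ℝ] ℝ => L v) h5
  simp at h6
  rw [real_inner_comm]
  exact h6

/-- gradient of a composition with a linear isometry -/
lemma grad_comp_isometry {W : E → ℝ} (hW : ContDiff ℝ 1 W) (Q : E ≃ₗᵢ[ℝ] E) (x : E) :
    grad (fun y => W (Q y)) x = Q.symm (grad W (Q x)) := by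
  refine grad_unique fun v => ?_
  have h1 : HasFDerivAt W (fderiv ℝ W (Q x)) (Q x) :=
    (hW.differentiable (by norm_num) _).hasFDerivAt
  have h2 : HasFDerivAt (fun y => Q y) (Q.toContinuousLinearEquiv : E →L[ℝ] E) x :=
    (Q.toContinuousLinearEquiv : E →L[ℝ] E).hasFDerivAt
  have h3 := (h1.comp x h2).fderiv
  have h4 : fderiv ℝ (fun y => W (Q y)) x
      = (fderiv ℝ W (Q x)).comp (Q.toContinuousLinearEquiv : E →L[ℝ] E) := h3
  rw [h4]
  have h5 : ⟪Q.symm (grad W (Q x)), v⟫ = ⟪grad W (Q x), Q v⟫ := by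
    rw [← Q.inner_map_map (Q.symm (grad W (Q x))) v, Q.apply_symm_apply]
  rw [h5, inner_grad]
  rfl

lemma fderiv_grad_comp_isometry {W : E → ℝ} (hW : ContDiff ℝ 2 W) (Q : E ≃ₗᵢ[ℝ] E) (x : E) :
    fderiv ℝ (grad (fun y => W (Q y))) x
      = (Q.symm.toContinuousLinearEquiv : E →L[ℝ] E).comp
        ((fderiv ℝ (grad W) (Q x)).comp (Q.toContinuousLinearEquiv : E →L[ℝ] E)) := by
  have e : grad (fun y => W (Q y)) = fun x => Q.symm (grad W (Q x)) := by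
    ext1 x; exact grad_comp_isometry (hW.of_le (by norm_num)) Q x
  rw [e]
  have h1 : HasFDerivAt (grad W) (fderiv ℝ (grad W) (Q x)) (Q x) :=
    ((contDiff_grad_one hW).differentiable (by norm_num) _).hasFDerivAt
  have h2 : HasFDerivAt (fun y => Q y) (Q.toContinuousLinearEquiv : E →L[ℝ] E) x :=
    (Q.toContinuousLinearEquiv : E →L[ℝ] E).hasFDerivAt
  have h3 : HasFDerivAt (fun y => Q.symm y) (Q.symm.toContinuousLinearEquiv : E →L[ℝ] E)
      (grad W (Q x)) := (Q.symm.toContinuousLinearEquiv : E →L[ℝ] E).hasFDerivAt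
  exact (h3.comp x (h1.comp x h2)).fderiv

lemma tr_conj (Q : E ≃ₗᵢ[ℝ] E) (B : E →L[ℝ] E) :
    tr ((Q.symm.toContinuousLinearEquiv : E →L[ℝ] E).comp
      (B.comp (Q.toContinuousLinearEquiv : E →L[ℝ] E))) = tr B := by
  rw [tr_comm]
  congr 1
  ext v
  simp

theorem TubeD.comp (hW : TubeD W c K) (Q : E ≃ₗᵢ[ℝ] E) :
    TubeD (fun x => W (Q x)) c K := by
  have hQ : ContDiff ℝ 2 (fun x => W (Q x)) :=
    hW.smooth.comp (Q.toContinuousLinearEquiv : E →L[ℝ] E).contDiff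
  have hW1 : ContDiff ℝ 1 W := hW.smooth.of_le (by norm_num)
  refine ⟨hW.cpos, hQ, fun x => hW.b0 _, fun x => ?_, fun x => ?_, fun x => ?_, fun x hx => ?_,
    fun x hx => ?_⟩
  · rw [grad_comp_isometry hW1, LinearIsometryEquiv.norm_map]; exact hW.b1 _
  · rw [fderiv_grad_comp_isometry hW.smooth]
    refine le_trans ?_ (hW.b2 (Q x))
    refine ContinuousLinearMap.opNorm_le_bound _ (norm_nonneg _) fun v => ?_
    have h1 : ‖Q.symm (fderiv ℝ (grad W) (Q x) (Q v))‖ = ‖fderiv ℝ (grad W) (Q x) (Q v)‖ :=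
      Q.symm.norm_map _
    calc ‖Q.symm (fderiv ℝ (grad W) (Q x) (Q v))‖ = ‖fderiv ℝ (grad W) (Q x) (Q v)‖ := h1
      _ ≤ ‖fderiv ℝ (grad W) (Q x)‖ * ‖Q v‖ := ContinuousLinearMap.le_opNorm _ _
      _ = ‖fderiv ℝ (grad W) (Q x)‖ * ‖v‖ := by rw [Q.norm_map]
  · rw [grad_comp_isometry hW1]
    have h5 : ⟪x, Q.symm (grad W (Q x))⟫ = ⟪Q x, grad W (Q x)⟫ := by
      rw [← Q.inner_map_map x (Q.symm (grad W (Q x))), Q.apply_symm_apply]
    rw [h5]; exact hW.bx _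
  · rw [grad_comp_isometry hW1, LinearIsometryEquiv.norm_map]; exact hW.eik _ hx
  · have h1 := hW.ric (Q x) hx
    have h5 : ⟪x, Q.symm (grad W (Q x))⟫ = ⟪Q x, grad W (Q x)⟫ := by
      rw [← Q.inner_map_map x (Q.symm (grad W (Q x))), Q.apply_symm_apply]
    have h6 : ((Q.symm.toContinuousLinearEquiv : E →L[ℝ] E).comp
        ((fderiv ℝ (grad W) (Q x)).comp (Q.toContinuousLinearEquiv : E →L[ℝ] E))).comp
        ((Q.symm.toContinuousLinearEquiv : E →L[ℝ] E).comp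
        ((fderiv ℝ (grad W) (Q x)).comp (Q.toContinuousLinearEquiv : E →L[ℝ] E)))
        = (Q.symm.toContinuousLinearEquiv : E →L[ℝ] E).comp
          (((fderiv ℝ (grad W) (Q x)).comp (fderiv ℝ (grad W) (Q x))).comp
            (Q.toContinuousLinearEquiv : E →L[ℝ] E)) := by
      ext v; simp
    rw [fderiv_grad_comp_isometry hW.smooth, h6, tr_conj, tr_conj, grad_comp_isometry hW1, h5]
    exact h1

theorem TubeD.trace_est (hW : TubeD W c K) (hE : Module.finrank ℝ E = m + 1) (x : E)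
    (T : Submodule ℝ E) (hT : Module.finrank ℝ T = m) (hx : |W x| < c) :
    |tr ((proj T).comp (fderiv ℝ (grad W) x)) - 1 / 2 * ⟪x, grad W x⟫
      + (tr ((fderiv ℝ (grad W) x).comp (fderiv ℝ (grad W) x)) + 1 / 2) * W x|
      ≤ K * (W x ^ 2 + ‖proj T (grad W x)‖ ^ 2) := by
  obtain ⟨n, hn1, hnT, -, hn⟩ := H63.exists_normal hE hT
  have e0 : tr ((proj T).comp (fderiv ℝ (grad W) x))
      = tr (fderiv ℝ (grad W) x) - ⟪fderiv ℝ (grad W) x n, n⟫ := H63.divAlong_normal hn (grad W) x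
  have h1 := hW.ric x hx
  rw [e0]
  set g := grad W x with hg
  set B := fderiv ℝ (grad W) x with hB
  have hg1 : ‖g‖ = 1 := hW.eik x hx
  have hBg : B g = 0 := hW.hess_grad hx
  set v := n - ⟪n, g⟫ • g with hv
  have hBv : B n = B v := by rw [hv, map_sub, map_smul, hBg, smul_zero, sub_zero]
  have e2 : ⟪B n, n⟫ = ⟪v, B v⟫ := by
    rw [hBv, hess_symm hW.smooth x v n]
    change ⟪v, B n⟫ = _
    rw [hBv]
  have e3 : ‖proj T g‖ ^ 2 = ‖v‖ ^ 2 := by
    rw [H63.norm_proj_sq hn1 hn, hv, H63.norm_sub_sq' hn1 hg1, hg1]; norm_num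
  have h2 : |⟪B n, n⟫| ≤ K * ‖proj T g‖ ^ 2 := by
    rw [e2, e3]
    refine (abs_real_inner_le_norm _ _).trans ?_
    have h1 : ‖B v‖ ≤ K * ‖v‖ :=
      (B.le_opNorm v).trans (mul_le_mul_of_nonneg_right (hW.b2 x) (norm_nonneg _))
    calc ‖v‖ * ‖B v‖ ≤ ‖v‖ * (K * ‖v‖) := mul_le_mul_of_nonneg_left h1 (norm_nonneg _)
      _ = _ := by ring
  have e4 : tr B - ⟪B n, n⟫ - 1 / 2 * ⟪x, g⟫ + (tr (B.comp B) + 1 / 2) * W x
      = (tr B - 1 / 2 * ⟪x, g⟫ + (tr (B.comp B) + 1 / 2) * W x) - ⟪B n, n⟫ := by ring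
  rw [e4]
  refine (abs_sub _ _).trans ?_
  linarith

theorem TubeD.normal_est (hW : TubeD W c K) (hE : Module.finrank ℝ E = m + 1) (x : E)
    (T : Submodule ℝ E) (hT : Module.finrank ℝ T = m) (hx : |W x| < c) {φ : E} (hφ : φ ∈ Tᗮ)
    (v : E) :
    |⟪v, φ⟫ - ⟪v, grad W x⟫ * ⟪grad W x, φ⟫| ≤ ‖v‖ * ‖proj T (grad W x)‖ * ‖φ‖ := by
  obtain ⟨n, hn1, hnT, hnφ, hn⟩ := H63.exists_normal hE hT
  have hg1 : ‖grad W x‖ = 1 := hW.eik x hx
  generalize grad W x = g at hg1 ⊢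
  set c := ⟪n, φ⟫ with hc
  have hφ' : φ = c • n := hnφ φ hφ
  have hcφ : |c| = ‖φ‖ := by rw [hφ', norm_smul, hn1, mul_one, Real.norm_eq_abs]
  have e1 : ⟪v, φ⟫ - ⟪v, g⟫ * ⟪g, φ⟫ = c * ⟪v, n - ⟪n, g⟫ • g⟫ := by
    rw [hφ']
    simp only [real_inner_smul_right, inner_sub_right]
    rw [real_inner_comm n g]; ring
  have e2 : ‖proj T g‖ = ‖n - ⟪n, g⟫ • g‖ := by
    have e3 : ‖proj T g‖ ^ 2 = ‖n - ⟪n, g⟫ • g‖ ^ 2 := by
      rw [H63.norm_proj_sq hn1 hn, H63.norm_sub_sq' hn1 hg1, hg1]; norm_num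
    exact (pow_left_inj₀ (norm_nonneg _) (norm_nonneg _) two_ne_zero).1 e3
  rw [e1, abs_mul, hcφ]
  have h2 := abs_real_inner_le_norm v (n - ⟪n, g⟫ • g)
  rw [← e2] at h2
  calc ‖φ‖ * |⟪v, n - ⟪n, g⟫ • g⟫| ≤ ‖φ‖ * (‖v‖ * ‖proj T g‖) :=
        mul_le_mul_of_nonneg_left h2 (norm_nonneg _)
    _ = _ := by ring

theorem TubeD.hess_est (hW : TubeD W c K) (hE : Module.finrank ℝ E = m + 1) (x : E)
    (T : Submodule ℝ E) (hT : Module.finrank ℝ T = m) (hx : |W x| < c) (A : E →L[ℝ] E) :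
    |tr ((proj T).comp A) - (tr A - ⟪A (grad W x), grad W x⟫)|
      ≤ 4 * ‖A‖ * ‖proj T (grad W x)‖ := by
  obtain ⟨n, hn1, hnT, hnφ, hn⟩ := H63.exists_normal hE hT
  have hg1 : ‖grad W x‖ = 1 := hW.eik x hx
  generalize grad W x = g at hg1 ⊢
  have e0 : tr ((proj T).comp A) = tr A - ⟪A n, n⟫ := by
    have h1 : (proj T).comp A = A - ((innerSL ℝ n).comp A).smulRight n := by
      ext v
      simp [hn]
    rw [h1, tr_sub]
    congr 1
    have h2 := tr_comp_smulRight (ContinuousLinearMap.id ℝ E) ((innerSL ℝ n).comp A) n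
    rw [ContinuousLinearMap.id_comp] at h2
    rw [h2]
    simp [real_inner_comm]
  have e1 : tr A - ⟪A n, n⟫ - (tr A - ⟪A g, g⟫) = -(⟪A n, n⟫ - ⟪A g, g⟫) := by ring
  rw [e0, e1, abs_neg]
  have h1 := H63.abs_quad_sub_le A hn1 hg1
  have e2 : √(1 - ⟪n, g⟫ ^ 2) = ‖proj T g‖ := by
    have e3 : ‖proj T g‖ ^ 2 = 1 - ⟪n, g⟫ ^ 2 := by
      rw [H63.norm_proj_sq hn1 hn, hg1]; norm_num
    rw [← e3, Real.sqrt_sq (norm_nonneg _)]
  rw [e2] at h1
  exact h1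

end Vale.Agent.P218.H313
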