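import Vale.Agent.P218.H313.PG
import Vale.Agent.P218.H313.W1

/-! Nondegenerate shrinkers: estimates on one Gaussian slice. -/

open MeasureTheory Set Filter Topology Metric
open scoped ENNReal NNReal RealInnerProductSpace

namespace Vale.Agent.P218.H313

open Vale.Agent.P214 (IntegralVarifold proj divAlong IsTestField)

set_option linter.unusedSectionVars false
set_option linter.unusedVariables false

section tube

variable {E : Type*} [NormedAddCommGroup E] [InnerProductSpace ℝ E] [FiniteDimensional ℝ E]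
variable {m : ℕ} {W : E → ℝ} {c K : ℝ}

lemma TubeD.K_nonneg (hW : TubeD W c K) : 0 ≤ K := (abs_nonneg _).trans (hW.b0 0)

lemma TubeD.cont (hW : TubeD W c K) : Continuous W := hW.smooth.continuous

lemma TubeD.grad_cd (hW : TubeD W c K) : ContDiff ℝ 1 (grad W) := contDiff_grad_one hW.smooth

lemma TubeD.pg (hW : TubeD W c K) : PG W where
  cd := hW.smooth.of_le (by norm_num)
  b0 := PB.of_bound (C := K) fun x => by rw [Real.norm_eq_abs]; exact hW.b0 x
  b1 := PB.of_bound (C := K) fun x => by rw [← norm_grad]; exact hW.b1 x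

lemma TubeD.pg_grad (hW : TubeD W c K) : PG (grad W) where
  cd := hW.grad_cd
  b0 := PB.of_bound (C := K) hW.b1
  b1 := PB.of_bound (C := K) hW.b2

lemma TubeD.diff (hW : TubeD W c K) (x : E) : DifferentiableAt ℝ W x := hW.pg.diff x

/-- the shape term `q = |D²W|²` is bounded -/
lemma TubeD.q_le (hW : TubeD W c K) (x : E) :
    |tr ((fderiv ℝ (grad W) x).comp (fderiv ℝ (grad W) x))| ≤ Module.finrank ℝ E * K ^ 2 := by
  refine (abs_tr_le _).trans ?_
  gcongr
  refine (ContinuousLinearMap.opNorm_comp_le _ _).trans ?_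
  have := hW.b2 x
  have h0 := norm_nonneg (fderiv ℝ (grad W) x)
  nlinarith

lemma abs_tr_proj_comp_le (T : Submodule ℝ E) (A : E →L[ℝ] E) :
    |tr ((proj T).comp A)| ≤ Module.finrank ℝ E * ‖A‖ := by
  refine (abs_tr_le _).trans ?_
  gcongr
  refine (ContinuousLinearMap.opNorm_comp_le _ _).trans ?_
  have := H552.norm_proj_le T
  have h0 := norm_nonneg A
  nlinarith

/-- pointwise estimate behind the evolution of `∫ W² ρ` -/
lemma TubeD.pointwise (hE : Module.finrank ℝ E = m + 1) (hc : 0 < c) (hK : 0 ≤ K) :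
    ∃ C : ℝ, 0 ≤ C ∧ ∀ W : E → ℝ, TubeD W c K → ∀ (x : E) (T : Submodule ℝ E),
      Module.finrank ℝ T = m →
      -(2 * W x * (tr ((proj T).comp (fderiv ℝ (grad W) x)) - 1 / 2 * ⟪x, grad W x⟫))
        ≤ 1 / 2 * ‖proj T (grad W x)‖ ^ 2 + C * W x ^ 2 := by
  set n : ℝ := (Module.finrank ℝ E : ℝ) with hn
  have hn0 : 0 ≤ n := by rw [hn]; positivity
  set c₁ := min c (1 / (8 * (K + 1))) with hc₁
  have hc₁0 : 0 < c₁ := lt_min hc (by positivity)
  refine ⟨2 * n * K ^ 2 + 2 + 2 * (n + 1) * K / c₁, by positivity, fun W hW x T hT => ?_⟩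
  set A := tr ((proj T).comp (fderiv ℝ (grad W) x)) - 1 / 2 * ⟪x, grad W x⟫ with hA
  set q := tr ((fderiv ℝ (grad W) x).comp (fderiv ℝ (grad W) x)) with hq
  set g2 := ‖proj T (grad W x)‖ ^ 2 with hg2
  have hg20 : 0 ≤ g2 := sq_nonneg _
  set w := W x with hw
  have hw2 : 0 ≤ w ^ 2 := sq_nonneg _
  by_cases hx : |w| < c₁
  · have h1 := hW.trace_est hE x T hT (hx.trans_le (min_le_left _ _))
    have h2 : |A + (q + 1 / 2) * w| ≤ K * (w ^ 2 + g2) := by
      rw [hA, hq, hw, hg2]; convert h1 using 2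
    have h3 : |q| ≤ n * K ^ 2 := hW.q_le x
    have h4 : 2 * |w| * K ≤ 1 / 4 := by
      have h5 : |w| ≤ 1 / (8 * (K + 1)) := hx.le.trans (min_le_right _ _)
      have h6 : 2 * |w| * K ≤ 2 * (1 / (8 * (K + 1))) * K := by gcongr
      refine h6.trans ?_
      rw [show 2 * (1 / (8 * (K + 1))) * K = K / (4 * (K + 1)) by field_simp; ring]
      rw [div_le_div_iff₀ (by positivity) (by norm_num)]
      nlinarith
    have h5 : -(2 * w * A) = 2 * (q + 1 / 2) * w ^ 2 - 2 * w * (A + (q + 1 / 2) * w) := by ring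
    have h6 : -(2 * w * (A + (q + 1 / 2) * w)) ≤ 1 / 4 * (w ^ 2 + g2) := by
      calc -(2 * w * (A + (q + 1 / 2) * w)) ≤ |2 * w * (A + (q + 1 / 2) * w)| := neg_le_abs _
        _ = 2 * |w| * |A + (q + 1 / 2) * w| := by rw [abs_mul, abs_mul, abs_two]
        _ ≤ 2 * |w| * (K * (w ^ 2 + g2)) := by gcongr
        _ = (2 * |w| * K) * (w ^ 2 + g2) := by ring
        _ ≤ 1 / 4 * (w ^ 2 + g2) := by gcongr
    have h7 : 2 * (q + 1 / 2) * w ^ 2 ≤ (2 * n * K ^ 2 + 1) * w ^ 2 := by
      have := le_abs_self q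
      nlinarith
    have h8 : 0 ≤ 2 * (n + 1) * K / c₁ * w ^ 2 := by positivity
    rw [h5]
    nlinarith
  · push Not at hx
    have h1 : |A| ≤ (n + 1) * K := by
      have e1 := abs_tr_proj_comp_le T (fderiv ℝ (grad W) x)
      have e2 := hW.b2 x
      have e3 := hW.bx x
      have e4 : |A| ≤ |tr ((proj T).comp (fderiv ℝ (grad W) x))| + |1 / 2 * ⟪x, grad W x⟫| :=
        abs_sub _ _
      rw [abs_mul, abs_of_pos (by norm_num : (0 : ℝ) < 1 / 2)] at e4
      have e5 : (n : ℝ) * ‖fderiv ℝ (grad W) x‖ ≤ n * K := by gcongr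
      nlinarith
    have h2 : |w| ≤ w ^ 2 / c₁ := by
      rw [le_div_iff₀ hc₁0, ← sq_abs w]
      nlinarith [abs_nonneg w]
    have h3 : -(2 * w * A) ≤ 2 * (n + 1) * K / c₁ * w ^ 2 := by
      calc -(2 * w * A) ≤ |2 * w * A| := neg_le_abs _
        _ = 2 * |w| * |A| := by rw [abs_mul, abs_mul, abs_two]
        _ ≤ 2 * (w ^ 2 / c₁) * ((n + 1) * K) := by gcongr
        _ = _ := by ring
    have h4 : 0 ≤ (2 * n * K ^ 2 + 2) * w ^ 2 := by positivity
    nlinarith

end tube

variable {E : Type*} [NormedAddCommGroup E] [InnerProductSpace ℝ E] [FiniteDimensional ℝ E]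
  [MeasurableSpace E] [BorelSpace E]
variable {m : ℕ} {c K : ℝ}

/-- `∫ (1 + |x|²)^j |∇^T W|² ρ` -/
noncomputable def TG (μ : Measure E) (T : E → Submodule ℝ E) (W : E → ℝ) (j : ℕ) : ℝ :=
  ∫ x, wt j x * ‖proj (T x) (grad W x)‖ ^ 2 * rho x ∂μ

/-- `∫ (1 + |x|²)^j W² |φ|² ρ` -/
noncomputable def VW (μ : Measure E) (T : E → Submodule ℝ E) (H : E → E) (W : E → ℝ) (j : ℕ) : ℝ :=
  ∫ x, W x ^ 2 * wt j x * ‖vel T H x‖ ^ 2 * rho x ∂μ

section

variable {μ : Measure E} {T : E → Submodule ℝ E} {H : E → E} {W : E → ℝ}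

lemma integral_comb2 {μ : Measure E} {a b : E → ℝ} (ha : Integrable a μ) (hb : Integrable b μ)
    (j k : ℝ) : ∫ x, (j * a x + k * b x) ∂μ = j * ∫ x, a x ∂μ + k * ∫ x, b x ∂μ := by
  rw [integral_add (ha.const_mul j) (hb.const_mul k), integral_const_mul, integral_const_mul]

lemma GSlice.int_TG (hS : GSlice m μ T H) (hW : TubeD W c K) (j : ℕ) :
    Integrable (fun x => wt j x * ‖proj (T x) (grad W x)‖ ^ 2 * rho x) μ := by
  refine hS.integrable_dom (g := fun x => wt j x * ‖grad W x‖ ^ 2)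
    ((PG.wt j).cont.aestronglyMeasurable.mul
      ((hS.proj_apply_meas hW.pg_grad.cont.aestronglyMeasurable).norm.pow 2))
    ((PG.wt j).b0.mul (hW.pg_grad.b0.norm.pow 2)) fun x => ?_
  have h1 := norm_proj_apply_le (T x) (grad W x)
  have h2 := wt_pos j x
  rw [abs_of_nonneg (by positivity), abs_of_nonneg (by positivity)]
  gcongr

lemma GSlice.int_DD (hS : GSlice m μ T H) (hW : TubeD W c K) (j : ℕ) :
    Integrable (fun x => W x ^ 2 * wt j x * rho x) μ :=
  hS.integrable_PB ((hW.cont.pow 2).mul (PG.wt j).cont).aestronglyMeasurable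
    ((hW.pg.b0.pow 2).mul (PG.wt j).b0)

lemma GSlice.int_VW (hS : GSlice m μ T H) (hW : TubeD W c K) (j : ℕ) :
    Integrable (fun x => W x ^ 2 * wt j x * ‖vel T H x‖ ^ 2 * rho x) μ :=
  hS.integrable_mul_vel_sq ((hW.cont.pow 2).mul (PG.wt j).cont).aestronglyMeasurable
    ((hW.pg.b0.pow 2).mul (PG.wt j).b0)

lemma DD_eq (j : ℕ) : DD μ W j = ∫ x, W x ^ 2 * wt j x * rho x ∂μ := rfl

lemma pg_sq_wt (hW : TubeD W c K) (j : ℕ) : PG (fun x => W x ^ 2 * wt j x) :=
  (hW.pg.pow 2).mul (PG.wt j)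

/-- the gradient of `W² (1 + |x|²)^j` -/
lemma grad_sq_wt (hW : TubeD W c K) (j : ℕ) (x : E) :
    grad (fun x => W x ^ 2 * wt j x) x
      = (2 * W x * wt j x) • grad W x + (W x ^ 2) • grad (wt j) x := by
  rw [grad_mul ((hW.pg.pow 2).diff x) ((PG.wt j).diff x), grad_sq (hW.diff x), smul_smul,
    add_comm]
  congr 2; ring

/-- **the basic differential inequality** for the weighted squared distance -/
theorem exists_basic (hE : Module.finrank ℝ E = m + 1) (hc : 0 < c) (hK : 0 ≤ K) (j : ℕ) :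
    ∃ C : ℝ, 0 ≤ C ∧ ∀ (W : E → ℝ), TubeD W c K → ∀ (μ : Measure E) (T : E → Submodule ℝ E)
      (H : E → E), GSlice m μ T H →
      ∫ x, ⟪grad (fun x => W x ^ 2 * wt j x) x, vel T H x⟫ * rho x ∂μ
        ≤ - TG μ T W j + 1 / 2 * VW μ T H W j + C * DD μ W j := by
  obtain ⟨C₀, hC₀, hpt⟩ := TubeD.pointwise (E := E) hE hc hK
  refine ⟨C₀ + 2 * j ^ 2 + 1 / 2 * j ^ 2, by positivity, fun W hW μ T H hS => ?_⟩
  set F : E → ℝ := fun x => 2 * (W x * wt j x) with hF
  have hFpg : PG F := (hW.pg.mul (PG.wt j)).const_mul 2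
  have hXpg : PG (fun x => F x • grad W x) := hFpg.smul hW.pg_grad
  have hwfv := hS.wfv hXpg.cd hXpg.b0 hXpg.b1
  have gF : ∀ x, grad F x = (2 * W x) • grad (wt j) x + (2 * wt j x) • grad W x := by
    intro x
    rw [hF, grad_const_mul 2 ((hW.pg.mul (PG.wt j)).diff x),
      grad_mul (hW.diff x) ((PG.wt j).diff x), smul_add, smul_smul, smul_smul]
  have hdiv : ∀ x, divAlong (T x) (fun x => F x • grad W x) x
      = 2 * W x * wt j x * tr ((proj (T x)).comp (fderiv ℝ (grad W) x))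
        + 2 * W x * ⟪grad (wt j) x, proj (T x) (grad W x)⟫
        + 2 * wt j x * ‖proj (T x) (grad W x)‖ ^ 2 := by
    intro x
    rw [divAlong_smul (T x) (hFpg.diff x) (hW.pg_grad.diff x), gF, map_add, map_smul, map_smul,
      inner_add_left, real_inner_smul_left, real_inner_smul_left, divAlong_eq,
      H552.inner_proj_left, ← norm_proj_sq]
    simp only [hF]
    ring
  -- first part
  have part1 : ∫ x, ⟪F x • grad W x, vel T H x⟫ * rho x ∂μ
      ≤ - TG μ T W j + (C₀ + 2 * j ^ 2) * DD μ W j := by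
    have e1 : ∫ x, ⟪F x • grad W x, vel T H x⟫ * rho x ∂μ
        = ∫ x, -((divAlong (T x) (fun x => F x • grad W x) x
          - 1 / 2 * ⟪x, F x • grad W x⟫) * rho x) ∂μ := by
      rw [integral_neg, hwfv, neg_neg]
    have e2 : - TG μ T W j + (C₀ + 2 * j ^ 2) * DD μ W j
        = ∫ x, (-(wt j x * ‖proj (T x) (grad W x)‖ ^ 2 * rho x)
          + (C₀ + 2 * j ^ 2) * (W x ^ 2 * wt j x * rho x)) ∂μ := by
      have := integral_comb2 (hS.int_TG hW j) (hS.int_DD hW j) (-1) (C₀ + 2 * j ^ 2)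
      simp only [neg_mul, one_mul] at this
      rw [this]; rfl
    rw [e1, e2]
    refine integral_mono_ae ?_ ?_ ?_
    · have i1 := hS.integrable_div hXpg.cd hXpg.b1
      have i2 : Integrable (fun x => ⟪x, F x • grad W x⟫ * rho x) μ :=
        hS.integrable_PB (continuous_id.inner hXpg.cont).aestronglyMeasurable
          (PB.id'.inner' hXpg.b0)
      refine (i1.sub (i2.const_mul (1 / 2))).neg.congr (Eventually.of_forall fun x => ?_)
      simp only [Pi.neg_apply, Pi.sub_apply]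
      ring
    · exact (hS.int_TG hW j).neg.add ((hS.int_DD hW j).const_mul _)
    · filter_upwards [hS.mc.dim] with x hx
      have h1 := hpt W hW x (T x) hx
      have h2 := norm_grad_wt_le j x
      have h3 := wt_pos j x
      have h4 := rho_pos x
      set g2 := ‖proj (T x) (grad W x)‖ with hg2
      have h5 : -(2 * W x * ⟪grad (wt j) x, proj (T x) (grad W x)⟫)
          ≤ wt j x * (1 / 2 * g2 ^ 2 + 2 * j ^ 2 * W x ^ 2) := by
        calc -(2 * W x * ⟪grad (wt j) x, proj (T x) (grad W x)⟫)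
            ≤ |2 * W x * ⟪grad (wt j) x, proj (T x) (grad W x)⟫| := neg_le_abs _
          _ = 2 * |W x| * |⟪grad (wt j) x, proj (T x) (grad W x)⟫| := by
              rw [abs_mul, abs_mul, abs_two]
          _ ≤ 2 * |W x| * ((j * wt j x) * g2) := by
              gcongr
              exact (abs_real_inner_le_norm _ _).trans (mul_le_mul_of_nonneg_right h2 (norm_nonneg _))
          _ = wt j x * (2 * (j * |W x|) * g2) := by ring
          _ ≤ wt j x * (1 / 2 * g2 ^ 2 + 2 * j ^ 2 * W x ^ 2) := by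
              refine mul_le_mul_of_nonneg_left ?_ h3.le
              have : W x ^ 2 = |W x| ^ 2 := (sq_abs _).symm
              rw [this]
              nlinarith [sq_nonneg (g2 - 2 * (j * |W x|))]
      rw [hdiv, real_inner_smul_right]
      have h6 : -((2 * W x * wt j x * tr ((proj (T x)).comp (fderiv ℝ (grad W) x))
          + 2 * W x * ⟪grad (wt j) x, proj (T x) (grad W x)⟫
          + 2 * wt j x * g2 ^ 2) - 1 / 2 * (F x * ⟪x, grad W x⟫))
          ≤ -(wt j x * g2 ^ 2) + (C₀ + 2 * j ^ 2) * (W x ^ 2 * wt j x) := by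
        have e : -((2 * W x * wt j x * tr ((proj (T x)).comp (fderiv ℝ (grad W) x))
          + 2 * W x * ⟪grad (wt j) x, proj (T x) (grad W x)⟫
          + 2 * wt j x * g2 ^ 2) - 1 / 2 * (F x * ⟪x, grad W x⟫))
          = wt j x * (-(2 * W x * (tr ((proj (T x)).comp (fderiv ℝ (grad W) x))
              - 1 / 2 * ⟪x, grad W x⟫)))
            + (-(2 * W x * ⟪grad (wt j) x, proj (T x) (grad W x)⟫)) - 2 * wt j x * g2 ^ 2 := by
          simp only [hF]; ring
        rw [e]
        have h7 := mul_le_mul_of_nonneg_left h1 h3.le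
        nlinarith
      have h7 := mul_le_mul_of_nonneg_right h6 h4.le
      nlinarith
  -- second part
  have part2 : ∫ x, ⟪(W x ^ 2) • grad (wt j) x, vel T H x⟫ * rho x ∂μ
      ≤ 1 / 2 * VW μ T H W j + 1 / 2 * j ^ 2 * DD μ W j := by
    have e2 : 1 / 2 * VW μ T H W j + 1 / 2 * j ^ 2 * DD μ W j
        = ∫ x, (1 / 2 * (W x ^ 2 * wt j x * ‖vel T H x‖ ^ 2 * rho x)
          + 1 / 2 * j ^ 2 * (W x ^ 2 * wt j x * rho x)) ∂μ := by
      exact (integral_comb2 (hS.int_VW hW j) (hS.int_DD hW j) (1 / 2) (1 / 2 * (j : ℝ) ^ 2)).symm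
    rw [e2]
    have hgw : Continuous (grad (wt j) : E → E) := continuous_grad (PG.wt j).cd
    refine integral_mono ?_ ?_ fun x => ?_
    · refine hS.integrable_inner_vel ((hW.cont.pow 2).smul hgw).aestronglyMeasurable ?_
      refine (hW.pg.b0.pow 2).smul ?_
      exact ((PG.wt j).b0.const_mul j).mono fun x => by
        rw [norm_mul, Real.norm_of_nonneg (wt_pos j x).le, Real.norm_of_nonneg (by positivity)]
        exact norm_grad_wt_le j x
    · exact ((hS.int_VW hW j).const_mul _).add ((hS.int_DD hW j).const_mul _)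
    · have h2 := norm_grad_wt_le j x
      have h3 := wt_pos j x
      have h4 := rho_pos x
      have h5 : ⟪(W x ^ 2) • grad (wt j) x, vel T H x⟫
          ≤ 1 / 2 * (W x ^ 2 * wt j x * ‖vel T H x‖ ^ 2) + 1 / 2 * j ^ 2 * (W x ^ 2 * wt j x) := by
        rw [real_inner_smul_left]
        have h6 : ⟪grad (wt j) x, vel T H x⟫ ≤ (j * wt j x) * ‖vel T H x‖ :=
          (real_inner_le_norm _ _).trans (mul_le_mul_of_nonneg_right h2 (norm_nonneg _))
        have h7 : (j * wt j x) * ‖vel T H x‖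
            ≤ wt j x * (1 / 2 * ‖vel T H x‖ ^ 2 + 1 / 2 * j ^ 2) := by
          rw [show (j * wt j x) * ‖vel T H x‖ = wt j x * (j * ‖vel T H x‖) by ring]
          refine mul_le_mul_of_nonneg_left ?_ h3.le
          nlinarith [sq_nonneg (‖vel T H x‖ - j)]
        have h8 := mul_le_mul_of_nonneg_left (h6.trans h7) (sq_nonneg (W x))
        nlinarith
      have h6 := mul_le_mul_of_nonneg_right h5 h4.le
      simp only
      nlinarith
  -- sum
  have e : ∫ x, ⟪grad (fun x => W x ^ 2 * wt j x) x, vel T H x⟫ * rho x ∂μ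
      = ∫ x, ⟪F x • grad W x, vel T H x⟫ * rho x ∂μ
        + ∫ x, ⟪(W x ^ 2) • grad (wt j) x, vel T H x⟫ * rho x ∂μ := by
    have hgw : Continuous (grad (wt j) : E → E) := continuous_grad (PG.wt j).cd
    rw [← integral_add (hS.integrable_inner_vel hXpg.cont.aestronglyMeasurable hXpg.b0)]
    · congr 1
      ext x
      rw [grad_sq_wt hW, inner_add_left, real_inner_smul_left, real_inner_smul_left]
      simp only [hF]
      ring_nf
      rw [real_inner_smul_left]
      ring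
    · refine hS.integrable_inner_vel ((hW.cont.pow 2).smul hgw).aestronglyMeasurable ?_
      refine (hW.pg.b0.pow 2).smul ?_
      exact ((PG.wt j).b0.const_mul j).mono fun x => by
        rw [norm_mul, Real.norm_of_nonneg (wt_pos j x).le, Real.norm_of_nonneg (by positivity)]
        exact norm_grad_wt_le j x
  rw [e]
  nlinarith

lemma GSlice.LL_eq (hS : GSlice m μ T H) {f : E → ℝ} (hf : PG f) :
    LL μ T H f = ∫ x, ⟪grad f x, vel T H x⟫ * rho x ∂μ - ∫ x, f x * ‖vel T H x‖ ^ 2 * rho x ∂μ := by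
  have hg : Continuous (grad f) := continuous_grad hf.cd
  have hgb : PB (grad f) := hf.b1.mono fun x => by rw [norm_grad]
  rw [← integral_sub (hS.integrable_inner_vel hg.aestronglyMeasurable hgb)
    (hS.integrable_mul_vel_sq hf.cont.aestronglyMeasurable hf.b0)]
  unfold LL
  congr 1
  ext x
  rw [inner_grad]
  ring

/-- the rate of the weighted squared distance -/
theorem exists_LL_le (hE : Module.finrank ℝ E = m + 1) (hc : 0 < c) (hK : 0 ≤ K) (j : ℕ) :
    ∃ C : ℝ, 0 ≤ C ∧ ∀ (W : E → ℝ), TubeD W c K → ∀ (μ : Measure E) (T : E → Submodule ℝ E)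
      (H : E → E), GSlice m μ T H →
      LL μ T H (fun x => W x ^ 2 * wt j x)
        ≤ - TG μ T W j - 1 / 2 * VW μ T H W j + C * DD μ W j := by
  obtain ⟨C, hC, h⟩ := exists_basic (E := E) hE hc hK j
  refine ⟨C, hC, fun W hW μ T H hS => ?_⟩
  rw [hS.LL_eq (pg_sq_wt hW j)]
  have := h W hW μ T H hS
  have e : ∫ x, W x ^ 2 * wt j x * ‖vel T H x‖ ^ 2 * rho x ∂μ = VW μ T H W j := rfl
  rw [e]
  linarith

lemma TG_nonneg (j : ℕ) : 0 ≤ TG μ T W j :=
  integral_nonneg fun x => by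
    have := wt_pos j x
    have := rho_pos x
    positivity

lemma VW_nonneg (j : ℕ) : 0 ≤ VW μ T H W j :=
  integral_nonneg fun x => by
    have := wt_pos j x
    have := rho_pos x
    positivity

lemma DD_nonneg (j : ℕ) : 0 ≤ DD μ W j :=
  integral_nonneg fun x => by
    have := rho_pos x
    positivity

lemma dis_nonneg : 0 ≤ dis μ T H :=
  integral_nonneg fun x => by
    have := rho_pos x
    positivity

lemma GSlice.int_vel_sq (hS : GSlice m μ T H) :
    Integrable (fun x => ‖vel T H x‖ ^ 2 * rho x) μ := by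
  simpa using hS.vsq 0

lemma GSlice.VW_zero_le (hS : GSlice m μ T H) (hW : TubeD W c K) :
    VW μ T H W 0 ≤ K ^ 2 * dis μ T H := by
  unfold VW dis
  rw [← integral_const_mul]
  refine integral_mono (hS.int_VW hW 0) (hS.int_vel_sq.const_mul _) fun x => ?_
  have h1 := hW.b0 x
  have h2 : W x ^ 2 ≤ K ^ 2 := by rw [← sq_abs]; gcongr
  have h3 := rho_pos x
  have h4 : 0 ≤ ‖vel T H x‖ ^ 2 * rho x := by positivity
  simp only [wt, pow_zero, mul_one]
  nlinarith

/-- the tangential gradient is controlled on a good slice -/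
theorem exists_TG_le (hE : Module.finrank ℝ E = m + 1) (hc : 0 < c) (hK : 0 ≤ K) :
    ∃ C : ℝ, 0 ≤ C ∧ ∀ (W : E → ℝ), TubeD W c K → ∀ (μ : Measure E) (T : E → Submodule ℝ E)
      (H : E → E), GSlice m μ T H → TG μ T W 0 ≤ C * (DD μ W 0 + dis μ T H) := by
  obtain ⟨C, hC, h⟩ := exists_basic (E := E) hE hc hK 0
  refine ⟨C + K ^ 2 + K + 1, by positivity, fun W hW μ T H hS => ?_⟩
  have h1 := h W hW μ T H hS
  have h2 := hS.VW_zero_le hW
  have h3 : -∫ x, ⟪grad (fun x => W x ^ 2 * wt 0 x) x, vel T H x⟫ * rho x ∂μ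
      ≤ K * (DD μ W 0 + dis μ T H) := by
    rw [← integral_neg]
    have e : K * (DD μ W 0 + dis μ T H)
        = ∫ x, (K * (W x ^ 2 * wt 0 x * rho x) + K * (‖vel T H x‖ ^ 2 * rho x)) ∂μ := by
      rw [integral_comb2 (hS.int_DD hW 0) hS.int_vel_sq, mul_add]; rfl
    rw [e]
    refine integral_mono ?_ ?_ fun x => ?_
    · have hp := pg_sq_wt hW 0
      exact (hS.integrable_inner_vel (continuous_grad hp.cd).aestronglyMeasurable
        (hp.b1.mono fun x => by rw [norm_grad])).neg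
    · exact ((hS.int_DD hW 0).const_mul _).add (hS.int_vel_sq.const_mul _)
    · have h4 := rho_pos x
      have e0 : grad (wt 0 : E → ℝ) x = 0 := by
        have := norm_grad_wt_le 0 x
        simpa using this
      have h5 : -⟪grad (fun x => W x ^ 2 * wt 0 x) x, vel T H x⟫
          ≤ K * W x ^ 2 + K * ‖vel T H x‖ ^ 2 := by
        rw [grad_sq_wt hW, e0, smul_zero, add_zero, real_inner_smul_left]
        simp only [wt, pow_zero, mul_one]
        calc -(2 * W x * ⟪grad W x, vel T H x⟫) ≤ |2 * W x * ⟪grad W x, vel T H x⟫| := neg_le_abs _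
          _ = 2 * |W x| * |⟪grad W x, vel T H x⟫| := by rw [abs_mul, abs_mul, abs_two]
          _ ≤ 2 * |W x| * (K * ‖vel T H x‖) := by
              gcongr
              exact (abs_real_inner_le_norm _ _).trans
                (mul_le_mul_of_nonneg_right (hW.b1 x) (norm_nonneg _))
          _ ≤ K * W x ^ 2 + K * ‖vel T H x‖ ^ 2 := by
              have : W x ^ 2 = |W x| ^ 2 := (sq_abs _).symm
              rw [this]
              nlinarith [mul_nonneg hK (sq_nonneg (|W x| - ‖vel T H x‖))]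
      have h6 := mul_le_mul_of_nonneg_right h5 h4.le
      simp only [wt, pow_zero, mul_one] at h6 ⊢
      nlinarith
  have h4 := DD_nonneg (μ := μ) (W := W) 0
  have h5 := dis_nonneg (μ := μ) (T := T) (H := H)
  nlinarith

/-- the second moment of the squared distance is controlled on a good slice -/
theorem exists_DD_one_le (hE : Module.finrank ℝ E = m + 1) (hc : 0 < c) (hK : 0 ≤ K) :
    ∃ C : ℝ, 0 ≤ C ∧ ∀ (W : E → ℝ), TubeD W c K → ∀ (μ : Measure E) (T : E → Submodule ℝ E)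
      (H : E → E), GSlice m μ T H → DD μ W 1 ≤ C * (DD μ W 0 + dis μ T H) := by
  obtain ⟨C, hC, h⟩ := exists_TG_le (E := E) hE hc hK
  refine ⟨1 + 4 * (m + 8 * C + 2 * K ^ 2), by positivity, fun W hW μ T H hS => ?_⟩
  have hTG := h W hW μ T H hS
  have hVW := hS.VW_zero_le hW
  have hDD := DD_nonneg (μ := μ) (W := W) 0
  have hdis := dis_nonneg (μ := μ) (T := T) (H := H)
  set F : E → ℝ := fun x => W x ^ 2 with hF
  have hFpg : PG F := hW.pg.pow 2
  have hXpg : PG (fun x => F x • x) := hFpg.smul PG.id'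
  have hwfv := hS.wfv hXpg.cd hXpg.b0 hXpg.b1
  -- integrability
  have i0 := hS.int_DD hW 0
  have i1 := hS.int_TG hW 0
  have i2 := hS.int_VW hW 0
  have iq : Integrable (fun x => W x ^ 2 * ‖x‖ ^ 2 * rho x) μ :=
    hS.integrable_PB ((hW.cont.pow 2).mul (continuous_norm.pow 2)).aestronglyMeasurable
      ((hW.pg.b0.pow 2).mul PB.normSq)
  set Q := ∫ x, W x ^ 2 * ‖x‖ ^ 2 * rho x ∂μ with hQ
  have eD1 : DD μ W 1 = DD μ W 0 + Q := by
    have := integral_comb2 i0 iq 1 1
    simp only [one_mul] at this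
    rw [DD_eq 0, hQ, ← this, DD_eq 1]
    congr 1
    ext x
    simp only [wt, pow_zero, pow_one]
    ring
  have hdivle : 1 / 2 * Q ≤ m * DD μ W 0 + (1 / 8 * Q + 8 * TG μ T W 0)
      + (1 / 8 * Q + 2 * VW μ T H W 0) := by
    have e1 : 1 / 2 * Q = ∫ x, (divAlong (T x) (fun x => F x • x) x * rho x) ∂μ
        + ∫ x, ⟪F x • x, vel T H x⟫ * rho x ∂μ := by
      have j1 := hS.integrable_div hXpg.cd hXpg.b1
      have j2 : ∫ x, (divAlong (T x) (fun x => F x • x) x - 1 / 2 * ⟪x, F x • x⟫) * rho x ∂μ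
          = ∫ x, divAlong (T x) (fun x => F x • x) x * rho x ∂μ - 1 / 2 * Q := by
        have := integral_comb2 j1 iq 1 (-(1 / 2))
        simp only [one_mul, neg_mul, ← sub_eq_add_neg] at this
        rw [hQ, ← this]
        congr 1
        ext x
        rw [real_inner_smul_right, real_inner_self_eq_norm_sq]
        simp only [hF]
        ring
      rw [j2] at hwfv
      linarith
    have e2 : ∫ x, (divAlong (T x) (fun x => F x • x) x * rho x) ∂μ
        ≤ m * DD μ W 0 + (1 / 8 * Q + 8 * TG μ T W 0) := by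
      have e3 : m * DD μ W 0 + (1 / 8 * Q + 8 * TG μ T W 0)
          = ∫ x, (m * (W x ^ 2 * wt 0 x * rho x) + 1 / 8 * (W x ^ 2 * ‖x‖ ^ 2 * rho x)
            + 8 * (wt 0 x * ‖proj (T x) (grad W x)‖ ^ 2 * rho x)) ∂μ := by
        rw [integral_comb i0 iq i1]
        change _ = m * DD μ W 0 + 1 / 8 * Q + 8 * TG μ T W 0
        ring
      rw [e3]
      refine integral_mono_ae (hS.integrable_div hXpg.cd hXpg.b1)
        (((i0.const_mul _).add (iq.const_mul _)).add (i1.const_mul _)) ?_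
      filter_upwards [hS.mc.dim] with x hx
      have h4 := rho_pos x
      have h5 : divAlong (T x) (fun x => F x • x) x
          = W x ^ 2 * m + 2 * W x * ⟪proj (T x) (grad W x), x⟫ := by
        rw [divAlong_smul (T x) (hFpg.diff x) differentiableAt_fun_id, divAlong_id, hx, hF,
          grad_sq (hW.diff x), map_smul, real_inner_smul_left]
      rw [h5]
      have h6 : 2 * W x * ⟪proj (T x) (grad W x), x⟫
          ≤ 1 / 8 * (W x ^ 2 * ‖x‖ ^ 2) + 8 * ‖proj (T x) (grad W x)‖ ^ 2 := by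
        calc 2 * W x * ⟪proj (T x) (grad W x), x⟫ ≤ |2 * W x * ⟪proj (T x) (grad W x), x⟫| :=
              le_abs_self _
          _ = 2 * |W x| * |⟪proj (T x) (grad W x), x⟫| := by rw [abs_mul, abs_mul, abs_two]
          _ ≤ 2 * |W x| * (‖proj (T x) (grad W x)‖ * ‖x‖) := by
              gcongr
              exact abs_real_inner_le_norm _ _
          _ ≤ 1 / 8 * (W x ^ 2 * ‖x‖ ^ 2) + 8 * ‖proj (T x) (grad W x)‖ ^ 2 := by
              have : W x ^ 2 = |W x| ^ 2 := (sq_abs _).symm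
              rw [this]
              nlinarith [sq_nonneg (|W x| * ‖x‖ - 8 * ‖proj (T x) (grad W x)‖)]
      have h7 := mul_le_mul_of_nonneg_right h6 h4.le
      simp only [wt, pow_zero, mul_one, one_mul]
      nlinarith
    have e4 : ∫ x, ⟪F x • x, vel T H x⟫ * rho x ∂μ ≤ 1 / 8 * Q + 2 * VW μ T H W 0 := by
      have e5 : 1 / 8 * Q + 2 * VW μ T H W 0 = ∫ x, (1 / 8 * (W x ^ 2 * ‖x‖ ^ 2 * rho x)
          + 2 * (W x ^ 2 * wt 0 x * ‖vel T H x‖ ^ 2 * rho x)) ∂μ := by
        rw [integral_comb2 iq i2]; rfl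
      rw [e5]
      refine integral_mono (hS.integrable_inner_vel hXpg.cont.aestronglyMeasurable hXpg.b0)
        ((iq.const_mul _).add (i2.const_mul _)) fun x => ?_
      have h4 := rho_pos x
      have h6 : ⟪F x • x, vel T H x⟫ ≤ 1 / 8 * (W x ^ 2 * ‖x‖ ^ 2)
          + 2 * (W x ^ 2 * ‖vel T H x‖ ^ 2) := by
        rw [real_inner_smul_left]
        have h7 : ⟪x, vel T H x⟫ ≤ ‖x‖ * ‖vel T H x‖ := real_inner_le_norm _ _
        have h8 : ‖x‖ * ‖vel T H x‖ ≤ 1 / 8 * ‖x‖ ^ 2 + 2 * ‖vel T H x‖ ^ 2 := by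
          nlinarith [sq_nonneg (‖x‖ - 4 * ‖vel T H x‖)]
        have h9 := mul_le_mul_of_nonneg_left (h7.trans h8) (sq_nonneg (W x))
        simp only [hF]
        linarith
      have h7 := mul_le_mul_of_nonneg_right h6 h4.le
      simp only [wt, pow_zero, mul_one]
      nlinarith
    linarith
  rw [eD1]
  have h8 : Q ≤ 4 * (m * DD μ W 0 + 8 * TG μ T W 0 + 2 * VW μ T H W 0) := by linarith
  have hm0 : (0 : ℝ) ≤ m := m.cast_nonneg
  have h9 : (m : ℝ) * DD μ W 0 ≤ m * (DD μ W 0 + dis μ T H) := by gcongr; linarith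
  have h10 : K ^ 2 * dis μ T H ≤ K ^ 2 * (DD μ W 0 + dis μ T H) := by gcongr; linarith
  nlinarith

end

end Vale.Agent.P218.H313
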