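import Vale.Agent.P218.H313.FlowEst
import Vale.Agent.P218.H313.Jac
import Vale.Agent.P218.H313.Conv

/-! Nondegenerate shrinkers: the test functions of the drift argument. -/

open MeasureTheory Set Filter Topology Metric
open scoped ENNReal NNReal RealInnerProductSpace

namespace Vale.Agent.P218.H313

open Vale.Agent.P214 (IntegralVarifold proj divAlong IsTestField)

set_option linter.unusedSectionVars false
set_option linter.unusedVariables false

variable {E : Type*} [NormedAddCommGroup E] [InnerProductSpace ℝ E] [FiniteDimensional ℝ E]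
  [MeasurableSpace E] [BorelSpace E]
variable {m : ℕ}

/-- the normal correction `⟨∇φ, ∇W⟩` -/
noncomputable def nc (φ W : E → ℝ) (x : E) : ℝ := ⟪grad φ x, grad W x⟫

/-- the corrected test function `φ - W ⟨∇φ, ∇W⟩` -/
noncomputable def ct (φ W : E → ℝ) (x : E) : ℝ := φ x - W x * nc φ W x

lemma pg_nc {φ W : E → ℝ} {c K : ℝ} (hφ : ContDiff ℝ 2 φ) (hφc : HasCompactSupport φ)
    (hW : TubeD W c K) : PG (nc φ W) :=
  (PG.of_compact (contDiff_grad_one hφ) (hasCompactSupport_grad hφc)).inner' hW.pg_grad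

lemma pg_ct {φ W : E → ℝ} {c K : ℝ} (hφ : ContDiff ℝ 2 φ) (hφc : HasCompactSupport φ)
    (hW : TubeD W c K) : PG (ct φ W) :=
  (PG.of_compact (hφ.of_le (by norm_num)) hφc).sub (hW.pg.mul (pg_nc hφ hφc hW))

/-- the gradient of an inner product of `C¹` fields -/
lemma grad_inner {X Y : E → E} {x : E} (hX : DifferentiableAt ℝ X x)
    (hY : DifferentiableAt ℝ Y x) (v : E) :
    ⟪grad (fun y => ⟪X y, Y y⟫) x, v⟫ = ⟪X x, fderiv ℝ Y x v⟫ + ⟪fderiv ℝ X x v, Y x⟫ := by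
  rw [inner_grad, fderiv_inner_apply ℝ hX hY]

/-- integral form of the second-order bound, from a pointwise bound -/
lemma int_of_pointwise {μ : Measure E} {T : E → Submodule ℝ E} {H : E → E} {W ψ : E → ℝ}
    {c K A : ℝ} (hS : GSlice m μ T H) (hW : TubeD W c K) (hψ : PG ψ) (hA : 0 ≤ A)
    (hpt : ∀ᵐ x ∂μ, |⟪grad ψ x, vel T H x⟫|
      ≤ A * (W x ^ 2 * wt 1 x + wt 1 x * ‖proj (T x) (grad W x)‖ ^ 2 + ‖vel T H x‖ ^ 2)) :
    |∫ x, ⟪grad ψ x, vel T H x⟫ * rho x ∂μ| ≤ A * (DD μ W 1 + TG μ T W 1 + dis μ T H) := by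
  have e := integral_comb (hS.int_DD hW 1) (hS.int_TG hW 1) hS.int_vel_sq A A A
  have e' : A * (DD μ W 1 + TG μ T W 1 + dis μ T H)
      = ∫ x, (A * (W x ^ 2 * wt 1 x * rho x)
        + A * (wt 1 x * ‖proj (T x) (grad W x)‖ ^ 2 * rho x)
        + A * (‖vel T H x‖ ^ 2 * rho x)) ∂μ := by
    rw [e]
    change _ = A * DD μ W 1 + A * TG μ T W 1 + A * dis μ T H
    ring
  rw [e', ← Real.norm_eq_abs]
  refine norm_integral_le_of_norm_le ((((hS.int_DD hW 1).const_mul A).add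
    ((hS.int_TG hW 1).const_mul A)).add (hS.int_vel_sq.const_mul A)) ?_
  filter_upwards [hpt] with x hx
  rw [norm_mul, Real.norm_of_nonneg (rho_pos x).le, Real.norm_eq_abs]
  refine (mul_le_mul_of_nonneg_right hx (rho_pos x).le).trans (le_of_eq ?_)
  ring

/-- the corrected test functions satisfy the hypotheses of the drift principle -/
theorem exists_ct (hE : Module.finrank ℝ E = m + 1) {c K : ℝ} (hc : 0 < c) (hK : 0 ≤ K)
    {φ : E → ℝ} (hφ : ContDiff ℝ 2 φ) (hφc : HasCompactSupport φ) :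
    ∃ A : ℝ, 0 ≤ A ∧ ∀ W : E → ℝ, TubeD W c K →
      (∀ x, |ct φ W x| ≤ A * (1 + W x ^ 2 * wt 1 x)) ∧
      (∀ (μ : Measure E) (T : E → Submodule ℝ E) (H : E → E), GSlice m μ T H →
        |∫ x, ⟪grad (ct φ W) x, vel T H x⟫ * rho x ∂μ|
          ≤ A * (DD μ W 1 + TG μ T W 1 + dis μ T H)) := by
  obtain ⟨B, hB, hb0, hb1, hb2⟩ := exists_bounds2 hφ hφc
  set A := (B + K * (B * K)) + (B + B * K ^ 2) / c + 2 * B * K + B with hA
  have hA0 : 0 ≤ A := by positivity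
  refine ⟨A, hA0, fun W hW => ⟨fun x => ?_, fun μ T H hS => ?_⟩⟩
  · have h1 : |nc φ W x| ≤ B * K := (abs_real_inner_le_norm _ _).trans
      (mul_le_mul (hb1 x) (hW.b1 x) (norm_nonneg _) hB)
    have h2 : |ct φ W x| ≤ B + K * (B * K) := by
      refine (abs_sub _ _).trans ?_
      rw [abs_mul]
      exact add_le_add (hb0 x) (mul_le_mul (hW.b0 x) h1 (abs_nonneg _) hK)
    have h3 : 0 ≤ W x ^ 2 * wt 1 x := mul_nonneg (sq_nonneg _) (wt_pos 1 x).le
    have h4 : B + K * (B * K) ≤ A := by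
      have : 0 ≤ (B + B * K ^ 2) / c + 2 * B * K + B := by positivity
      linarith
    calc |ct φ W x| ≤ A := h2.trans h4
      _ ≤ A * (1 + W x ^ 2 * wt 1 x) := le_mul_of_one_le_right hA0 (by linarith)
  · refine int_of_pointwise hS hW (pg_ct hφ hφc hW) hA0 ?_
    have hφd : ∀ x, DifferentiableAt ℝ (grad φ) x := fun x =>
      (contDiff_grad_one hφ).differentiable (by norm_num) x
    filter_upwards [hS.mc.dim, hS.toSlice.vel_normal] with x hdim hnor
    set v := vel T H x with hv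
    set g := grad W x with hg
    set P := ‖proj (T x) g‖ with hP
    have hP0 : 0 ≤ P := norm_nonneg _
    have hv0 : 0 ≤ ‖v‖ := norm_nonneg _
    have hw1 := one_le_wt 1 x
    -- the gradient
    have e1 : ⟪grad (ct φ W) x, v⟫ = ⟪grad φ x, v⟫ - ⟪grad φ x, g⟫ * ⟪g, v⟫
        - W x * (⟪grad φ x, fderiv ℝ (grad W) x v⟫ + ⟪fderiv ℝ (grad φ) x v, g⟫) := by
      have h1 : HasFDerivAt (ct φ W) (fderiv ℝ φ x
          - (W x • fderiv ℝ (nc φ W) x + nc φ W x • fderiv ℝ W x)) x := by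
        have a1 := ((PG.of_compact (hφ.of_le (by norm_num)) hφc).diff x).hasFDerivAt
        have a2 := (hW.diff x).hasFDerivAt.mul ((pg_nc hφ hφc hW).diff x).hasFDerivAt
        exact a1.sub a2
      rw [inner_grad, h1.fderiv]
      have h2 : fderiv ℝ (nc φ W) x v
          = ⟪grad φ x, fderiv ℝ (grad W) x v⟫ + ⟪fderiv ℝ (grad φ) x v, g⟫ := by
        rw [← inner_grad]
        exact grad_inner (hφd x) (hW.pg_grad.diff x) v
      simp only [sub_apply, add_apply, smul_apply, smul_eq_mul]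
      rw [h2, ← inner_grad W, ← inner_grad φ]
      simp only [nc]
      ring
    have e2 : |W x * (⟪grad φ x, fderiv ℝ (grad W) x v⟫ + ⟪fderiv ℝ (grad φ) x v, g⟫)|
        ≤ 2 * B * K * (|W x| * ‖v‖) := by
      rw [abs_mul]
      have a1 : |⟪grad φ x, fderiv ℝ (grad W) x v⟫| ≤ B * (K * ‖v‖) :=
        (abs_real_inner_le_norm _ _).trans (mul_le_mul (hb1 x)
          (((fderiv ℝ (grad W) x).le_opNorm v).trans
            (mul_le_mul_of_nonneg_right (hW.b2 x) hv0)) (norm_nonneg _) hB)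
      have a2 : |⟪fderiv ℝ (grad φ) x v, g⟫| ≤ (B * ‖v‖) * K :=
        (abs_real_inner_le_norm _ _).trans (mul_le_mul
          (((fderiv ℝ (grad φ) x).le_opNorm v).trans
            (mul_le_mul_of_nonneg_right (hb2 x) hv0)) (hW.b1 x) (norm_nonneg _) (by positivity))
      have a3 := abs_add_le ⟪grad φ x, fderiv ℝ (grad W) x v⟫ ⟪fderiv ℝ (grad φ) x v, g⟫
      have a4 : |⟪grad φ x, fderiv ℝ (grad W) x v⟫ + ⟪fderiv ℝ (grad φ) x v, g⟫|
          ≤ 2 * B * K * ‖v‖ := by linarith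
      calc |W x| * |⟪grad φ x, fderiv ℝ (grad W) x v⟫ + ⟪fderiv ℝ (grad φ) x v, g⟫|
          ≤ |W x| * (2 * B * K * ‖v‖) := by gcongr
        _ = _ := by ring
    have e3 : |⟪grad φ x, v⟫ - ⟪grad φ x, g⟫ * ⟪g, v⟫|
        ≤ B * (P * ‖v‖) + (B + B * K ^ 2) / c * (|W x| * ‖v‖) := by
      by_cases hx : |W x| < c
      · have a1 := hW.normal_est hE x (T x) hdim hx hnor (grad φ x)
        have a2 : ‖grad φ x‖ * P * ‖v‖ ≤ B * (P * ‖v‖) := by
          rw [mul_assoc]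
          exact mul_le_mul_of_nonneg_right (hb1 x) (by positivity)
        have a3 : 0 ≤ (B + B * K ^ 2) / c * (|W x| * ‖v‖) := by positivity
        linarith
      · push Not at hx
        have a1 : |⟪grad φ x, v⟫| ≤ B * ‖v‖ := (abs_real_inner_le_norm _ _).trans
          (mul_le_mul_of_nonneg_right (hb1 x) hv0)
        have a2 : |⟪grad φ x, g⟫ * ⟪g, v⟫| ≤ B * K ^ 2 * ‖v‖ := by
          rw [abs_mul]
          have b1 : |⟪grad φ x, g⟫| ≤ B * K := (abs_real_inner_le_norm _ _).trans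
            (mul_le_mul (hb1 x) (hW.b1 x) (norm_nonneg _) hB)
          have b2 : |⟪g, v⟫| ≤ K * ‖v‖ := (abs_real_inner_le_norm _ _).trans
            (mul_le_mul_of_nonneg_right (hW.b1 x) hv0)
          calc |⟪grad φ x, g⟫| * |⟪g, v⟫| ≤ (B * K) * (K * ‖v‖) := by gcongr
            _ = _ := by ring
        have a3 := abs_sub ⟪grad φ x, v⟫ (⟪grad φ x, g⟫ * ⟪g, v⟫)
        have a4 : ‖v‖ ≤ |W x| * ‖v‖ / c := by
          rw [le_div_iff₀ hc]; nlinarith
        have a5 : (B + B * K ^ 2) * ‖v‖ ≤ (B + B * K ^ 2) * (|W x| * ‖v‖ / c) := by gcongr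
        have a6 : 0 ≤ B * (P * ‖v‖) := by positivity
        have a7 : (B + B * K ^ 2) * (|W x| * ‖v‖ / c) = (B + B * K ^ 2) / c * (|W x| * ‖v‖) := by
          ring
        linarith
    have e4 : |⟪grad (ct φ W) x, v⟫|
        ≤ B * (P * ‖v‖) + (B + B * K ^ 2) / c * (|W x| * ‖v‖) + 2 * B * K * (|W x| * ‖v‖) := by
      rw [e1]
      exact (abs_sub _ _).trans (add_le_add e3 e2)
    refine e4.trans ?_
    have f1 : P * ‖v‖ ≤ P ^ 2 + ‖v‖ ^ 2 := by nlinarith [sq_nonneg (P - ‖v‖)]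
    have f2 : |W x| * ‖v‖ ≤ W x ^ 2 + ‖v‖ ^ 2 := by
      rw [← sq_abs (W x)]
      nlinarith [sq_nonneg (|W x| - ‖v‖), abs_nonneg (W x)]
    have f3 : P ^ 2 ≤ wt 1 x * P ^ 2 := le_mul_of_one_le_left (sq_nonneg _) hw1
    have f4 : W x ^ 2 ≤ W x ^ 2 * wt 1 x := le_mul_of_one_le_right (sq_nonneg _) hw1
    set Q := W x ^ 2 * wt 1 x + wt 1 x * P ^ 2 + ‖v‖ ^ 2 with hQ
    have g1 : P * ‖v‖ ≤ Q := by
      have : 0 ≤ W x ^ 2 * wt 1 x := mul_nonneg (sq_nonneg _) (wt_pos 1 x).le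
      linarith
    have g2 : |W x| * ‖v‖ ≤ Q := by
      have : 0 ≤ wt 1 x * P ^ 2 := mul_nonneg (wt_pos 1 x).le (sq_nonneg _)
      linarith
    have hQ0 : 0 ≤ Q := le_trans (by positivity) g1
    have c1 : B * (P * ‖v‖) ≤ B * Q := mul_le_mul_of_nonneg_left g1 hB
    have c2 : (B + B * K ^ 2) / c * (|W x| * ‖v‖) ≤ (B + B * K ^ 2) / c * Q :=
      mul_le_mul_of_nonneg_left g2 (by positivity)
    have c3 : 2 * B * K * (|W x| * ‖v‖) ≤ 2 * B * K * Q :=
      mul_le_mul_of_nonneg_left g2 (by positivity)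
    have c4 : 0 ≤ (B + K * (B * K)) * Q := by positivity
    rw [hA]
    linarith

variable {P : Type*} [NormedAddCommGroup P] [NormedSpace ℝ P]
  {V : P → E → ℝ} {V' : P → P →ₗ[ℝ] (E → ℝ)} {r c K : ℝ} {q : ℕ}

lemma Fam.pg' (hF : Fam m V V' r c K q) {a : P} (ha : ‖a‖ ≤ r) (b : P) : PG (V' a b) where
  cd := hF.dsm a ha b
  b0 := PB.of_le (C := K * ‖b‖) (p := 1) fun x => by
    rw [Real.norm_eq_abs, pow_one]
    refine (hF.db0 a ha b x).trans (le_of_eq (by ring))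
  b1 := PB.of_le (C := K * ‖b‖) (p := 1) fun x => by
    rw [← norm_grad, pow_one]
    refine (hF.db1 a ha b x).trans (le_of_eq (by ring))

lemma Fam.pgψ (hF : Fam m V V' r c K q) {a : P} (ha : ‖a‖ ≤ r) (b : P) :
    PG (fun x => V a x * V' a b x) := (hF.tube a ha).pg.mul (hF.pg' ha b)

lemma Fam.bound_ψ (hF : Fam m V V' r c K q) {a : P} (ha : ‖a‖ ≤ r) (b : P) (x : E) :
    |V a x * V' a b x| ≤ (K * ‖b‖) * (1 + V a x ^ 2 * wt 1 x) := by
  rw [abs_mul]
  have h1 := hF.db0 a ha b x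
  have h2 : |V a x| * (1 + ‖x‖) ≤ 1 + V a x ^ 2 * wt 1 x := by
    simp only [wt, pow_one]
    rw [← sq_abs (V a x)]
    nlinarith [sq_nonneg (|V a x| * ‖x‖ - 1), sq_nonneg (|V a x| - 1),
      sq_nonneg (|V a x| * ‖x‖ - |V a x|), abs_nonneg (V a x), norm_nonneg x,
      sq_nonneg (|V a x| + |V a x| * ‖x‖ - 2)]
  have hK := hF.Knn
  calc |V a x| * |V' a b x| ≤ |V a x| * (K * (1 + ‖x‖) * ‖b‖) := by gcongr
    _ = (K * ‖b‖) * (|V a x| * (1 + ‖x‖)) := by ring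
    _ ≤ _ := mul_le_mul_of_nonneg_left h2 (by positivity)

end Vale.Agent.P218.H313
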