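import Vale.Agent.P218.H313.Basic

/-! Nondegenerate shrinkers: integrability on Gaussian slices and the weighted first variation for
vector fields of polynomial growth. -/

open MeasureTheory Set Filter Topology Metric
open scoped ENNReal NNReal RealInnerProductSpace

namespace Vale.Agent.P218.H313

open Vale.Agent.P214 (IntegralVarifold proj divAlong IsTestField)
open Vale.Agent.P218.H552 (MC BF NN chi bump)

set_option linter.unusedSectionVars false
set_option linter.unusedVariables false

variable {E : Type*} [NormedAddCommGroup E] [InnerProductSpace ℝ E] [FiniteDimensional ℝ E]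
  [MeasurableSpace E] [BorelSpace E]
variable {m : ℕ} {μ : Measure E} {T : E → Submodule ℝ E} {H : E → E}

omit [NormedAddCommGroup E] [InnerProductSpace ℝ E] [FiniteDimensional ℝ E] [BorelSpace E] in
/-- integral of a combination of three functions -/
lemma integral_comb {μ : Measure E} {a b c : E → ℝ} (ha : Integrable a μ) (hb : Integrable b μ)
    (hc : Integrable c μ) (j k l : ℝ) :
    ∫ x, (j * a x + k * b x + l * c x) ∂μ
      = j * ∫ x, a x ∂μ + k * ∫ x, b x ∂μ + l * ∫ x, c x ∂μ := by
  have h1 : Integrable (fun x => j * a x + k * b x) μ := (ha.const_mul j).add (hb.const_mul k)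
  rw [integral_add h1 (hc.const_mul l), integral_add (ha.const_mul j) (hb.const_mul k),
    integral_const_mul, integral_const_mul, integral_const_mul]

lemma rho_pos (x : E) : 0 < rho x := Real.exp_pos _

lemma rho_le_one (x : E) : rho x ≤ 1 := by
  unfold rho
  rw [Real.exp_le_one_iff]
  have := sq_nonneg ‖x‖
  linarith

lemma contDiff_rho : ContDiff ℝ 1 (rho : E → ℝ) := H552.contDiff_gauss

lemma continuous_rho : Continuous (rho : E → ℝ) := contDiff_rho.continuous

lemma grad_rho (x : E) : grad (rho : E → ℝ) x = (-(rho x) / 2) • x := by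
  refine grad_unique fun v => ?_
  have := (H552.hasFDerivAt_gauss x).fderiv
  unfold rho
  rw [this, real_inner_smul_left]
  simp

lemma Slice.proj_meas (h : Slice m μ T H) : AEStronglyMeasurable (fun x => proj (T x)) μ :=
  h.mc.Tmeas

lemma aesm_clm_apply {F G : Type*} [NormedAddCommGroup F] [NormedSpace ℝ F]
    [NormedAddCommGroup G] [NormedSpace ℝ G] {L : E → F →L[ℝ] G} {v : E → F}
    (hL : AEStronglyMeasurable L μ) (hv : AEStronglyMeasurable v μ) :
    AEStronglyMeasurable (fun x => L x (v x)) μ :=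
  isBoundedBilinearMap_apply.continuous.comp_aestronglyMeasurable (hL.prodMk hv)

lemma Slice.proj_apply_meas (h : Slice m μ T H) {v : E → E} (hv : AEStronglyMeasurable v μ) :
    AEStronglyMeasurable (fun x => proj (T x) (v x)) μ :=
  aesm_clm_apply h.mc.Tmeas hv

lemma Slice.vel_meas (h : Slice m μ T H) : AEStronglyMeasurable (vel T H) μ := by
  unfold vel
  exact h.mc.meas.add ((continuous_id.aestronglyMeasurable.sub
    (h.proj_apply_meas continuous_id.aestronglyMeasurable)).const_smul _)

lemma Slice.div_meas (h : Slice m μ T H) {X : E → E} (hX : ContDiff ℝ 1 X) :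
    AEStronglyMeasurable (fun x => divAlong (T x) X x) μ := by
  have h1 : AEStronglyMeasurable (fun x => (proj (T x)).comp (fderiv ℝ X x)) μ := by
    have := (hX.continuous_fderiv (by norm_num)).aestronglyMeasurable (μ := μ)
    exact (isBoundedBilinearMap_comp (𝕜 := ℝ) (E := E) (F := E) (G := E)).continuous.comp_aestronglyMeasurable
      (h.mc.Tmeas.prodMk this)
  exact (trL E).continuous.comp_aestronglyMeasurable h1

/-- normality of the velocity -/
lemma Slice.vel_normal (h : Slice m μ T H) : ∀ᵐ x ∂μ, vel T H x ∈ (T x)ᗮ := by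
  filter_upwards [h.mc.normal] with x hx
  exact Submodule.add_mem _ hx (Submodule.smul_mem _ _ (H552.sub_proj_mem _ _))

namespace GSlice

variable (hS : GSlice m μ T H)
include hS

lemma mom_integrable (p : ℕ) : Integrable (fun x => (1 + ‖x‖) ^ p * rho x) μ := hS.mom p

/-- the basic integrability criterion -/
lemma integrable {u : E → ℝ} (hu : AEStronglyMeasurable u μ) {C : ℝ} {p : ℕ}
    (hb : ∀ᵐ x ∂μ, |u x| ≤ C * (1 + ‖x‖) ^ p * (1 + ‖vel T H x‖ ^ 2)) :
    Integrable (fun x => u x * rho x) μ := by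
  have h1 : Integrable (fun x => C * ((1 + ‖x‖) ^ p * rho x)
      + C * ((1 + ‖x‖) ^ p * ‖vel T H x‖ ^ 2 * rho x)) μ :=
    ((hS.mom p).const_mul C).add ((hS.vsq p).const_mul C)
  refine h1.mono' (hu.mul continuous_rho.aestronglyMeasurable) ?_
  filter_upwards [hb] with x hx
  rw [Real.norm_eq_abs, abs_mul, abs_of_pos (rho_pos x)]
  calc |u x| * rho x ≤ (C * (1 + ‖x‖) ^ p * (1 + ‖vel T H x‖ ^ 2)) * rho x :=
        mul_le_mul_of_nonneg_right hx (rho_pos x).le
    _ = _ := by ring

/-- integrability of functions of polynomial growth -/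
lemma integrable_PB {u : E → ℝ} (hu : AEStronglyMeasurable u μ) (hb : PB u) :
    Integrable (fun x => u x * rho x) μ := by
  obtain ⟨C, p, hC, h⟩ := hb
  refine hS.integrable hu (C := C) (p := p) (Eventually.of_forall fun x => ?_)
  have h1 := h x
  rw [Real.norm_eq_abs] at h1
  have h2 : 0 ≤ C * (1 + ‖x‖) ^ p := by positivity
  nlinarith [sq_nonneg ‖vel T H x‖]

/-- domination by a function of polynomial growth -/
lemma integrable_dom {u g : E → ℝ} (hu : AEStronglyMeasurable u μ) (hg : PB g)
    (h : ∀ x, |u x| ≤ |g x|) : Integrable (fun x => u x * rho x) μ := by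
  obtain ⟨C, p, hC, h'⟩ := hg
  refine hS.integrable hu (C := C) (p := p) (Eventually.of_forall fun x => ?_)
  have h1 := (h x).trans (h' x)
  have h2 : 0 ≤ C * (1 + ‖x‖) ^ p := by positivity
  nlinarith [sq_nonneg ‖vel T H x‖]

lemma integrable_inner_vel {X : E → E} (hX : AEStronglyMeasurable X μ) (hb : PB X) :
    Integrable (fun x => ⟪X x, vel T H x⟫ * rho x) μ := by
  obtain ⟨C, p, hC, h⟩ := hb
  refine hS.integrable (hX.inner hS.vel_meas) (C := C) (p := p)
    (Eventually.of_forall fun x => ?_)
  refine (abs_real_inner_le_norm _ _).trans ?_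
  have h1 := h x
  have h2 : ‖vel T H x‖ ≤ 1 + ‖vel T H x‖ ^ 2 := by
    nlinarith [sq_nonneg (‖vel T H x‖ - 1), norm_nonneg (vel T H x)]
  have h3 : 0 ≤ C * (1 + ‖x‖) ^ p := by positivity
  exact mul_le_mul h1 h2 (norm_nonneg _) h3

lemma integrable_mul_vel_sq {f : E → ℝ} (hf : AEStronglyMeasurable f μ) (hb : PB f) :
    Integrable (fun x => f x * ‖vel T H x‖ ^ 2 * rho x) μ := by
  obtain ⟨C, p, hC, h⟩ := hb
  refine hS.integrable (hf.mul (hS.vel_meas.norm.pow 2)) (C := C) (p := p)
    (Eventually.of_forall fun x => ?_)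
  have h1 := h x
  rw [Real.norm_eq_abs] at h1
  rw [abs_mul, abs_of_nonneg (sq_nonneg ‖vel T H x‖)]
  have h3 : 0 ≤ C * (1 + ‖x‖) ^ p := by positivity
  have h4 : 0 ≤ ‖vel T H x‖ ^ 2 := sq_nonneg _
  exact mul_le_mul h1 (by linarith) h4 h3

lemma integrable_div {X : E → E} (hX : ContDiff ℝ 1 X) (hb : PB (fderiv ℝ X)) :
    Integrable (fun x => divAlong (T x) X x * rho x) μ := by
  obtain ⟨C, p, hC, h⟩ := hb
  refine hS.integrable (hS.div_meas hX) (C := Module.finrank ℝ E * C) (p := p)
    (Eventually.of_forall fun x => ?_)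
  refine (abs_divAlong_le _ _ _).trans ?_
  have h1 := h x
  have h2 : 0 ≤ Module.finrank ℝ E * C * (1 + ‖x‖) ^ p := by positivity
  have h3 : (Module.finrank ℝ E : ℝ) * ‖fderiv ℝ X x‖ ≤ Module.finrank ℝ E * (C * (1 + ‖x‖) ^ p) := by
    gcongr
  nlinarith [sq_nonneg ‖vel T H x‖]

end GSlice

/-- the cutoffs -/
noncomputable def cut (n : ℕ) : E → ℝ := chi ((n : ℝ) + 1)

lemma cut_pos_arg (n : ℕ) : (0 : ℝ) < (n : ℝ) + 1 := by positivity

lemma contDiff_cut (n : ℕ) : ContDiff ℝ 1 (cut n : E → ℝ) := H552.contDiff_chi _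
lemma cut_nonneg (n : ℕ) (x : E) : 0 ≤ cut n x := H552.chi_nonneg _ _
lemma cut_le_one (n : ℕ) (x : E) : cut n x ≤ 1 := H552.chi_le_one _ _
lemma cut_compact (n : ℕ) : HasCompactSupport (cut n : E → ℝ) := H552.chi_compact (cut_pos_arg n)

lemma exists_grad_cut : ∃ C : ℝ, 0 ≤ C ∧ ∀ (n : ℕ) (x : E), ‖grad (cut n : E → ℝ) x‖ ≤ C / ((n : ℝ) + 1) := by
  obtain ⟨C, hC0, hC⟩ := H552.exists_chi_grad (E := E)
  refine ⟨2 * C, by positivity, fun n x => ?_⟩
  by_contra hcon
  push Not at hcon
  have h1 := hC _ (cut_pos_arg n) x (grad (cut n : E → ℝ) x)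
  have h2 : fderiv ℝ (cut n : E → ℝ) x (grad (cut n : E → ℝ) x) = ‖grad (cut n : E → ℝ) x‖ ^ 2 := by
    rw [← inner_grad, real_inner_self_eq_norm_sq]
  change fderiv ℝ (cut n : E → ℝ) x (grad (cut n : E → ℝ) x) ≤ _ at h1
  rw [h2] at h1
  have hb1 : (bump E) (((n : ℝ) + 1)⁻¹ • x) ≤ 1 := (bump E).le_one
  have hb0 : 0 ≤ (bump E) (((n : ℝ) + 1)⁻¹ • x) := (bump E).nonneg
  have h0 := norm_nonneg (grad (cut n : E → ℝ) x)
  have h3 : 0 ≤ C / ((n : ℝ) + 1) := by positivity
  have h4 : 2 * (bump E) (((n : ℝ) + 1)⁻¹ • x) * (C / ((n : ℝ) + 1)) * ‖grad (cut n : E → ℝ) x‖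
      ≤ 2 * C / ((n : ℝ) + 1) * ‖grad (cut n : E → ℝ) x‖ := by
    refine mul_le_mul_of_nonneg_right ?_ h0
    have : 2 * C / ((n : ℝ) + 1) = 2 * (C / ((n : ℝ) + 1)) := by ring
    rw [this]
    nlinarith
  have h5 : 0 ≤ 2 * C / ((n : ℝ) + 1) := by positivity
  nlinarith

lemma tendsto_cut (x : E) : Tendsto (fun n : ℕ => cut n x) atTop (𝓝 1) := by
  refine tendsto_const_nhds.congr' ?_
  obtain ⟨n₀, hn₀⟩ := exists_nat_ge ‖x‖
  filter_upwards [eventually_ge_atTop n₀] with n hn
  refine (H552.chi_eq_one (cut_pos_arg n) ?_).symm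
  have : (n₀ : ℝ) ≤ n := by exact_mod_cast hn
  linarith

/-- **Weighted first variation** for vector fields of polynomial growth. -/
theorem GSlice.wfv (hS : GSlice m μ T H) {X : E → E} (hX : ContDiff ℝ 1 X) (h0 : PB X)
    (h1 : PB (fderiv ℝ X)) :
    ∫ x, (divAlong (T x) X x - 1 / 2 * ⟪x, X x⟫) * rho x ∂μ
      = - ∫ x, ⟪X x, vel T H x⟫ * rho x ∂μ := by
  obtain ⟨C, hC0, hC⟩ := exists_grad_cut (E := E)
  have hX0 := hX.continuous.aestronglyMeasurable (μ := μ)
  have hid : AEStronglyMeasurable (fun x : E => x) μ := continuous_id.aestronglyMeasurable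
  -- the identity for the cut off fields
  have key : ∀ n : ℕ, ∫ x, (cut n x * ((divAlong (T x) X x - 1 / 2 * ⟪x, X x⟫) * rho x)
        + ⟪proj (T x) (grad (cut n) x), X x⟫ * rho x) ∂μ
      = - ∫ x, cut n x * (⟪X x, vel T H x⟫ * rho x) ∂μ := by
    intro n
    set F : E → ℝ := fun x => cut n x * rho x with hF
    have hFC : ContDiff ℝ 1 F := (contDiff_cut n).mul contDiff_rho
    have hFc : HasCompactSupport F := (cut_compact n).mul_right
    have hYC : ContDiff ℝ 1 (fun x => F x • X x) := hFC.smul hX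
    have hYc : HasCompactSupport (fun x => F x • X x) := hFc.smul_right
    have e := hS.mc.fv _ hYC hYc
    have gF : ∀ x, grad F x = rho x • grad (cut n) x - (cut n x * rho x / 2) • x := by
      intro x
      rw [hF, grad_mul ((contDiff_cut n).differentiable (by norm_num) x)
        (contDiff_rho.differentiable (by norm_num) x), grad_rho, smul_smul]
      rw [show cut n x * (-(rho x) / 2) = -(cut n x * rho x / 2) by ring, neg_smul]
      abel
    have e1 : ∀ x, divAlong (T x) (fun x => F x • X x) x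
        = cut n x * (divAlong (T x) X x * rho x) + ⟪proj (T x) (grad (cut n) x), X x⟫ * rho x
          - 1 / 2 * (cut n x * (⟪proj (T x) x, X x⟫ * rho x)) := by
      intro x
      rw [divAlong_smul (T x) (hFC.differentiable (by norm_num) x)
        (hX.differentiable (by norm_num) x), gF, map_sub, map_smul, map_smul, inner_sub_left,
        real_inner_smul_left, real_inner_smul_left]
      simp only [hF]
      ring
    have e2 : ∀ x, ⟪F x • X x, H x⟫ = cut n x * (⟪X x, vel T H x⟫ * rho x)
        - 1 / 2 * (cut n x * (⟪x, X x⟫ * rho x))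
        + 1 / 2 * (cut n x * (⟪proj (T x) x, X x⟫ * rho x)) := by
      intro x
      have : H x = vel T H x - (1 / 2 : ℝ) • (x - proj (T x) x) := by unfold vel; abel
      rw [this, real_inner_smul_left, inner_sub_right, real_inner_smul_right, inner_sub_right,
        real_inner_comm x (X x), real_inner_comm (proj (T x) x) (X x)]
      simp only [hF]
      ring
    simp_rw [e1, e2] at e
    -- integrability
    have hcut : AEStronglyMeasurable (cut n : E → ℝ) μ :=
      (contDiff_cut n).continuous.aestronglyMeasurable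
    have hmul : ∀ {u : E → ℝ}, Integrable (fun x => u x * rho x) μ →
        Integrable (fun x => cut n x * (u x * rho x)) μ := by
      intro u hu
      refine hu.mono (hcut.mul hu.aestronglyMeasurable) (Eventually.of_forall fun x => ?_)
      rw [norm_mul, Real.norm_of_nonneg (cut_nonneg n x)]
      have := cut_le_one n x
      have h2 := norm_nonneg (u x * rho x)
      nlinarith
    have i1 : Integrable (fun x => divAlong (T x) X x * rho x) μ := hS.integrable_div hX h1
    have i2 : Integrable (fun x => ⟪x, X x⟫ * rho x) μ :=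
      hS.integrable_PB (hid.inner hX0) (PB.id'.inner' h0)
    have i3 : Integrable (fun x => ⟪proj (T x) x, X x⟫ * rho x) μ := by
      refine hS.integrable_dom ((hS.proj_apply_meas hid).inner hX0) (PB.id'.norm.mul h0.norm)
        fun x => ?_
      refine (abs_real_inner_le_norm _ _).trans ?_
      rw [abs_of_nonneg (by positivity)]
      exact mul_le_mul_of_nonneg_right (norm_proj_apply_le _ _) (norm_nonneg _)
    have i4 : Integrable (fun x => ⟪proj (T x) (grad (cut n) x), X x⟫ * rho x) μ := by
      refine hS.integrable_dom ((hS.proj_apply_meas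
        (continuous_grad (contDiff_cut n)).aestronglyMeasurable).inner hX0)
        ((PB.const C).mul h0.norm) fun x => ?_
      refine (abs_real_inner_le_norm _ _).trans ?_
      rw [abs_of_nonneg (by positivity)]
      refine mul_le_mul_of_nonneg_right ((norm_proj_apply_le _ _).trans ((hC n x).trans ?_))
        (norm_nonneg _)
      exact div_le_self hC0 (by have : (0 : ℝ) ≤ n := n.cast_nonneg
                                linarith)
    have i5 : Integrable (fun x => ⟪X x, vel T H x⟫ * rho x) μ :=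
      hS.integrable_inner_vel hX0 h0
    have s1 : ∫ x, (cut n x * (divAlong (T x) X x * rho x)
        + ⟪proj (T x) (grad (cut n) x), X x⟫ * rho x
          - 1 / 2 * (cut n x * (⟪proj (T x) x, X x⟫ * rho x))) ∂μ
        = ∫ x, cut n x * (divAlong (T x) X x * rho x) ∂μ
          + ∫ x, ⟪proj (T x) (grad (cut n) x), X x⟫ * rho x ∂μ
          - 1 / 2 * ∫ x, cut n x * (⟪proj (T x) x, X x⟫ * rho x) ∂μ := by
      have := integral_comb (hmul i1) i4 (hmul i3) 1 1 (-(1 / 2))
      simp only [one_mul, neg_mul, ← sub_eq_add_neg] at this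
      exact this
    have s2 : ∫ x, (cut n x * (⟪X x, vel T H x⟫ * rho x)
        - 1 / 2 * (cut n x * (⟪x, X x⟫ * rho x))
        + 1 / 2 * (cut n x * (⟪proj (T x) x, X x⟫ * rho x))) ∂μ
        = ∫ x, cut n x * (⟪X x, vel T H x⟫ * rho x) ∂μ
          - 1 / 2 * ∫ x, cut n x * (⟪x, X x⟫ * rho x) ∂μ
          + 1 / 2 * ∫ x, cut n x * (⟪proj (T x) x, X x⟫ * rho x) ∂μ := by
      have := integral_comb (hmul i5) (hmul i2) (hmul i3) 1 (-(1 / 2)) (1 / 2)
      simp only [one_mul, neg_mul, ← sub_eq_add_neg] at this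
      exact this
    have s3 : ∫ x, (cut n x * ((divAlong (T x) X x - 1 / 2 * ⟪x, X x⟫) * rho x)
        + ⟪proj (T x) (grad (cut n) x), X x⟫ * rho x) ∂μ
        = ∫ x, cut n x * (divAlong (T x) X x * rho x) ∂μ
          - 1 / 2 * ∫ x, cut n x * (⟪x, X x⟫ * rho x) ∂μ
          + ∫ x, ⟪proj (T x) (grad (cut n) x), X x⟫ * rho x ∂μ := by
      have := integral_comb (hmul i1) (hmul i2) i4 1 (-(1 / 2)) 1
      simp only [one_mul, neg_mul, ← sub_eq_add_neg] at this
      rw [← this]
      congr 1
      ext x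
      ring
    rw [s1, s2] at e
    rw [s3]
    linarith
  -- passage to the limit
  have i1 : Integrable (fun x => (divAlong (T x) X x - 1 / 2 * ⟪x, X x⟫) * rho x) μ := by
    have j1 := hS.integrable_div hX h1
    have j2 := (hS.integrable_PB (hid.inner hX0) (PB.id'.inner' h0)).const_mul (1 / 2)
    refine (j1.sub j2).congr (Eventually.of_forall fun x => ?_)
    simp only [Pi.sub_apply]
    ring
  have i5 : Integrable (fun x => ⟪X x, vel T H x⟫ * rho x) μ := hS.integrable_inner_vel hX0 h0
  have lim1 : ∀ {u : E → ℝ}, Integrable u μ →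
      Tendsto (fun n : ℕ => ∫ x, cut n x * u x ∂μ) atTop (𝓝 (∫ x, u x ∂μ)) := by
    intro u hu
    refine tendsto_integral_of_dominated_convergence (fun x => ‖u x‖) (fun n => ?_) hu.norm
      (fun n => ?_) ?_
    · exact (contDiff_cut n).continuous.aestronglyMeasurable.mul hu.aestronglyMeasurable
    · refine Eventually.of_forall fun x => ?_
      rw [norm_mul, Real.norm_of_nonneg (cut_nonneg n x)]
      have := cut_le_one n x
      have h2 := norm_nonneg (u x)
      nlinarith
    · refine Eventually.of_forall fun x => ?_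
      simpa using (tendsto_cut x).mul_const (u x)
  have i6 : Integrable (fun x => (C * ‖X x‖) * rho x) μ :=
    hS.integrable_PB (aestronglyMeasurable_const.mul hX0.norm) ((PB.const C).mul h0.norm)
  have lim2 : Tendsto (fun n : ℕ => ∫ x, ⟪proj (T x) (grad (cut n) x), X x⟫ * rho x ∂μ) atTop
      (𝓝 (∫ x, (0 : ℝ) ∂μ)) := by
    refine tendsto_integral_of_dominated_convergence (fun x => (C * ‖X x‖) * rho x)
      (fun n => ?_) i6 (fun n => ?_) ?_
    · exact ((hS.proj_apply_meas (continuous_grad (contDiff_cut n)).aestronglyMeasurable).inner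
        hX0).mul continuous_rho.aestronglyMeasurable
    · refine Eventually.of_forall fun x => ?_
      rw [norm_mul, Real.norm_of_nonneg (rho_pos x).le]
      refine mul_le_mul_of_nonneg_right ?_ (rho_pos x).le
      refine (norm_inner_le_norm _ _).trans ?_
      refine mul_le_mul_of_nonneg_right ((norm_proj_apply_le _ _).trans ((hC n x).trans ?_))
        (norm_nonneg _)
      exact div_le_self hC0 (by have : (0 : ℝ) ≤ n := n.cast_nonneg
                                linarith)
    · refine Eventually.of_forall fun x => ?_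
      have hb : ∀ n : ℕ, ‖⟪proj (T x) (grad (cut n) x), X x⟫ * rho x‖
          ≤ C / ((n : ℝ) + 1) * (‖X x‖ * rho x) := by
        intro n
        rw [norm_mul, Real.norm_of_nonneg (rho_pos x).le, ← mul_assoc]
        refine mul_le_mul_of_nonneg_right ?_ (rho_pos x).le
        refine (norm_inner_le_norm _ _).trans ?_
        exact mul_le_mul_of_nonneg_right ((norm_proj_apply_le _ _).trans (hC n x)) (norm_nonneg _)
      refine squeeze_zero_norm hb ?_
      have h2 : Tendsto (fun n : ℕ => C / ((n : ℝ) + 1)) atTop (𝓝 0) :=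
        tendsto_const_nhds.div_atTop
          (tendsto_atTop_add_const_right _ _ tendsto_natCast_atTop_atTop)
      simpa using h2.mul_const (‖X x‖ * rho x)
  have e3 : ∀ n : ℕ, ∫ x, (cut n x * ((divAlong (T x) X x - 1 / 2 * ⟪x, X x⟫) * rho x)
        + ⟪proj (T x) (grad (cut n) x), X x⟫ * rho x) ∂μ
      = ∫ x, cut n x * ((divAlong (T x) X x - 1 / 2 * ⟪x, X x⟫) * rho x) ∂μ
        + ∫ x, ⟪proj (T x) (grad (cut n) x), X x⟫ * rho x ∂μ := by
    intro n
    refine integral_add ?_ ?_
    · refine i1.mono ((contDiff_cut n).continuous.aestronglyMeasurable.mul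
        i1.aestronglyMeasurable) (Eventually.of_forall fun x => ?_)
      rw [norm_mul, Real.norm_of_nonneg (cut_nonneg n x)]
      have := cut_le_one n x
      have h2 := norm_nonneg ((divAlong (T x) X x - 1 / 2 * ⟪x, X x⟫) * rho x)
      nlinarith
    · refine i6.mono' (((hS.proj_apply_meas
        (continuous_grad (contDiff_cut n)).aestronglyMeasurable).inner hX0).mul
        continuous_rho.aestronglyMeasurable) (Eventually.of_forall fun x => ?_)
      rw [norm_mul, Real.norm_of_nonneg (rho_pos x).le]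
      refine mul_le_mul_of_nonneg_right ?_ (rho_pos x).le
      refine (norm_inner_le_norm _ _).trans ?_
      refine mul_le_mul_of_nonneg_right ((norm_proj_apply_le _ _).trans ((hC n x).trans ?_))
        (norm_nonneg _)
      exact div_le_self hC0 (by have : (0 : ℝ) ≤ n := n.cast_nonneg
                                linarith)
  have l1 := (lim1 i1).add lim2
  have l2 := (lim1 i5).neg
  have e4 : (fun n : ℕ => ∫ x, cut n x * ((divAlong (T x) X x - 1 / 2 * ⟪x, X x⟫) * rho x) ∂μ
        + ∫ x, ⟪proj (T x) (grad (cut n) x), X x⟫ * rho x ∂μ)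
      = fun n : ℕ => - ∫ x, cut n x * (⟪X x, vel T H x⟫ * rho x) ∂μ := by
    ext n
    rw [← e3, key n]
  rw [e4] at l1
  have := tendsto_nhds_unique l1 l2
  simpa using this

end Vale.Agent.P218.H313
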